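import Vale.Agent.P200.Groebner
import Vale.Agent.P200.Eq.Basic

/-! Initial ideals for an additive key. -/

open MvPolynomial Module TensorProduct Finset

namespace Vale.Agent.P200.G

open Vale.Agent.P200.Eq

universe u

theorem exists_monomial_ideal_key {K D : Type*} [Field K] [DivisionRing D] [Algebra K D] {n : ℕ}
    (Z : Fin n → D ⊗[K] MvPolynomial (Fin n) K)
    (hZ : ∀ i, Z i ∈ (homogeneousSubmodule (Fin n) K 1).baseChange D)
    (ψ : MvPolynomial (Fin n) K →ₐ[K] D ⊗[K] MvPolynomial (Fin n) K) (hψ : ∀ i, ψ (X i) = Z i)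
    (hspan : (homogeneousSubmodule (Fin n) K 1).baseChange D ≤ Submodule.span D (Set.range Z))
    (I : Ideal (MvPolynomial (Fin n) K)) :
    ∃ A : Set (Fin n →₀ ℕ),
      (∀ d, dimIn I d = dimIn (Ideal.span ((fun α => monomial α (1 : K)) '' A)) d) ∧
      ∀ (d : ℕ) (j : Fin n) (v : (Fin n →₀ ℕ) →₀ D),
        (∀ β ∈ v.support, β.degree = d) →
        Finsupp.linearCombination D (fun β => ψ (monomial β 1)) v ∈
          (I.restrictScalars K ⊓ homogeneousSubmodule (Fin n) K d).baseChange D →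
        v (Finsupp.single j d) ≠ 0 →
        (∀ β ∈ v.support, β = Finsupp.single j d ∨ ∃ j', j < j' ∧ β j' ≠ 0) →
        Finsupp.single j d ∈ A := by
  classical
  let Φ := Finsupp.linearCombination D (fun β : Fin n →₀ ℕ => ψ (monomial β 1))
  let U : ℕ → Submodule D ((Fin n →₀ ℕ) →₀ D) := fun d =>
    Finsupp.supported D D {β : Fin n →₀ ℕ | β.degree = d} ⊓
      ((I.restrictScalars K ⊓ homogeneousSubmodule (Fin n) K d).baseChange D).comap Φ
  let A : Set (Fin n →₀ ℕ) :=
    {α | ∃ v ∈ U α.degree, v α ≠ 0 ∧ ∀ β, toColex β < toColex α → v β = 0}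
  have hsucc : ∀ α ∈ A, ∀ i, α + Finsupp.single i 1 ∈ A := by
    rintro α ⟨v, ⟨hv1, hv2⟩, hα, hβ⟩ i
    have hinj : Function.Injective (fun β : Fin n →₀ ℕ => β + Finsupp.single i 1) :=
      add_left_injective _
    refine ⟨v.mapDomain (· + Finsupp.single i 1), ⟨?_, ?_⟩, ?_, ?_⟩
    · refine (Finsupp.mem_supported D _).2 fun γ hγ => ?_
      obtain ⟨δ, hδ, rfl⟩ := Finset.mem_image.1 (Finsupp.mapDomain_support hγ)
      have := (Finsupp.mem_supported D _).1 hv1 hδ
      change (δ + Finsupp.single i 1).degree = (α + Finsupp.single i 1).degree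
      rw [map_add, map_add, show δ.degree = α.degree from this]
    · rw [SetLike.mem_coe, Submodule.mem_comap, Groebner.phi_shift Z ψ hψ, map_add,
        Finsupp.degree_single]
      refine Groebner.mul_mem_bc (fun p hp q hq => ?_) (Submodule.mem_comap.1 hv2) (hZ i)
      exact ⟨I.mul_mem_right q hp.1, IsHomogeneous.mul hp.2 hq⟩
    · rw [Finsupp.mapDomain_apply hinj]; exact hα
    · intro β hlt
      by_cases hr : β ∈ Set.range (fun β : Fin n →₀ ℕ => β + Finsupp.single i 1)
      · obtain ⟨δ, rfl⟩ := hr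
        rw [Finsupp.mapDomain_apply hinj]
        refine hβ δ ?_
        beta_reduce at hlt
        rw [toColex_add, toColex_add] at hlt
        exact lt_of_add_lt_add_right hlt
      · exact Finsupp.mapDomain_of_notMem_range _ _ hr
  refine ⟨A, fun d => ?_, fun d j v h1 h2 h3 h4 => ?_⟩
  · rw [Groebner.dimIn_span A (Groebner.upper_of_succ A hsucc), dimIn,
      ← Groebner.finrank_bc (D := D),
      ← Groebner.finrank_U Z hZ ψ hψ hspan d _ (Submodule.baseChange_mono D inf_le_right)]
    have hT : ∀ u ∈ U d, u.support ⊆ (Finsupp.finite_of_degree_eq (σ := Fin n) d).toFinset := by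
      intro u hu β hβ
      rw [Set.Finite.mem_toFinset]
      exact (Finsupp.mem_supported D _).1 hu.1 hβ
    have := @finrank_eq_ncard_lead D _ _ (LinearOrder.lift'
      (fun α => OrderDual.toDual (toColex α)) fun _ _ h => h) _ _ hT
    refine this.trans ?_
    congr 1
    ext α
    constructor
    · rintro ⟨u, hu, ha, hb⟩
      have hd : α.degree = d := (Finsupp.mem_supported D _).1 hu.1 (Finsupp.mem_support_iff.2 ha)
      subst hd
      exact ⟨⟨u, hu, ha, hb⟩, rfl⟩
    · rintro ⟨⟨u, hu, ha, hb⟩, rfl⟩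
      exact ⟨u, hu, ha, hb⟩
  · refine ⟨v, ?_, h3, fun β hβ => ?_⟩
    · rw [Finsupp.degree_single]
      exact ⟨(Finsupp.mem_supported D _).2 fun β hβ => h1 β hβ, h2⟩
    · by_contra hne
      rcases h4 β (Finsupp.mem_support_iff.2 hne) with rfl | ⟨j', hj, hj'⟩
      · exact lt_irrefl _ hβ
      · obtain ⟨i, hi1, hi2⟩ := Finsupp.Colex.lt_iff.1 hβ
        have hij : i = j := by
          by_contra h
          exact Nat.not_lt_zero _ (hi2.trans_eq (Finsupp.single_eq_of_ne h))
        subst hij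
        exact hj' ((hi1 j' hj).trans (Finsupp.single_eq_of_ne hj.ne'))

end Vale.Agent.P200.G
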