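import Vale.Agent.P200.G.StB
import Vale.Agent.P200.G.T6
import Vale.Agent.P200.Span
import Vale.Agent.P200.Main
import Vale.Agent.P200.Eq.Final

/-! From the last stage to the monomial ideal. -/

open MvPolynomial Module TensorProduct Finset

namespace Vale.Agent.P200.G

open Vale.Agent.P200.Eq

universe u

namespace Fin0

theorem exists_kappa (K D : Type*) [Field K] [DivisionRing D] [Algebra K D] (n : ℕ) :
    ∃ κ : Alg D (Fin n) →+* D ⊗[K] MvPolynomial (Fin n) K,
      ∀ m d, κ (AddMonoidAlgebra.single m d) = d ⊗ₜ[K] monomial m (1 : K) := by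
  let g : Multiplicative (Fin n →₀ ℕ) →* D ⊗[K] MvPolynomial (Fin n) K :=
    { toFun := fun m => (1 : D) ⊗ₜ[K] monomial m.toAdd (1 : K)
      map_one' := rfl
      map_mul' := fun a b => by
        rw [Algebra.TensorProduct.tmul_mul_tmul, monomial_mul, mul_one, mul_one, toAdd_mul] }
  have hg : ∀ (x : D) y, Commute (Algebra.TensorProduct.includeLeftRingHom x) (g y) :=
    fun x y => Groebner.central _ _
  refine ⟨AddMonoidAlgebra.liftNCRingHom Algebra.TensorProduct.includeLeftRingHom g hg,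
    fun m d => ?_⟩
  rw [AddMonoidAlgebra.liftNCRingHom_single]
  change d ⊗ₜ[K] 1 * (1 : D) ⊗ₜ[K] monomial m (1 : K) = _
  rw [Algebra.TensorProduct.tmul_mul_tmul, mul_one, one_mul]

theorem mem_radical {n : ℕ} (s : St.{u} n) (y : Fin n → MvPolynomial s.O s.F)
    (h : ∀ (Ω : Type u) [Field Ω] [Algebra s.F Ω] (χ : s.O → Ω), s.Pt Ω χ →
      (∀ j, aeval χ (y j) = 0) → ∀ p, χ p = 0) (p : s.O) :
    ∃ N, (X p : MvPolynomial s.O s.F) ^ N ∈
      Ideal.span (Set.range y ∪ {Q | Q.IsHomogeneous 2 ∧ s.ev Q = 0}) := by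
  rw [← Ideal.mem_radical_iff, Ideal.radical_eq_sInf, Submodule.mem_sInf]
  rintro J ⟨hJ, hp⟩
  let Ω := FractionRing (MvPolynomial s.O s.F ⧸ J)
  let π : MvPolynomial s.O s.F →ₐ[s.F] Ω :=
    (IsScalarTower.toAlgHom s.F (MvPolynomial s.O s.F ⧸ J) Ω).comp (Ideal.Quotient.mkₐ s.F J)
  have h1 : ∀ P, aeval (fun q => π (X q)) P = π P := fun P =>
    (DFunLike.congr_fun (aeval_unique π) P).symm
  have h2 : ∀ P, π P = 0 ↔ P ∈ J := fun P => by
    change algebraMap (MvPolynomial s.O s.F ⧸ J) Ω (Ideal.Quotient.mk J P) = 0 ↔ _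
    rw [map_eq_zero_iff _ (IsFractionRing.injective _ _), Ideal.Quotient.eq_zero_iff_mem]
  refine (h2 _).1 (h Ω (fun q => π (X q)) (fun Q hQ h0 => ?_) (fun j => ?_) p)
  · rw [h1, h2]
    exact hJ (Ideal.subset_span (Or.inr ⟨hQ, h0⟩))
  · rw [h1, h2]
    exact hJ (Ideal.subset_span (Or.inl ⟨j, rfl⟩))

theorem map_mem {R T : Type*} [CommRing R] [Ring T] (E : R →+* T) {S : Set R} (L : Ideal T)
    (h : ∀ g ∈ S, E g ∈ L) {P : R} (hP : P ∈ Ideal.span S) : E P ∈ L := by
  induction hP using Submodule.span_induction with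
  | zero => simp
  | add a b _ _ ha hb => rw [map_add]; exact add_mem ha hb
  | smul a b _ hb => rw [smul_eq_mul, map_mul]; exact L.mul_mem_left _ hb
  | mem g hg => exact h g hg

variable {K D : Type*} [Field K] [DivisionRing D] [Algebra K D] {n : ℕ}

theorem pr_mul_f {I : Ideal (MvPolynomial (Fin n) K)} {f : MvPolynomial (Fin n) K} {a : ℕ}
    (hf : f ∈ I) (ha : f.IsHomogeneous a) (d : ℕ) (r : D ⊗[K] MvPolynomial (Fin n) K) :
    (homogeneousComponent d).baseChange D (r * (1 : D) ⊗ₜ[K] f) ∈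
      (I.restrictScalars K ⊓ homogeneousSubmodule (Fin n) K d).baseChange D := by
  induction r using TensorProduct.induction_on with
  | zero => simp
  | add x y hx hy => rw [add_mul, map_add]; exact add_mem hx hy
  | tmul e p =>
    rw [Algebra.TensorProduct.tmul_mul_tmul, LinearMap.baseChange_tmul]
    refine Submodule.tmul_mem_baseChange_of_mem _ ⟨?_, homogeneousComponent_mem d _⟩
    rw [mul_comm]
    rcases lt_or_ge d a with h | h
    · rw [hc_mul_lt ha p h]
      exact zero_mem _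
    · obtain ⟨e, rfl⟩ := Nat.exists_eq_add_of_le h
      rw [hc_mul_add ha]
      exact I.mul_mem_right _ hf

theorem pr_mem_of_span (N : Submodule D (D ⊗[K] MvPolynomial (Fin n) K)) (d : ℕ)
    {S : Set (D ⊗[K] MvPolynomial (Fin n) K)}
    (h : ∀ g ∈ S, ∀ r, (homogeneousComponent d).baseChange D (r * g) ∈ N)
    {x : D ⊗[K] MvPolynomial (Fin n) K} (hx : x ∈ Ideal.span S) :
    (homogeneousComponent d).baseChange D x ∈ N := by
  suffices h2 : ∀ r, (homogeneousComponent d).baseChange D (r * x) ∈ N by simpa using h2 1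
  induction hx using Submodule.span_induction with
  | zero => simp
  | add a b _ _ ha hb => exact fun r => by rw [mul_add, map_add]; exact add_mem (ha r) (hb r)
  | smul a y _ hy => exact fun r => by rw [smul_eq_mul, ← mul_assoc]; exact hy _
  | mem g hg => exact h g hg

end Fin0

theorem final {K : Type u} [Field K] {n c : ℕ} (hc : c ≤ n) (a : Fin c → ℕ)
    (hpos : ∀ i, 0 < a i) (f : Fin c → MvPolynomial (Fin n) K)
    (hdeg : ∀ i, (f i).IsHomogeneous (a i)) (I : Ideal (MvPolynomial (Fin n) K))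
    (hf : ∀ i, f i ∈ I) (s : St.{u} n) (φ : K →+* s.F) (y : Fin n → MvPolynomial s.O s.F)
    (h : Inv hc a f s φ y 0) :
    ∃ A : Set (Fin n →₀ ℕ),
      (∀ i : Fin c, X (Fin.castLE hc i) ^ a i ∈
        Ideal.span ((fun α => monomial α (1 : K)) '' A)) ∧
      ∀ d, dimIn I d = dimIn (Ideal.span ((fun α => monomial α (1 : K)) '' A)) d := by
  classical
  obtain ⟨hy, hpt, hpow⟩ := h
  let : Algebra K s.D := Algebra.compHom s.D φ
  have halg : ∀ x : K, algebraMap K s.D x = algebraMap s.F s.D (φ x) := fun _ => rfl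
  obtain ⟨κ, hκ⟩ := Fin0.exists_kappa K s.D n
  obtain ⟨E, hE⟩ : ∃ E : MvPolynomial s.O s.F →+* s.D ⊗[K] MvPolynomial (Fin n) K,
    ∀ P, E P = κ (s.ev P) := ⟨κ.comp s.ev.toRingHom, fun _ => rfl⟩
  have hE1 : ∀ p : MvPolynomial (Fin n) K,
      E (rename s.xs (MvPolynomial.map φ p)) = (1 : s.D) ⊗ₜ[K] p := fun p => by
    rw [hE, s.ev_rename_xs]
    induction p using MvPolynomial.induction_on' with
    | monomial m x =>
      have h1 : inc s.F s.D (Fin n) (monomial m (φ x)) =
          AddMonoidAlgebra.single m (algebraMap s.F s.D (φ x)) :=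
        AddMonoidAlgebra.mapRingHom_single _ _ _
      rw [map_monomial, h1, hκ, ← halg, Algebra.algebraMap_eq_smul_one, smul_tmul, smul_monomial,
        smul_eq_mul, mul_one]
    | add p q hp hq => simp only [map_add, hp, hq, tmul_add]
  obtain ⟨Z, hZE⟩ : ∃ Z : Fin n → s.D ⊗[K] MvPolynomial (Fin n) K, ∀ j, Z j = E (y j) :=
    ⟨_, fun _ => rfl⟩
  have hZ : ∀ j, Z j ∈ (homogeneousSubmodule (Fin n) K 1).baseChange s.D := fun j => by
    obtain ⟨t, -, ht⟩ := s.exists_lin (hy j)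
    rw [hZE, hE, ht, lin, map_sum]
    refine Submodule.sum_mem _ fun i _ => ?_
    rw [hκ]
    exact Submodule.tmul_mem_baseChange_of_mem _
      (isHomogeneous_monomial _ (Finsupp.degree_single _ _))
  have hcomm : ∀ i j, Commute (Z i) (Z j) := fun i j => by
    rw [hZE, hZE]
    exact (Commute.all _ _).map E
  choose N hN using Fin0.mem_radical s y fun Ω _ _ χ hχ h0 =>
    hpt Ω χ hχ (fun i hi => absurd hi (Nat.not_lt_zero _)) fun j _ => h0 j
  have hX : ∀ i, (1 : s.D) ⊗ₜ[K] ((X i : MvPolynomial (Fin n) K) ^ N (s.xs i)) ∈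
      Ideal.span (Set.range Z) := fun i => by
    rw [← hE1, map_pow, map_X, map_pow, rename_X]
    refine Fin0.map_mem E _ ?_ (hN _)
    rintro g (⟨j, rfl⟩ | ⟨-, hg⟩)
    · exact Ideal.subset_span ⟨j, hZE j⟩
    · rw [hE, hg, map_zero]
      exact zero_mem _
  have hspan := span_of_eventually Z hZ hcomm (∑ i, N (s.xs i) + 1) fun α hα => by
    obtain ⟨i, hi⟩ : ∃ i, N (s.xs i) ≤ α i := by
      by_contra hne
      push Not at hne
      have h1 : ∑ i, α i ≤ ∑ i, N (s.xs i) := sum_le_sum fun i _ => (hne i).le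
      rw [Finsupp.degree_eq_sum] at hα
      omega
    have h1 : α = (α - Finsupp.single i (N (s.xs i))) + Finsupp.single i (N (s.xs i)) :=
      (tsub_add_cancel_of_le (Finsupp.single_le_iff.2 hi)).symm
    have h2 : (1 : s.D) ⊗ₜ[K] (monomial α (1 : K) : MvPolynomial (Fin n) K) =
        (1 : s.D) ⊗ₜ[K] monomial (α - Finsupp.single i (N (s.xs i))) (1 : K) *
          (1 : s.D) ⊗ₜ[K] (X i ^ N (s.xs i)) := by
      rw [Algebra.TensorProduct.tmul_mul_tmul, X_pow_eq_monomial, monomial_mul, mul_one, mul_one,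
        ← h1]
    rw [h2]
    exact Ideal.mul_mem_left _ _ (hX i)
  obtain ⟨ψ, hψ⟩ := exists_aeval (K := K) Z hcomm
  obtain ⟨A, hA1, hA2⟩ := exists_monomial_ideal_key Z hZ ψ hψ hspan I
  refine ⟨A, fun i => ?_, hA1⟩
  rw [X_pow_eq_monomial]
  refine Ideal.subset_span ⟨_, ?_, rfl⟩
  obtain ⟨P, hP, hP0⟩ := hpow i (Nat.zero_le _)
  obtain ⟨e, he⟩ := Nat.exists_eq_succ_of_ne_zero (hpos i).ne'
  generalize Fin.castLE hc i = j at hP hP0 ⊢
  generalize a i = d at hP0 he ⊢
  have h1 : ψ (monomial (Finsupp.single j d) 1) = E P := by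
    have h2 : E (y j ^ d - P) = 0 := by rw [hE, hP0, map_zero]
    rw [map_sub, sub_eq_zero, map_pow, ← hZE] at h2
    rw [← X_pow_eq_monomial, map_pow, hψ, h2]
  have h2 : E P ∈ Ideal.span (Set.range (fun i' => (1 : s.D) ⊗ₜ[K] f i') ∪ Z '' Set.Ioi j) := by
    refine Fin0.map_mem E _ ?_ hP
    rintro g (⟨i', rfl⟩ | ⟨j', hj', rfl⟩)
    · exact Ideal.subset_span (Or.inl ⟨i', (hE1 _).symm⟩)
    · exact Ideal.subset_span (Or.inr ⟨j', hj', hZE j'⟩)
  have h3 := Fin0.pr_mem_of_span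
    ((I.restrictScalars K ⊓ homogeneousSubmodule (Fin n) K d).baseChange s.D ⊔
      (Finsupp.supported s.D s.D {β : Fin n →₀ ℕ | β.degree = d ∧ ∃ j', j < j' ∧ β j' ≠ 0}).map
        (Finsupp.linearCombination s.D fun β => ψ (monomial β 1))) d (by
      rintro g (⟨i', rfl⟩ | ⟨j', hj', rfl⟩) r
      · exact Submodule.mem_sup_left (Fin0.pr_mul_f (hf i') (hdeg i') d r)
      · subst he
        rw [Span.pr_mul e r _ (hZ j')]
        have h4 := Span.pr_mem e r
        rw [← Groebner.map_supported Z hZ ψ hψ hspan] at h4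
        obtain ⟨v, hv, h5⟩ := h4
        refine Submodule.mem_sup_right ⟨v.mapDomain (· + Finsupp.single j' 1),
          (Finsupp.mem_supported _ _).2 fun γ hγ => ?_, ?_⟩
        · obtain ⟨δ, hδ, rfl⟩ := mem_image.1 (Finsupp.mapDomain_support hγ)
          refine ⟨?_, j', hj', by simp⟩
          rw [map_add, Finsupp.degree_single,
            show δ.degree = e from (Finsupp.mem_supported _ _).1 hv hδ]
        · rw [Groebner.phi_shift Z ψ hψ, h5]) h2
  rw [← h1, Final.pr_of_mem (Groebner.psi_mem Z hZ ψ hψ d _ (Finsupp.degree_single _ _)),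
    if_pos rfl] at h3
  obtain ⟨x, hx, _, ⟨w, hw, rfl⟩, h4⟩ := Submodule.mem_sup.1 h3
  have hw' := (Finsupp.mem_supported _ _).1 hw
  have h5 : w (Finsupp.single j d) = 0 := by
    by_contra hne
    obtain ⟨-, j', hj', h6⟩ := hw' (Finsupp.mem_support_iff.2 hne)
    exact h6 (Finsupp.single_eq_of_ne hj'.ne')
  have h6 : ∀ β ∈ (Finsupp.single (Finsupp.single j d) (1 : s.D) - w).support,
      β = Finsupp.single j d ∨ β ∈ w.support := fun β hβ => by
    by_contra hne
    push Not at hne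
    rw [Finsupp.mem_support_iff, Finsupp.sub_apply, Finsupp.single_eq_of_ne hne.1,
      Finsupp.notMem_support_iff.1 hne.2, sub_zero] at hβ
    exact hβ rfl
  refine hA2 d j (Finsupp.single (Finsupp.single j d) 1 - w) (fun β hβ => ?_) ?_ ?_ fun β hβ => ?_
  · rcases h6 β hβ with rfl | h7
    · exact Finsupp.degree_single _ _
    · exact (hw' h7).1
  · rw [map_sub, Finsupp.linearCombination_single, one_smul, ← h4, add_sub_cancel_right]
    exact hx
  · rw [Finsupp.sub_apply, h5, sub_zero, Finsupp.single_eq_same]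
    exact one_ne_zero
  · exact (h6 β hβ).imp id fun h7 => (hw' h7).2

end Vale.Agent.P200.G
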