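import Vale.Agent.P200.Eq.Basic

/-! Artin-Whaples: finite over a maximal subfield means finite over the center. -/

open Finset

namespace Vale.Agent.P200.G

open Vale.Agent.P200.Eq

universe u

theorem aw_ind {Z D ι : Type u} [Field Z] [DivisionRing D] [Algebra Z D]
    (hZ : ∀ d : D, (∀ x, Commute d x) → ∃ z, d = algebraMap Z D z) {d : ι → D}
    (hd : LinearIndependent Z d) (s : Finset ι) :
    ∀ y : ι → D, (∀ x, ∑ i ∈ s, y i * x * d i = 0) → ∀ i ∈ s, y i = 0 := by
  classical
  induction s using Finset.induction with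
  | empty => simp
  | insert j t hj ih =>
    intro y hy
    simp only [sum_insert hj] at hy
    have h0 : y j = 0 := by
      by_contra h
      have h1 : ∀ x, x * d j + ∑ i ∈ t, (y j)⁻¹ * y i * x * d i = 0 := fun x => by
        have h2 := congrArg ((y j)⁻¹ * ·) (hy x)
        simpa only [mul_add, mul_sum, mul_zero, ← mul_assoc, inv_mul_cancel₀ h, one_mul] using h2
      have h2 : ∀ i, ∃ z, i ∈ t → (y j)⁻¹ * y i = algebraMap Z D z := fun i => by
        by_cases hi : i ∈ t
        · obtain ⟨z, hz⟩ := hZ ((y j)⁻¹ * y i) fun u => sub_eq_zero.1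
            (ih (fun i => (y j)⁻¹ * y i * u - u * ((y j)⁻¹ * y i)) (fun x => by
              have h3 := h1 (u * x)
              have h4 := congrArg (u * ·) (h1 x)
              simp only [mul_add, mul_sum, mul_zero, ← mul_assoc] at h3 h4
              simp only [sub_mul, sum_sub_distrib, ← mul_assoc]
              rw [eq_neg_of_add_eq_zero_right h3, eq_neg_of_add_eq_zero_right h4, sub_self]) i hi)
          exact ⟨z, fun _ => hz⟩
        · exact ⟨0, fun h => absurd h hi⟩
      choose z hz using h2
      have h3 := linearIndependent_iff'.1 hd (insert j t) (Function.update z j 1) (by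
        rw [sum_insert hj, Function.update_self, one_smul, ← h1 1, one_mul]
        refine congrArg _ (sum_congr rfl fun i hi => ?_)
        rw [Function.update_of_ne (ne_of_mem_of_not_mem hi hj), hz i hi, mul_one, Algebra.smul_def])
        j (mem_insert_self _ _)
      simp at h3
    intro i hi
    rcases mem_insert.1 hi with rfl | hi
    · exact h0
    · exact ih y (fun x => by simpa [h0] using hy x) i hi

theorem fd_center {Z D : Type u} [Field Z] [DivisionRing D] [Algebra Z D]
    (hZ : ∀ d : D, (∀ x, Commute d x) → ∃ z, d = algebraMap Z D z) (Y : Subring D)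
    (hY : ∀ a ∈ Y, ∀ b ∈ Y, a * b = b * a) (hinv : ∀ a ∈ Y, a⁻¹ ∈ Y) (S : Finset D)
    (hS : ∀ r : D, ∃ c : D → D, (∀ x, c x ∈ Y) ∧ r = ∑ x ∈ S, c x * x) :
    FiniteDimensional Z D := by
  choose c hc1 hc2 using hS
  let K : Subfield D := { Y with inv_mem' := hinv }
  refine Module.rank_lt_aleph0_iff.1 ((rank_le (n := Module.finrank K (S × S → K))
    fun s hs => ?_).trans_lt (Cardinal.natCast_lt_aleph0))
  have h1 : LinearIndependent K fun (i : s) (p : S × S) => (⟨c (p.1 * i) p.2, hc1 _ _⟩ : K) := by
    refine Fintype.linearIndependent_iff.2 fun g hg i => Subtype.ext ?_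
    have h2 : ∀ x ∈ S, ∑ i : s, (g i : D) * x * i = 0 := fun x hx => by
      have h3 : ∀ w ∈ S, ∑ i : s, (g i : D) * c (x * i) w = 0 := fun w hw => by
        simpa using congrArg (fun f : S × S → K => (f (⟨x, hx⟩, ⟨w, hw⟩) : D)) hg
      calc ∑ i : s, (g i : D) * x * i = ∑ i : s, ∑ w ∈ S, (g i : D) * c (x * i) w * w :=
            sum_congr rfl fun i _ => by
              rw [mul_assoc, hc2 (x * i), mul_sum, ← hc2 (x * i)]
              simp only [mul_assoc]
        _ = 0 := by
          rw [sum_comm]
          exact sum_eq_zero fun w hw => by rw [← sum_mul, h3 w hw, zero_mul]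
    refine aw_ind hZ hs univ (fun i => (g i : D)) (fun r => ?_) i (mem_univ _)
    calc ∑ i : s, (g i : D) * r * i = ∑ i : s, ∑ x ∈ S, c r x * ((g i : D) * x * i) :=
          sum_congr rfl fun i _ => by
            conv_lhs => rw [hc2 r, mul_sum, sum_mul]
            refine sum_congr rfl fun x _ => ?_
            rw [← mul_assoc, hY _ (g i).2 _ (hc1 r x), mul_assoc, mul_assoc, mul_assoc]
      _ = 0 := by
        rw [sum_comm]
        exact sum_eq_zero fun x hx => by rw [← mul_sum, h2 x hx, mul_zero]
  simpa using h1.fintype_card_le_finrank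

theorem exists_center (D : Type u) [DivisionRing D] :
    ∃ (Z : Type u) (_ : Field Z) (_ : Algebra Z D),
      ∀ d : D, (∀ x, Commute d x) → ∃ z, d = algebraMap Z D z :=
  ⟨Subring.center D, inferInstance, (Subring.center D).subtype.toAlgebra'
    fun z x => (Subring.mem_center_iff.1 z.2 x).symm,
    fun d hd => ⟨⟨d, Subring.mem_center_iff.2 fun x => (hd x).symm⟩, rfl⟩⟩

end Vale.Agent.P200.G
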