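import Vale.Agent.P200.G.PlDefs
import Vale.Agent.P200.G.AW

/-! Blocks from a model. -/

open MvPolynomial Finset Matrix

namespace Vale.Agent.P200.G

open Vale.Agent.P200.Eq

universe u

theorem plblk_ev {K D : Type*} [Field K] [Infinite K] [Ring D] [Algebra K D] {n : ℕ} :
    ∃ ev : (Fin n → K) → Alg D (Fin n) →+* D,
      (∀ ξ β d, ev ξ (AddMonoidAlgebra.single β d) = (∏ i, ξ i ^ β i) • d) ∧
        ∀ y, (∀ ξ, ev ξ y = 0) → y = 0 := by
  classical
  let g : (Fin n → K) → Multiplicative (Fin n →₀ ℕ) →* D := fun ξ =>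
    { toFun := fun β => algebraMap K D (∏ i, ξ i ^ β.toAdd i)
      map_one' := by simp
      map_mul' := fun β γ => by simp [pow_add, prod_mul_distrib] }
  let ev : (Fin n → K) → Alg D (Fin n) →+* D := fun ξ =>
    AddMonoidAlgebra.liftNCRingHom (RingHom.id D) (g ξ)
      fun d β => (Algebra.commutes (∏ i, ξ i ^ β.toAdd i) d).symm
  have h1 : ∀ ξ β d, ev ξ (AddMonoidAlgebra.single β d) = (∏ i, ξ i ^ β i) • d := fun ξ β d => by
    rw [Algebra.smul_def, Algebra.commutes]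
    exact AddMonoidAlgebra.liftNCRingHom_single _ _ _ _ _
  refine ⟨ev, h1, fun y hy => ?_⟩
  have h2 : y = ∑ α ∈ y.coeff.support, AddMonoidAlgebra.single α (y.coeff α) :=
    (AddMonoidAlgebra.sum_coeff_single y).symm
  refine AddMonoidAlgebra.ext (Finsupp.ext fun β => ?_)
  refine (Module.forall_dual_apply_eq_zero_iff K _).1 fun φ => ?_
  have h3 : ∑ α ∈ y.coeff.support, monomial α (φ (y.coeff α)) =
      (0 : MvPolynomial (Fin n) K) := MvPolynomial.funext fun ξ => by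
    have h4 := congrArg φ (hy ξ)
    rw [h2, map_sum, map_sum, map_zero] at h4
    rw [map_sum, map_zero, ← h4]
    refine sum_congr rfl fun α _ => ?_
    rw [h1, map_smul, eval_monomial, smul_eq_mul, mul_comm, Finsupp.prod_fintype _ _ (by simp)]
  by_cases hβ : β ∈ y.coeff.support
  · have h5 := congrArg (coeff β) h3
    rwa [coeff_sum, sum_eq_single_of_mem β hβ fun α _ h => by rw [coeff_monomial, if_neg h],
      coeff_monomial, if_pos rfl, coeff_zero] at h5
  · rw [Finsupp.notMem_support_iff.1 hβ, map_zero]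

theorem alg_funext {K D : Type*} [Field K] [Infinite K] [Ring D] [Algebra K D] {n : ℕ}
    (c : Fin n → D) (m : ℕ) (S : Finset (Fin n →₀ ℕ)) (G : (Fin n →₀ ℕ) → D)
    (h : ∀ ξ : Fin n → K, (∑ i, ξ i • c i) ^ m = ∑ β ∈ S, (∏ i, ξ i ^ β i) • G β) :
    lin c ^ m = ∑ β ∈ S, AddMonoidAlgebra.single β (G β) := by
  classical
  obtain ⟨ev, h1, h2⟩ := plblk_ev (K := K) (D := D) (n := n)
  refine sub_eq_zero.1 (h2 _ fun ξ => ?_)
  rw [map_sub, map_pow, lin, map_sum, map_sum, sub_eq_zero]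
  simp only [h1]
  rw [← h ξ]
  refine congrArg (· ^ m) (sum_congr rfl fun i _ => congrArg (· • c i) ?_)
  rw [Finset.prod_eq_single i (fun j _ hj => by simp [hj.symm]) (by simp)]
  simp

theorem plblk_eig {K D ι : Type*} [Field K] [AddCommGroup D] [Module K D] [Fintype ι]
    (L : Module.End K D) {μ : ι → K} (hμ : Function.Injective μ) {y : ι → D}
    (hy : ∀ i, L (y i) = μ i • y i) (h0 : ∑ i, y i = 0) (i : ι) : y i = 0 :=
  (iSupIndep_iff_finsetSum_eq_zero_imp_eq_zero _).1 (L.eigenspaces_iSupIndep.comp hμ) univ y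
    (fun j _ => Module.End.mem_eigenspace_iff.2 (hy j)) h0 i (mem_univ i)

theorem plblk_pow {K D : Type*} [Field K] [Ring D] [Algebra K D] {v x : D} {z : K}
    (h : v * x = z • (x * v)) (k : ℕ) : v ^ k * x = z ^ k • (x * v ^ k) := by
  induction k with
  | zero => simp
  | succ k ih =>
    rw [pow_succ' v, mul_assoc, ih, mul_smul_comm, ← mul_assoc, h, smul_mul_assoc, smul_smul,
      pow_succ z, mul_assoc]

theorem plblk_av {K D : Type*} [Field K] [DivisionRing D] [Algebra K D] {a : ℕ} [NeZero a]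
    {ζ : K} (hζ : IsPrimitiveRoot ζ a) {v : D} (hv : v ≠ 0) {Γ : ZMod a → D} (h1 : Γ 1 ≠ 0)
    (h : ∀ i, v * Γ i = chi ζ i • (Γ i * v)) {k : ℕ} (hk : 0 < k) (hka : k < a) :
    ¬ Commute (∑ i, Γ i) (v ^ k) := by
  intro hc
  have hμ : Function.Injective (chi ζ : ZMod a → K) := fun i j hij =>
    ZMod.val_injective a (hζ.pow_inj (ZMod.val_lt i) (ZMod.val_lt j) hij)
  have h0 : ∑ i, (chi ζ i ^ k - 1) • Γ i = 0 := by
    refine mul_right_cancel₀ (pow_ne_zero k hv) ?_
    have e := hc.eq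
    rw [sum_mul, mul_sum] at e
    simp only [plblk_pow (h _) k] at e
    simp only [sum_mul, sub_smul, sub_mul, one_smul, smul_mul_assoc, sum_sub_distrib, zero_mul]
    rw [e, sub_self]
  have h2 := plblk_eig ((LinearMap.mulRight K v⁻¹).comp (LinearMap.mulLeft K v)) hμ
    (y := fun i => (chi ζ i ^ k - 1) • Γ i) (fun i => by
      rw [map_smul, smul_comm]
      refine congrArg _ ?_
      simp only [LinearMap.comp_apply, LinearMap.mulLeft_apply, LinearMap.mulRight_apply]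
      rw [h, smul_mul_assoc, mul_assoc, mul_inv_cancel₀ hv, mul_one]) h0 1
  have h3 : chi ζ (1 : ZMod a) = ζ := by
    rw [chi, ZMod.val_one_eq_one_mod, ← pow_eq_pow_mod _ hζ.pow_eq_one, pow_one]
  rcases smul_eq_zero.1 h2 with h4 | h4
  · rw [h3] at h4
    exact hζ.pow_ne_one_of_pos_of_lt hk.ne' hka (sub_eq_zero.1 h4)
  · exact h1 h4

theorem plblk_hom {K F D : Type*} [Field K] [Field F] [DivisionRing D] [Algebra K D] [Algebra F D]
    (hZ : ∀ d : D, (∀ x, Commute d x) → ∃ z, d = algebraMap F D z) :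
    ∃ φ : K →+* F, ∀ x, algebraMap K D x = algebraMap F D (φ x) := by
  choose f hf using fun x : K => hZ (algebraMap K D x) fun y => Algebra.commutes x y
  have hi := (algebraMap F D).injective
  exact ⟨⟨⟨⟨f, hi (by rw [← hf, map_one, map_one])⟩,
    fun x y => hi (by rw [map_mul, ← hf, ← hf, ← hf, map_mul])⟩,
    hi (by rw [map_zero]; exact (hf 0).symm.trans (map_zero _)),
    fun x y => hi (by
      rw [map_add]
      exact (hf _).symm.trans ((map_add _ _ _).trans (congrArg₂ _ (hf x) (hf y))))⟩, hf⟩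

theorem plblk_mem {a : ℕ} {β : Fin 2 →₀ ℕ} : β ∈ finsuppAntidiag univ a ↔ β.degree = a := by
  rw [mem_finsuppAntidiag, Finsupp.degree_eq_sum]
  simp

theorem plblk_T {K D : Type u} [Field K] [DivisionRing D] [Algebra K D] {M a : ℕ} [NeZero a]
    {ζ : K} (m : Mdl K D ζ a M) (R : Fin M → (Fin 2 →₀ ℕ) → K) :
    m.T R = ∑ s, ∑ β ∈ finsuppAntidiag univ a, R s β • m.T (Pi.single s (Pi.single β 1)) := by
  simp only [← map_smul, ← map_sum]
  refine sub_eq_zero.1 ?_
  rw [← map_sub]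
  refine m.T_zero _ fun t γ hγ => ?_
  simp only [Pi.sub_apply, Finset.sum_apply, Pi.smul_apply, smul_eq_mul]
  rw [Finset.sum_eq_single t (fun s _ hs => by simp [Pi.single_eq_of_ne hs.symm]) (by simp),
    Finset.sum_eq_single_of_mem γ (plblk_mem.2 hγ) fun β _ hβ => by
      simp [Pi.single_eq_of_ne hβ.symm]]
  simp

theorem blk_of_mdl {K D : Type u} [Field K] [Infinite K] [DivisionRing D] [Algebra K D]
    {M a : ℕ} [NeZero a] (ha : 2 ≤ a) {ζ : K} (hζ : IsPrimitiveRoot ζ a) (m : Mdl K D ζ a M) :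
    ∃ (F₁ : Type u) (_ : Field F₁) (_ : Algebra F₁ D) (φF : K →+* F₁) (B : Blk F₁ D (φF ζ) a M)
      (c : Fin M → (Fin 2 →₀ ℕ) → F₁), (∀ x, algebraMap K D x = algebraMap F₁ D (φF x)) ∧
      (∀ s, B.v s = m.v s) ∧ (∀ s, B.γ s = m.Γ s 1) ∧
      (∀ s, B.g s = ∑ β ∈ finsuppAntidiag univ a, monomial β (c s β)) ∧
      ∀ R, m.T R = algebraMap F₁ D (∑ s, ∑ β ∈ finsuppAntidiag univ a, φF (R s β) * c s β) := by
  obtain ⟨F, iF, iA, hZ⟩ := exists_center D
  obtain ⟨φ, hφ⟩ := plblk_hom (K := K) hZ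
  choose c hc using fun s β => hZ _ (m.T_cen (Pi.single s (Pi.single β 1)))
  have hs : ∀ (x : K) (d : D), φ x • d = x • d := fun x d => by
    rw [Algebra.smul_def, Algebra.smul_def, hφ]
  have hva : ∀ s, ∃ z, m.v s ^ a = algebraMap F D z := fun s => hZ _ fun y => by
    have h := m.pow s ![1, 0]
    simp only [Matrix.cons_val_zero, Matrix.cons_val_one, one_smul, zero_smul, add_zero] at h
    rw [h]
    exact m.T_cen _ y
  have ha0 : (a : K) ≠ 0 := hζ.neZero'.out
  have hu : ∀ s, ∑ i, m.Γ s i = (a : K) • (m.u s * (m.v s)⁻¹ * m.v s ^ a) := fun s => by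
    rw [m.Γsum, mul_assoc, pow_sub₀ _ (m.v0 s) (by omega : 1 ≤ a), pow_one,
      ((Commute.refl (m.v s)).pow_left a).inv_right₀.eq]
  have h1 : chi ζ (1 : ZMod a) = ζ := by
    rw [chi, ZMod.val_one_eq_one_mod, ← pow_eq_pow_mod _ hζ.pow_eq_one, pow_one]
  refine ⟨F, iF, iA, φ,
    { γ := fun s => m.Γ s 1
      v := m.v
      a := fun s => -(m.u s * (m.v s)⁻¹)
      g := fun s => ∑ β ∈ finsuppAntidiag univ a, monomial β (c s β)
      γ0 := m.Γ0
      v0 := m.v0
      γA := fun s => hZ _ (m.Γpow s)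
      vA := hva
      γγ := m.ΓΓ
      vγ := fun s => by rw [hs, m.vΓ, h1]
      vγ' := m.vΓ'
      vv := fun s t h => by rw [hs, m.vv s t h]
      aγ := fun s => ?_
      av := fun s k hk hka hcm => ?_
      gh := fun s => IsHomogeneous.sum _ _ _ fun β hβ =>
        isHomogeneous_monomial _ (plblk_mem.1 hβ)
      hg := fun s => ?_ }, c, hφ, fun _ => rfl, fun _ => rfl, fun _ => rfl, fun R => ?_⟩
  · obtain ⟨z, hz⟩ := hva s
    have hz0 : z ≠ 0 := fun h => pow_ne_zero a (m.v0 s) (by rw [hz, h, map_zero])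
    have e : m.u s * (m.v s)⁻¹ = (z⁻¹ * φ (a : K)⁻¹) • ∑ i, m.Γ s i := by
      rw [mul_smul, hs, hu, smul_smul (a : K)⁻¹, inv_mul_cancel₀ ha0, one_smul, hz,
        ← Algebra.commutes, ← Algebra.smul_def, smul_smul, inv_mul_cancel₀ hz0, one_smul]
    refine neg_mem ?_
    rw [e]
    refine Subalgebra.smul_mem _ (sum_mem fun i _ => ?_) _
    obtain ⟨w, hw⟩ := hZ _ (m.Γcen s i)
    have e2 : m.Γ s i = m.Γ s 1 ^ i.val * algebraMap F D w := by
      rw [← hw, mul_inv_cancel_left₀ (pow_ne_zero _ (m.Γ0 s))]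
    rw [e2]
    exact Subalgebra.mul_mem _ (Subalgebra.pow_mem _ (Algebra.self_mem_adjoin_singleton F _) _)
      (Subalgebra.algebraMap_mem _ _)
  · refine plblk_av hζ (m.v0 s) (m.Γ0 s) (m.vΓ s) hk hka ?_
    rw [hu]
    exact ((Commute.neg_left_iff.1 hcm).mul_left ((Commute.refl _).pow_pow a k)).smul_left _
  · rw [neg_mul, neg_neg, inv_mul_cancel_right₀ (m.v0 s), map_sum]
    simp only [big_inc]
    refine alg_funext (K := K) _ _ _ _ fun ξ => ?_
    rw [Fin.sum_univ_two]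
    simp only [Matrix.cons_val_zero, Matrix.cons_val_one]
    rw [m.pow, plblk_T, Finset.sum_eq_single s (fun t _ ht => by simp [ht]) (by simp)]
    simp only [if_true, hc]
  · rw [plblk_T, map_sum]
    refine sum_congr rfl fun s _ => ?_
    rw [map_sum]
    refine sum_congr rfl fun β _ => ?_
    rw [hc, map_mul, ← hφ, Algebra.smul_def]

end Vale.Agent.P200.G
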