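import Vale.Agent.P200.G.StB

/-! Blocks generate a finite-dimensional division algebra. -/

open MvPolynomial Finset Matrix

namespace Vale.Agent.P200.G

open Vale.Agent.P200.Eq

universe u

theorem plfin_step {F D : Type u} [Field F] [Ring D] [Algebra F D] (S : Set D)
    [FiniteDimensional F (Algebra.adjoin F S)] {x : D} {n : ℕ} (hn : n ≠ 0) {c : F}
    (hx : x ^ n = algebraMap F D c) (h : ∀ s ∈ S, ∃ d : F, x * s = d • (s * x)) :
    FiniteDimensional F (Algebra.adjoin F (insert x S)) := by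
  set A := Algebra.adjoin F S with hA
  have : FiniteDimensional F (Subalgebra.toSubmodule A) := ‹FiniteDimensional F A›
  let W : Submodule F D :=
    ⨆ i : Fin n, (Subalgebra.toSubmodule A).map (LinearMap.mulRight F (x ^ (i : ℕ)))
  have hW : ∀ (i : ℕ), ∀ y ∈ A, y * x ^ i ∈ W := by
    intro i y hy
    have e : y * x ^ i = (c ^ (i / n) • y) * x ^ (i % n) := by
      conv_lhs => rw [← Nat.div_add_mod i n, pow_add, pow_mul, hx, ← map_pow, ← mul_assoc,
        ← Algebra.commutes, ← Algebra.smul_def]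
    rw [e]
    exact Submodule.mem_iSup_of_mem ⟨i % n, Nat.mod_lt _ (Nat.pos_of_ne_zero hn)⟩
      ⟨_, A.smul_mem hy _, rfl⟩
  have hN : ∀ y ∈ A, ∃ y' ∈ A, x * y = y' * x := by
    intro y hy
    induction hy using Algebra.adjoin_induction with
    | mem s hs =>
      obtain ⟨d, hd⟩ := h s hs
      exact ⟨d • s, A.smul_mem (Algebra.subset_adjoin hs) d, by rw [hd, smul_mul_assoc]⟩
    | algebraMap r => exact ⟨_, A.algebraMap_mem r, (Algebra.commutes r x).symm⟩
    | add a b _ _ ha hb =>
      obtain ⟨a', h1, h2⟩ := ha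
      obtain ⟨b', h3, h4⟩ := hb
      exact ⟨a' + b', A.add_mem h1 h3, by rw [mul_add, add_mul, h2, h4]⟩
    | mul a b _ _ ha hb =>
      obtain ⟨a', h1, h2⟩ := ha
      obtain ⟨b', h3, h4⟩ := hb
      exact ⟨a' * b', A.mul_mem h1 h3, by rw [← mul_assoc, h2, mul_assoc, h4, mul_assoc]⟩
  have hL : ∀ z : D, (∀ (i : ℕ), ∀ y ∈ A, z * (y * x ^ i) ∈ W) → ∀ w ∈ W, z * w ∈ W := by
    intro z hz w hw
    refine Submodule.iSup_induction (motive := fun w => z * w ∈ W) _ hw ?_ (by simp) ?_
    · rintro i _ ⟨y, hy, rfl⟩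
      exact hz i y hy
    · intro a b ha hb
      rw [mul_add]
      exact W.add_mem ha hb
  have hz : ∀ z ∈ Algebra.adjoin F (insert x S), ∀ w ∈ W, z * w ∈ W := by
    intro z hz
    induction hz using Algebra.adjoin_induction with
    | mem s hs =>
      refine hL s fun i y hy => ?_
      rcases hs with rfl | hs
      · obtain ⟨y', h1, h2⟩ := hN y hy
        rw [← mul_assoc, h2, mul_assoc, ← pow_succ']
        exact hW _ _ h1
      · rw [← mul_assoc]
        exact hW _ _ (A.mul_mem (Algebra.subset_adjoin hs) hy)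
    | algebraMap r =>
      intro w hw
      rw [← Algebra.smul_def]
      exact W.smul_mem r hw
    | add a b _ _ ha hb =>
      intro w hw
      rw [add_mul]
      exact W.add_mem (ha w hw) (hb w hw)
    | mul a b _ _ ha hb =>
      intro w hw
      rw [mul_assoc]
      exact ha _ (hb w hw)
  have hle : Subalgebra.toSubmodule (Algebra.adjoin F (insert x S)) ≤ W := fun z h' => by
    simpa using hz z h' _ (hW 0 1 A.one_mem)
  exact Submodule.finiteDimensional_of_le hle

theorem plfin_ind {F D : Type u} [Field F] [Ring D] [Algebra F D] (S : Set D)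
    [FiniteDimensional F (Algebra.adjoin F S)] {n : ℕ} (hn : n ≠ 0) (T : Finset D)
    (hx : ∀ x ∈ T, ∃ c, x ^ n = algebraMap F D c) (h : ∀ x ∈ T, ∀ s ∈ S, Commute x s)
    (h' : ∀ x ∈ T, ∀ y ∈ T, ∃ d : F, x * y = d • (y * x)) :
    FiniteDimensional F (Algebra.adjoin F ((T : Set D) ∪ S)) := by
  classical
  induction T using Finset.induction_on with
  | empty => rwa [Finset.coe_empty, Set.empty_union]
  | insert x T _ ih =>
    have := ih (fun y hy => hx y (mem_insert_of_mem hy)) (fun y hy => h y (mem_insert_of_mem hy))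
      fun y hy z hz => h' y (mem_insert_of_mem hy) z (mem_insert_of_mem hz)
    obtain ⟨c, hc⟩ := hx x (mem_insert_self _ _)
    rw [Finset.coe_insert, Set.insert_union]
    refine plfin_step _ hn hc ?_
    rintro s (hs | hs)
    · exact h' x (mem_insert_self _ _) s (mem_insert_of_mem hs)
    · exact ⟨1, by rw [one_smul, (h x (mem_insert_self _ _) s hs).eq]⟩

theorem plfin_base {F E F₁ D : Type u} [Field F] [Ring E] [Algebra F E]
    [FiniteDimensional F E] [Field F₁] [Ring D] [Algebra F₁ D] (φF : F →+* F₁) (φ : E →+* D)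
    (h : ∀ c, φ (algebraMap F E c) = algebraMap F₁ D (φF c)) :
    FiniteDimensional F₁ (Algebra.adjoin F₁ (Set.range φ)) := by
  let b := Module.finBasis F E
  have := FiniteDimensional.span_of_finite F₁ (Set.finite_range fun i => φ (b i))
  have hle : Subalgebra.toSubmodule (Algebra.adjoin F₁ (Set.range φ)) ≤
      Submodule.span F₁ (Set.range fun i => φ (b i)) := by
    rw [Algebra.adjoin_eq_span, Submodule.span_le]
    intro z hz
    have hz' : z ∈ MonoidHom.mrange φ := (Submonoid.closure_le (S := MonoidHom.mrange φ)).2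
      (fun _ hy => hy) hz
    obtain ⟨x, rfl⟩ := hz'
    rw [← b.sum_repr x, map_sum]
    refine Submodule.sum_mem _ fun i _ => ?_
    rw [Algebra.smul_def, map_mul, h, ← Algebra.smul_def]
    exact Submodule.smul_mem _ _ (Submodule.subset_span ⟨i, rfl⟩)
  exact Submodule.finiteDimensional_of_le hle

theorem plfin_sub {F E D : Type u} [Field F] [Ring E] [DivisionRing D] [Algebra F D]
    (C : Subalgebra F D) [FiniteDimensional F C] (φ : E →+* D) (hφ : ∀ x, φ x ∈ C) :
    ∃ (D₁ : Type u) (_ : DivisionRing D₁) (_ : Algebra F D₁) (_ : FiniteDimensional F D₁)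
      (ι : D₁ →ₐ[F] D) (φ₁ : E →+* D₁), (∀ x, ι (φ₁ x) = φ x) ∧ ∀ x ∈ C, ∃ e, ι e = x :=
  ⟨C, divisionRingOfFiniteDimensional F C, inferInstanceAs (Algebra F C),
    inferInstanceAs (FiniteDimensional F C), C.val, φ.codRestrict C hφ, fun _ => rfl,
    fun x hx => ⟨⟨x, hx⟩, rfl⟩⟩

theorem blk_fin {F E F₁ D : Type u} [Field F] [DivisionRing E] [Algebra F E]
    [FiniteDimensional F E] [Field F₁] [DivisionRing D] [Algebra F₁ D] {ζ : F₁} {A M : ℕ}
    (hA : A ≠ 0) (hζ : ζ ≠ 0) (B : Blk F₁ D ζ A M) (φF : F →+* F₁) (φ : E →+* D)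
    (h : ∀ c, φ (algebraMap F E c) = algebraMap F₁ D (φF c))
    (hγ : ∀ r x, Commute (B.γ r) (φ x)) (hv : ∀ r x, Commute (B.v r) (φ x)) :
    ∃ (D₁ : Type u) (_ : DivisionRing D₁) (_ : Algebra F₁ D₁) (_ : FiniteDimensional F₁ D₁)
      (φ₁ : E →+* D₁) (B₁ : Blk F₁ D₁ ζ A M),
      (∀ c, φ₁ (algebraMap F E c) = algebraMap F₁ D₁ (φF c)) ∧
      (∀ r x, Commute (B₁.γ r) (φ₁ x)) ∧ (∀ r x, Commute (B₁.v r) (φ₁ x)) ∧ B₁.g = B.g := by
  classical
  have := plfin_base φF φ h
  have one : ∀ {x y : D}, Commute x y → ∃ d : F₁, x * y = d • (y * x) := fun h =>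
    ⟨1, by rw [one_smul, h.eq]⟩
  have inv : ∀ {x y : D}, y * x = ζ • (x * y) → ∃ d : F₁, x * y = d • (y * x) := fun h =>
    ⟨ζ⁻¹, by rw [h, smul_smul, inv_mul_cancel₀ hζ, one_smul]⟩
  have := plfin_ind (F := F₁) (Set.range φ) hA (univ.image B.γ ∪ univ.image B.v)
    (by
      simp only [mem_union, mem_image, mem_univ, true_and]
      rintro x (⟨r, rfl⟩ | ⟨r, rfl⟩)
      exacts [B.γA r, B.vA r])
    (by
      simp only [mem_union, mem_image, mem_univ, true_and]
      rintro x (⟨r, rfl⟩ | ⟨r, rfl⟩) _ ⟨y, rfl⟩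
      exacts [hγ r y, hv r y])
    (by
      simp only [mem_union, mem_image, mem_univ, true_and]
      rintro x (⟨r, rfl⟩ | ⟨r, rfl⟩) y (⟨t, rfl⟩ | ⟨t, rfl⟩)
      · exact one (B.γγ r t)
      · rcases eq_or_ne t r with rfl | htr
        · exact inv (B.vγ t)
        · exact one (B.vγ' t r htr).symm
      · rcases eq_or_ne r t with rfl | htr
        · exact ⟨ζ, B.vγ r⟩
        · exact one (B.vγ' r t htr)
      · rcases lt_trichotomy r t with htr | rfl | htr
        · exact ⟨ζ, B.vv r t htr⟩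
        · exact one (Commute.refl _)
        · exact inv (B.vv t r htr))
  obtain ⟨D₁, _, _, _, ι, φ₁, h1, h2⟩ := plfin_sub (Algebra.adjoin F₁
    (((univ.image B.γ ∪ univ.image B.v : Finset D) : Set D) ∪ Set.range φ)) φ
    fun x => Algebra.subset_adjoin (Or.inr ⟨x, rfl⟩)
  have hι : Function.Injective ι := ι.toRingHom.injective
  choose γ hγ' using fun r => h2 (B.γ r) (Algebra.subset_adjoin (Or.inl (by simp)))
  choose v hv' using fun r => h2 (B.v r) (Algebra.subset_adjoin (Or.inl (by simp)))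
  have ha : ∀ r, ∃ e ∈ Algebra.adjoin F₁ {γ r}, ι e = B.a r := fun r => by
    have := B.aγ r
    rw [← hγ', ← Set.image_singleton, ← AlgHom.map_adjoin] at this
    exact this
  choose a ha1 ha2 using ha
  have cm : ∀ {x y : D₁}, Commute (ι x) (ι y) → Commute x y := fun h =>
    hι (by rw [map_mul, map_mul, h.eq])
  refine ⟨D₁, inferInstance, inferInstance, inferInstance, φ₁,
    { γ := γ, v := v, a := a, g := B.g
      γ0 := fun r h0 => B.γ0 r (by rw [← hγ', h0, map_zero])
      v0 := fun r h0 => B.v0 r (by rw [← hv', h0, map_zero])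
      γA := fun r => (B.γA r).imp fun c hc => hι (by rw [map_pow, hγ', hc, AlgHom.commutes])
      vA := fun r => (B.vA r).imp fun c hc => hι (by rw [map_pow, hv', hc, AlgHom.commutes])
      γγ := fun r t => cm (by rw [hγ', hγ']; exact B.γγ r t)
      vγ := fun r => hι (by rw [map_smul, map_mul, map_mul, hγ', hv', B.vγ])
      vγ' := fun r t h => cm (by rw [hγ', hv']; exact B.vγ' r t h)
      vv := fun r t h => hι (by rw [map_smul, map_mul, map_mul, hv', hv', B.vv r t h])
      aγ := ha1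
      av := fun r k h0 hk hc => B.av r k h0 hk (by
        rw [← ha2, ← hv', ← map_pow]; exact hc.map ι)
      gh := B.gh
      hg := fun r => amap_injective (n := 2) (φ := ι.toRingHom) hι ?_ },
    fun c => hι (by rw [h1, h, AlgHom.commutes]), fun r x => cm (by rw [hγ', h1]; exact hγ r x),
    fun r x => cm (by rw [hv', h1]; exact hv r x), rfl⟩
  rw [amap_inc (RingHom.id F₁) ι.toRingHom (fun c => ι.commutes c), MvPolynomial.map_id, ← B.hg,
    map_pow,
    amap_lin]
  congr 2
  funext i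
  fin_cases i
  · exact hv' r
  · simp [hv', ha2]

end Vale.Agent.P200.G
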