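import Vale.Agent.P200.G.Loc

/-! Adjoining a generic symbol algebra. -/

open Finset

namespace Vale.Agent.P200.G

open Vale.Agent.P200.Eq

universe u

theorem sym_fin {R : Type*} [Ring R] (Y : Subring R) (S : Finset R)
    (h : ∀ r, r ∈ Submodule.span Y (S : Set R)) (r : R) :
    ∃ c : R → R, (∀ x, c x ∈ Y) ∧ r = ∑ x ∈ S, c x * x := by
  obtain ⟨f, -, hf⟩ := Submodule.mem_span_finset.1 (h r)
  exact ⟨fun x => f x, fun x => (f x).2, hf.symm⟩

theorem sym_dom {F G R : Type*} [Field F] [Monoid G] [UniqueProds G] [DivisionRing R] [Algebra F R]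
    {c : Cd F G R} (hτ : ∀ g h, c.τ g h ≠ 0) (x y : CP c) (h : x * y = 0) : x = 0 ∨ y = 0 := by
  classical
  by_contra hc
  obtain ⟨hx, hy⟩ := not_or.1 hc
  have hx' : x.co.support.Nonempty := Finsupp.support_nonempty_iff.2 hx
  have hy' : y.co.support.Nonempty := Finsupp.support_nonempty_iff.2 hy
  obtain ⟨g, hg, g', hg', hu⟩ := UniqueProds.uniqueMul_of_nonempty hx' hy'
  have h1 := CP.co_mul x y (g * g')
  rw [h, CP.co_zero, Finsupp.zero_apply, Finset.sum_eq_single_of_mem g hg,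
    Finset.sum_eq_single_of_mem g' hg', if_pos rfl] at h1
  · refine smul_ne_zero (hτ g g') (mul_ne_zero (Finsupp.mem_support_iff.1 hg) ?_) h1.symm
    exact (map_ne_zero _).2 (Finsupp.mem_support_iff.1 hg')
  · intro b hb hne
    exact if_neg fun e => hne (hu hg hb e).2
  · intro a ha hne
    exact Finset.sum_eq_zero fun b hb => if_neg fun e => hne (hu ha hb e).1

/-- the quantum plane with coefficients in `D` -/
def symCd {F : Type*} (D : Type*) [Field F] [DivisionRing D] [Algebra F D] (ζ : F) :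
    Cd F (Multiplicative (ℕ × ℕ)) D where
  α := 1
  τ g h := ζ ^ (g.toAdd.1 * h.toAdd.2)
  τ_one_left g := by simp
  τ_one_right g := by simp
  τ_assoc g h k := by
    simp only [toAdd_mul, Prod.fst_add, Prod.snd_add, ← pow_add]
    congr 1
    ring

section plane

variable {F D : Type*} [Field F] [DivisionRing D] [Algebra F D] {ζ : F}

/-- the monomials of the quantum plane -/
noncomputable def symM (ζ : F) (i j : ℕ) (d : D) : CP (symCd D ζ) :=
  CP.sgl _ (Multiplicative.ofAdd (i, j)) d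

theorem symM_mul (i j i' j' : ℕ) (d d' : D) :
    symM ζ i j d * symM ζ i' j' d' = symM ζ (i + i') (j + j') (ζ ^ (i * j') • (d * d')) :=
  CP.sgl_mul_sgl _ _ _ _

theorem symM_ne (i j : ℕ) : symM ζ i j (1 : D) ≠ 0 := fun h => by
  have := congrArg (fun x : CP (symCd D ζ) => x.co (Multiplicative.ofAdd (i, j))) h
  simp [symM] at this

theorem symM_cent {A : ℕ} (hζ : ζ ^ A = 1) (u v : ℕ) (r : CP (symCd D ζ)) :
    Commute (symM ζ (A * u) (A * v) (1 : D)) r := by
  induction r using CP.induction_on with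
  | zero => exact Commute.zero_right _
  | add x y hx hy => exact hx.add_right hy
  | sgl g d =>
    change symM ζ (A * u) (A * v) (1 : D) * symM ζ g.toAdd.1 g.toAdd.2 d =
      symM ζ g.toAdd.1 g.toAdd.2 d * symM ζ (A * u) (A * v) (1 : D)
    rw [symM_mul, symM_mul, mul_assoc A, pow_mul ζ A, hζ, mul_left_comm _ A, pow_mul ζ A, hζ,
      one_pow, one_pow, one_mul, mul_one, add_comm (A * u), add_comm (A * v)]

theorem symM_pow_p (n : ℕ) : symM ζ 1 0 (1 : D) ^ n = symM ζ n 0 1 := by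
  induction n with
  | zero => rfl
  | succ n ih => rw [pow_succ, ih, symM_mul]; simp

theorem symM_pow_q (n : ℕ) : symM ζ 0 1 (1 : D) ^ n = symM ζ 0 n 1 := by
  induction n with
  | zero => rfl
  | succ n ih => rw [pow_succ, ih, symM_mul]; simp

theorem symM_base (i j : ℕ) (x : D) : Commute (symM ζ i j (1 : D)) (CP.base _ x) := by
  change symM ζ i j (1 : D) * symM ζ 0 0 x = symM ζ 0 0 x * symM ζ i j (1 : D)
  rw [symM_mul, symM_mul]
  simp

end plane

theorem sym_domFin {F D : Type u} [Field F] [DivisionRing D] [Algebra F D]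
    [FiniteDimensional F D] {A : ℕ} (hA : 0 < A) {ζ : F} (hζ : ζ ^ A = 1) :
    DomFin (CP (symCd D ζ)) := by
  classical
  have hζ0 : ζ ≠ 0 := fun h => by
    rw [h, zero_pow hA.ne'] at hζ
    exact zero_ne_one hζ
  let b := Module.finBasis F D
  let S : Finset (CP (symCd D ζ)) := (range A ×ˢ range A ×ˢ univ).image
    fun z : ℕ × ℕ × Fin (Module.finrank F D) => symM ζ z.1 z.2.1 (b z.2.2)
  refine ⟨one_ne_zero, sym_dom fun g h => pow_ne_zero _ hζ0, Subring.center _, S,
    fun x hx y _ => (Subring.mem_center_iff.1 hx y).symm, sym_fin _ _ fun r => ?_⟩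
  induction r using CP.induction_on with
  | zero => exact zero_mem _
  | add x y hx hy => exact add_mem hx hy
  | sgl g d =>
    rw [← b.sum_repr d, CP.sgl_sum]
    refine Submodule.sum_mem _ fun l _ => ?_
    have h1 : CP.sgl (symCd D ζ) g (b.repr d l • b l) = (algebraMap F _ (b.repr d l) *
        symM ζ (A * (g.toAdd.1 / A)) (A * (g.toAdd.2 / A)) (1 : D)) *
          symM ζ (g.toAdd.1 % A) (g.toAdd.2 % A) (b l) := by
      rw [mul_assoc, symM_mul, mul_assoc A, pow_mul, hζ, one_pow, one_smul, one_mul,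
        Nat.div_add_mod, Nat.div_add_mod, CP.sgl_smul, Algebra.smul_def]
      rfl
    have h2 : algebraMap F _ (b.repr d l) *
        symM ζ (A * (g.toAdd.1 / A)) (A * (g.toAdd.2 / A)) (1 : D) ∈
          Subring.center (CP (symCd D ζ)) :=
      mul_mem (Subring.mem_center_iff.2 fun r => (Algebra.commutes _ r).symm)
        (Subring.mem_center_iff.2 fun r => (symM_cent hζ _ _ r).eq.symm)
    rw [h1]
    refine Submodule.smul_mem _ (⟨_, h2⟩ : Subring.center (CP (symCd D ζ)))
      (Submodule.subset_span ?_)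
    refine mem_coe.2 (mem_image.2 ⟨(g.toAdd.1 % A, g.toAdd.2 % A, l), ?_, rfl⟩)
    simp [Nat.mod_lt _ hA]

theorem exists_symbol {F D : Type u} [Field F] [DivisionRing D] [Algebra F D]
    [FiniteDimensional F D] {A : ℕ} (hA : 0 < A) {ζ : F} (hζ : ζ ^ A = 1) :
    ∃ (F₁ D₁ : Type u) (_ : Field F₁) (_ : DivisionRing D₁) (_ : Algebra F₁ D₁)
      (_ : FiniteDimensional F₁ D₁) (φF : F →+* F₁) (φ : D →+* D₁) (p q : D₁),
      (∀ c, φ (algebraMap F D c) = algebraMap F₁ D₁ (φF c)) ∧ p ≠ 0 ∧ q ≠ 0 ∧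
      (∀ x, Commute p (φ x)) ∧ (∀ x, Commute q (φ x)) ∧ p * q = φF ζ • (q * p) ∧
      (∃ c, p ^ A = algebraMap F₁ D₁ c) ∧ ∃ c, q ^ A = algebraMap F₁ D₁ c := by
  obtain ⟨F₁, D₁, i1, i2, i3, i4, φF, φ, hφ, halg, hc⟩ :=
    exists_loc (F := F) (sym_domFin (D := D) hA hζ)
  refine ⟨F₁, D₁, i1, i2, i3, i4, φF, φ.comp (CP.base (symCd D ζ)).toRingHom,
    φ (symM ζ 1 0 1), φ (symM ζ 0 1 1), fun c => ?_,
    (map_ne_zero_iff φ hφ).2 (symM_ne _ _), (map_ne_zero_iff φ hφ).2 (symM_ne _ _),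
    fun x => (symM_base 1 0 x).map φ, fun x => (symM_base 0 1 x).map φ, ?_, ?_, ?_⟩
  · rw [← halg]
    exact congrArg φ ((CP.base (symCd D ζ)).commutes c)
  · rw [Algebra.smul_def, ← halg, ← map_mul, ← map_mul, ← map_mul, ← Algebra.smul_def, symM_mul,
      symM_mul, symM, symM, ← CP.sgl_smul]
    simp
  · rw [← map_pow, symM_pow_p]
    refine hc _ fun r => ?_
    simpa using symM_cent hζ 1 0 r
  · rw [← map_pow, symM_pow_q]
    refine hc _ fun r => ?_
    simpa using symM_cent hζ 0 1 r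

end Vale.Agent.P200.G
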