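import Vale.Agent.P200.G.Gen

/-! Automorphisms of the function field of normal forms. -/

open Finset Matrix

namespace Vale.Agent.P200.G

open Vale.Agent.P200.Eq

universe u

variable {A : ℕ} [NeZero A] {L : Type u} [Field L]

theorem Phig_apply (v : Vr A) : Phig A L v.1.1 v.1.2.1 (v.1.1 + v.1.2.2) =
    (if v.1.2.1 = v.1.2.2 then 1 else 0) + Xg L v := by
  obtain ⟨⟨j, i, i'⟩, h⟩ := v
  simp only [Phig, Fl.map, Phip, Matrix.map_apply, Matrix.of_apply, add_sub_cancel_left, dif_pos h,
    map_add, Xg, add_right_inj]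
  congr 1
  by_cases h1 : i = i'
  · simp [h1]
  · simp [h1, Ne.symm h1]


private theorem aut_C (x : L) : algebraMap L (Kh A L) x =
    algebraMap (MvPolynomial (Vr A) L) (Kh A L) (MvPolynomial.C x) :=
  IsScalarTower.algebraMap_apply L (MvPolynomial (Vr A) L) (Kh A L) x

private theorem aut_top {K : IntermediateField L (Kh A L)} (h : ∀ j i c, Phig A L j i c ∈ K) :
    K = ⊤ := by
  have hX : ∀ v, Xg L v ∈ K := by
    intro v
    have h1 := h v.1.1 v.1.2.1 (v.1.1 + v.1.2.2)
    rw [Phig_apply] at h1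
    have h2 : (if v.1.2.1 = v.1.2.2 then (1 : Kh A L) else 0) ∈ K := by
      split_ifs
      · exact one_mem K
      · exact zero_mem K
    simpa using sub_mem h1 h2
  have hp : ∀ p, algebraMap (MvPolynomial (Vr A) L) (Kh A L) p ∈ K := by
    intro p
    induction p using MvPolynomial.induction_on with
    | C x =>
      rw [← aut_C]
      exact K.algebraMap_mem x
    | add p q hp hq =>
      rw [map_add]
      exact add_mem hp hq
    | mul_X p v hp =>
      rw [map_mul]
      exact mul_mem hp (hX v)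
  refine eq_top_iff.2 fun z _ => ?_
  obtain ⟨p, q, -, rfl⟩ := IsFractionRing.div_surjective (MvPolynomial (Vr A) L) z
  exact div_mem (hp p) (hp q)

theorem kh_ext {k' : Type*} [Field k'] {ψ ψ' : Kh A L →+* k'}
    (hL : ∀ x, ψ (algebraMap L (Kh A L) x) = ψ' (algebraMap L (Kh A L) x))
    (h : (Phig A L).map ψ = (Phig A L).map ψ') : ψ = ψ' := by
  refine IsFractionRing.ringHom_ext (A := MvPolynomial (Vr A) L) fun p => ?_
  have hX : ∀ v, ψ (Xg L v) = ψ' (Xg L v) := by
    intro v
    have h1 : ψ (Phig A L v.1.1 v.1.2.1 (v.1.1 + v.1.2.2)) =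
        ψ' (Phig A L v.1.1 v.1.2.1 (v.1.1 + v.1.2.2)) :=
      congrFun (congrFun (congrFun h v.1.1) v.1.2.1) (v.1.1 + v.1.2.2)
    rw [Phig_apply, map_add, map_add] at h1
    split_ifs at h1 <;> simpa using h1
  induction p using MvPolynomial.induction_on with
  | C x => rw [← aut_C, hL]
  | add p q hp hq => rw [map_add, map_add, map_add, hp, hq]
  | mul_X p v hp =>
    rw [map_mul, map_mul, map_mul, hp]
    exact congrArg _ (hX v)


theorem exists_aut {Φ : Fl A (Kh A L)} (hN : NF Φ)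
    (hgen : ∀ K : IntermediateField L (Kh A L), (∀ j i c, Φ j i c ∈ K) →
      ∀ j i c, Phig A L j i c ∈ K) :
    ∃ ρ : Kh A L ≃ₐ[L] Kh A L, (Phig A L).map ρ = Φ := by
  obtain ⟨ψ, hC, hψ⟩ := exists_spec (algebraMap L (Kh A L)) hN
  obtain ⟨x, hx⟩ : ∃ x : Vr A → Kh A L, x = fun v => ψ (MvPolynomial.X v) := ⟨_, rfl⟩
  have he : ∀ p, ψ p = MvPolynomial.aeval x p := by
    intro p
    induction p using MvPolynomial.induction_on with
    | C a => rw [hC, MvPolynomial.aeval_C]
    | add p q hp hq => rw [map_add, map_add, hp, hq]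
    | mul_X p v hp => rw [map_mul, map_mul, hp, MvPolynomial.aeval_X, hx]
  have hΦ : ∀ j i c, Φ j i c = MvPolynomial.aeval x (Phip A L j i c) := by
    intro j i c
    rw [← he, ← hψ]
    rfl
  have htop : IntermediateField.adjoin L (Set.range x) = ⊤ := by
    refine aut_top (hgen _ fun j i c => ?_)
    rw [hΦ]
    refine IntermediateField.algebra_adjoin_le_adjoin L (Set.range x) ?_
    rw [Algebra.adjoin_range_eq_range_aeval]
    exact ⟨_, rfl⟩
  have halg : Algebra.IsAlgebraic (Algebra.adjoin L (Set.range x)) (Kh A L) := by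
    rw [← IntermediateField.isAlgebraic_adjoin_iff_top, htop, Algebra.isAlgebraic_iff_isIntegral]
    exact Algebra.isIntegral_of_surjective IntermediateField.topEquiv.surjective
  have hA0 : Algebra.IsAlgebraic (MvPolynomial (Vr A) L) (Kh A L) :=
    IsLocalization.isAlgebraic _ (nonZeroDivisors (MvPolynomial (Vr A) L))
  have hb := (IsTranscendenceBasis.mvPolynomial (Vr A) L).algebraMap_comp (A := Kh A L)
  have hx2 := Algebra.IsAlgebraic.isTranscendenceBasis_of_lift_le_trdeg_of_finite L x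
    hb.lift_cardinalMk_eq_trdeg.le
  have hinj : Function.Injective (MvPolynomial.aeval x : MvPolynomial (Vr A) L →ₐ[L] Kh A L) := hx2.1
  let ρ : Kh A L →ₐ[L] Kh A L := IsFractionRing.liftAlgHom hinj
  have hρ : ∀ p, ρ (algebraMap (MvPolynomial (Vr A) L) (Kh A L) p) = MvPolynomial.aeval x p := by
    intro p
    exact IsFractionRing.lift_algebraMap hinj p
  have hs : Function.Surjective ρ := by
    rw [← AlgHom.fieldRange_eq_top]
    refine aut_top (hgen _ fun j i c => ?_)
    rw [hΦ, ← hρ]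
    exact ⟨_, rfl⟩
  refine ⟨AlgEquiv.ofBijective ρ ⟨ρ.toRingHom.injective, hs⟩, ?_⟩
  funext j
  ext i c
  rw [hΦ, ← hρ]
  rfl


/-- the shift of the coordinates -/
private def autE (A : ℕ) [NeZero A] : Vr A ≃ Vr A where
  toFun v := ⟨(v.1.1 + 1, v.1.2), v.2⟩
  invFun v := ⟨(v.1.1 - 1, v.1.2), v.2⟩
  left_inv v := by simp
  right_inv v := by simp

theorem exists_s {F : Type u} [Field F] [Algebra F L] (σ : L ≃ₐ[F] L) :
    ∃ s : Kh A L ≃ₐ[F] Kh A L,
      (∀ x, s (algebraMap L (Kh A L) x) = algebraMap L (Kh A L) (σ x)) ∧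
      ∀ j i c, s (Phig A L j i c) = Phig A L (j + 1) i (c + 1) := by
  let s0 : MvPolynomial (Vr A) L ≃+* MvPolynomial (Vr A) L :=
    (MvPolynomial.mapEquiv (Vr A) σ.toRingEquiv).trans (MvPolynomial.renameEquiv L (autE A)).toRingEquiv
  have hC : ∀ x, s0 (MvPolynomial.C x) = MvPolynomial.C (σ x) := fun x => by simp [s0]
  have hX : ∀ v, s0 (MvPolynomial.X v) = MvPolynomial.X (autE A v) := fun v => by simp [s0]
  let s : Kh A L ≃+* Kh A L := IsFractionRing.ringEquivOfRingEquiv s0
  have hs : ∀ p, s (algebraMap (MvPolynomial (Vr A) L) (Kh A L) p) =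
      algebraMap (MvPolynomial (Vr A) L) (Kh A L) (s0 p) :=
    fun p => IsFractionRing.ringEquivOfRingEquiv_algebraMap s0 p
  have hL : ∀ x, s (algebraMap L (Kh A L) x) = algebraMap L (Kh A L) (σ x) := by
    intro x
    rw [aut_C, aut_C, hs, hC]
  refine ⟨AlgEquiv.ofRingEquiv (f := s) fun x => ?_, hL, fun j i c => ?_⟩
  · rw [IsScalarTower.algebraMap_apply F L (Kh A L), hL, σ.commutes]
  · change s (algebraMap (MvPolynomial (Vr A) L) (Kh A L) (Phip A L j i c)) =
      algebraMap (MvPolynomial (Vr A) L) (Kh A L) (Phip A L (j + 1) i (c + 1))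
    rw [hs]
    congr 1
    have e1 : c + 1 - (j + 1) = c - j := add_sub_add_right_eq_sub c j 1
    have e2 : (c + 1 = j + 1 + i) ↔ (c = j + i) := by rw [add_right_comm, add_left_inj]
    simp only [Phip, Matrix.of_apply, map_add, e1, e2]
    congr 1
    · split_ifs <;> simp
    · split_ifs
      · rw [hX]
        rfl
      · exact map_zero s0


theorem exists_tor (ϑ : Ix A → Lˣ) : ∃ θ, IsTor ϑ θ := by
  have hu : ∀ x, algebraMap L (Kh A L) (ϑ x) * algebraMap L (Kh A L) ((ϑ x)⁻¹ : Lˣ) = 1 := by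
    intro x
    rw [← map_mul, Units.mul_inv, map_one]
  have hN : NF (Phig A L) := nf_Phig
  refine exists_aut (fun j => ⟨fun c => ?_, fun i i' h => ?_, fun i => ?_⟩) fun K hK j i c => ?_
  · simp only [tor, Matrix.of_apply, (hN j).1 c]
    split_ifs with h
    · rw [h, mul_one, mul_comm, hu]
    · simp
  · simp only [tor, Matrix.of_apply, (hN j).2.1 i i' h, mul_zero, zero_mul]
  · simp only [tor, Matrix.of_apply]
    exact mul_ne_zero (mul_ne_zero (right_ne_zero_of_mul_eq_one (hu _)) ((hN j).2.2 i))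
      (left_ne_zero_of_mul_eq_one (hu _))
  · have h1 := mul_mem (mul_mem (K.algebraMap_mem (ϑ (j, i) : L)) (hK j i c))
      (K.algebraMap_mem ((ϑ (c, 0))⁻¹ : Lˣ))
    simp only [tor, Matrix.of_apply] at h1
    convert h1 using 1
    linear_combination (-(Phig A L j i c) * (algebraMap L (Kh A L) (ϑ (c, 0)) *
      algebraMap L (Kh A L) ((ϑ (c, 0))⁻¹ : Lˣ))) * hu (j, i) - Phig A L j i c * hu (c, 0)


end Vale.Agent.P200.G
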