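import Vale.Agent.P200.G.RelA

/-! Balanced tuples. -/

open Finset Polynomial Matrix

namespace Vale.Agent.P200.G

open Vale.Agent.P200.Eq

universe u

variable {A : ℕ} [NeZero A] {k : Type*} [Field k] {a : Fin A → k}

omit [NeZero A] in
theorem bal_eval (Φ : Matrix (Fin A) (Fin A) k) (m : Fin A → k[X]) (i : Fin A) (x : k) :
    ((Φ.map C *ᵥ m) i).eval x = ∑ c, Φ i c * (m c).eval x := by
  simp [Matrix.mulVec, dotProduct, eval_finsetSum]

theorem bal_iff_bal0 (ha : Function.Injective a) (Φ : Fl A k) {r : Fin A → ℕ} (hr : ∀ j, r j ≤ A)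
    (n : ℕ) : Bal a Φ r n ↔ Bal0 a Φ r n := by
  have key : ∀ m, Mem a Φ r m ↔
      ∀ j (i : Fin A), i.val < r j → ∑ c, Φ j i c * (m c).eval (a j) = 0 := fun m =>
    forall_congr' fun j => by simp only [range_pim_pow ha j (hr j), bal_eval]
  exact ⟨fun h m h1 h2 => h m ((key m).2 h2) h1, fun h m h1 h2 => h m h2 ((key m).1 h1)⟩

theorem goodFl_of_bal0 (ha : Function.Injective a) {Φ : Fl A k} (hΦ : ∀ j, (Φ j).det ≠ 0)
    (h : ∀ (r : Fin A → ℕ) (n : ℕ), (∀ j, r j < A) → ∑ j, r j = A * n → Bal0 a Φ r n) :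
    GoodFl a Φ := by
  refine ⟨hΦ, fun d n hd m hm hdeg => ?_⟩
  have hA : 0 < A := Nat.pos_of_ne_zero (NeZero.ne A)
  choose m' hm' using hm
  have e : ∀ j, (Φ j).map C *ᵥ m = (X - C (a j)) ^ (d j / A) •
      (pim a j ^ (d j % A) *ᵥ (C (cc a j j) ^ (d j / A) • m' j)) := fun j => by
    rw [hm' j]
    conv_lhs => rw [← Nat.div_add_mod (d j) A, pow_add, pow_mul, pim_pow_A, ← map_pow,
      ← Matrix.mulVec_mulVec]
    rw [Matrix.mulVec_smul, smul_smul, mul_comm, ← mul_pow]
    funext i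
    simp [Matrix.scalar_apply, Matrix.mulVec_diagonal]
  have hdvd : ∀ c j, (X - C (a j)) ^ (d j / A) ∣ m c := fun c j => by
    have h1 : ((Φ j)⁻¹.map C) *ᵥ ((Φ j).map C *ᵥ m) = m := by
      rw [Matrix.mulVec_mulVec, ← Matrix.map_mul, Matrix.nonsing_inv_mul _ (hΦ j).isUnit,
        Matrix.map_one _ (map_zero _) (map_one _), Matrix.one_mulVec]
    rw [e j, Matrix.mulVec_smul] at h1
    exact ⟨_, (congrFun h1 c).symm⟩
  have hP : ∀ c, ∏ j, (X - C (a j)) ^ (d j / A) ∣ m c := fun c =>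
    Finset.prod_dvd_of_coprime
      (fun j _ j' _ hj => (pairwise_coprime_X_sub_C ha hj).pow) fun j _ => hdvd c j
  choose m1 hm1 using hP
  have hs : A * ∑ j, d j / A + ∑ j, d j % A = A * n := by
    rw [Finset.mul_sum, ← Finset.sum_add_distrib, ← hd]
    exact Finset.sum_congr rfl fun j _ => Nat.div_add_mod _ _
  have hQ : ∑ j, d j / A ≤ n := Nat.le_of_mul_le_mul_left (by omega) hA
  have hmon : (∏ j, (X - C (a j)) ^ (d j / A)).Monic :=
    monic_prod_of_monic _ _ fun j _ => (monic_X_sub_C _).pow _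
  have hnd : (∏ j, (X - C (a j)) ^ (d j / A)).natDegree = ∑ j, d j / A := by
    rw [natDegree_prod_of_monic _ _ fun j _ => (monic_X_sub_C _).pow _]
    simp
  have h0 : m1 = 0 := by
    refine h (fun j => d j % A) (n - ∑ j, d j / A) (fun j => Nat.mod_lt _ hA)
      (by rw [Nat.mul_sub]; omega) m1 (fun c => ?_) fun j i hi => ?_
    · by_cases hc : m1 c = 0
      · rw [hc, degree_zero]; exact WithBot.bot_lt_coe _
      have h1 := hdeg c
      rw [hm1 c, ← natDegree_lt_iff_degree_lt (mul_ne_zero hmon.ne_zero hc),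
        hmon.natDegree_mul' hc, hnd] at h1
      rw [← natDegree_lt_iff_degree_lt hc]
      omega
    · have h1 : m = (X - C (a j)) ^ (d j / A) •
          ((∏ j' ∈ univ.erase j, (X - C (a j')) ^ (d j' / A)) • m1) := funext fun c => by
        rw [hm1 c, ← Finset.mul_prod_erase _ _ (mem_univ j), mul_assoc]; rfl
      have h2 := congrFun (e j) i
      rw [h1, Matrix.mulVec_smul, Matrix.mulVec_smul] at h2
      have h3 := congrArg (eval (a j))
        (mul_left_cancel₀ (pow_ne_zero _ (X_sub_C_ne_zero (a j))) h2)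
      rw [(range_pim_pow ha j (Nat.mod_lt _ hA).le _).1 ⟨_, rfl⟩ i hi, Pi.smul_apply, smul_eq_mul,
        eval_mul, bal_eval, mul_eq_zero] at h3
      refine h3.resolve_left ?_
      rw [eval_prod]
      refine Finset.prod_ne_zero_iff.2 fun j' hj' => ?_
      simp only [eval_pow, eval_sub, eval_X, eval_C]
      exact pow_ne_zero _ (sub_ne_zero.2 fun h => (mem_erase.1 hj').1 (ha h).symm)
  funext c
  rw [hm1 c, h0]
  simp

omit [NeZero A] in
/-- the matrix of the linear conditions -/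
def balM {R : Type*} [CommRing R] (a : Fin A → R) (Φ : Fl A R) {r : Fin A → ℕ} {n : ℕ}
    (hr : ∀ j, r j ≤ A) (e : Fin A × Fin n ≃ (j : Fin A) × Fin (r j)) :
    Matrix (Fin A × Fin n) (Fin A × Fin n) R :=
  Matrix.of fun p q => Φ (e p).1 (Fin.castLE (hr _) (e p).2) q.1 * a (e p).1 ^ (q.2 : ℕ)

omit [NeZero A] in
theorem bal0_iff_det (a : Fin A → k) (Φ : Fl A k) {r : Fin A → ℕ} {n : ℕ}
    (hr : ∀ j, r j ≤ A) (e : Fin A × Fin n ≃ (j : Fin A) × Fin (r j)) :
    Bal0 a Φ r n ↔ (balM a Φ hr e).det ≠ 0 := by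
  rw [Ne, ← Matrix.exists_mulVec_eq_zero_iff]
  constructor
  · rintro h ⟨v, hv, h1⟩
    have h2 := h (fun c => ∑ t : Fin n, C (v (c, t)) * X ^ (t : ℕ))
      (fun c => degree_sum_fin_lt _) fun j i hi => by
        have h4 : ∀ z : (j : Fin A) × Fin (r j), ∑ q : Fin A × Fin n,
            Φ z.1 (Fin.castLE (hr _) z.2) q.1 * a z.1 ^ (q.2 : ℕ) * v q = 0 :=
          e.surjective.forall.2 fun p => congrFun h1 p
        have h3 := h4 ⟨j, ⟨i, hi⟩⟩
        rw [Fintype.sum_prod_type] at h3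
        rw [← h3]
        refine Finset.sum_congr rfl fun c _ => ?_
        rw [eval_finsetSum, Finset.mul_sum]
        refine Finset.sum_congr rfl fun t _ => ?_
        simp only [eval_mul, eval_C, eval_pow, eval_X]
        rw [mul_assoc, mul_comm (v _)]
        rfl
    refine hv (funext fun q => ?_)
    have h3 := congrArg (fun p => p.coeff q.2) (congrFun h2 q.1)
    simpa [finsetSum_coeff, coeff_C_mul, coeff_X_pow, Fin.val_inj] using h3
  · intro h m hm h1
    by_contra h2
    refine h ⟨fun q => (m q.1).coeff q.2, fun h3 => h2 (funext fun c => ?_), funext fun p => ?_⟩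
    · ext t
      by_cases ht : t < n
      · exact congrFun h3 (c, ⟨t, ht⟩)
      · exact coeff_eq_zero_of_degree_lt ((hm c).trans_le (by exact_mod_cast not_lt.1 ht))
    · have h3 := h1 (e p).1 (Fin.castLE (hr _) (e p).2) (e p).2.2
      simp only [balM, Matrix.mulVec, dotProduct, Matrix.of_apply, Fintype.sum_prod_type,
        Pi.zero_apply]
      rw [← h3]
      refine Finset.sum_congr rfl fun c _ => ?_
      rw [eval_eq_sum, ← Polynomial.sum_fin _ (by simp) (hm c), Finset.mul_sum]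
      exact Finset.sum_congr rfl fun t _ => by ring

omit [NeZero A] in
theorem bal0_spec {R k k' : Type*} [CommRing R] [Field k] [Field k'] (i : R →+* k)
    (hi : Function.Injective i) (ψ : R →+* k') (a : Fin A → R) (Φ : Fl A R) {r : Fin A → ℕ}
    {n : ℕ} (hr : ∀ j, r j ≤ A) (hs : ∑ j, r j = A * n)
    (h : Bal0 (fun j => ψ (a j)) (Φ.map ψ) r n) : Bal0 (fun j => i (a j)) (Φ.map i) r n := by
  have e : Fin A × Fin n ≃ (j : Fin A) × Fin (r j) := Fintype.equivOfCardEq (by simp [hs])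
  have key : (balM (fun j => i (a j)) (Φ.map i) hr e) = (balM a Φ hr e).map i := by
    ext p q
    simp [balM, Fl.map]
  have key' : (balM (fun j => ψ (a j)) (Φ.map ψ) hr e) = (balM a Φ hr e).map ψ := by
    ext p q
    simp [balM, Fl.map]
  rw [bal0_iff_det _ _ hr e, key', ← RingHom.mapMatrix_apply, ← RingHom.map_det] at h
  rw [bal0_iff_det _ _ hr e, key, ← RingHom.mapMatrix_apply, ← RingHom.map_det]
  intro h1
  rw [(map_eq_zero_iff i hi).1 h1, map_zero] at h
  exact h rfl

theorem bal0_perm (ha : Function.Injective a) {r : Fin A → ℕ} {n : ℕ} (hr : ∀ j, r j ≤ A)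
    (hs : ∑ j, r j = A * n) : ∃ Φ : Fl A k, Bal0 a Φ r n := by
  have hA : 0 < A := Nat.pos_of_ne_zero (NeZero.ne A)
  let s : Fin A → ℕ := fun j => ∑ i : Fin j, r (Fin.castLE j.2.le i)
  refine ⟨fun j => Matrix.of fun i c => if (c : ℕ) = (s j + i) % A then 1 else 0,
    fun m hm h => funext fun c => ?_⟩
  have ht : ∀ t : Fin n, A * t + c < ∑ j, r j := fun t => by
    have := Nat.mul_le_mul_left A (Nat.succ_le_of_lt t.2)
    have := c.2
    rw [Nat.mul_succ] at *
    omega
  let p : Fin n → (j : Fin A) × Fin (r j) := fun t => finSigmaFinEquiv.symm ⟨A * t + c, ht t⟩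
  have hp : ∀ t, s (p t).1 + (p t).2 = A * t + c := fun t => by
    have := finSigmaFinEquiv_apply (p t)
    rw [Equiv.apply_symm_apply] at this
    exact this.symm
  refine eq_zero_of_degree_lt_of_eval_index_eq_zero univ (v := fun t => a (p t).1)
    (fun t _ t' _ e => ?_) (by simpa using hm c) fun t _ => ?_
  · have h1 := hp t
    have h2 := hp t'
    have h3 := (p t).2.2.trans_le (hr _)
    have h4 := (p t').2.2.trans_le (hr _)
    have h6 := congrArg s (ha e)
    by_contra hne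
    rcases lt_or_gt_of_ne hne with h5 | h5
    · have := Nat.mul_le_mul_left A (Nat.succ_le_of_lt (Fin.lt_def.1 h5))
      rw [Nat.mul_succ] at this
      omega
    · have := Nat.mul_le_mul_left A (Nat.succ_le_of_lt (Fin.lt_def.1 h5))
      rw [Nat.mul_succ] at this
      omega
  · have h1 := h (p t).1 (Fin.castLE (hr _) (p t).2) (p t).2.2
    simp only [Matrix.of_apply, Fin.val_castLE, hp t, Nat.mul_add_mod, Nat.mod_eq_of_lt c.2,
      Fin.val_inj, ite_mul, one_mul, zero_mul, Finset.sum_ite_eq', mem_univ, if_true] at h1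
    exact h1

end Vale.Agent.P200.G
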