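import Mathlib

/-! Crossed products with a scalar cocycle. -/

namespace Vale.Agent.P200.G

/-- data of a crossed product -/
structure Cd (F G R : Type*) [CommRing F] [Monoid G] [Ring R] [Algebra F R] where
  α : G →* (R ≃ₐ[F] R)
  τ : G → G → F
  τ_one_left : ∀ g, τ 1 g = 1
  τ_one_right : ∀ g, τ g 1 = 1
  τ_assoc : ∀ g h k, τ g h * τ (g * h) k = τ h k * τ g (h * k)

variable {F G R : Type*} [CommRing F] [Monoid G] [Ring R] [Algebra F R]

/-- the crossed product -/
def CP (_c : Cd F G R) : Type _ := G →₀ R

namespace CP

variable {c : Cd F G R}

noncomputable instance : AddCommGroup (CP c) := inferInstanceAs (AddCommGroup (G →₀ R))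

noncomputable instance : Module F (CP c) := inferInstanceAs (Module F (G →₀ R))

/-- the underlying finitely supported function -/
def co (x : CP c) : G →₀ R := x

/-- the element with prescribed coefficients -/
def ofCo (c : Cd F G R) (x : G →₀ R) : CP c := x

/-- the element `r [g]` -/
noncomputable def sgl (c : Cd F G R) (g : G) (r : R) : CP c := Finsupp.single g r

@[simp] theorem co_ofCo (x : G →₀ R) : (ofCo c x).co = x := rfl

@[simp] theorem ofCo_co (x : CP c) : ofCo c x.co = x := rfl

@[ext] theorem ext {x y : CP c} (h : ∀ g, x.co g = y.co g) : x = y := Finsupp.ext h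

@[simp] theorem co_zero : (0 : CP c).co = 0 := rfl

@[simp] theorem co_add (x y : CP c) : (x + y).co = x.co + y.co := rfl

@[simp] theorem co_neg (x : CP c) : (-x).co = -x.co := rfl

@[simp] theorem co_sub (x y : CP c) : (x - y).co = x.co - y.co := rfl

@[simp] theorem co_smul (a : F) (x : CP c) : (a • x).co = a • x.co := rfl

@[simp] theorem co_sgl (g : G) (r : R) : (sgl c g r).co = Finsupp.single g r := rfl

/-- the coefficients as a linear map -/
noncomputable def coL (c : Cd F G R) : CP c ≃ₗ[F] (G →₀ R) := LinearEquiv.refl F (G →₀ R)

@[simp] theorem coL_apply (x : CP c) : coL c x = x.co := rfl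

theorem co_sum {ι : Type*} (s : Finset ι) (x : ι → CP c) :
    (∑ i ∈ s, x i).co = ∑ i ∈ s, (x i).co := map_sum (coL c) x s

@[simp] theorem sgl_zero (g : G) : sgl c g 0 = 0 := Finsupp.single_zero g

theorem sgl_add (g : G) (r r' : R) : sgl c g (r + r') = sgl c g r + sgl c g r' :=
  Finsupp.single_add g r r'

theorem sgl_neg (g : G) (r : R) : sgl c g (-r) = -sgl c g r := Finsupp.single_neg g r

theorem sgl_smul (g : G) (a : F) (r : R) : sgl c g (a • r) = a • sgl c g r :=
  (Finsupp.smul_single a g r).symm

theorem sgl_sum {ι : Type*} (g : G) (s : Finset ι) (r : ι → R) :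
    sgl c g (∑ i ∈ s, r i) = ∑ i ∈ s, sgl c g (r i) := Finsupp.single_finsetSum s r g

theorem sum_sgl (x : CP c) : ∑ g ∈ x.co.support, sgl c g (x.co g) = x := Finsupp.sum_single x.co

theorem induction_on {p : CP c → Prop} (x : CP c) (zero : p 0)
    (add : ∀ x y, p x → p y → p (x + y)) (sgl : ∀ g r, p (sgl c g r)) : p x :=
  Finsupp.induction_linear x zero add sgl

/-- the product as a biadditive map -/
noncomputable def mulH (c : Cd F G R) : CP c →+ CP c →+ CP c :=
  Finsupp.liftAddHom fun g => AddMonoidHom.flip (Finsupp.liftAddHom fun h =>
    { toFun := fun b =>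
        { toFun := fun a => sgl c (g * h) (c.τ g h • (a * c.α g b))
          map_zero' := by simp
          map_add' := fun a a' => by rw [add_mul, smul_add, sgl_add] }
      map_zero' := by ext; simp
      map_add' := fun b b' => by
        ext1 a
        simp only [map_add, mul_add, smul_add, sgl_add]
        rfl })

theorem mulH_sgl (g h : G) (a b : R) :
    mulH c (sgl c g a) (sgl c h b) = sgl c (g * h) (c.τ g h • (a * c.α g b)) := by
  simp only [mulH, sgl]
  erw [Finsupp.liftAddHom_apply_single, AddMonoidHom.flip_apply, Finsupp.liftAddHom_apply_single]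
  rfl

noncomputable instance : Ring (CP c) :=
  { (inferInstance : AddCommGroup (CP c)) with
    mul := fun x y => mulH c x y
    one := sgl c 1 1
    left_distrib := fun x y z => map_add (mulH c x) y z
    right_distrib := fun x y z => by
      change mulH c (x + y) z = mulH c x z + mulH c y z
      rw [map_add, AddMonoidHom.add_apply]
    zero_mul := fun x => by
      change mulH c 0 x = 0
      rw [map_zero, AddMonoidHom.zero_apply]
    mul_zero := fun x => map_zero (mulH c x)
    mul_assoc := fun x y z => by
      change mulH c (mulH c x y) z = mulH c x (mulH c y z)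
      induction x using induction_on with
      | zero => simp
      | add x x' h h' => simp only [map_add, AddMonoidHom.add_apply, h, h']
      | sgl g a =>
        induction y using induction_on with
        | zero => simp
        | add y y' h h' => simp only [map_add, AddMonoidHom.add_apply, h, h']
        | sgl h b =>
          induction z using induction_on with
          | zero => simp
          | add z z' h h' => simp only [map_add, h, h']
          | sgl k d =>
            simp only [mulH_sgl, map_smul, map_mul, smul_mul_assoc, mul_smul_comm, smul_smul,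
              mul_assoc, AlgEquiv.mul_apply]
            rw [mul_comm (c.τ (g * h) k), c.τ_assoc, mul_comm (c.τ h k)]
    one_mul := fun x => by
      change mulH c (sgl c 1 1) x = x
      induction x using induction_on with
      | zero => simp
      | add x x' h h' => rw [map_add, h, h']
      | sgl g a => simp [mulH_sgl, c.τ_one_left]
    mul_one := fun x => by
      change mulH c x (sgl c 1 1) = x
      induction x using induction_on with
      | zero => simp
      | add x x' h h' => rw [map_add, AddMonoidHom.add_apply, h, h']
      | sgl g a => simp [mulH_sgl, c.τ_one_right] }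

theorem sgl_mul_sgl (g h : G) (a b : R) :
    sgl c g a * sgl c h b = sgl c (g * h) (c.τ g h • (a * c.α g b)) := mulH_sgl g h a b

theorem one_def : (1 : CP c) = sgl c 1 1 := rfl

noncomputable instance : Algebra F (CP c) :=
  Algebra.ofModule
    (fun a x y => by
      induction x using induction_on with
      | zero => simp
      | add x x' h h' => rw [smul_add, add_mul, h, h', add_mul, smul_add]
      | sgl g r =>
        induction y using induction_on with
        | zero => simp
        | add y y' h h' => rw [mul_add, h, h', mul_add, smul_add]
        | sgl h b =>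
          rw [← sgl_smul, sgl_mul_sgl, sgl_mul_sgl, ← sgl_smul, smul_mul_assoc, smul_comm])
    (fun a x y => by
      induction x using induction_on with
      | zero => simp
      | add x x' h h' => rw [add_mul, h, h', add_mul, smul_add]
      | sgl g r =>
        induction y using induction_on with
        | zero => simp
        | add y y' h h' => rw [smul_add, mul_add, h, h', mul_add, smul_add]
        | sgl h b =>
          rw [← sgl_smul, sgl_mul_sgl, sgl_mul_sgl, ← sgl_smul, map_smul, mul_smul_comm,
            smul_comm])

theorem algebraMap_eq (a : F) : algebraMap F (CP c) a = sgl c 1 (algebraMap F R a) := by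
  rw [Algebra.algebraMap_eq_smul_one, Algebra.algebraMap_eq_smul_one, sgl_smul, one_def]

/-- the coefficient ring inside the crossed product -/
noncomputable def base (c : Cd F G R) : R →ₐ[F] CP c where
  toFun r := sgl c 1 r
  map_one' := rfl
  map_mul' a b := by simp [sgl_mul_sgl, c.τ_one_left]
  map_zero' := sgl_zero 1
  map_add' := sgl_add 1
  commutes' a := (algebraMap_eq a).symm

theorem base_apply (r : R) : base c r = sgl c 1 r := rfl

theorem mul_eq_sum (x y : CP c) : x * y = ∑ g ∈ x.co.support, ∑ h ∈ y.co.support,
    sgl c (g * h) (c.τ g h • (x.co g * c.α g (y.co h))) := by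
  conv_lhs => rw [← sum_sgl x, ← sum_sgl y, Finset.sum_mul_sum]
  simp only [sgl_mul_sgl]

open Classical in
theorem co_mul (x y : CP c) (k : G) : (x * y).co k = ∑ g ∈ x.co.support, ∑ h ∈ y.co.support,
    if g * h = k then c.τ g h • (x.co g * c.α g (y.co h)) else 0 := by
  rw [mul_eq_sum, co_sum, Finsupp.finsetSum_apply]
  refine Finset.sum_congr rfl fun g _ => ?_
  rw [co_sum, Finsupp.finsetSum_apply]
  refine Finset.sum_congr rfl fun h _ => ?_
  rw [co_sgl, Finsupp.single_apply]

theorem co_base_mul (r : R) (x : CP c) (g : G) : (base c r * x).co g = r * x.co g := by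
  classical
  induction x using induction_on with
  | zero => simp
  | add x x' h h' => simp only [mul_add, co_add, Finsupp.add_apply, h, h']
  | sgl h b =>
    rw [base_apply, sgl_mul_sgl]
    simp only [one_mul, c.τ_one_left, one_smul, map_one, AlgEquiv.one_apply, co_sgl,
      Finsupp.single_apply]
    split_ifs <;> simp

theorem co_sgl_mul [IsLeftCancelMul G] (g : G) (r : R) (x : CP c) (h : G) :
    (sgl c g r * x).co (g * h) = c.τ g h • (r * c.α g (x.co h)) := by
  classical
  induction x using induction_on with
  | zero => simp
  | add x x' h h' => simp only [mul_add, co_add, Finsupp.add_apply, h, h', map_add, smul_add]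
  | sgl h' b =>
    rw [sgl_mul_sgl]
    simp only [co_sgl, Finsupp.single_apply, mul_right_inj]
    split_ifs with hh
    · rw [hh]
    · simp

theorem co_mul_sgl [IsRightCancelMul G] (x : CP c) (h : G) (r : R) (g : G) :
    (x * sgl c h r).co (g * h) = c.τ g h • (x.co g * c.α g r) := by
  classical
  induction x using induction_on with
  | zero => simp
  | add x x' h h' => simp only [add_mul, co_add, Finsupp.add_apply, h, h', smul_add]
  | sgl g' b =>
    rw [sgl_mul_sgl]
    simp only [co_sgl, Finsupp.single_apply, mul_left_inj]
    split_ifs with hh
    · rw [hh]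
    · simp

instance [Nontrivial R] : Nontrivial (CP c) :=
  ⟨⟨1, 0, fun h => one_ne_zero (α := R) (by
    have := congrArg (fun x : CP c => x.co 1) h
    simp [one_def] at this)⟩⟩

end CP

end Vale.Agent.P200.G
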