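import Vale.Agent.P200.Defs
import Vale.Agent.P200.Eq.Basic

/-! States, their points and morphisms; blocks; the stage invariant. -/

open MvPolynomial

namespace Vale.Agent.P200.G

open Vale.Agent.P200.Eq

universe u

/-- the linear form with coefficient vector `c` -/
noncomputable def lin {R : Type*} [Semiring R] {n : ℕ} (c : Fin n → R) : Alg R (Fin n) :=
  ∑ i, AddMonoidAlgebra.single (Finsupp.single i 1) (c i)

/-- constants -/
noncomputable def cst {R : Type*} [Semiring R] (n : ℕ) : R →+* Alg R (Fin n) :=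
  AddMonoidAlgebra.singleZeroRingHom

/-- coefficientwise image -/
noncomputable def amap {R S : Type*} [Semiring R] [Semiring S] (n : ℕ) (φ : R →+* S) :
    Alg R (Fin n) →+* Alg S (Fin n) :=
  AddMonoidAlgebra.mapRingHom (Fin n →₀ ℕ) φ

/-- a finite family of commuting linear forms over a finite-dimensional division algebra that
contains the coordinates -/
structure St (n : ℕ) : Type (u + 1) where
  F : Type u
  [fF : Field F]
  D : Type u
  [dD : DivisionRing D]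
  [aD : Algebra F D]
  [fd : FiniteDimensional F D]
  O : Type
  [fO : Fintype O]
  ω : O → Fin n → D
  ev : MvPolynomial O F →ₐ[F] Alg D (Fin n)
  ev_X : ∀ p, ev (X p) = lin (ω p)
  xs : Fin n → O
  ω_xs : ∀ i, ω (xs i) = Pi.single i 1

attribute [instance] St.fF St.dD St.aD St.fd St.fO

variable {n : ℕ}

/-- a common zero of the quadratic relations -/
def St.Pt (s : St.{u} n) (Ω : Type u) [Field Ω] [Algebra s.F Ω] (χ : s.O → Ω) : Prop :=
  ∀ Q : MvPolynomial s.O s.F, Q.IsHomogeneous 2 → s.ev Q = 0 → aeval χ Q = 0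

/-- a relation that also vanishes at all common zeros of the quadratic relations -/
def St.Good (s : St.{u} n) (P : MvPolynomial s.O s.F) : Prop :=
  s.ev P = 0 ∧ ∀ (Ω : Type u) [Field Ω] [Algebra s.F Ω] (χ : s.O → Ω), s.Pt Ω χ → aeval χ P = 0

/-- a point at which the coordinates vanish is zero -/
def St.Zero (s : St.{u} n) : Prop :=
  ∀ (Ω : Type u) [Field Ω] [Algebra s.F Ω] (χ : s.O → Ω), s.Pt Ω χ → (∀ i, χ (s.xs i) = 0) →
    ∀ p, χ p = 0

/-- an extension of states -/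
structure Mor (s s' : St.{u} n) where
  φF : s.F →+* s'.F
  φ : s.D →+* s'.D
  alg : ∀ c, φ (algebraMap s.F s.D c) = algebraMap s'.F s'.D (φF c)
  e : s.O → s'.O
  ω_e : ∀ p i, s'.ω (e p) i = φ (s.ω p i)
  xs_e : ∀ i, e (s.xs i) = s'.xs i
  comm : ∀ x, (∀ p i, Commute x (s.ω p i)) → ∀ p i, Commute (φ x) (s'.ω p i)
  zero : ∀ (Ω : Type u) [Field Ω] [Algebra s'.F Ω] (χ : s'.O → Ω), s'.Pt Ω χ →
    (∀ p, χ (e p) = 0) → ∀ p, χ p = 0

/-- transport of polynomials along an extension -/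
noncomputable def Mor.push {s s' : St.{u} n} (μ : Mor s s') :
    MvPolynomial s.O s.F →+* MvPolynomial s'.O s'.F :=
  (rename μ.e : MvPolynomial s.O s'.F →ₐ[s'.F] MvPolynomial s'.O s'.F).toRingHom.comp
    (MvPolynomial.map μ.φF)

/-- `M` cyclic blocks `(t₀ - t₁ aᵣ) vᵣ` of degree `A` -/
structure Blk (F D : Type u) [Field F] [DivisionRing D] [Algebra F D] (ζ : F) (A M : ℕ) where
  γ : Fin M → D
  v : Fin M → D
  a : Fin M → D
  g : Fin M → MvPolynomial (Fin 2) F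
  γ0 : ∀ r, γ r ≠ 0
  v0 : ∀ r, v r ≠ 0
  γA : ∀ r, ∃ c, γ r ^ A = algebraMap F D c
  vA : ∀ r, ∃ c, v r ^ A = algebraMap F D c
  γγ : ∀ r t, Commute (γ r) (γ t)
  vγ : ∀ r, v r * γ r = ζ • (γ r * v r)
  vγ' : ∀ r t, r ≠ t → Commute (v r) (γ t)
  vv : ∀ r t, r < t → v r * v t = ζ • (v t * v r)
  aγ : ∀ r, a r ∈ Algebra.adjoin F {γ r}
  av : ∀ r k, 0 < k → k < A → ¬ Commute (a r) (v r ^ k)
  gh : ∀ r, (g r).IsHomogeneous A
  hg : ∀ r, lin ![v r, -(a r * v r)] ^ A = inc F D (Fin 2) (g r)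

/-- the invariant of stage `m` -/
def Inv {k : Type u} [Field k] {c : ℕ} (hc : c ≤ n) (a : Fin c → ℕ)
    (f : Fin c → MvPolynomial (Fin n) k) (s : St.{u} n) (φ : k →+* s.F)
    (y : Fin n → MvPolynomial s.O s.F) (m : ℕ) : Prop :=
  (∀ j, (y j).IsHomogeneous 1) ∧
  (∀ (Ω : Type u) [Field Ω] [Algebra s.F Ω] (χ : s.O → Ω), s.Pt Ω χ →
    (∀ i : Fin c, (i : ℕ) < m → aeval χ (rename s.xs (MvPolynomial.map φ (f i))) = 0) →
    (∀ j : Fin n, m ≤ (j : ℕ) → aeval χ (y j) = 0) → ∀ p, χ p = 0) ∧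
  ∀ i : Fin c, m ≤ (i : ℕ) → ∃ P ∈ Ideal.span
    (Set.range (fun i' => rename s.xs (MvPolynomial.map φ (f i'))) ∪
      y '' Set.Ioi (Fin.castLE hc i)), s.ev (y (Fin.castLE hc i) ^ a i - P) = 0

end Vale.Agent.P200.G
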