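import Vale.Agent.P200.G.DomR

/-! The weight subring is a domain, finite over a commutative subring. -/

open Finset TensorProduct

namespace Vale.Agent.P200.G

open Vale.Agent.P200.Eq

universe u

variable {A : ℕ} [NeZero A] {F L : Type u} [Field F] [Field L] [Algebra F L] {Z : Cyc F L A}
  (P : Pk Z) {E D : Type u} [DivisionRing E] [Algebra F E] [FiniteDimensional F E]
  [DivisionRing D] [Algebra F D] [FiniteDimensional F D] (I : Inp Z E D)

section aux

variable (E) (s : F)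

theorem domD_τ (n : Fin A → ℤ) (g : Gw A) : (P.cd E s).τ (gn n) g = 1 := by
  rw [P.cd_τ]
  simp [gn, Nat.div_eq_of_lt g.k.2]

theorem domD_τ' (n : Fin A → ℤ) (g : Gw A) : (P.cd E s).τ g (gn n) = 1 := by
  rw [P.cd_τ]
  simp [gn, Nat.div_eq_of_lt g.k.2]

theorem domD_α (z : ℤ) (r : P.k ⊗[F] E) : (P.cd E s).α (gn fun _ => z) r = r := by
  induction r using TensorProduct.induction_on with
  | zero => simp
  | add x y hx hy => rw [map_add, hx, hy]
  | tmul f e => rw [P.cd_α_tmul, P.α_const, AlgEquiv.one_apply]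

/-- the central units -/
noncomputable def domDu (z : ℤ) : P.X E s := CP.sgl _ (gn fun _ => z) 1

theorem domD_gc (z : ℤ) (g : Gw A) : gn (fun _ => z) * g = g * gn fun _ => z :=
  Gw.ext (funext fun j => by simp [gn, add_comm]) (by simp [gn]) (by simp [gn])

theorem domD_comm (z : ℤ) (x : P.X E s) : domDu P E s z * x = x * domDu P E s z := by
  induction x using CP.induction_on with
  | zero => simp
  | add x y hx hy => rw [mul_add, add_mul, hx, hy]
  | sgl g r =>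
    rw [domDu, CP.sgl_mul_sgl, CP.sgl_mul_sgl, domD_τ, domD_τ', domD_α, map_one, one_mul, mul_one,
      domD_gc]

theorem domD_inv (z : ℤ) : domDu P E s (-z) * domDu P E s z = 1 := by
  have h : (gn fun _ => -z : Gw A) * gn (fun _ => z) = 1 :=
    Gw.ext (funext fun j => by simp [gn]) (by simp [gn]) (by simp [gn])
  rw [domDu, domDu, CP.sgl_mul_sgl, domD_τ, map_one, one_mul, one_smul, h, CP.one_def]

theorem domD_cancel {z : ℤ} {x : P.X E s} (h : domDu P E s z * x = 0) : x = 0 := by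
  rw [← one_mul x, ← domD_inv P E s z, mul_assoc, h, mul_zero]

theorem domD_const_smul (z : ℤ) (y : Ix A) : (gn fun _ => z : Gw A) • y = y := by
  rw [Gw.smul_def]
  simp [gn, pd]

theorem domD_A_smul (n : Fin A → ℤ) (y : Ix A) : (gn ((A : ℤ) • n) : Gw A) • y = y := by
  rw [Gw.smul_def]
  have h : pd ((A : ℤ) • n) y.1 • (1 : Fin A) = 0 := by
    rw [pd_smul, Pi.smul_apply, smul_eq_mul, mul_comm, mul_zsmul, A_zsmul_one, zsmul_zero]
  simp only [gn, add_zero, h]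

theorem domD_pos {x : P.X E s} (hx : x ∈ P.Sub E s P.N) :
    ∃ z : ℤ, domDu P E s z * x ∈ P.Sub E s (P.Np 0) := by
  classical
  obtain ⟨z, hz⟩ : ∃ z : ℤ, ∀ g ∈ x.co.support, ∀ j, 0 ≤ z + g.n j := by
    refine ⟨∑ g ∈ x.co.support, ∑ j, |g.n j|, fun g hg j => ?_⟩
    have h1 : |g.n j| ≤ ∑ j, |g.n j| :=
      single_le_sum (f := fun j => |g.n j|) (fun _ _ => abs_nonneg _) (mem_univ j)
    have h2 : ∑ j, |g.n j| ≤ ∑ g ∈ x.co.support, ∑ j, |g.n j| :=
      single_le_sum (f := fun g : Gw A => ∑ j, |g.n j|)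
        (fun _ _ => sum_nonneg fun _ _ => abs_nonneg _) hg
    have h3 := neg_abs_le (g.n j)
    linarith
  refine ⟨z, fun g => ?_⟩
  obtain ⟨h, rfl⟩ : ∃ h, g = gn (fun _ => z) * h := ⟨(gn fun _ => z)⁻¹ * g, by simp⟩
  rw [domDu, CP.co_sgl_mul, domD_τ, domD_α, one_mul, one_smul]
  by_cases hh : h ∈ x.co.support
  · have h0 : ∀ j, 0 ≤ (gn (fun _ => z) * h).n j := fun j => hz h hh _
    rw [Pk.Np, if_pos ⟨h0, by simpa using sum_nonneg fun j _ => h0 j⟩, Pk.N, mul_smul,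
      domD_const_smul]
    exact hx h
  · rw [Finsupp.notMem_support_iff.1 hh]
    exact zero_mem _

theorem domD_gen_mem (n : Fin A → ℤ) {c : P.k} (hc : c ∈ P.W (ixo A) (ixo A)) :
    CP.sgl (P.cd E s) (gn ((A : ℤ) • n)) (c ⊗ₜ 1) ∈ P.DD E s := by
  refine P.sgl_mem_Sub E s (tmul_mem_TE ?_ _)
  rw [Pk.N, domD_A_smul]
  exact hc

theorem domD_gen_mul (n : Fin A → ℤ) (c : P.k) (g : Gw A) (f : P.k) (e : E) :
    CP.sgl (P.cd E s) (gn n) (c ⊗ₜ 1) * CP.sgl (P.cd E s) g (f ⊗ₜ e) =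
      CP.sgl (P.cd E s) (gn n * g) ((c * P.α (gn n) f) ⊗ₜ e) := by
  rw [CP.sgl_mul_sgl, domD_τ, one_smul, P.cd_α_tmul, Algebra.TensorProduct.tmul_mul_tmul, one_mul]

end aux

theorem domD {x y : P.X E I.s} (hx : x ∈ P.Sub E I.s P.N) (hy : y ∈ P.Sub E I.s P.N)
    (h : x * y = 0) : x = 0 ∨ y = 0 := by
  obtain ⟨z, hz⟩ := domD_pos P E I.s hx
  obtain ⟨z', hz'⟩ := domD_pos P E I.s hy
  refine (domR P I hz hz' ?_).imp (domD_cancel P E I.s) (domD_cancel P E I.s)
  rw [domD_comm P E I.s z', mul_assoc, ← mul_assoc x, h, zero_mul, mul_zero]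

theorem domD_fin {R : Type*} [Ring R] (Y : Subring R) (S : Finset R)
    (h : ∀ r, r ∈ Submodule.span Y (S : Set R)) (r : R) :
    ∃ c : R → R, (∀ x, c x ∈ Y) ∧ r = ∑ x ∈ S, c x * x := by
  obtain ⟨f, -, hf⟩ := Submodule.mem_span_finset.1 (h r)
  exact ⟨fun x => f x, fun x => (f x).2, hf.symm⟩

theorem domFin : DomFin (P.DD E I.s) := by
  classical
  choose η hη hη0 using fun g : Gw A => P.W_ne (ixo A) (g • ixo A)
  let b := Module.finBasis F E
  let T : Set (P.DD E I.s) := {t | ∃ (n : Fin A → ℤ), ∃ c ∈ P.W (ixo A) (ixo A),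
    (t : P.X E I.s) = CP.sgl (P.cd E I.s) (gn ((A : ℤ) • n)) (c ⊗ₜ 1)}
  have hT : ∀ t ∈ T, ∀ t' ∈ T, t * t' = t' * t := by
    rintro t ⟨n, c, hc, e⟩ t' ⟨n', c', hc', e'⟩
    apply Subtype.ext
    have hg : (gn ((A : ℤ) • n) : Gw A) * gn ((A : ℤ) • n') =
        gn ((A : ℤ) • n') * gn ((A : ℤ) • n) :=
      Gw.ext (funext fun j => by simp [gn, add_comm]) (by simp [gn]) (by simp [gn])
    rw [MulMemClass.coe_mul, MulMemClass.coe_mul, e, e', domD_gen_mul, domD_gen_mul,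
      P.α_A _ _ _ hc, P.α_A _ _ _ hc', hg, mul_comm c]
  let Y : Subring (P.DD E I.s) := Subring.centralizer (Subring.centralizer T)
  have hTY : ∀ t ∈ T, t ∈ Y := fun t ht => Subring.mem_centralizer_iff.2 fun r hr =>
    (Subring.mem_centralizer_iff.1 hr t ht).symm
  let g0 : (Fin A → Fin A) × Fin A × Fin A → Gw A := fun z => ⟨fun j => (z.1 j).val, z.2.1, z.2.2⟩
  let el : ((Fin A → Fin A) × Fin A × Fin A) × Fin (Module.finrank F E) → P.DD E I.s := fun z =>
    ⟨CP.sgl (P.cd E I.s) (g0 z.1) (η (g0 z.1) ⊗ₜ b z.2),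
      P.sgl_mem_Sub E I.s (tmul_mem_TE (N := P.N (g0 z.1)) (hη _) _)⟩
  refine ⟨one_ne_zero, fun x y h => ?_, Y, univ.image el, fun x hx y hy => ?_,
    domD_fin _ _ fun r => ?_⟩
  · exact (domD P I x.2 y.2 (congrArg Subtype.val h)).imp Subtype.ext Subtype.ext
  · refine (Subring.mem_centralizer_iff.1 hx y (Subring.mem_centralizer_iff.2 fun t ht => ?_)).symm
    exact Subring.mem_centralizer_iff.1 hy t
      (Subring.mem_centralizer_iff.2 fun t' ht' => hT t' ht' t ht)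
  · have key : ∀ g, ∀ f ∈ P.N g, ∀ i, ∃ hx : CP.sgl (P.cd E I.s) g (f ⊗ₜ b i) ∈ P.DD E I.s,
        (⟨_, hx⟩ : P.DD E I.s) ∈ Submodule.span Y (univ.image el : Set (P.DD E I.s)) := by
      intro g f hf i
      have hA : (0 : ℤ) < A := by exact_mod_cast Nat.pos_of_ne_zero (NeZero.ne A)
      let z : (Fin A → Fin A) × Fin A × Fin A := (fun j => ⟨(g.n j % A).toNat, by
        have h1 := Int.emod_lt_of_pos (g.n j) hA
        have h2 := Int.emod_nonneg (g.n j) hA.ne'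
        omega⟩, g.k, g.h)
      let q : Fin A → ℤ := fun j => g.n j / A
      have hg : gn ((A : ℤ) • q) * g0 z = g := by
        refine Gw.ext (funext fun j => ?_) (by simp [gn, g0, z]) (by simp [gn, g0, z])
        have h2 := Int.emod_nonneg (g.n j) hA.ne'
        simp only [gn, g0, z, q, Gw.mul_n, sub_zero, Pi.smul_apply, smul_eq_mul,
          Int.toNat_of_nonneg h2]
        exact Int.mul_ediv_add_emod _ _
      have h1 := P.W_act (gn ((A : ℤ) • q)) _ _ _ (hη (g0 z))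
      rw [← mul_smul, hg, domD_A_smul] at h1
      have h2 : P.α (gn ((A : ℤ) • q)) (η (g0 z)) ≠ 0 := (map_ne_zero _).2 (hη0 _)
      have hc := P.W_mul _ _ _ f hf _ (P.W_inv _ _ _ h1)
      refine ⟨P.sgl_mem_Sub E I.s (tmul_mem_TE hf _), ?_⟩
      have h3 := Submodule.smul_mem (Submodule.span Y (univ.image el : Set (P.DD E I.s)))
        (⟨⟨_, domD_gen_mem P E I.s q hc⟩, hTY _ ⟨q, _, hc, rfl⟩⟩ : Y)
        (Submodule.subset_span (mem_coe.2 (mem_image_of_mem el (mem_univ (z, i)))))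
      refine (congrArg (· ∈ _) (Subtype.ext ?_)).mp h3
      change CP.sgl (P.cd E I.s) _ _ * CP.sgl (P.cd E I.s) _ _ = CP.sgl (P.cd E I.s) _ _
      rw [domD_gen_mul, hg, inv_mul_cancel_right₀ h2]
    have main : ∃ hx : (r : P.X E I.s) ∈ P.DD E I.s,
        (⟨_, hx⟩ : P.DD E I.s) ∈ Submodule.span Y (univ.image el : Set (P.DD E I.s)) := by
      refine P.Sub_induction E I.s (N := P.N) (p := fun x => ∃ hx : x ∈ P.DD E I.s,
        (⟨x, hx⟩ : P.DD E I.s) ∈ Submodule.span Y (univ.image el : Set (P.DD E I.s)))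
        ⟨zero_mem _, zero_mem _⟩ ?_ ?_ r.2
      · rintro x y - - ⟨hx, hx'⟩ ⟨hy, hy'⟩
        exact ⟨add_mem hx hy, add_mem hx' hy'⟩
      · intro g f hf e
        refine ⟨P.sgl_mem_Sub E I.s (tmul_mem_TE hf _), ?_⟩
        choose hx hx' using fun i => key g (b.repr e i • f) (Submodule.smul_mem _ _ hf) i
        refine (congrArg (· ∈ _) (Subtype.ext ?_)).mp (Submodule.sum_mem _ fun i _ => hx' i :
          ∑ i, (⟨_, hx i⟩ : P.DD E I.s) ∈ _)
        rw [AddSubmonoidClass.coe_finsetSum, ← CP.sgl_sum]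
        congr 1
        conv_rhs => rw [← b.sum_repr e, tmul_sum]
        exact sum_congr rfl fun i _ => smul_tmul _ _ _
    exact main.2

end Vale.Agent.P200.G
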