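import Vale.Agent.P200.G.Dom0

/-! The nonnegative part of the weight subring has no zero divisors. -/

open Finset TensorProduct

namespace Vale.Agent.P200.G

open Vale.Agent.P200.Eq

universe u

namespace DomR

variable {A : ℕ} [NeZero A] {F L : Type u} [Field F] [Field L] [Algebra F L] {Z : Cyc F L A}
  (P : Pk Z) (E : Type u) [DivisionRing E] [Algebra F E] (s : F)

/-- the functions of weight zero -/
def k0 : Subfield P.k where
  carrier := P.W (ixo A) (ixo A)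
  mul_mem' := fun hf hg => P.W_mul _ _ _ _ hf _ hg
  one_mem' := P.W_one _
  add_mem' := fun hf hg => add_mem hf hg
  zero_mem' := zero_mem _
  neg_mem' := fun hf => neg_mem hf
  inv_mem' := fun _ hf => P.W_inv _ _ _ hf

theorem mem_k0 {f : P.k} : f ∈ k0 P ↔ f ∈ P.W (ixo A) (ixo A) := Iff.rfl

theorem mem_N {g : Gw A} {f : P.k} : f ∈ P.N g ↔ f ∈ P.W (ixo A) (g • ixo A) := Iff.rfl

/-- a nonzero function of the weight of `g` -/
noncomputable def eta (g : Gw A) : P.k := (P.W_ne (ixo A) (g • ixo A)).choose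

theorem eta_mem (g : Gw A) : eta P g ∈ P.N g := (P.W_ne (ixo A) (g • ixo A)).choose_spec.1

theorem eta_ne (g : Gw A) : eta P g ≠ 0 := (P.W_ne (ixo A) (g • ixo A)).choose_spec.2

theorem div_eta_mem {g : Gw A} {f : P.k} (hf : f ∈ P.N g) : f / eta P g ∈ k0 P := by
  rw [div_eq_mul_inv, mem_k0]
  exact P.W_mul _ _ _ _ hf _ (P.W_inv _ _ _ (eta_mem P g))

theorem k0_mem_N_one {f : P.k} (hf : f ∈ k0 P) : f ∈ P.N 1 := by
  rw [mem_N, one_smul]
  exact hf

/-- the embedding of the functions of weight zero -/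
noncomputable def dl : k0 P →+* P.X E s :=
  (CP.base (P.cd E s)).toRingHom.comp
    ((Algebra.TensorProduct.includeLeftRingHom (R := F) (A := P.k) (B := E)).comp (k0 P).subtype)

theorem dl_apply (c : k0 P) : dl P E s c = CP.base (P.cd E s) ((c : P.k) ⊗ₜ (1 : E)) := rfl

theorem tmul_one_mul (c : P.k) (r : P.k ⊗[F] E) : (c ⊗ₜ (1 : E)) * r = c • r := by
  induction r using TensorProduct.induction_on with
  | zero => simp
  | add x y hx hy => rw [mul_add, smul_add, hx, hy]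
  | tmul f e => rw [Algebra.TensorProduct.tmul_mul_tmul, one_mul, smul_tmul', smul_eq_mul]

theorem co_dl_mul (c : k0 P) (x : P.X E s) (g : Gw A) :
    (dl P E s c * x).co g = (c : P.k) • x.co g := by
  rw [dl_apply, CP.co_base_mul, tmul_one_mul]

theorem dl_mul_sgl (c : k0 P) (g : Gw A) (r : P.k ⊗[F] E) :
    dl P E s c * CP.sgl (P.cd E s) g r = CP.sgl (P.cd E s) g ((c : P.k) • r) := by
  classical
  refine CP.ext fun g' => ?_
  rw [co_dl_mul, CP.co_sgl, CP.co_sgl, Finsupp.single_apply, Finsupp.single_apply]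
  split_ifs <;> simp

theorem N0_of_eq {g : Gw A} (h : g.n = 0) : P.N0 g = P.N g := if_pos h

theorem N0_of_ne {g : Gw A} (h : g.n ≠ 0) : P.N0 g = ⊥ := if_neg h

theorem Np_of_pos {m : ℕ} {g : Gw A} (h : 0 ≤ g.n) (h' : (m : ℤ) ≤ ∑ j, g.n j) :
    P.Np m g = P.N g := if_pos ⟨h, h'⟩

theorem Np_of_neg {m : ℕ} {g : Gw A} (h : ¬ (0 ≤ g.n ∧ (m : ℤ) ≤ ∑ j, g.n j)) :
    P.Np m g = ⊥ := if_neg h

theorem Np_zero {g : Gw A} (h : 0 ≤ g.n) : P.Np 0 g = P.N g :=
  Np_of_pos P h (by exact_mod_cast Finset.sum_nonneg fun j _ => h j)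

theorem Np_le (m : ℕ) (g : Gw A) : P.Np m g ≤ P.N g := by
  by_cases h : 0 ≤ g.n ∧ (m : ℤ) ≤ ∑ j, g.n j
  · rw [Np_of_pos P h.1 h.2]
  · rw [Np_of_neg P h]
    exact bot_le

theorem N0_le (g : Gw A) : P.N0 g ≤ P.Np 0 g := by
  by_cases h : g.n = 0
  · rw [N0_of_eq P h, Np_zero P h.ge]
  · rw [N0_of_ne P h]
    exact bot_le

theorem one_mem_N0 : (1 : P.k) ∈ P.N0 1 := by
  rw [N0_of_eq P rfl]
  exact P.one_mem_N

theorem one_mem_Np : (1 : P.k) ∈ P.Np 0 1 := N0_le P 1 (one_mem_N0 P)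

theorem dl_mem (c : k0 P) : dl P E s c ∈ P.Sub E s P.N0 := by
  rw [dl_apply, CP.base_apply]
  refine P.sgl_mem_Sub E s (tmul_mem_TE ?_ _)
  rw [N0_of_eq P rfl]
  exact k0_mem_N_one P c.2

theorem eq_zero_of_bot {r : P.k ⊗[F] E} {N : Submodule F P.k} (hr : r ∈ TE E N) (h : N = ⊥) :
    r = 0 := by
  rw [h, TE_bot] at hr
  exact hr

/-- the nonnegative part -/
noncomputable def Rp : Subalgebra F (P.X E s) :=
  P.alg E s (P.Np 0) (one_mem_Np P) (P.Np_mul 0 0)

theorem mem_Rp {x : P.X E s} : x ∈ Rp P E s ↔ x ∈ P.Sub E s (P.Np 0) := Iff.rfl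

/-- the group element attached to an index -/
def gp {ι : Type*} (p : (Fin A × Fin A × ι) × Mon (Fin A)) : Gw A :=
  ⟨fun j => (p.2 j : ℤ), p.1.1, p.1.2.1⟩

omit [NeZero A] in
theorem gp_nonneg {ι : Type*} (p : (Fin A × Fin A × ι) × Mon (Fin A)) : 0 ≤ (gp p).n :=
  fun j => Int.natCast_nonneg (p.2 j)

omit [NeZero A] in
theorem gp_sum {ι : Type*} (p : (Fin A × Fin A × ι) × Mon (Fin A)) :
    ∑ j, (gp p).n j = (Finsupp.weight (fun _ : Fin A => 1) p.2 : ℕ) := by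
  rw [Finsupp.weight_apply, Finsupp.sum_fintype _ _ (by simp)]
  simp [gp]

omit [NeZero A] in
theorem exists_gp {ι : Type*} {g : Gw A} (hg : 0 ≤ g.n) (i : ι) :
    ∃ μ : Mon (Fin A), gp ((g.k, g.h, i), μ) = g := by
  refine ⟨Finsupp.equivFunOnFinite.symm fun j => (g.n j).toNat, ?_⟩
  refine Gw.ext (funext fun j => ?_) rfl rfl
  exact Int.toNat_of_nonneg (hg j)

omit [NeZero A] in
theorem gp_inj {ι : Type*} {p p' : (Fin A × Fin A × ι) × Mon (Fin A)} (h : gp p = gp p')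
    (h' : p.1.2.2 = p'.1.2.2) : p = p' := by
  have h1 : p.1.1 = p'.1.1 := congrArg Gw.k h
  have h2 : p.1.2.1 = p'.1.2.1 := congrArg Gw.h h
  have h3 : p.2 = p'.2 := Finsupp.ext fun j => by
    have := congrFun (congrArg Gw.n h) j
    exact Int.natCast_inj.mp this
  exact Prod.ext (Prod.ext h1 (Prod.ext h2 h')) h3

variable {ι : Type*} (b : Module.Basis ι F E)

/-- the symbol -/
noncomputable def sym : Rp P E s →+ ((Fin A × Fin A × ι) × Mon (Fin A) → k0 P) where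
  toFun x p := ⟨(b.baseChange P.k).repr (x.1.co (gp p)) p.1.2.2 / eta P (gp p),
    div_eta_mem P (Np_le P 0 _ ((mem_TE_iff b _).1 (x.2 (gp p)) _))⟩
  map_zero' := by
    funext p
    refine Subtype.ext ?_
    simp
  map_add' x y := by
    funext p
    refine Subtype.ext ?_
    simp [add_div]

theorem sym_apply (x : Rp P E s) (p : (Fin A × Fin A × ι) × Mon (Fin A)) :
    (sym P E s b x p : P.k) = (b.baseChange P.k).repr (x.1.co (gp p)) p.1.2.2 / eta P (gp p) := rfl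

theorem sym_eq_zero (x : Rp P E s) (p : (Fin A × Fin A × ι) × Mon (Fin A)) :
    sym P E s b x p = 0 ↔ (b.baseChange P.k).repr (x.1.co (gp p)) p.1.2.2 = 0 := by
  rw [← Subtype.coe_inj, sym_apply, ZeroMemClass.coe_zero, div_eq_zero_iff, or_iff_left]
  exact eta_ne P _

theorem fil_iff (m : ℕ) (x : Rp P E s) :
    Fil (fun _ : Fin A => 1) m (sym P E s b x) ↔ x.1 ∈ P.Sub E s (P.Np m) := by
  constructor
  · intro h g
    by_cases hg : 0 ≤ g.n
    · by_cases hm : (m : ℤ) ≤ ∑ j, g.n j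
      · rw [Np_of_pos P hg hm]
        exact TE_mono (Np_le P 0 g) (x.2 g)
      · rw [mem_TE_iff b]
        intro i
        obtain ⟨μ, hμ⟩ := exists_gp hg i
        have h1 := h ((g.k, g.h, i), μ) (by
          have h2 := gp_sum ((g.k, g.h, i), μ)
          rw [hμ] at h2
          rw [h2] at hm
          exact_mod_cast not_le.1 hm)
        rw [sym_eq_zero, hμ] at h1
        rw [h1]
        exact zero_mem _
    · rw [eq_zero_of_bot P E (x.2 g) (Np_of_neg P fun h => hg h.1)]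
      exact zero_mem _
  · intro h p hp
    rw [sym_eq_zero, eq_zero_of_bot P E (h (gp p)) (Np_of_neg P fun h => ?_)]
    · simp
    · have h2 := h.2
      rw [gp_sum] at h2
      exact absurd (by exact_mod_cast h2) (not_le.2 hp)

theorem sym_ne_zero {x : Rp P E s} (hx : x.1 ≠ 0) : sym P E s b x ≠ 0 := by
  intro h
  refine hx (CP.ext fun g => ?_)
  have h1 := (fil_iff P E s b ((∑ j, g.n j).toNat + 1) x).1 (by
    rw [h]
    exact fun _ _ => rfl) g
  refine eq_zero_of_bot P E h1 (Np_of_neg P fun h2 => ?_)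
  have h3 := h2.2
  have h4 := Int.self_le_toNat (∑ j, g.n j)
  push_cast at h3
  omega

/-- the embedding into the nonnegative part -/
noncomputable def dR : k0 P →+* Rp P E s :=
  (dl P E s).codRestrict (Rp P E s) fun c => P.Sub_mono E s (N0_le P) (dl_mem P E s c)

theorem sym_lin (c : k0 P) (x : Rp P E s) (p : (Fin A × Fin A × ι) × Mon (Fin A)) :
    sym P E s b (dR P E s c * x) p = c * sym P E s b x p := by
  refine Subtype.ext ?_
  have h : (dR P E s c * x).1 = dl P E s c * x.1 := rfl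
  rw [MulMemClass.coe_mul, sym_apply, sym_apply, h, co_dl_mul, map_smul, Finsupp.smul_apply,
    smul_eq_mul, mul_div_assoc]

theorem sym_basis (p : (Fin A × Fin A × ι) × Mon (Fin A)) :
    ∃ x, sym P E s b x p = 1 ∧ ∀ p', p' ≠ p → sym P E s b x p' = 0 := by
  classical
  refine ⟨⟨CP.sgl (P.cd E s) (gp p) (eta P (gp p) ⊗ₜ b p.1.2.2), ?_⟩, ?_, ?_⟩
  · refine P.sgl_mem_Sub E s (tmul_mem_TE ?_ _)
    rw [Np_zero P (gp_nonneg p)]
    exact eta_mem P _
  · refine Subtype.ext ?_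
    rw [sym_apply]
    simp [eta_ne P (gp p)]
  · intro p' hp'
    rw [sym_eq_zero]
    by_cases h : gp p = gp p'
    · have h' : p.1.2.2 ≠ p'.1.2.2 := fun h' => hp' (gp_inj h h').symm
      simp [← h, h']
    · simp [h]

theorem sym_shift (v : Fin A) : ∃ f, ∀ x p, sym P E s b (f * x) p ≠ 0 ↔
    ∃ μ, p.2 = μ + Finsupp.single v 1 ∧ sym P E s b x (p.1, μ) ≠ 0 := by
  classical
  set g0 : Gw A := gn (Pi.single v 1) with hg0
  have hpos : 0 ≤ g0.n := by
    intro j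
    change (0 : ℤ) ≤ (Pi.single v 1 : Fin A → ℤ) j
    rw [Pi.single_apply]
    split_ifs <;> simp
  refine ⟨⟨CP.sgl (P.cd E s) g0 (eta P g0 ⊗ₜ 1), ?_⟩, fun x p => ?_⟩
  · refine P.sgl_mem_Sub E s (tmul_mem_TE ?_ _)
    rw [Np_zero P hpos]
    exact eta_mem P _
  have hk : g0.k = 0 := rfl
  have hh : g0.h = 0 := rfl
  have hn : ∀ j, g0.n j = ((Finsupp.single v 1 : Mon (Fin A)) j : ℤ) := fun j => by
    change (Pi.single v 1 : Fin A → ℤ) j = _
    rw [Pi.single_apply, Finsupp.single_apply]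
    by_cases h : j = v
    · simp [h]
    · simp [h, Ne.symm h]
  have key : ∀ (h : Gw A) (i : ι), (b.baseChange P.k).repr
      ((CP.sgl (P.cd E s) g0 (eta P g0 ⊗ₜ 1) * x.1).co (g0 * h)) i ≠ 0 ↔
      (b.baseChange P.k).repr (x.1.co h) i ≠ 0 := fun h i => by
    rw [CP.co_sgl_mul, P.cd_τ, hk, Fin.val_zero, zero_add, Nat.div_eq_of_lt h.k.2, pow_zero,
      one_smul, tmul_one_mul, map_smul, Finsupp.smul_apply, smul_eq_mul, P.repr_α, mul_ne_zero_iff,
      and_iff_right (eta_ne P g0), map_ne_zero_iff _ (P.α g0).injective]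
  have hgp : ∀ μ : Mon (Fin A), p.2 = μ + Finsupp.single v 1 → gp p = g0 * gp (p.1, μ) := by
    intro μ hμ
    refine Gw.ext (funext fun j => ?_) ?_ ?_
    · rw [Gw.mul_n, hh, sub_zero, hn]
      change ((p.2 j : ℕ) : ℤ) = _ + ((μ j : ℕ) : ℤ)
      rw [hμ, Finsupp.add_apply]
      push_cast
      ring
    · rw [Gw.mul_k, hk, zero_add]
      rfl
    · rw [Gw.mul_h, hh, zero_add]
      rfl
  rw [Ne, sym_eq_zero]
  change (b.baseChange P.k).repr
      ((CP.sgl (P.cd E s) g0 (eta P g0 ⊗ₜ 1) * x.1).co (gp p)) p.1.2.2 ≠ 0 ↔ _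
  constructor
  · intro h
    have h1 : gp p = g0 * (g0⁻¹ * gp p) := by rw [mul_inv_cancel_left]
    rw [h1, key] at h
    have h2 : 0 ≤ (g0⁻¹ * gp p).n := by
      by_contra h3
      rw [eq_zero_of_bot P E (x.2 (g0⁻¹ * gp p)) (Np_of_neg P fun h4 => h3 h4.1)] at h
      simp at h
    have h3 : Finsupp.single v 1 ≤ p.2 := fun j => by
      have h4 := h2 j
      rw [Gw.mul_n, Gw.inv_n, Gw.inv_h, hh, neg_zero, add_zero, sub_zero, hn] at h4
      change (0 : ℤ) ≤ _ + ((p.2 j : ℕ) : ℤ) at h4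
      omega
    have h5 : p.2 = (p.2 - Finsupp.single v 1) + Finsupp.single v 1 :=
      (tsub_add_cancel_of_le h3).symm
    refine ⟨p.2 - Finsupp.single v 1, h5, ?_⟩
    rw [Ne, sym_eq_zero]
    rwa [hgp _ h5, inv_mul_cancel_left] at h
  · rintro ⟨μ, hμ, h⟩
    rw [Ne, sym_eq_zero] at h
    rw [hgp μ hμ, key]
    exact h

/-- the part of degree zero -/
theorem exists_part {x : P.X E s} (hx : x ∈ P.Sub E s (P.Np 0)) :
    ∃ x0 ∈ P.Sub E s P.N0, x - x0 ∈ P.Sub E s (P.Np 1) := by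
  classical
  refine ⟨CP.ofCo _ (x.co.filter fun g => g.n = 0), fun g => ?_, fun g => ?_⟩
  · rw [CP.co_ofCo, Finsupp.filter_apply]
    split_ifs with h
    · rw [N0_of_eq P h]
      exact TE_mono (Np_le P 0 g) (hx g)
    · exact zero_mem _
  · rw [CP.co_sub, CP.co_ofCo, Finsupp.sub_apply, Finsupp.filter_apply]
    split_ifs with h
    · rw [sub_self]
      exact zero_mem _
    · rw [sub_zero]
      by_cases hg : 0 ≤ g.n
      · rw [Np_of_pos P hg ?_]
        · exact TE_mono (Np_le P 0 g) (hx g)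
        · have h1 : 0 < ∑ j, g.n j := by
            obtain ⟨j, hj⟩ := Function.ne_iff.1 h
            exact Finset.sum_pos' (fun i _ => hg i) ⟨j, mem_univ j, lt_of_le_of_ne (hg j) hj.symm⟩
          exact h1
      · rw [eq_zero_of_bot P E (hx g) (Np_of_neg P fun h => hg h.1)]
        exact zero_mem _

theorem span0 [Fintype ι] {x : P.X E s} (hx : x ∈ P.Sub E s P.N0) :
    ∃ c : Fin A × Fin A × ι → k0 P, x = ∑ i, dl P E s (c i) *
      CP.sgl (P.cd E s) ⟨0, i.1, i.2.1⟩ (eta P ⟨0, i.1, i.2.1⟩ ⊗ₜ b i.2.2) := by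
  classical
  refine ⟨fun i => ⟨(b.baseChange P.k).repr (x.co ⟨0, i.1, i.2.1⟩) i.2.2 / eta P ⟨0, i.1, i.2.1⟩,
    div_eta_mem P ?_⟩, ?_⟩
  · rw [← N0_of_eq P rfl]
    exact (mem_TE_iff b _).1 (hx _) _
  have h1 : ∀ (g : Gw A) (f : P.k) (e : E), (f / eta P g) • (eta P g ⊗ₜ[F] e) = f ⊗ₜ e :=
    fun g f e => by rw [smul_tmul', smul_eq_mul, div_mul_cancel₀ _ (eta_ne P g)]
  simp only [dl_mul_sgl, h1]
  rw [Fintype.sum_prod_type]
  simp only [Fintype.sum_prod_type, ← CP.sgl_sum, ← eq_sum_repr]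
  refine CP.ext fun g => ?_
  simp only [CP.co_sum, Finsupp.finsetSum_apply, CP.co_sgl, Finsupp.single_apply]
  by_cases hg : g.n = 0
  · have h2 : (⟨0, g.k, g.h⟩ : Gw A) = g := Gw.ext hg.symm rfl rfl
    rw [Finset.sum_eq_single g.k, Finset.sum_eq_single g.h, if_pos h2, h2]
    · intro h _ hh
      exact if_neg fun h3 => hh (congrArg Gw.h h3)
    · simp
    · intro k _ hk
      exact Finset.sum_eq_zero fun h _ => if_neg fun h3 => hk (congrArg Gw.k h3)
    · simp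
  · rw [eq_zero_of_bot P E (hx g) (N0_of_ne P hg)]
    exact (Finset.sum_eq_zero fun k _ => Finset.sum_eq_zero fun h _ =>
      if_neg fun h3 => hg (congrArg Gw.n h3).symm).symm

end DomR

open DomR

variable {A : ℕ} [NeZero A] {F L : Type u} [Field F] [Field L] [Algebra F L] {Z : Cyc F L A}
  (P : Pk Z) {E D : Type u} [DivisionRing E] [Algebra F E] [FiniteDimensional F E]
  [DivisionRing D] [Algebra F D] [FiniteDimensional F D] (I : Inp Z E D)

theorem dom0_inv {x : P.X E I.s} (hx : x ∈ P.Sub E I.s P.N0) (h : x ≠ 0) :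
    ∃ x' ∈ P.Sub E I.s P.N0, x' * x = 1 := by
  let b := Module.finBasis F E
  refine exists_left_inv (dl P E I.s) (P.alg E I.s P.N0 (one_mem_N0 P) P.N0_mul).toSubring
    (dl_mem P E I.s) (fun i : Fin A × Fin A × Fin (Module.finrank F E) =>
      CP.sgl (P.cd E I.s) ⟨0, i.1, i.2.1⟩ (eta P ⟨0, i.1, i.2.1⟩ ⊗ₜ b i.2.2)) (fun i => ?_)
    (fun x hx => span0 P E I.s b hx) (fun x hx y hy => dom0 P I hx hy) hx h
  refine P.sgl_mem_Sub E I.s (tmul_mem_TE ?_ _)
  rw [N0_of_eq P rfl]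
  exact eta_mem P _

theorem domR {x y : P.X E I.s} (hx : x ∈ P.Sub E I.s (P.Np 0)) (hy : y ∈ P.Sub E I.s (P.Np 0))
    (h : x * y = 0) : x = 0 ∨ y = 0 := by
  by_contra hne
  obtain ⟨hx0, hy0⟩ := not_or.1 hne
  let b := Module.finBasis F E
  obtain ⟨m, hm, hm'⟩ := exists_order (fun _ : Fin A => 1)
    (sym_ne_zero P E I.s b (x := ⟨x, hx⟩) hx0)
  obtain ⟨m', hn, hn'⟩ := exists_order (fun _ : Fin A => 1)
    (sym_ne_zero P E I.s b (x := ⟨y, hy⟩) hy0)
  refine gl_val (dR P E I.s) (fun _ : Fin A => 1) (fun _ => one_pos) (sym P E I.s b)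
    (sym_lin P E I.s b) (fun m m' x y hx hy => ?_) (sym_basis P E I.s b) (sym_shift P E I.s b)
    (fun x hx => ?_) hm hm' hn hn' ?_
  · rw [fil_iff] at hx hy ⊢
    exact P.Sub_mul E I.s (P.Np_mul m m') hx hy
  · rw [fil_iff] at hx
    obtain ⟨x0, h0, h1⟩ := exists_part P E I.s x.2
    have h2 : x0 ≠ 0 := by
      rintro rfl
      exact hx (by simpa using h1)
    obtain ⟨x', h3, h4⟩ := dom0_inv P I h0 h2
    have h5 : x' ∈ P.Sub E I.s (P.Np 0) := P.Sub_mono E I.s (N0_le P) h3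
    refine ⟨⟨x', h5⟩, ?_⟩
    rw [fil_iff]
    have h6 := P.Sub_mul E I.s (P.Np_mul 0 1) h5 h1
    rw [mul_sub, h4] at h6
    exact h6
  · rw [fil_iff]
    change x * y ∈ _
    rw [h]
    exact zero_mem _

end Vale.Agent.P200.G
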