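import Vale.Agent.P200.G.RelA

/-! Central shifts and naturality. -/

open Finset Polynomial Matrix

namespace Vale.Agent.P200.G

open Vale.Agent.P200.Eq

universe u

variable {A : ℕ} [NeZero A] {k : Type*} [Field k] {a : Fin A → k}

variable {Φ Φ' : Fl A k} {d : Fin A → ℕ} {n : ℕ} {B : Matrix (Fin A) (Fin A) k[X]}

/-- cyclic relabelling of the points -/
def Fl.rl {k : Type*} (Φ : Fl A k) : Fl A k := fun j => Matrix.of fun i c => Φ (j - 1) i (c - 1)

theorem rel_zero (a : Fin A → k) (Φ : Fl A k) : Rel a Φ 0 0 1 Φ := by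
  refine ⟨fun c c' => ?_, fun j => ⟨1, Iw.one _, by simp⟩⟩
  rw [Matrix.one_apply]
  split_ifs <;> simp

omit [NeZero A] in
theorem relC_iw_scalar {x : k} {p : k[X]} (h : p.eval x = 1) : Iw x (Matrix.scalar (Fin A) p) :=
  ⟨fun i => by rw [scalar_apply, diagonal_apply_eq, h],
    fun i i' hi => by rw [scalar_apply, diagonal_apply_ne _ hi.ne, eval_zero]⟩

theorem relC_cc (a : Fin A → k) (j : Fin A) : cc a j j = ∏ i ∈ univ.erase j, (a j - a i) := by
  rw [cc, if_pos rfl]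
  refine Finset.prod_equiv (Equiv.addLeft j) (fun i => ?_) fun i _ => rfl
  simp

theorem rel_A (ha : Function.Injective a) (Φ : Fl A k) :
    Rel a Φ (fun _ => A) A (Matrix.scalar (Fin A) (∏ j, (X - C (a j)))) Φ := by
  refine ⟨fun c c' => ?_, fun j => ⟨Matrix.scalar (Fin A)
    (C (cc a j j)⁻¹ * ∏ i ∈ univ.erase j, (X - C (a i))), relC_iw_scalar ?_, ?_⟩⟩
  · rw [scalar_apply, diagonal_apply]
    split_ifs
    · refine (natDegree_prod_le _ _).trans ?_
      simp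
    · simp
  · rw [eval_mul, eval_C, eval_prod]
    simp only [eval_sub, eval_X, eval_C]
    rw [← relC_cc, inv_mul_cancel₀ (cc_ne_zero ha j j)]
  · rw [pim_pow_A, ← map_mul, ← (scalar_commute _ (fun _ => Commute.all _ _) _).eq]
    congr 2
    rw [← Finset.mul_prod_erase univ _ (mem_univ j), mul_mul_mul_comm, ← C_mul,
      mul_inv_cancel₀ (cc_ne_zero ha j j), C_1, one_mul]

theorem rel_single (ha : Function.Injective a) (Φ : Fl A k) (j : Fin A) :
    Rel a Φ (Pi.single j A) 1 (Matrix.diagonal fun c => C (cc a j c) * (X - C (a j)))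
      (tor (fun x => cc a j x.1) (fun x => (cc a j x.1)⁻¹) Φ) := by
  refine ⟨fun c c' => ?_, fun j' => ?_⟩
  · rw [diagonal_apply]
    split_ifs
    · exact (natDegree_C_mul_le _ _).trans (natDegree_X_sub_C_le _)
    · simp
  have key : ∃ Y, Iw (a j') Y ∧ pim a j' ^ (Pi.single j A : Fin A → ℕ) j' * Y =
      Matrix.scalar (Fin A) (C (cc a j j') * (X - C (a j))) := by
    by_cases hj : j' = j
    · subst hj
      exact ⟨1, Iw.one _, by rw [Pi.single_eq_same, pim_pow_A, mul_one]⟩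
    · refine ⟨_, relC_iw_scalar ?_, by rw [Pi.single_eq_of_ne hj, pow_zero, one_mul]⟩
      rw [eval_mul, eval_C, eval_sub, eval_X, eval_C, cc, if_neg hj,
        inv_mul_cancel₀ (sub_ne_zero.2 (ha.ne hj))]
  obtain ⟨Y, hY, e⟩ := key
  refine ⟨Y, hY, ?_⟩
  rw [e]
  ext1 i c
  rw [mul_diagonal, scalar_apply, diagonal_mul, map_apply, map_apply, tor, of_apply, C_mul, C_mul]
  have h1 : C (cc a j j') * C (cc a j j')⁻¹ = (1 : k[X]) := by
    rw [← C_mul, mul_inv_cancel₀ (cc_ne_zero ha j j'), C_1]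
  linear_combination (-(C (Φ j' i c) * C (cc a j c) * (X - C (a j)))) * h1

/-- constant diagonal matrices -/
noncomputable def relC_dg (f : Fin A → k) : Matrix (Fin A) (Fin A) k[X] :=
  Matrix.diagonal fun i => C (f i)

omit [NeZero A] in
theorem relC_dg_mul {f g : Fin A → k} (h : ∀ i, f i * g i = 1) : relC_dg f * relC_dg g = 1 := by
  rw [relC_dg, relC_dg, diagonal_mul_diagonal, ← diagonal_one]
  congr 1
  funext i
  rw [← C_mul, h, C_1]

theorem relC_tor (ϑ ϑ' : Ix A → k) (Φ : Fl A k) (j : Fin A) : (tor ϑ ϑ' Φ j).map C =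
    relC_dg (fun i => ϑ' (j, i)) * (Φ j).map C * relC_dg fun c => ϑ (c, 0) := by
  ext1 i c
  rw [relC_dg, relC_dg, mul_diagonal, diagonal_mul, map_apply, map_apply, tor, of_apply, C_mul,
    C_mul]

theorem relC_dg_pim (f : Fin A → k) (j : Fin A) (d : ℕ) : relC_dg f * pim a j ^ d =
    pim a j ^ d * relC_dg fun i => f (i + (d : ℤ) • (1 : Fin A)) := by
  ext1 i c
  rw [relC_dg, relC_dg, mul_diagonal, diagonal_mul, pim_pow_apply, natCast_zsmul]
  split_ifs with h
  · rw [h, mul_comm]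
  · rw [mul_zero, zero_mul]

theorem Rel.tor (h : Rel a Φ d n B Φ') (ϑ ϑ' : Ix A → k) (hϑ : ∀ x, ϑ x * ϑ' x = 1) :
    Rel a (tor ϑ ϑ' Φ) d n
      (Matrix.of fun c c' => C (ϑ' (c, 0)) * B c c' * C (ϑ (ixs (fun j => d j) (c', 0))))
      (tor (fun x => ϑ (ixs (fun j => d j) x)) (fun x => ϑ' (ixs (fun j => d j) x)) Φ') := by
  refine ⟨fun c c' => ?_, fun j => ?_⟩
  · exact (natDegree_mul_C_le _ _).trans ((natDegree_C_mul_le _ _).trans (h.1 c c'))
  obtain ⟨Y, hY, e⟩ := h.2 j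
  have hB : (Matrix.of fun c c' => C (ϑ' (c, 0)) * B c c' * C (ϑ (ixs (fun j => d j) (c', 0)))) =
      relC_dg (fun c => ϑ' (c, 0)) * B * relC_dg fun c' => ϑ (ixs (fun j => d j) (c', 0)) := by
    ext1 c c'
    rw [relC_dg, relC_dg, mul_diagonal, diagonal_mul, of_apply]
  refine ⟨relC_dg (fun i => ϑ' (ixs (fun j => d j) (j, i))) * Y *
    relC_dg fun i => ϑ (ixs (fun j => d j) (j, i)), ⟨fun i => ?_, fun i i' hi => ?_⟩, ?_⟩
  · rw [relC_dg, relC_dg, mul_diagonal, diagonal_mul, eval_mul, eval_mul, hY.1, eval_C, eval_C,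
      mul_one, mul_comm, hϑ]
  · rw [relC_dg, relC_dg, mul_diagonal, diagonal_mul, eval_mul, eval_mul, hY.2 i i' hi, mul_zero,
      zero_mul]
  · have h1 := relC_dg_mul (f := fun c => ϑ (c, 0)) (g := fun c => ϑ' (c, 0)) fun _ => hϑ _
    have h2 := relC_dg_mul (f := fun i => ϑ (ixs (fun j => d j) (j, i)))
      (g := fun i => ϑ' (ixs (fun j => d j) (j, i))) fun _ => hϑ _
    have h3 : relC_dg (fun i => ϑ' (j, i)) * pim a j ^ d j =
        pim a j ^ d j * relC_dg fun i => ϑ' (ixs (fun j => d j) (j, i)) :=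
      relC_dg_pim (fun i => ϑ' (j, i)) j (d j)
    rw [hB, relC_tor, relC_tor]
    simp only [Matrix.mul_assoc]
    rw [← Matrix.mul_assoc (relC_dg fun c => ϑ (c, 0)), h1, Matrix.one_mul,
      ← Matrix.mul_assoc (relC_dg fun i => ϑ (ixs (fun j => d j) (j, i))), h2, Matrix.one_mul,
      ← Matrix.mul_assoc ((Φ j).map C), e, ← Matrix.mul_assoc (pim a j ^ d j), ← h3]
    simp only [Matrix.mul_assoc]

theorem relC_pim_map {k' : Type*} [Field k'] (ψ : k →+* k') (j : Fin A) :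
    pim (fun j => ψ (a j)) j = (mapRingHom ψ).mapMatrix (pim a j) := by
  ext1 i c
  rw [RingHom.mapMatrix_apply, map_apply, pim, pim, of_apply, of_apply]
  split_ifs <;> simp

omit [NeZero A] in
theorem relC_C_map {k' : Type*} [Field k'] (ψ : k →+* k') (Φ : Fl A k) (j : Fin A) :
    (Φ.map ψ j).map C = (mapRingHom ψ).mapMatrix ((Φ j).map C) := by
  ext1 i c
  simp [Fl.map]

theorem Rel.map {k' : Type*} [Field k'] (h : Rel a Φ d n B Φ') (ψ : k →+* k') :
    Rel (fun j => ψ (a j)) (Φ.map ψ) d n (B.map (Polynomial.map ψ)) (Φ'.map ψ) := by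
  refine ⟨fun c c' => natDegree_map_le.trans (h.1 c c'), fun j => ?_⟩
  obtain ⟨Y, hY, e⟩ := h.2 j
  refine ⟨(mapRingHom ψ).mapMatrix Y, ⟨fun i => ?_, fun i i' hi => ?_⟩, ?_⟩
  · rw [RingHom.mapMatrix_apply, map_apply, coe_mapRingHom, eval_map, eval₂_at_apply, hY.1,
      map_one]
  · rw [RingHom.mapMatrix_apply, map_apply, coe_mapRingHom, eval_map, eval₂_at_apply,
      hY.2 i i' hi, map_zero]
  · rw [relC_pim_map, relC_C_map, relC_C_map, ← map_pow, ← map_mul, ← map_mul, ← e, map_mul]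
    rfl

theorem relC_pim_sh (j : Fin A) : pim (sh a) j = pim a (j - 1) := by
  ext1 i c
  have e : j + i - 1 = j - 1 + i := by abel
  simp only [pim, sh, of_apply, e]

theorem Rel.rl (h : Rel a Φ d n B Φ') :
    Rel (sh a) Φ.rl (sh d) n (Matrix.of fun c c' => B (c - 1) (c' - 1)) Φ'.rl := by
  refine ⟨fun c c' => h.1 _ _, fun j => ?_⟩
  obtain ⟨Y, hY, e⟩ := h.2 (j - 1)
  refine ⟨Y, hY, ?_⟩
  ext1 i c
  have h1 := congrFun (congrFun e i) (c - 1)
  rw [relC_pim_sh]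
  refine Eq.trans ?_ (h1.trans ?_)
  · rw [Matrix.mul_apply, Matrix.mul_apply]
    exact Equiv.sum_comp (Equiv.subRight (1 : Fin A)) fun l => (Φ (j - 1)).map C i l * B l (c - 1)
  · rw [Matrix.mul_apply, Matrix.mul_apply]
    rfl

theorem NF.map {k' : Type*} [Field k'] (h : NF Φ) (ψ : k →+* k') : NF (Φ.map ψ) := by
  intro j
  obtain ⟨h1, h2, h3⟩ := h j
  refine ⟨fun c => ?_, fun i i' hi => ?_, fun i => ?_⟩
  · rw [Fl.map, map_apply, h1]
    split_ifs <;> simp
  · rw [Fl.map, map_apply, h2 i i' hi, map_zero]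
  · rw [Fl.map, map_apply]
    exact (map_ne_zero ψ).2 (h3 i)

theorem NF.of_map {k' : Type*} [Field k'] (ψ : k →+* k') (h : NF (Φ.map ψ)) : NF Φ := by
  intro j
  obtain ⟨h1, h2, h3⟩ := h j
  refine ⟨fun c => ψ.injective ?_, fun i i' hi => (map_eq_zero ψ).1 (h2 i i' hi),
    fun i => (map_ne_zero ψ).1 (h3 i)⟩
  refine (h1 c).trans ?_
  split_ifs <;> simp

theorem NF.tor (h : NF Φ) (ϑ ϑ' : Ix A → k) (hϑ : ∀ x, ϑ x * ϑ' x = 1) : NF (tor ϑ ϑ' Φ) := by
  intro j
  obtain ⟨h1, h2, h3⟩ := h j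
  refine ⟨fun c => ?_, fun i i' hi => ?_, fun i => ?_⟩
  · rw [G.tor, of_apply, h1]
    split_ifs with hc
    · rw [hc, mul_one, mul_comm, hϑ]
    · rw [mul_zero, zero_mul]
  · rw [G.tor, of_apply, h2 i i' hi, mul_zero, zero_mul]
  · rw [G.tor, of_apply]
    exact mul_ne_zero (mul_ne_zero (right_ne_zero_of_mul_eq_one (hϑ _)) (h3 i))
      (left_ne_zero_of_mul_eq_one (hϑ _))

theorem NF.rl (h : NF Φ) : NF Φ.rl := by
  intro j
  obtain ⟨h1, h2, h3⟩ := h (j - 1)
  have e : ∀ i, j + i - 1 = j - 1 + i := fun i => by abel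
  refine ⟨fun c => ?_, fun i i' hi => ?_, fun i => ?_⟩
  · rw [Fl.rl, of_apply, h1]
    simp only [sub_left_inj]
  · rw [Fl.rl, of_apply, e, h2 i i' hi]
  · rw [Fl.rl, of_apply, e]
    exact h3 i

theorem GoodFl.of_map {k' : Type*} [Field k'] (ψ : k →+* k')
    (h : GoodFl (fun j => ψ (a j)) (Φ.map ψ)) : GoodFl a Φ := by
  refine ⟨fun j h0 => h.1 j ?_, fun d n hd m hm hdeg => ?_⟩
  · have := RingHom.map_det ψ (Φ j)
    rw [h0, map_zero] at this
    exact this.symm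
  · have h1 := h.2 d n hd (fun c => (m c).map ψ) (fun j => ?_)
      fun c => by rw [degree_map]; exact hdeg c
    · funext c
      exact (Polynomial.map_eq_zero ψ).1 (congrFun h1 c)
    · obtain ⟨m', hm'⟩ := hm j
      refine ⟨fun c => (m' c).map ψ, funext fun i => ?_⟩
      have h2 := congrArg (mapRingHom ψ) (congrFun hm' i)
      rw [RingHom.map_mulVec, RingHom.map_mulVec] at h2
      rw [relC_pim_map, relC_C_map, ← map_pow]
      exact h2

end Vale.Agent.P200.G
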