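import Vale.Agent.P200.G.RelB
import Vale.Agent.P200.G.RelC
import Vale.Agent.P200.G.Bal

/-! Existence of shifts in normal form. -/

open Finset Polynomial Matrix

namespace Vale.Agent.P200.G

open Vale.Agent.P200.Eq

universe u

variable {A : ℕ} [NeZero A] {k : Type*} [Field k] {a : Fin A → k}

omit [NeZero A] in
private theorem ex_le_of_sum {r : Fin A → ℕ} (hr : ∑ j, r j = A) (j : Fin A) : r j ≤ A := by
  have := Finset.single_le_sum (f := r) (fun i _ => Nat.zero_le (r i)) (Finset.mem_univ j)
  omega

private theorem ex_const_inj (ha : Function.Injective a) {Φ : Fl A k} (hG : GoodFl a Φ)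
    {r : Fin A → ℕ} (hr : ∑ j, r j = A) (m : Fin A → k)
    (hm : ∀ j (i : Fin A), i.val < r j → (Φ j *ᵥ m) i = 0) : m = 0 := by
  have h1 : Bal a Φ r 1 := hG.2 r 1 (by rw [hr, mul_one])
  rw [bal_iff_bal0 ha Φ (ex_le_of_sum hr)] at h1
  have h2 := h1 (fun c => C (m c)) (fun c => by
      have : (C (m c)).degree ≤ 0 := degree_C_le
      exact lt_of_le_of_lt this (by exact_mod_cast zero_lt_one))
    (fun j i hi => by
      have := hm j i hi
      simpa [Matrix.mulVec, dotProduct] using this)
  funext c
  have := congrFun h2 c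
  simpa using this

private theorem ex_sum_r (j : Fin A) {p : ℕ} (hp : p ≤ A) (hp0 : 0 < p) :
    ∑ j' : Fin A, (if j' = j then p else if p ≤ (j' - j).val then 1 else 0) = A := by
  have h1 : ∑ j' : Fin A, (if j' = j then p else if p ≤ (j' - j).val then 1 else 0)
      = ∑ i : Fin A, (if i = 0 then p else if p ≤ i.val then 1 else 0) := by
    refine Fintype.sum_equiv (Equiv.subRight j) _ _ fun j' => ?_
    simp only [Equiv.subRight_apply, sub_eq_zero]
  rw [h1]
  have h2 : ∀ i : Fin A, (if i = 0 then p else if p ≤ i.val then 1 else 0)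
      = (if i = 0 then p else 0) + (if p ≤ i.val then 1 else 0) := by
    intro i
    by_cases hi : i = 0
    · subst hi
      have : ¬ p ≤ ((0 : Fin A) : ℕ) := by simp; omega
      simp only [if_true, this, if_false, add_zero]
    · simp [hi]
  simp only [h2, Finset.sum_add_distrib, Finset.sum_ite_eq', Finset.mem_univ, if_true]
  have h3 : ∑ i : Fin A, (if p ≤ i.val then 1 else 0)
      = ∑ i ∈ Finset.range A, (if p ≤ i then 1 else 0) :=
    Fin.sum_univ_eq_sum_range (fun i => if p ≤ i then 1 else 0) A
  rw [h3, ← Finset.card_filter]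
  have h4 : (Finset.range A).filter (fun i => p ≤ i) = Finset.Ico p A := by
    ext i; simp [and_comm]
  rw [h4, Nat.card_Ico]
  omega

theorem exists_norm (ha : Function.Injective a) {Φ : Fl A k} (hG : GoodFl a Φ) :
    ∃ B Φ', Rel a Φ 0 0 B Φ' ∧ NF Φ' := by
  classical
  set R : Matrix (Fin A) (Fin A) k := Matrix.of fun j c => Φ j 0 c with hR
  have hRdet : R.det ≠ 0 := by
    intro h
    obtain ⟨v, hv, hv0⟩ := Matrix.exists_mulVec_eq_zero_iff.2 h
    refine hv (ex_const_inj ha hG (r := fun _ => 1) (by simp) v fun j i hi => ?_)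
    have hi0 : i = 0 := by
      apply Fin.ext
      simp at hi ⊢
      omega
    subst hi0
    have := congrFun hv0 j
    simpa [hR, Matrix.mulVec, dotProduct] using this
  have hRu : IsUnit R.det := isUnit_iff_ne_zero.2 hRdet
  set U : Matrix (Fin A) (Fin A) k := R⁻¹ with hU
  have hRU : R * U = 1 := Matrix.mul_nonsing_inv R hRu
  have hrow : ∀ j c, (Φ j * U) 0 c = if c = j then 1 else 0 := by
    intro j c
    have := congrFun (congrFun hRU j) c
    rw [Matrix.one_apply] at this
    rw [Matrix.mul_apply] at this ⊢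
    simp only [hR, Matrix.of_apply] at this
    rw [this]
    simp [eq_comm]
  set T : Fin A → Matrix (Fin A) (Fin A) k :=
    fun j => Matrix.of fun i i' => (Φ j * U) i (j + i') with hT
  have hmin : ∀ j (p : ℕ) (hp : p ≤ A),
      IsUnit ((T j).submatrix (Fin.castLE hp) (Fin.castLE hp)).det := by
    intro j p hp
    rw [isUnit_iff_ne_zero]
    intro h
    obtain ⟨v, hv, hv0⟩ := Matrix.exists_mulVec_eq_zero_iff.2 h
    have hp0 : 0 < p := by
      rcases Nat.eq_zero_or_pos p with h0 | h0
      · subst h0
        exact absurd (Subsingleton.elim _ _) hv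
      · exact h0
    set v' : Fin A → k := fun i => if h : i.val < p then v ⟨i.val, h⟩ else 0 with hv'
    set w : Fin A → k := fun c => v' (c - j) with hw
    have hm : U *ᵥ w = 0 := by
      refine ex_const_inj ha hG (ex_sum_r j hp hp0) (U *ᵥ w) fun j' i hi => ?_
      rw [Matrix.mulVec_mulVec]
      by_cases hj : j' = j
      · subst hj
        simp only [if_true] at hi
        have h1 : ((Φ j' * U) *ᵥ w) i = ∑ i', T j' i i' * v' i' := by
          simp only [Matrix.mulVec, dotProduct]
          refine (Fintype.sum_equiv (Equiv.addLeft j') _ _ fun i' => ?_).symm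
          simp [hT, hw]
        rw [h1]
        have h2 := congrFun hv0 ⟨i.val, hi⟩
        simp only [Matrix.mulVec, dotProduct, Matrix.submatrix_apply, Pi.zero_apply] at h2
        rw [← h2]
        symm
        refine Finset.sum_of_injOn (Fin.castLE hp) (Fin.castLE_injective hp).injOn
          (fun _ _ => Finset.mem_coe.2 (Finset.mem_univ _)) (fun i' _ hi' => ?_) (fun x _ => ?_)
        · have : ¬ i'.val < p := by
            intro hlt
            exact hi' ⟨⟨i'.val, hlt⟩, by simp, by ext; simp⟩
          simp [hv', this]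
        · have e1 : Fin.castLE hp ⟨i.val, hi⟩ = i := by ext; simp
          rw [e1]
          simp [hv']
      · simp only [hj, if_false] at hi
        by_cases hpj : p ≤ (j' - j).val
        · simp only [hpj, if_true] at hi
          have hi0 : i = 0 := by
            apply Fin.ext
            simp at hi ⊢
            omega
          subst hi0
          simp only [Matrix.mulVec, dotProduct, hrow]
          have : ¬ (j' - j).val < p := by omega
          simp only [ite_mul, one_mul, zero_mul, Finset.sum_ite_eq', Finset.mem_univ, if_true]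
          simp [hw, hv', this]
        · simp [hpj] at hi
    have hw0 : w = 0 := by
      have : R *ᵥ (U *ᵥ w) = w := by rw [Matrix.mulVec_mulVec, hRU, Matrix.one_mulVec]
      rw [← this, hm, Matrix.mulVec_zero]
    apply hv
    funext x
    have := congrFun hw0 (j + Fin.castLE hp x)
    simpa [hw, hv'] using this
  choose Y V hYV hY1 hY0 hV0 hVu using fun j => exists_lu (T j) (hmin j)
  have hfac : ∀ j, Φ j * U = Y j * Matrix.of fun i c => V j i (c - j) := by
    intro j
    ext i c
    have := congrFun (congrFun (hYV j) i) (c - j)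
    simp only [hT, Matrix.of_apply, add_sub_cancel] at this
    rw [this, Matrix.mul_apply, Matrix.mul_apply]
    simp
  refine ⟨U.map C, fun j => Matrix.of fun i c => V j i (c - j), ⟨fun c c' => by simp, fun j => ?_⟩,
    fun j => ⟨fun c => ?_, fun i i' h => ?_, fun i => ?_⟩⟩
  · refine ⟨(Y j).map C, ⟨fun i => by simp [hY1], fun i i' h => by simp [hY0 j i i' h]⟩, ?_⟩
    rw [Pi.zero_apply, pow_zero, Matrix.one_mul, ← Matrix.map_mul, ← Matrix.map_mul, hfac]
  · rw [← hrow, hfac, Matrix.mul_apply, Finset.sum_eq_single 0]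
    · rw [hY1, one_mul]
    · intro i _ hi
      rw [hY0 j 0 i (Fin.pos_iff_ne_zero.2 hi), zero_mul]
    · simp
  · simpa using hV0 j i i' h
  · simpa using (hVu j i).ne_zero

theorem exists_rel_one (ha : Function.Injective a) {Φ : Fl A k} (hG : GoodFl a Φ)
    {d : Fin A → ℕ} (hd : ∑ j, d j = A) :
    ∃ B Φ', Rel a Φ d 1 B Φ' ∧ ∀ j, (Φ' j).det ≠ 0 := by
  classical
  let ι := Σ j : Fin A, {i : Fin A // i.val < d j}
  have hcard : Fintype.card ι = A := by
    rw [Fintype.card_sigma]
    refine Eq.trans (Finset.sum_congr rfl fun j _ => ?_) hd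
    rw [Fintype.card_subtype]
    exact Fin.card_filter_val_lt.trans (min_eq_right (ex_le_of_sum hd j))
  let Lm : (Fin A → k) →ₗ[k] (ι → k) :=
    LinearMap.pi fun x => (LinearMap.proj x.2.1).comp (Φ x.1).mulVecLin
  have hLm : ∀ m x, Lm m x = (Φ x.1 *ᵥ m) x.2.1 := fun m x => rfl
  have hinj : Function.Injective Lm := by
    rw [injective_iff_map_eq_zero]
    intro m hm
    exact ex_const_inj ha hG hd m fun j i hi => by
      have := congrFun hm ⟨j, i, hi⟩
      rwa [hLm] at this
  have hsurj : Function.Surjective Lm :=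
    (LinearMap.injective_iff_surjective_of_finrank_eq_finrank (by simp [hcard])).1 hinj
  choose col hcol using fun c' : Fin A => hsurj fun x => a x.1 * Φ x.1 x.2.1 c'
  set M : Matrix (Fin A) (Fin A) k := Matrix.of fun c c' => col c' c with hM
  set B : Matrix (Fin A) (Fin A) k[X] := M.charmatrix with hB
  have hBe : ∀ c c', B c c' = (if c = c' then X else 0) - C (M c c') := by
    intro c c'
    rw [hB, Matrix.charmatrix_apply, Matrix.diagonal_apply]
  have hvan : ∀ j c' (i : Fin A), i.val < d j → (((Φ j).map C * B) i c').eval (a j) = 0 := by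
    intro j c' i hi
    have h1 := congrFun (hcol c') ⟨j, i, hi⟩
    rw [hLm] at h1
    simp only [Matrix.mulVec, dotProduct] at h1
    rw [Matrix.mul_apply, eval_finsetSum]
    simp only [hBe, Matrix.map_apply, eval_mul, eval_C, eval_sub, mul_sub, Finset.sum_sub_distrib,
      hM, Matrix.of_apply, h1]
    rw [Finset.sum_eq_single c']
    · simp [mul_comm]
    · intro c _ hc
      simp [hc]
    · simp
  have hZ : ∀ j, ∃ Z, (Φ j).map C * B = pim a j ^ d j * Z := by
    intro j
    choose z hz using fun c' => (range_pim_pow ha j (ex_le_of_sum hd j)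
      (fun i => ((Φ j).map C * B) i c')).2 (hvan j c')
    refine ⟨Matrix.of fun i c' => z c' i, ?_⟩
    ext1 i c'
    have := congrFun (hz c') i
    rw [this, Matrix.mul_apply]
    simp [Matrix.mulVec, dotProduct]
  choose Z hZ using hZ
  choose u hu0 hu using fun j => det_pim ha j
  have hdet : ∀ j, C (Φ j).det * B.det = (X - C (a j)) ^ d j * (C (u j) ^ d j * (Z j).det) := by
    intro j
    have := congrArg Matrix.det (hZ j)
    rw [Matrix.det_mul, Matrix.det_mul, Matrix.det_pow, hu, mul_pow] at this
    have e : ((Φ j).map C).det = C (Φ j).det := (RingHom.map_det C (Φ j)).symm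
    rw [e] at this
    rw [this]
    ring
  have hdvd : ∏ j, (X - C (a j)) ^ d j ∣ B.det := by
    refine Finset.prod_dvd_of_coprime (fun j _ j' _ hjj => ?_) fun j _ => ?_
    · exact (Polynomial.isCoprime_X_sub_C_of_isUnit_sub
        (sub_ne_zero.2 (ha.ne hjj)).isUnit).pow
    · have h1 : (X - C (a j)) ^ d j ∣ C (Φ j).det * B.det := ⟨_, hdet j⟩
      exact (IsUnit.dvd_mul_left (Polynomial.isUnit_C.2 (hG.1 j).isUnit)).1 h1
  have hBdet : B.det = ∏ j, (X - C (a j)) ^ d j := by
    have hm : (∏ j, (X - C (a j)) ^ d j).Monic :=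
      monic_prod_of_monic _ _ fun j _ => (monic_X_sub_C _).pow _
    refine eq_of_monic_of_dvd_of_natDegree_le hm (Matrix.charpoly_monic M) hdvd ?_
    have h1 : B.det.natDegree = A := by
      have := Matrix.charpoly_natDegree_eq_dim M
      rw [Fintype.card_fin] at this
      exact this
    rw [h1, natDegree_prod_of_monic _ _ fun j _ => (monic_X_sub_C _).pow _]
    simp [natDegree_pow, hd]
  have hZdet : ∀ j, ((Z j).map (eval (a j))).det ≠ 0 := by
    intro j
    have e : ((Z j).map (eval (a j))).det = (Z j).det.eval (a j) :=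
      (RingHom.map_det (evalRingHom (a j)) (Z j)).symm
    rw [e]
    have h1 := hdet j
    rw [hBdet, ← Finset.mul_prod_erase _ _ (Finset.mem_univ j), mul_left_comm] at h1
    have h2 := mul_left_cancel₀ (pow_ne_zero _ (X_sub_C_ne_zero (a j))) h1
    have h3 := congrArg (eval (a j)) h2
    intro h0
    rw [eval_mul, eval_mul, h0, mul_zero, eval_C, eval_prod] at h3
    refine mul_ne_zero (hG.1 j) (Finset.prod_ne_zero_iff.2 fun j' hj' => ?_) h3
    rw [eval_pow, eval_sub, eval_X, eval_C]
    exact pow_ne_zero _ (sub_ne_zero.2 (ha.ne (Finset.ne_of_mem_erase hj').symm))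
  refine ⟨B, fun j => (Z j).map (eval (a j)), ⟨fun c c' => ?_, fun j => ?_⟩, hZdet⟩
  · rw [hBe]
    refine (natDegree_sub_le _ _).trans (max_le ?_ (by simp))
    split_ifs <;> simp
  · have hu' : IsUnit ((Z j).map (eval (a j))).det := (hZdet j).isUnit
    have hev : ∀ i i', ((Z j * (((Z j).map (eval (a j)))⁻¹).map C) i i').eval (a j)
        = (1 : Matrix (Fin A) (Fin A) k) i i' := by
      intro i i'
      rw [← Matrix.mul_nonsing_inv _ hu', Matrix.mul_apply, Matrix.mul_apply, eval_finsetSum]
      simp
    refine ⟨Z j * (((Z j).map (eval (a j)))⁻¹).map C, ⟨fun i => ?_, fun i i' h => ?_⟩, ?_⟩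
    · rw [hev, Matrix.one_apply_eq]
    · rw [hev, Matrix.one_apply_ne h.ne]
    · rw [hZ, Matrix.mul_assoc, Matrix.mul_assoc, ← Matrix.map_mul, Matrix.nonsing_inv_mul _ hu']
      simp

omit [NeZero A] in
private theorem ex_part (d : Fin A → ℕ) : ∀ m : ℕ, m ≤ ∑ j, d j →
    ∃ u : Fin A → ℕ, (∀ j, u j ≤ d j) ∧ ∑ j, u j = m := by
  classical
  intro m
  induction m with
  | zero => exact fun _ => ⟨0, fun _ => Nat.zero_le _, by simp⟩
  | succ m ih =>
    intro hm
    obtain ⟨u, hu, hs⟩ := ih (by omega)
    obtain ⟨j, -, hj⟩ := Finset.exists_lt_of_sum_lt (s := Finset.univ) (f := u) (g := d) (by omega)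
    refine ⟨u + Pi.single j 1, fun j' => ?_, ?_⟩
    · by_cases h : j' = j
      · subst h
        simpa using hj
      · simpa [h] using hu j'
    · simp [Finset.sum_add_distrib, hs]

theorem exists_rel (ha : Function.Injective a) {Φ : Fl A k} (hG : GoodFl a Φ) {d : Fin A → ℕ}
    {n : ℕ} (hd : ∑ j, d j = A * n) : ∃ B Φ', Rel a Φ d n B Φ' ∧ NF Φ' := by
  induction n generalizing Φ d with
  | zero =>
    have : d = 0 := by
      funext j
      exact (Finset.sum_eq_zero_iff.1 (by simpa using hd)) j (Finset.mem_univ j)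
    subst this
    exact exists_norm ha hG
  | succ n ih =>
    obtain ⟨u, hu, hs⟩ := ex_part d A (by rw [hd, Nat.mul_succ]; omega)
    obtain ⟨B1, Φ1, h1, hΦ1⟩ := exists_rel_one ha hG hs
    have hG1 : GoodFl a Φ1 := h1.good ha hG hΦ1 (by rw [hs, mul_one])
    have hdu : u + (d - u) = d := by
      funext j
      have := hu j
      simp only [Pi.add_apply, Pi.sub_apply]
      omega
    have hs' : ∑ j, (d - u) j = A * n := by
      have := congrArg (fun f : Fin A → ℕ => ∑ j, f j) hdu
      simp only [Pi.add_apply, Finset.sum_add_distrib] at this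
      rw [hs, hd, Nat.mul_succ] at this
      omega
    obtain ⟨B2, Φ2, h2, hN⟩ := ih hG1 hs'
    have h3 := h1.comp ha h2
    rw [hdu, add_comm] at h3
    exact ⟨_, _, h3, hN⟩

end Vale.Agent.P200.G
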