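import Vale.Agent.P200.Eq.Basic

/-! Dimension counts over a division subring. -/

open Finset Module

namespace Vale.Agent.P200.G

open Vale.Agent.P200.Eq

universe u

/-- a module over a ring whose quotient by `J` is a division ring of dimension `card ι` -/
theorem card_dvd_finrank {R Δ M ι : Type*} [Ring R] [DivisionRing Δ] [AddCommGroup M] [Module Δ M]
    [Fintype ι] (δ : Δ →+* R) (J : R → Prop) (x : ι → R)
    (hind : ∀ c : ι → Δ, J (∑ i, δ (c i) * x i) → c = 0)
    (hspan : ∀ r, ∃ c : ι → Δ, J (r - ∑ i, δ (c i) * x i))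
    (hdiv : ∀ r, ¬ J r → ∃ r', J (r' * r - 1))
    (U : Submodule Δ M) [Module.Finite Δ U] (ac : R → M → M)
    (hU : ∀ r, ∀ u ∈ U, ac r u ∈ U)
    (hadd : ∀ r r', ∀ u ∈ U, ac (r + r') u = ac r u + ac r' u)
    (hadd' : ∀ r, ∀ u ∈ U, ∀ u' ∈ U, ac r (u + u') = ac r u + ac r u')
    (hmul : ∀ r r', ∀ u ∈ U, ac (r * r') u = ac r (ac r' u))
    (hδ : ∀ c, ∀ u ∈ U, ac (δ c) u = c • u)
    (hJ : ∀ r, J r → ∀ u ∈ U, ac r u = 0) : Fintype.card ι ∣ finrank Δ U := by
  classical
  have key : ∀ n : ℕ, ∀ V : Submodule Δ M, V ≤ U → (∀ r, ∀ u ∈ V, ac r u ∈ V) →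
      Fintype.card ι ∣ finrank Δ V → finrank Δ U ≤ finrank Δ V + n →
      Fintype.card ι ∣ finrank Δ U := by
    intro n
    induction n with
    | zero => exact fun V h1 _ h3 h4 => Submodule.eq_of_le_of_finrank_le h1 h4 ▸ h3
    | succ n ih =>
      intro V h1 h2 h3 h4
      by_cases hV : U ≤ V
      · exact le_antisymm h1 hV ▸ h3
      obtain ⟨κ, hκ, hκV⟩ := SetLike.not_le_iff_exists.1 hV
      let L : (ι → Δ) →ₗ[Δ] M := Fintype.linearCombination Δ fun i => ac (x i) κ
      have h0 : ac 0 κ = 0 := by simpa using hδ 0 κ hκ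
      have hone : ac 1 κ = κ := by simpa using hδ 1 κ hκ
      have hL : ∀ c, L c = ac (∑ i, δ (c i) * x i) κ := by
        intro c
        have : ∀ s : Finset ι, ∑ i ∈ s, c i • ac (x i) κ = ac (∑ i ∈ s, δ (c i) * x i) κ := by
          intro s
          induction s using Finset.induction_on with
          | empty => simp [h0]
          | insert a s ha ih =>
            rw [sum_insert ha, sum_insert ha, hadd _ _ _ hκ, ih, hmul _ _ _ hκ,
              hδ _ _ (hU _ _ hκ)]
        exact this univ
      have hcong : ∀ r s, J (r - s) → ac r κ = ac s κ := fun r s h => by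
        have := hadd (r - s) s κ hκ
        rwa [sub_add_cancel, hJ _ h κ hκ, zero_add] at this
      have hmem : ∀ r, ac r κ ∈ LinearMap.range L := fun r => by
        obtain ⟨c, hc⟩ := hspan r
        exact ⟨c, by rw [hL, hcong _ _ hc]⟩
      have hinj : ∀ c, L c ∈ V → c = 0 := fun c hc => by
        by_contra hne
        obtain ⟨r', hr'⟩ := hdiv _ fun h => hne (hind c h)
        have := h2 r' _ hc
        rw [hL, ← hmul _ _ _ hκ, hcong _ _ hr', hone] at this
        exact hκV this
      have hLU : LinearMap.range L ≤ U := by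
        rintro _ ⟨c, rfl⟩
        rw [hL]; exact hU _ _ hκ
      have hW : V ⊔ LinearMap.range L ≤ U := sup_le h1 hLU
      have := Submodule.finiteDimensional_of_le h1
      have := Submodule.finiteDimensional_of_le hLU
      have := Submodule.finiteDimensional_of_le hW
      have hdis : V ⊓ LinearMap.range L = ⊥ := by
        rw [eq_bot_iff]
        rintro _ ⟨hv, c, rfl⟩
        rw [hinj c hv, map_zero]; exact Submodule.zero_mem _
      have hr : finrank Δ (V ⊔ LinearMap.range L : Submodule Δ M) =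
          finrank Δ V + Fintype.card ι := by
        have := Submodule.finrank_sup_add_finrank_inf_eq V (LinearMap.range L)
        rw [hdis, finrank_bot, add_zero, LinearMap.finrank_range_of_inj
          ((injective_iff_map_eq_zero L).2 fun c hc => hinj c (hc ▸ V.zero_mem)),
          Module.finrank_fintype_fun_eq_card] at this
        exact this
      have hlt : finrank Δ V < finrank Δ (V ⊔ LinearMap.range L : Submodule Δ M) :=
        Submodule.finrank_lt_finrank_of_lt (lt_of_le_of_ne le_sup_left fun e => hκV (by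
          rw [e]; exact Submodule.mem_sup_right (hone ▸ hmem 1)))
      refine ih _ hW (fun r u hu => ?_) (hr ▸ dvd_add h3 dvd_rfl) (by omega)
      obtain ⟨v, hv, _, ⟨c, rfl⟩, rfl⟩ := Submodule.mem_sup.1 hu
      rw [hadd' r v (h1 hv) _ (hLU ⟨c, rfl⟩), hL, ← hmul _ _ _ hκ]
      exact Submodule.add_mem_sup (h2 r v hv) (hmem _)
  refine key (finrank Δ U) ⊥ bot_le (fun r u hu => ?_) (by simp) (by simp)
  have := hadd' r 0 U.zero_mem 0 U.zero_mem
  rw [(Submodule.mem_bot Δ).1 hu, Submodule.mem_bot]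
  rw [add_zero] at this
  exact left_eq_add.1 this

/-- a domain that is left finite over a division subring has left inverses -/
theorem exists_left_inv {R Δ ι : Type*} [Ring R] [DivisionRing Δ] [Fintype ι] (δ : Δ →+* R)
    (U : Subring R) (hδ : ∀ c, δ c ∈ U) (b : ι → R) (hb : ∀ i, b i ∈ U)
    (hspan : ∀ x ∈ U, ∃ c : ι → Δ, x = ∑ i, δ (c i) * b i)
    (hdom : ∀ x ∈ U, ∀ y ∈ U, x * y = 0 → x = 0 ∨ y = 0) {x : R} (hx : x ∈ U) (hx0 : x ≠ 0) :
    ∃ x' ∈ U, x' * x = 1 := by
  let : Module Δ U := Module.compHom U (δ.codRestrict U hδ)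
  have : Module.Finite Δ U := by
    refine Module.Finite.of_surjective
      (Fintype.linearCombination Δ fun i => (⟨b i, hb i⟩ : U)) fun y => ?_
    obtain ⟨c, hc⟩ := hspan y y.2
    refine ⟨c, Subtype.ext ?_⟩
    rw [hc, Fintype.linearCombination_apply, AddSubmonoidClass.coe_finsetSum]
    rfl
  let f : U →ₗ[Δ] U :=
    { toFun := fun y => y * ⟨x, hx⟩
      map_add' := fun y z => add_mul _ _ _
      map_smul' := fun c y => Subtype.ext (mul_assoc (δ c) (y : R) x) }
  have hf : Function.Injective f := (injective_iff_map_eq_zero f).2 fun y hy =>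
    Subtype.ext ((hdom y y.2 x hx (congrArg Subtype.val hy)).resolve_right hx0)
  obtain ⟨y, hy⟩ := LinearMap.surjective_of_injective hf 1
  exact ⟨y, y.2, congrArg Subtype.val hy⟩

end Vale.Agent.P200.G
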