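import Vale.Agent.P200.G.GL0
import Vale.Agent.P200.G.GLd
import Vale.Agent.P200.Groebner
import Vale.Agent.P200.Eq.Lead

/-! A filtered ring with a division ring in degree zero has the valuation property. -/

open Finset Module

namespace Vale.Agent.P200.G

open Vale.Agent.P200.Eq

universe u

/-- order at least `m` -/
def Fil {Δ ι V : Type*} [Zero Δ] (wt : V → ℕ) (m : ℕ) (u : ι × Mon V → Δ) : Prop :=
  ∀ p : ι × Mon V, Finsupp.weight wt p.2 < m → u p = 0

theorem gl_fin {ι V : Type*} [Finite ι] [Finite V] {wt : V → ℕ} (hwt : ∀ v, 0 < wt v) (d : ℕ) :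
    {p : ι × Mon V | Finsupp.weight wt p.2 = d}.Finite :=
  ((Set.finite_univ (α := ι)).prod (Finsupp.finite_of_nat_weight_le wt
    (fun v => (hwt v).ne') d)).subset fun _ hp => ⟨trivial, le_of_eq hp⟩

theorem gl_upper {ι V : Type*} {A : Set (ι × Mon V)}
    (h : ∀ p ∈ A, ∀ v, (p.1, p.2 + Finsupp.single v 1) ∈ A) : Upper A := by
  intro p hp μ
  induction μ using Finsupp.induction_linear generalizing p with
  | zero => simpa using hp
  | add a b ha hb => simpa [add_assoc] using hb _ (ha p hp)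
  | single v n =>
    induction n with
    | zero => simpa using hp
    | succ n ih => simpa [add_assoc, Finsupp.single_add] using h _ ih v

section

variable {R Δ ι V : Type*} [Ring R] [DivisionRing Δ] [Finite ι] [Finite V] {wt : V → ℕ}

/-- the part of weight `d` of the symbol -/
noncomputable def glLd (hwt : ∀ v, 0 < wt v) (sym : R →+ (ι × Mon V → Δ)) (d : ℕ) :
    R →+ (ι × Mon V →₀ Δ) where
  toFun z := Finsupp.ofSupportFinite
    (fun p => if Finsupp.weight wt p.2 = d then sym z p else 0)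
    ((gl_fin hwt d).subset fun p hp => by
      by_contra h
      exact hp (if_neg h))
  map_zero' := Finsupp.ext fun p => by
    change (if Finsupp.weight wt p.2 = d then sym 0 p else 0) = 0
    simp
  map_add' z z' := Finsupp.ext fun p => by
    change (if Finsupp.weight wt p.2 = d then sym (z + z') p else 0) =
      (if Finsupp.weight wt p.2 = d then sym z p else 0) +
        (if Finsupp.weight wt p.2 = d then sym z' p else 0)
    split_ifs <;> simp

theorem glLd_apply (hwt : ∀ v, 0 < wt v) (sym : R →+ (ι × Mon V → Δ)) (d : ℕ) (z : R)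
    (p : ι × Mon V) :
    glLd hwt sym d z p = if Finsupp.weight wt p.2 = d then sym z p else 0 := rfl

theorem glLd_mem (hwt : ∀ v, 0 < wt v) (sym : R →+ (ι × Mon V → Δ)) (d : ℕ) (z : R) :
    glLd hwt sym d z ∈ Finsupp.supported Δ Δ {p : ι × Mon V | Finsupp.weight wt p.2 = d} :=
  (Finsupp.mem_supported' _ _).2 fun _ hp => if_neg hp

theorem glLd_zero (hwt : ∀ v, 0 < wt v) {sym : R →+ (ι × Mon V → Δ)} {d : ℕ} {z : R}
    (h : Fil wt (d + 1) (sym z)) : glLd hwt sym d z = 0 := Finsupp.ext fun p => by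
  rw [glLd_apply]
  split_ifs with hp
  · exact h p (by omega)
  · rfl

theorem glLd_fil (hwt : ∀ v, 0 < wt v) {sym : R →+ (ι × Mon V → Δ)} {d : ℕ} {z : R}
    (h : Fil wt d (sym z)) (h0 : glLd hwt sym d z = 0) : Fil wt (d + 1) (sym z) := by
  intro p hp
  rcases (Nat.lt_succ_iff.1 hp).lt_or_eq with h1 | h1
  · exact h p h1
  · have := DFunLike.congr_fun h0 p
    rwa [glLd_apply, if_pos h1] at this

omit [Finite ι] [Finite V] in
theorem gl_section (δ : Δ →+* R) (sym : R →+ (ι × Mon V → Δ))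
    (hlin : ∀ c x p, sym (δ c * x) p = c * sym x p)
    (hbasis : ∀ p, ∃ x, sym x p = 1 ∧ ∀ p', p' ≠ p → sym x p' = 0) :
    ∃ s : (ι × Mon V →₀ Δ) →+ R, (∀ u p, sym (s u) p = u p) ∧ ∀ c u, s (c • u) = δ c * s u := by
  classical
  choose b hb hb' using hbasis
  refine ⟨Finsupp.liftAddHom fun p => (AddMonoidHom.mulRight (b p)).comp δ.toAddMonoidHom,
    fun u p => ?_, fun c u => ?_⟩
  · induction u using Finsupp.induction_linear with
    | zero => simp
    | add u u' h h' => rw [map_add, map_add, Pi.add_apply, h, h', Finsupp.add_apply]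
    | single q c =>
      rw [Finsupp.liftAddHom_apply_single]
      change sym (δ c * b q) p = _
      rw [hlin, Finsupp.single_apply]
      split_ifs with h
      · rw [← h, hb, mul_one]
      · rw [hb' q p (Ne.symm h), mul_zero]
  · induction u using Finsupp.induction_linear with
    | zero => simp
    | add u u' h h' => rw [smul_add, map_add, map_add, h, h', mul_add]
    | single q c' =>
      rw [Finsupp.smul_single, Finsupp.liftAddHom_apply_single, Finsupp.liftAddHom_apply_single]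
      change δ (c * c') * b q = δ c * (δ c' * b q)
      rw [map_mul, mul_assoc]

omit [Finite V] in
theorem gl_dvd [Fintype ι] [Finite V] (δ : Δ →+* R) (hwt : ∀ v, 0 < wt v)
    (sym : R →+ (ι × Mon V → Δ)) (hlin : ∀ c x p, sym (δ c * x) p = c * sym x p)
    (hmul : ∀ m m' x y, Fil wt m (sym x) → Fil wt m' (sym y) → Fil wt (m + m') (sym (x * y)))
    (hdiv : ∀ x, ¬ Fil wt 1 (sym x) → ∃ x', Fil wt 1 (sym (x' * x - 1)))
    (s : (ι × Mon V →₀ Δ) →+ R) (hs : ∀ u p, sym (s u) p = u p) (d : ℕ)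
    (hc : ∀ z r, Fil wt d (sym z) →
      glLd hwt sym d (r * s (glLd hwt sym d z)) = glLd hwt sym d (r * z))
    (U : Submodule Δ (ι × Mon V →₀ Δ)) [Module.Finite Δ U]
    (hU : U ≤ Finsupp.supported Δ Δ {p : ι × Mon V | Finsupp.weight wt p.2 = d})
    (hcl : ∀ r, ∀ u ∈ U, glLd hwt sym d (r * s u) ∈ U) : Fintype.card ι ∣ finrank Δ U := by
  classical
  have hF : ∀ u ∈ U, Fil wt d (sym (s u)) := fun u hu p hp => by
    rw [hs]
    exact (Finsupp.mem_supported' _ _).1 (hU hu) p hp.ne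
  have hsum : ∀ (c : ι → Δ) (i : ι),
      sym (∑ j, δ (c j) * s (Finsupp.single (j, 0) 1)) (i, 0) = c i := by
    intro c i
    rw [map_sum, Finset.sum_apply]
    simp [hlin, hs, Finsupp.single_apply]
  refine card_dvd_finrank δ (fun r => Fil wt 1 (sym r)) (fun i => s (Finsupp.single (i, 0) 1))
    (fun c h => funext fun i => ?_) (fun r => ⟨fun i => sym r (i, 0), ?_⟩) hdiv U
    (fun r u => glLd hwt sym d (r * s u)) hcl (fun r r' u _ => by rw [add_mul, map_add])
    (fun r u _ u' _ => by rw [map_add, mul_add, map_add]) (fun r r' u hu => ?_)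
    (fun c u hu => ?_) (fun r hr u hu => ?_)
  · rw [← hsum c i]
    exact h (i, 0) (by simp)
  · rintro ⟨i, μ⟩ hp
    obtain rfl : μ = 0 := by
      by_contra h
      obtain ⟨v, hv⟩ := DFunLike.ne_iff.1 h
      have h1 := Finsupp.le_weight_of_ne_zero' wt (f := μ) hv
      have h2 := hwt v
      change Finsupp.weight wt μ < 1 at hp
      omega
    rw [map_sub, Pi.sub_apply, hsum, sub_self]
  · rw [hc _ _ (by simpa using hmul 0 d r' _ (fun _ h => absurd h (Nat.not_lt_zero _)) (hF u hu)),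
      mul_assoc]
  · ext p
    rw [glLd_apply, hlin, hs, Finsupp.smul_apply, smul_eq_mul]
    split_ifs with h
    · rfl
    · rw [(Finsupp.mem_supported' _ _).1 (hU hu) p h, mul_zero]
  · exact glLd_zero hwt (add_comm 1 d ▸ hmul 1 d r _ hr (hF u hu))

end

theorem gl_val {R Δ ι V : Type*} [Ring R] [DivisionRing Δ] [Fintype ι] [Fintype V] (δ : Δ →+* R)
    (wt : V → ℕ) (hwt : ∀ v, 0 < wt v) (sym : R →+ (ι × Mon V → Δ))
    (hlin : ∀ c x p, sym (δ c * x) p = c * sym x p)
    (hmul : ∀ m m' x y, Fil wt m (sym x) → Fil wt m' (sym y) → Fil wt (m + m') (sym (x * y)))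
    (hbasis : ∀ p, ∃ x, sym x p = 1 ∧ ∀ p', p' ≠ p → sym x p' = 0)
    (hshift : ∀ v, ∃ f, ∀ x p, sym (f * x) p ≠ 0 ↔
      ∃ μ, p.2 = μ + Finsupp.single v 1 ∧ sym x (p.1, μ) ≠ 0)
    (hdiv : ∀ x, ¬ Fil wt 1 (sym x) → ∃ x', Fil wt 1 (sym (x' * x - 1)))
    {m m' : ℕ} {x y : R} (hx : Fil wt m (sym x)) (hx' : ¬ Fil wt (m + 1) (sym x))
    (hy : Fil wt m' (sym y)) (hy' : ¬ Fil wt (m' + 1) (sym y)) :
    ¬ Fil wt (m + m' + 1) (sym (x * y)) := by
  classical
  intro hxy
  obtain ⟨s, hs, hs'⟩ := gl_section δ sym hlin hbasis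
  obtain ⟨D, hD, -⟩ := exists_key wt
  obtain ⟨o, ho⟩ := exists_injective_nat ι
  let key : ι × Mon V → Bo ×ₗ ℕ := fun p => toLex (D p.2, o p.1)
  have hkey : Function.Injective key := fun a b h =>
    Prod.ext (ho (congrArg Prod.snd (toLex.injective h))) (hD (congrArg Prod.fst (toLex.injective h)))
  have hks : ∀ i j μ μ' ν, key (i, μ + ν) < key (j, μ' + ν) → key (i, μ) < key (j, μ') := by
    intro i j μ μ' ν
    simp only [key, Prod.Lex.toLex_lt_toLex, map_add, add_lt_add_iff_right, add_left_inj, imp_self]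
  let Ld : R → ι × Mon V → Prop := fun z p => sym z p ≠ 0 ∧
    ∀ b, key p < key b → Finsupp.weight wt b.2 = Finsupp.weight wt p.2 → sym z b = 0
  have hsh : ∀ v, ∃ f, (∀ z d, Fil wt d (sym z) → Fil wt (d + wt v) (sym (f * z))) ∧
      ∀ z p, Ld z p → Ld (f * z) (p.1, p.2 + Finsupp.single v 1) := by
    intro v
    obtain ⟨f, hf⟩ := hshift v
    refine ⟨f, fun z d hz p hp => ?_, fun z p hp => ⟨(hf z _).2 ⟨p.2, rfl, hp.1⟩, ?_⟩⟩
    · by_contra h
      obtain ⟨μ, h1, h2⟩ := (hf z p).1 h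
      rw [h1, map_add, Finsupp.weight_single, one_smul] at hp
      exact h2 (hz _ (by simpa using hp))
    · rintro ⟨j, ν⟩ h1 h2
      by_contra h
      obtain ⟨μ, h3, h4⟩ := (hf z _).1 h
      obtain rfl : ν = μ + Finsupp.single v 1 := h3
      exact h4 (hp.2 (j, μ) (hks _ _ _ _ _ h1) (by simpa using h2))
  let P : ℕ → Submodule Δ (ι × Mon V →₀ Δ) := fun d =>
    Finsupp.supported Δ Δ {p : ι × Mon V | Finsupp.weight wt p.2 = d}
  have h0 : ∀ r, Fil wt 0 (sym r) := fun _ _ h => absurd h (Nat.not_lt_zero _)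
  have hF : ∀ d, ∀ u ∈ P d, Fil wt d (sym (s u)) := fun d u hu p hp => by
    rw [hs]
    exact (Finsupp.mem_supported' _ _).1 hu p hp.ne
  have hrem : ∀ d z, Fil wt d (sym z) → Fil wt (d + 1) (sym (s (glLd hwt sym d z) - z)) := by
    intro d z hz p hp
    rw [map_sub, Pi.sub_apply, hs, glLd_apply]
    split_ifs with h
    · exact sub_self _
    · rw [hz p (by omega), sub_self]
  have hc : ∀ d z r, Fil wt d (sym z) →
      glLd hwt sym d (r * s (glLd hwt sym d z)) = glLd hwt sym d (r * z) := by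
    intro d z r hz
    rw [← sub_eq_zero, ← map_sub, ← mul_sub]
    exact glLd_zero hwt (by simpa using hmul _ _ r _ (h0 r) (hrem d z hz))
  let Ψ : ℕ → (ι × Mon V →₀ Δ) →ₗ[Δ] (ι × Mon V →₀ Δ) := fun d =>
    { toFun := fun u => glLd hwt sym (d + m') (s u * y)
      map_add' := fun u u' => by rw [map_add, add_mul, map_add]
      map_smul' := fun c u => Finsupp.ext fun p => by
        rw [hs', mul_assoc, RingHom.id_apply, Finsupp.smul_apply, glLd_apply, glLd_apply, hlin]
        split_ifs <;> simp }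
  have hΨ : ∀ d z, Fil wt d (sym z) → Ψ d (glLd hwt sym d z) = glLd hwt sym (d + m') (z * y) := by
    intro d z hz
    change glLd hwt sym (d + m') (_ * y) = _
    rw [← sub_eq_zero, ← map_sub, ← sub_mul]
    exact glLd_zero hwt (add_right_comm d 1 m' ▸ hmul _ _ _ _ (hrem d z hz) hy)
  have hcard : ∀ d (U : Submodule Δ (ι × Mon V →₀ Δ)), U ≤ P d → finrank Δ U =
      {a | ∃ u ∈ U, u a ≠ 0 ∧ ∀ b, key a < key b → u b = 0}.ncard := fun d U hU =>
    @finrank_eq_ncard_lead Δ _ _ (LinearOrder.lift' key hkey) (gl_fin hwt d).toFinset U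
      fun u hu p hp => (Set.Finite.mem_toFinset _).2 (hU hu hp)
  have hPf : ∀ d, Module.Finite Δ (P d) := fun d =>
    Module.Finite.iff_fg.2 (by
      simp only [P, Finsupp.supported_eq_span_single]
      exact Submodule.fg_span ((gl_fin hwt d).image _))
  have hIP : ∀ d, (P d).map (Ψ d) ≤ P (d + m') := by
    rintro d _ ⟨u, -, rfl⟩
    exact glLd_mem hwt sym _ _
  let S : Set (ι × Mon V) := {p | ∃ z, Fil wt (Finsupp.weight wt p.2) (sym z) ∧
    Fil wt (Finsupp.weight wt p.2 + m' + 1) (sym (z * y)) ∧ Ld z p}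
  let T : Set (ι × Mon V) := {p | ∃ d z, Finsupp.weight wt p.2 = d + m' ∧ Fil wt d (sym z) ∧
    Ld (z * y) p}
  have hLd : ∀ z p d, Finsupp.weight wt p.2 = d → (Ld z p ↔ glLd hwt sym d z p ≠ 0 ∧
      ∀ b, key p < key b → glLd hwt sym d z b = 0) := by
    rintro z p _ rfl
    simp only [Ld, glLd_apply, if_true, ite_eq_right_iff]
  have hld : ∀ d, ∀ u ∈ P d, glLd hwt sym d (s u) = u := fun d u hu => Finsupp.ext fun p => by
    rw [glLd_apply, hs]
    split_ifs with h
    · rfl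
    · exact ((Finsupp.mem_supported' _ _).1 hu p h).symm
  have hwp : ∀ d, ∀ u ∈ P d, ∀ p, u p ≠ 0 → Finsupp.weight wt p.2 = d := fun d u hu p hp =>
    hu (Finsupp.mem_support_iff.2 hp)
  have hS : ∀ d, {p ∈ S | Finsupp.weight wt p.2 = d}.ncard =
      finrank Δ (P d ⊓ LinearMap.ker (Ψ d) : Submodule Δ _) := by
    intro d
    rw [hcard d _ inf_le_left]
    congr 1
    ext p
    constructor
    · rintro ⟨⟨z, h1, h2, h3⟩, rfl⟩
      exact ⟨_, ⟨glLd_mem hwt sym _ z, (hΨ _ z h1).trans (glLd_zero hwt h2)⟩, (hLd z p _ rfl).1 h3⟩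
    · rintro ⟨u, ⟨h1, h2⟩, h3⟩
      obtain rfl := hwp d u h1 p h3.1
      refine ⟨⟨s u, hF _ u h1, glLd_fil hwt (hmul _ _ _ _ (hF _ u h1) hy) h2, ?_⟩, rfl⟩
      rwa [hLd _ p _ rfl, hld _ u h1]
  have hT : ∀ d, {p ∈ T | Finsupp.weight wt p.2 = d + m'}.ncard =
      finrank Δ ((P d).map (Ψ d)) := by
    intro d
    rw [hcard _ _ (hIP d)]
    congr 1
    ext p
    constructor
    · rintro ⟨⟨d', z, h1, h2, h3⟩, h4⟩
      obtain rfl : d' = d := by omega
      exact ⟨_, ⟨_, glLd_mem hwt sym _ z, hΨ _ z h2⟩, (hLd _ p _ h1).1 h3⟩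
    · rintro ⟨_, ⟨u, h1, rfl⟩, h3⟩
      have h4 := hwp _ _ (hIP d ⟨u, h1, rfl⟩) p h3.1
      exact ⟨⟨d, s u, h4, hF _ u h1, (hLd _ p _ h4).2 h3⟩, h4⟩
  have hex : ∀ d z, Fil wt d (sym z) → ¬ Fil wt (d + 1) (sym z) →
      ∃ p, Finsupp.weight wt p.2 = d ∧ Ld z p := by
    intro d z h1 h2
    obtain ⟨p, hp, hmax⟩ := exists_max_image (glLd hwt sym d z).support key
      (Finsupp.support_nonempty_iff.2 fun h => h2 (glLd_fil hwt h1 h))
    have h3 := hwp d _ (glLd_mem hwt sym d z) p (Finsupp.mem_support_iff.1 hp)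
    refine ⟨p, h3, (hLd z p d h3).2 ⟨Finsupp.mem_support_iff.1 hp, fun b hb => ?_⟩⟩
    by_contra h
    exact absurd (hmax b (Finsupp.mem_support_iff.2 h)) (not_le.2 hb)
  refine gl_count wt hwt S T (gl_upper ?_) (gl_upper ?_) ?_ ?_ m' (fun d => ?_) (fun d => ?_)
    (fun d => ?_) ?_
  · rintro p ⟨z, h1, h2, h3⟩ v
    obtain ⟨f, hf, hf'⟩ := hsh v
    refine ⟨f * z, ?_, ?_, hf' z p h3⟩
    · simpa [Finsupp.weight_single] using hf z _ h1
    · have := hf _ _ h2
      rw [← mul_assoc] at this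
      convert this using 1
      simp only [map_add, Finsupp.weight_single, one_smul]
      ring
  · rintro p ⟨d, z, h1, h2, h3⟩ v
    obtain ⟨f, hf, hf'⟩ := hsh v
    refine ⟨d + wt v, f * z, ?_, hf z _ h2, mul_assoc f z y ▸ hf' _ p h3⟩
    simp only [map_add, Finsupp.weight_single, one_smul, h1]
    ring
  · obtain ⟨p, rfl, h⟩ := hex m x hx hx'
    exact ⟨p, x, hx, hxy, h⟩
  · obtain ⟨p, h1, h⟩ := hex m' y hy hy'
    exact ⟨p, 0, 1, by omega, h0 1, by rwa [one_mul]⟩
  · rw [hS]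
    have := Submodule.finiteDimensional_of_le (inf_le_left : P d ⊓ LinearMap.ker (Ψ d) ≤ P d)
    refine gl_dvd δ hwt sym hlin hmul hdiv s hs d (hc d) _ inf_le_left fun r u hu =>
      ⟨glLd_mem hwt sym _ _, ?_⟩
    have h1 := hF d u hu.1
    refine (hΨ d _ (by simpa using hmul _ _ r _ (h0 r) h1)).trans (glLd_zero hwt ?_)
    rw [mul_assoc]
    simpa using hmul _ _ r _ (h0 r) (glLd_fil hwt (hmul _ _ _ _ h1 hy) hu.2)
  · rcases lt_or_ge d m' with h | h
    · have : {p ∈ T | Finsupp.weight wt p.2 = d} = ∅ :=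
        Set.eq_empty_of_forall_notMem fun p ⟨⟨d', z, h1, _⟩, h2⟩ => by omega
      simp [this]
    · obtain ⟨d, rfl⟩ := Nat.exists_eq_add_of_le' h
      rw [hT]
      refine gl_dvd δ hwt sym hlin hmul hdiv s hs _ (hc _) _ (hIP d) ?_
      rintro r _ ⟨u, hu, rfl⟩
      have h1 := hF d u hu
      refine ⟨_, glLd_mem hwt sym d (r * s u), (hΨ d _ ?_).trans ?_⟩
      · simpa using hmul _ _ r _ (h0 r) h1
      · rw [mul_assoc]
        exact (hc _ _ r (hmul _ _ _ _ h1 hy)).symm
  · have h1 := LinearMap.finrank_range_add_finrank_ker (K := Δ) (V := P d) (V₂ := ι × Mon V →₀ Δ)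
      ((Ψ d).domRestrict (P d))
    rw [LinearMap.range_domRestrict, LinearMap.ker_domRestrict,
      ← Submodule.finrank_map_subtype_eq (P d), Submodule.map_comap_subtype] at h1
    rw [hS, hT, add_comm, h1, hcard d _ le_rfl]
    congr 1
    ext p
    constructor
    · rintro ⟨u, hu, h, -⟩
      exact hwp d u hu p h
    · intro hp
      refine ⟨Finsupp.single p 1, Finsupp.single_mem_supported Δ 1 hp, by simp, fun b hb => ?_⟩
      exact Finsupp.single_eq_of_ne fun h => absurd hb (by simp [h])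
  · rintro p ⟨d, z, h, -⟩
    omega

theorem exists_order {Δ ι V : Type*} [Zero Δ] (wt : V → ℕ) {u : ι × Mon V → Δ} (hu : u ≠ 0) :
    ∃ m, Fil wt m u ∧ ¬ Fil wt (m + 1) u := by
  by_contra h
  push Not at h
  have h1 : ∀ m, Fil wt m u := fun m => by
    induction m with
    | zero => exact fun _ h => absurd h (Nat.not_lt_zero _)
    | succ m ih => exact h m ih
  exact hu (funext fun p => h1 _ p (Nat.lt_succ_self _))

end Vale.Agent.P200.G
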