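import Vale.Agent.P200.Eq.Cells
import Vale.Agent.P200.Eq.Graded

/-! Two nonempty upper sets cannot share the monomials in multiples of the rank. -/

open Finset

namespace Vale.Agent.P200.G

open Vale.Agent.P200.Eq

universe u

/-- the augmentation of the integral group ring -/
noncomputable def gl_eps : ZG ℤ →ₐ[ℤ] ℤ := AddMonoidAlgebra.lift ℤ ℤ ℤ 1

theorem gl_eps_q (γ : ℤ) : gl_eps (q γ) = 1 := by
  rw [gl_eps, q, AddMonoidAlgebra.lift_single]
  simp

theorem gl_eps_dvd (N : ℤ) (k : ZG ℤ) (h : ∀ γ, N ∣ k.coeff γ) : N ∣ gl_eps k := by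
  rw [gl_eps, AddMonoidAlgebra.lift_apply, Finsupp.sum]
  refine Finset.dvd_sum fun γ _ => ?_
  simpa using h γ

theorem gl_act_dvd (N : ℤ) (x : ZG ℤ) (f : ℤ → ℤ) (h : ∀ γ, N ∣ f γ) (γ : ℤ) :
    N ∣ act x f γ := by
  induction x using AddMonoidAlgebra.induction_linear with
  | zero => simp
  | add a b ha hb =>
    rw [map_add, LinearMap.add_apply, Pi.add_apply]
    exact dvd_add ha hb
  | single δ z =>
    rw [single_eq_smul_q, map_smul, LinearMap.smul_apply, Pi.smul_apply, act_q, smul_eq_mul]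
    exact Dvd.dvd.mul_left (h _) _

theorem gl_eps_cell {ι V : Type*} [Fintype V] (G : Gr ι V ℤ) (c : (ι × Mon V) × Finset V) :
    0 ≤ gl_eps (G.cellK c) := by
  rw [Gr.cellK, map_mul, gl_eps_q, one_mul, map_prod]
  refine Finset.prod_nonneg fun v _ => ?_
  rw [map_sub, map_one, gl_eps_q, sub_self]

theorem gl_key {ι V : Type*} [Fintype ι] [Fintype V] (G : Gr ι V ℤ) (A : Set (ι × Mon V))
    (hA : Upper A) (hA0 : A.Nonempty) (N : ℤ) (hN : ∀ γ, N ∣ G.cnt A γ) :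
    ∃ k : ZG ℤ, act G.den (G.cnt A) = ⇑k.coeff ∧ N ≤ gl_eps k := by
  classical
  obtain ⟨c, hc⟩ := hA0
  set B : Set (ι × Mon V) := (fun p : ι × Mon V => (p.1, p.2 + c.2)) ''
      {p | p.1 = c.1 ∧ ∀ v, p.2 v ≠ 0 → v ∈ (univ : Finset V)} with hB
  have hBU : Upper B := by
    rintro p ⟨r, ⟨hr, -⟩, rfl⟩ m
    refine ⟨(r.1, r.2 + m), ⟨hr, fun v _ => mem_univ v⟩, ?_⟩
    simp only [Prod.mk.injEq, true_and]
    abel
  have hBA : B ⊆ A := by
    rintro p ⟨r, ⟨hr, -⟩, rfl⟩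
    have := hA c hc r.2
    simp only [hr, add_comm r.2]
    exact this
  obtain ⟨C, hC, -⟩ := exists_cells_set G B A hBU hA hBA
  have h1 := cnt_cell G c univ
  rw [← hB] at h1
  have hk : act G.den (G.cnt A) = ⇑(∑ x ∈ C, G.cellK x + G.cellK (c, univ)).coeff := by
    rw [AddMonoidAlgebra.coeff_add, Finsupp.coe_add, ← hC, ← h1, ← map_add, sub_add_cancel]
  refine ⟨_, hk, Int.le_of_dvd ?_ (gl_eps_dvd _ _ fun γ => ?_)⟩
  · have h2 : gl_eps (G.cellK (c, univ)) = 1 := by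
      simp [Gr.cellK, gl_eps_q]
    rw [map_add, h2, map_sum]
    have := Finset.sum_nonneg fun x (_ : x ∈ C) => gl_eps_cell G x
    omega
  · rw [← hk]
    exact gl_act_dvd _ _ _ hN γ

theorem gl_count {ι V : Type*} [Fintype ι] [Fintype V] (wt : V → ℕ) (hwt : ∀ v, 0 < wt v)
    (S T : Set (ι × Mon V)) (hS : Upper S) (hT : Upper T) (hS0 : S.Nonempty) (hT0 : T.Nonempty)
    (m : ℕ) (h1 : ∀ d, Fintype.card ι ∣ {p ∈ S | Finsupp.weight wt p.2 = d}.ncard)
    (h2 : ∀ d, Fintype.card ι ∣ {p ∈ T | Finsupp.weight wt p.2 = d}.ncard)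
    (h3 : ∀ d, {p ∈ S | Finsupp.weight wt p.2 = d}.ncard +
      {p ∈ T | Finsupp.weight wt p.2 = d + m}.ncard =
        {p : ι × Mon V | Finsupp.weight wt p.2 = d}.ncard)
    (h4 : ∀ p ∈ T, m ≤ Finsupp.weight wt p.2) : False := by
  classical
  let G : Gr ι V ℤ := ⟨0, fun v => (wt v : ℤ),
    fin_of_pos _ _ (AddMonoidHom.id ℤ) fun v => by simpa using hwt v⟩
  have hdeg : ∀ p, G.deg p = (Finsupp.weight wt p.2 : ℕ) := fun p => by
    simp [G, Gr.deg, Finsupp.weight_apply, Finsupp.sum]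
  have hnat : ∀ (A : Set (ι × Mon V)) (d : ℕ),
      G.cnt A d = ({p ∈ A | Finsupp.weight wt p.2 = d}.ncard : ℕ) := fun A d => by
    simp only [Gr.cnt, hdeg, Nat.cast_inj]
  have hneg : ∀ (A : Set (ι × Mon V)) (γ : ℤ),
      (∀ p ∈ A, γ < (Finsupp.weight wt p.2 : ℕ)) → G.cnt A γ = 0 := fun A γ h => by
    have : {p ∈ A | G.deg p = γ} = ∅ := by
      refine Set.eq_empty_of_forall_notMem fun p hp => ?_
      have h1 := h p hp.1
      have h2 := hp.2
      rw [hdeg] at h2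
      omega
    rw [Gr.cnt, this]
    simp
  have hdvd : ∀ A : Set (ι × Mon V),
      (∀ d, Fintype.card ι ∣ {p ∈ A | Finsupp.weight wt p.2 = d}.ncard) →
      ∀ γ, (Fintype.card ι : ℤ) ∣ G.cnt A γ := fun A h γ => by
    rcases lt_or_ge γ 0 with hγ | hγ
    · rw [hneg A γ fun p _ => by omega]
      exact dvd_zero _
    · lift γ to ℕ using hγ
      rw [hnat]
      exact Int.natCast_dvd_natCast.2 (h γ)
  obtain ⟨k, hk, hk'⟩ := gl_key G S hS hS0 _ (hdvd S h1)
  obtain ⟨l, hl, hl'⟩ := gl_key G T hT hT0 _ (hdvd T h2)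
  have hU := act_cnt_coprime G (p := 0) Fin.elim0 (fun i => i.elim0)
  have hset : {x : ι × Mon V | ∀ j : Fin 0, ¬ (Fin.elim0 j : Mon V) ≤ x.2} = Set.univ :=
    Set.eq_univ_of_forall fun x j => j.elim0
  rw [hset] at hU
  have hsum : G.cnt S + act (q (-(m : ℤ))) (G.cnt T) = G.cnt Set.univ := by
    funext γ
    rw [Pi.add_apply, act_q, sub_neg_eq_add]
    rcases lt_or_ge γ 0 with hγ | hγ
    · rw [hneg S γ fun p _ => by omega, hneg Set.univ γ fun p _ => by omega,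
        hneg T _ fun p hp => by have := h4 p hp; omega]
      rfl
    · lift γ to ℕ using hγ
      rw [← Nat.cast_add, hnat, hnat, hnat, ← Nat.cast_add, h3]
      simp
  rw [← hsum, map_add, ← act_mul, mul_comm, act_mul, hk, hl, act_coeff, ← Finsupp.coe_add,
    ← AddMonoidAlgebra.coeff_add] at hU
  have h5 := congrArg gl_eps (coeff_inj hU)
  simp only [map_add, map_mul, gl_eps_q, map_sum, one_mul, Finset.univ_eq_empty, prod_empty,
    mul_one, sum_const, card_univ, nsmul_eq_mul] at h5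
  obtain ⟨c, -⟩ := hS0
  have : 0 < Fintype.card ι := Fintype.card_pos_iff.2 ⟨c.1⟩
  omega

end Vale.Agent.P200.G
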