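import Vale.Agent.P200.G.Ex

/-! The generic normal form is balanced. -/

open Finset Polynomial Matrix

namespace Vale.Agent.P200.G

open Vale.Agent.P200.Eq

universe u

variable {A : ℕ} [NeZero A] {L : Type u} [Field L]

theorem nf_Phig : NF (Phig A L) := by
  intro j
  refine ⟨fun c => ?_, fun i i' hi => ?_, fun i => ?_⟩
  · rw [Phig, Fl.map, map_apply, Phip, of_apply, dif_neg (by simp), add_zero, add_zero]
    split_ifs <;> simp
  · rw [Phig, Fl.map, map_apply, Phip, of_apply, dif_neg, if_neg, add_zero, map_zero]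
    · intro h
      exact hi.ne (add_left_cancel h)
    · rw [add_sub_cancel_left]
      exact fun h => absurd h.2 (not_le.2 hi)
  · rw [Phig, Fl.map, map_apply]
    refine (map_ne_zero_iff _ (IsFractionRing.injective _ _)).2 fun h => ?_
    have h1 := congrArg MvPolynomial.constantCoeff h
    rw [Phip, of_apply, if_pos rfl, map_add, map_one, map_zero] at h1
    split_ifs at h1 <;> simp at h1

/-- every normal form is a specialization of the generic one -/
theorem exists_spec {k : Type*} [Field k] (φ : L →+* k) {Φ : Fl A k} (h : NF Φ) :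
    ∃ ψ : MvPolynomial (Vr A) L →+* k, (∀ x, ψ (MvPolynomial.C x) = φ x) ∧
      (Phip A L).map ψ = Φ := by
  refine ⟨MvPolynomial.eval₂Hom φ fun v => Φ v.1.1 v.1.2.1 (v.1.1 + v.1.2.2) -
    if v.1.1 + v.1.2.2 = v.1.1 + v.1.2.1 then 1 else 0, fun x => by simp, ?_⟩
  funext j
  ext1 i c
  obtain ⟨h1, h2, -⟩ := h j
  rw [Fl.map, map_apply, Phip, of_apply, map_add]
  by_cases hh : 0 < i.val ∧ i ≤ c - j
  · rw [dif_pos hh, MvPolynomial.eval₂Hom_X']
    simp only [add_sub_cancel]
    split_ifs <;> simp
  · rw [dif_neg hh, map_zero, add_zero]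
    by_cases hi : i = 0
    · subst hi
      rw [h1, add_zero]
      split_ifs <;> simp
    · have hlt : c - j < i := by
        by_contra hc
        exact hh ⟨Fin.pos_iff_ne_zero.2 hi, not_lt.1 hc⟩
      have h3 := h2 i (c - j) hlt
      rw [add_sub_cancel] at h3
      rw [h3, if_neg, map_zero]
      rintro rfl
      rw [add_sub_cancel_left] at hlt
      exact lt_irrefl _ hlt

/-- the tuple with independent entries -/
noncomputable def genP (A : ℕ) (L : Type u) [Field L] :
    Fl A (MvPolynomial (Fin A × Fin A × Fin A) L) :=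
  fun j => Matrix.of fun i c => MvPolynomial.X (j, i, c)

omit [NeZero A] in
theorem genP_map (Φ : Fl A L) :
    (genP A L).map (MvPolynomial.eval fun v => Φ v.1 v.2.1 v.2.2) = Φ := by
  funext j
  ext1 i c
  simp [Fl.map, genP]

theorem good_genP {a : Fin A → L} (ha : Function.Injective a) {k : Type*} [Field k]
    (ι : MvPolynomial (Fin A × Fin A × Fin A) L →+* k) (hι : Function.Injective ι) :
    GoodFl (fun j => ι (MvPolynomial.C (a j))) ((genP A L).map ι) := by
  refine goodFl_of_bal0 (hι.comp ((MvPolynomial.C_injective _ _).comp ha)) (fun j h0 => ?_)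
    fun r n hr hs => ?_
  · have h1 : (genP A L j).det = 0 := by
      apply hι
      rw [RingHom.map_det, map_zero]
      exact h0
    have h2 := RingHom.map_det
      (MvPolynomial.eval fun v : Fin A × Fin A × Fin A => (1 : Fl A L) v.1 v.2.1 v.2.2) (genP A L j)
    have h3 := congrFun (genP_map (1 : Fl A L)) j
    rw [h1, map_zero, RingHom.mapMatrix_apply] at h2
    rw [Fl.map] at h3
    rw [h3, Pi.one_apply, det_one] at h2
    exact zero_ne_one h2
  · obtain ⟨Φ, hΦ⟩ := bal0_perm ha (fun j => (hr j).le) hs
    refine bal0_spec ι hι (MvPolynomial.eval fun v => Φ v.1 v.2.1 v.2.2)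
      (fun j => MvPolynomial.C (a j)) (genP A L) (fun j => (hr j).le) hs ?_
    rw [genP_map]
    simpa only [MvPolynomial.eval_C] using hΦ

theorem good_Phig {a : Fin A → L} (ha : Function.Injective a) :
    GoodFl (fun j => algebraMap L (Kh A L) (a j)) (Phig A L) := by
  let R := MvPolynomial (Fin A × Fin A × Fin A) L
  let ι : R →+* FractionRing R := algebraMap R (FractionRing R)
  have hι : Function.Injective ι := IsFractionRing.injective _ _
  have ha' : Function.Injective fun j => ι (MvPolynomial.C (a j)) :=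
    hι.comp ((MvPolynomial.C_injective _ _).comp ha)
  have hG := good_genP ha ι hι
  obtain ⟨B, Φ', hR, hN⟩ := exists_norm ha' hG
  have hG' := hR.good ha' hG hN.det_ne (by simp)
  obtain ⟨ψ, hψ, e⟩ := exists_spec (ι.comp MvPolynomial.C) hN
  refine goodFl_of_bal0 ((algebraMap L (Kh A L)).injective.comp ha) nf_Phig.det_ne
    fun r n hr hs => ?_
  have h1 : Bal0 (fun j => ψ (MvPolynomial.C (a j))) ((Phip A L).map ψ) r n := by
    rw [e]
    simp only [hψ]
    exact (bal_iff_bal0 ha' Φ' (fun j => (hr j).le) n).1 (hG'.2 r n hs)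
  exact bal0_spec (algebraMap (MvPolynomial (Vr A) L) (Kh A L)) (IsFractionRing.injective _ _) ψ
    (fun j => MvPolynomial.C (a j)) (Phip A L) (fun j => (hr j).le) hs h1

end Vale.Agent.P200.G
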