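import Mathlib

/-! The group `ℤ^A ⋊ (ℤ/A × ℤ/A)` and its action on pairs of indices. -/

namespace Vale.Agent.P200.G

open Finset

/-- elements `(n, k, h)`; `h` shifts `n` cyclically -/
@[ext] structure Gw (A : ℕ) where
  n : Fin A → ℤ
  k : Fin A
  h : Fin A

/-- pairs (point, position) -/
abbrev Ix (A : ℕ) := Fin A × Fin A

variable {A : ℕ} [NeZero A]

instance : Mul (Gw A) := ⟨fun g g' => ⟨fun j => g.n j + g'.n (j - g.h), g.k + g'.k, g.h + g'.h⟩⟩

instance : One (Gw A) := ⟨⟨0, 0, 0⟩⟩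

instance : Inv (Gw A) := ⟨fun g => ⟨fun j => -g.n (j + g.h), -g.k, -g.h⟩⟩

namespace Gw

@[simp] theorem mul_n (g g' : Gw A) (j : Fin A) : (g * g').n j = g.n j + g'.n (j - g.h) := rfl
@[simp] theorem mul_k (g g' : Gw A) : (g * g').k = g.k + g'.k := rfl
@[simp] theorem mul_h (g g' : Gw A) : (g * g').h = g.h + g'.h := rfl
@[simp] theorem one_n : (1 : Gw A).n = 0 := rfl
@[simp] theorem one_k : (1 : Gw A).k = 0 := rfl
@[simp] theorem one_h : (1 : Gw A).h = 0 := rfl
@[simp] theorem inv_n (g : Gw A) (j : Fin A) : g⁻¹.n j = -g.n (j + g.h) := rfl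
@[simp] theorem inv_k (g : Gw A) : g⁻¹.k = -g.k := rfl
@[simp] theorem inv_h (g : Gw A) : g⁻¹.h = -g.h := rfl

instance : Group (Gw A) :=
  Group.ofLeftAxioms
    (fun a b c => by
      refine Gw.ext (funext fun j => ?_) (add_assoc _ _ _) (add_assoc _ _ _)
      simp only [mul_n, mul_h, add_assoc, sub_sub])
    (fun a => by
      refine Gw.ext (funext fun j => ?_) (zero_add _) (zero_add _)
      simp)
    (fun a => by
      refine Gw.ext (funext fun j => ?_) (neg_add_cancel _) (neg_add_cancel _)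
      simp)

end Gw

/-- the cyclic difference; `n = Pi.single j 1` gives `ε j - ε (j + 1)` -/
def pd (n : Fin A → ℤ) : Fin A → ℤ := fun j => n j - n (j - 1)

/-- the cyclic shift -/
def sh {α : Type*} (n : Fin A → α) : Fin A → α := fun j => n (j - 1)

/-- the shift vector by which `g` acts -/
def Gw.e (g : Gw A) : Fin A → ℤ := fun j => pd g.n j + (g.k.val : ℤ)

/-- action of a shift vector on pairs -/
def ixs (e : Fin A → ℤ) (x : Ix A) : Ix A := (x.1, x.2 + e x.1 • (1 : Fin A))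

theorem val_zsmul_one (k : Fin A) : ((k.val : ℤ)) • (1 : Fin A) = k := by
  rw [natCast_zsmul]
  obtain ⟨A, rfl⟩ : ∃ B, A = B + 1 := Nat.exists_eq_succ_of_ne_zero (NeZero.ne A)
  have h : ∀ m : ℕ, m • (1 : ZMod (A + 1)) = (m : ZMod (A + 1)) := fun m => nsmul_one m
  exact (h k.val).trans (ZMod.natCast_zmod_val (n := A + 1) k)

theorem A_zsmul_one : ((A : ℤ)) • (1 : Fin A) = 0 := by
  rw [natCast_zsmul]
  have := card_nsmul_eq_zero (x := (1 : Fin A))
  rwa [Fintype.card_fin] at this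

instance : MulAction (Gw A) (Ix A) where
  smul g x := (x.1 + g.h, x.2 + g.k + pd g.n (x.1 + g.h) • (1 : Fin A))
  one_smul x := by
    change (x.1 + 0, x.2 + 0 + pd 0 (x.1 + 0) • (1 : Fin A)) = x
    simp [pd]
  mul_smul g g' x := by
    change (x.1 + (g.h + g'.h), x.2 + (g.k + g'.k) + pd (g * g').n (x.1 + (g.h + g'.h)) • (1 : Fin A))
      = (x.1 + g'.h + g.h, x.2 + g'.k + pd g'.n (x.1 + g'.h) • (1 : Fin A) + g.k +
        pd g.n (x.1 + g'.h + g.h) • (1 : Fin A))
    have h1 : x.1 + (g.h + g'.h) = x.1 + g'.h + g.h := by abel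
    have h2 : pd (g * g').n (x.1 + g'.h + g.h) =
        pd g'.n (x.1 + g'.h) + pd g.n (x.1 + g'.h + g.h) := by
      have h3 : x.1 + g'.h + g.h - g.h = x.1 + g'.h := by abel
      have h4 : x.1 + g'.h + g.h - 1 - g.h = x.1 + g'.h - 1 := by abel
      simp only [pd, Gw.mul_n, h3, h4]
      ring
    rw [h1, h2, add_zsmul]
    refine Prod.ext rfl ?_
    dsimp only
    abel

theorem Gw.smul_def (g : Gw A) (x : Ix A) :
    g • x = (x.1 + g.h, x.2 + g.k + pd g.n (x.1 + g.h) • (1 : Fin A)) := rfl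

theorem Gw.smul_eq_ixs (g : Gw A) (x : Ix A) : g • x = ixs g.e (x.1 + g.h, x.2) := by
  rw [Gw.smul_def, ixs, Gw.e, add_zsmul, val_zsmul_one]
  refine Prod.ext rfl ?_
  dsimp only
  abel

/-- the base point -/
def ixo (A : ℕ) [NeZero A] : Ix A := (0, 0)

/-- the elements `(n, 1, 0)` -/
def gu (n : Fin A → ℤ) : Gw A := ⟨n, 1, 0⟩

/-- the elements `(0, 0, h)` -/
def gs (h : Fin A) : Gw A := ⟨0, 0, h⟩

/-- the elements `(0, m, -m)` -/
def gc (m : Fin A) : Gw A := ⟨0, m, -m⟩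

/-- the elements `(n, 0, 0)` -/
def gn (n : Fin A → ℤ) : Gw A := ⟨n, 0, 0⟩

/-- `(n, 1, 0)` acts by a nonnegative shift vector -/
def Pos (n : Fin A → ℤ) : Prop := ∀ j, 0 ≤ pd n j + 1

/-- a vector with `pd (nu j) = ε j - ε 0` -/
def nu (j : Fin A) : Fin A → ℤ := fun j' => if j' < j then -1 else 0

/-- the vector attached to a word; `pd (nw w) + 1` is the content of `w` -/
def nw (w : Fin A → Fin A) : Fin A → ℤ := ∑ p, nu (w p) - ∑ j, nu j

/-- the content of a word -/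
def ct (w : Fin A → Fin A) : Fin A → ℕ := ∑ p, Pi.single (w p) 1

/-- powers of an automorphism, indexed by `Fin A` -/
def sg {F L : Type*} [CommSemiring F] [Semiring L] [Algebra F L] (σ : L ≃ₐ[F] L) (h : Fin A) :
    L ≃ₐ[F] L := σ ^ h.val

end Vale.Agent.P200.G
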