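import Vale.Agent.P200.Eq.Basic

/-! Triangular factorization. -/

open Finset Matrix

namespace Vale.Agent.P200.G

open Vale.Agent.P200.Eq

universe u

theorem exists_lu {R : Type*} [CommRing R] {n : ℕ} (T : Matrix (Fin n) (Fin n) R)
    (h : ∀ (p : ℕ) (hp : p ≤ n), IsUnit (T.submatrix (Fin.castLE hp) (Fin.castLE hp)).det) :
    ∃ Y U : Matrix (Fin n) (Fin n) R, T = Y * U ∧ (∀ i, Y i i = 1) ∧
      (∀ i i', i < i' → Y i i' = 0) ∧ (∀ i i', i' < i → U i i' = 0) ∧ ∀ i, IsUnit (U i i) := by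
  induction n with
  | zero => exact ⟨1, 1, Subsingleton.elim _ _, finZeroElim, finZeroElim, finZeroElim, finZeroElim⟩
  | succ n ih =>
    obtain ⟨Y, U, hT, h1, h2, h3, h4⟩ := ih (T.submatrix Fin.castSucc Fin.castSucc)
      fun p hp => h p (hp.trans n.le_succ)
    have dY : IsUnit Y.det := by
      rw [det_of_isLowerTriangular Y fun i i' hi => h2 i i' hi]
      simp [h1]
    have dU : IsUnit U.det := by
      rw [det_of_isUpperTriangular fun i i' hi => h3 i i' hi]
      exact IsUnit.prod_univ_iff.2 h4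
    obtain ⟨r, hr⟩ : ∃ r : Fin n → R, r ᵥ* U = fun j => T (Fin.last n) j.castSucc :=
      ⟨_ ᵥ* U⁻¹, by rw [vecMul_vecMul, nonsing_inv_mul _ dU, vecMul_one]⟩
    obtain ⟨c, hc⟩ : ∃ c : Fin n → R, Y *ᵥ c = fun j => T j.castSucc (Fin.last n) :=
      ⟨Y⁻¹ *ᵥ _, by rw [mulVec_mulVec, mul_nonsing_inv _ dY, one_mulVec]⟩
    obtain ⟨Y', hY1, hY2, hY3, hY4⟩ : ∃ Y' : Matrix (Fin (n + 1)) (Fin (n + 1)) R,
        (∀ i j : Fin n, Y' i.castSucc j.castSucc = Y i j) ∧
        (∀ i : Fin n, Y' i.castSucc (Fin.last n) = 0) ∧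
        (∀ j : Fin n, Y' (Fin.last n) j.castSucc = r j) ∧ Y' (Fin.last n) (Fin.last n) = 1 :=
      ⟨of (Fin.snoc (α := fun _ => Fin (n + 1) → R)
        (fun i => Fin.snoc (α := fun _ => R) (Y i) 0) (Fin.snoc (α := fun _ => R) r 1)),
        by simp, by simp, by simp, by simp⟩
    obtain ⟨U', hU1, hU2, hU3, hU4⟩ : ∃ U' : Matrix (Fin (n + 1)) (Fin (n + 1)) R,
        (∀ i j : Fin n, U' i.castSucc j.castSucc = U i j) ∧
        (∀ i : Fin n, U' i.castSucc (Fin.last n) = c i) ∧
        (∀ j : Fin n, U' (Fin.last n) j.castSucc = 0) ∧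
        U' (Fin.last n) (Fin.last n) = T (Fin.last n) (Fin.last n) - r ⬝ᵥ c :=
      ⟨of (Fin.snoc (α := fun _ => Fin (n + 1) → R)
        (fun i => Fin.snoc (α := fun _ => R) (U i) (c i))
        (Fin.snoc (α := fun _ => R) 0 (T (Fin.last n) (Fin.last n) - r ⬝ᵥ c))),
        by simp, by simp, by simp, by simp⟩
    have e : T = Y' * U' := by
      ext i j
      rw [mul_apply, Fin.sum_univ_castSucc]
      induction i using Fin.lastCases <;> induction j using Fin.lastCases <;>
        simp only [hY1, hY2, hY3, hY4, hU1, hU2, hU3, hU4, zero_mul, mul_zero, add_zero, one_mul]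
      · simp [dotProduct]
      · exact (congrFun hr _).symm
      · exact (congrFun hc _).symm
      · exact congrFun (congrFun hT _) _
    have a1 : ∀ i, Y' i i = 1 := fun i => by
      induction i using Fin.lastCases
      · exact hY4
      · rw [hY1, h1]
    have a2 : ∀ i i', i < i' → Y' i i' = 0 := fun i i' hi => by
      induction i using Fin.lastCases
      · exact absurd hi (Fin.le_last _).not_gt
      · induction i' using Fin.lastCases
        · exact hY2 _
        · rw [hY1, h2 _ _ (Fin.castSucc_lt_castSucc_iff.1 hi)]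
    have a3 : ∀ i i', i' < i → U' i i' = 0 := fun i i' hi => by
      induction i' using Fin.lastCases
      · exact absurd hi (Fin.le_last _).not_gt
      · induction i using Fin.lastCases
        · exact hU3 _
        · rw [hU1, h3 _ _ (Fin.castSucc_lt_castSucc_iff.1 hi)]
    refine ⟨Y', U', e, a1, a2, a3, ?_⟩
    have d : IsUnit T.det := h (n + 1) le_rfl
    rw [e, det_mul, det_of_isUpperTriangular fun i i' hi => a3 i i' hi] at d
    exact IsUnit.prod_univ_iff.1 (isUnit_of_mul_isUnit_right d)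

theorem lu_unique {k : Type*} [Field k] {n : ℕ} {Y₁ U₁ Y₂ U₂ : Matrix (Fin n) (Fin n) k}
    (h : Y₁ * U₁ = Y₂ * U₂) (h1 : ∀ i, Y₁ i i = 1) (h1' : ∀ i i', i < i' → Y₁ i i' = 0)
    (h2 : ∀ i, Y₂ i i = 1) (h2' : ∀ i i', i < i' → Y₂ i i' = 0)
    (h3 : ∀ i i', i' < i → U₁ i i' = 0) (h3' : ∀ i, U₁ i i ≠ 0)
    (h4 : ∀ i i', i' < i → U₂ i i' = 0) : U₁ = U₂ := by
  have key : ∀ m : ℕ, ∀ i : Fin n, i.val = m →
      (∀ j, U₁ i j = U₂ i j) ∧ ∀ j, Y₁ j i = Y₂ j i := by
    intro m
    induction m using Nat.strong_induction_on with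
    | _ m ih =>
      rintro i rfl
      have ih' : ∀ l, l < i → (∀ j, U₁ l j = U₂ l j) ∧ ∀ j, Y₁ j l = Y₂ j l :=
        fun l hl => ih l hl l rfl
      have main : ∀ a b, (∀ l, i < l → Y₁ a l * U₁ l b = 0 ∧ Y₂ a l * U₂ l b = 0) →
          Y₁ a i * U₁ i b = Y₂ a i * U₂ i b := by
        intro a b hab
        have e := congrFun (congrFun h a) b
        rw [mul_apply, mul_apply, ← add_sum_erase _ _ (mem_univ i),
          ← add_sum_erase _ _ (mem_univ i)] at e
        have e2 : ∑ l ∈ univ.erase i, Y₁ a l * U₁ l b = ∑ l ∈ univ.erase i, Y₂ a l * U₂ l b := by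
          refine sum_congr rfl fun l hl => ?_
          rcases lt_or_gt_of_ne (ne_of_mem_erase hl) with hl | hl
          · rw [(ih' l hl).1, (ih' l hl).2]
          · rw [(hab l hl).1, (hab l hl).2]
        rw [e2] at e
        exact add_right_cancel e
      have hU : ∀ j, U₁ i j = U₂ i j := fun j => by
        have := main i j fun l hl => ⟨by rw [h1' _ _ hl, zero_mul], by rw [h2' _ _ hl, zero_mul]⟩
        rwa [h1, h2, one_mul, one_mul] at this
      refine ⟨hU, fun j => ?_⟩
      have := main j i fun l hl => ⟨by rw [h3 _ _ hl, mul_zero], by rw [h4 _ _ hl, mul_zero]⟩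
      rw [← hU] at this
      exact mul_right_cancel₀ (h3' i) this
  ext i j
  exact (key i i rfl).1 j

end Vale.Agent.P200.G
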