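import Vale.Agent.P200.G.Defs
import Vale.Agent.P200.Prep

/-! Basic facts about linear forms, states and their extensions. -/

open MvPolynomial

namespace Vale.Agent.P200.G

open Vale.Agent.P200.Eq

universe u

variable {n : ℕ}

section lin

variable {R S : Type*} [Semiring R] [Semiring S]

theorem amap_single (φ : R →+* S) (m : Fin n →₀ ℕ) (r : R) :
    amap n φ (AddMonoidAlgebra.single m r) = AddMonoidAlgebra.single m (φ r) :=
  AddMonoidAlgebra.mapRingHom_single _ _ _

theorem amap_lin (φ : R →+* S) (c : Fin n → R) : amap n φ (lin c) = lin fun i => φ (c i) := by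
  simp only [lin, map_sum, amap_single]

theorem amap_cst (φ : R →+* S) (r : R) : amap n φ (cst n r) = cst n (φ r) := amap_single φ 0 r

theorem coeff_amap (φ : R →+* S) (x : Alg R (Fin n)) (m : Fin n →₀ ℕ) :
    (amap n φ x).coeff m = φ (x.coeff m) := by
  simp [amap]

theorem amap_injective {φ : R →+* S} (h : Function.Injective φ) :
    Function.Injective (amap n φ) := fun x y hxy =>
  AddMonoidAlgebra.ext (Finsupp.ext fun m => h (by rw [← coeff_amap, ← coeff_amap, hxy]))

theorem coeff_lin (c : Fin n → R) (i : Fin n) : (lin c).coeff (Finsupp.single i 1) = c i := by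
  classical
  rw [lin, AddMonoidAlgebra.coeff_sum, Finsupp.finsetSum_apply, Finset.sum_eq_single i]
  · simp
  · intro j _ hj
    rw [AddMonoidAlgebra.coeff_single, Finsupp.single_eq_of_ne]
    exact fun h => hj (Finsupp.single_left_injective one_ne_zero h).symm
  · simp

theorem lin_injective : Function.Injective (lin : (Fin n → R) → Alg R (Fin n)) :=
  fun c c' h => funext fun i => by rw [← coeff_lin c, h, coeff_lin]

theorem lin_add (c c' : Fin n → R) : lin (c + c') = lin c + lin c' := by
  simp only [lin, Pi.add_apply, AddMonoidAlgebra.single_add, Finset.sum_add_distrib]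

theorem lin_zero : lin (0 : Fin n → R) = 0 := by simp [lin]

theorem cst_apply (r : R) : cst n r = AddMonoidAlgebra.single 0 r := rfl

theorem cst_mul_lin (r : R) (c : Fin n → R) : cst n r * lin c = lin fun i => r * c i := by
  simp only [lin, Finset.mul_sum, cst_apply, AddMonoidAlgebra.single_mul_single, zero_add]

theorem lin_mul_cst (r : R) (c : Fin n → R) : lin c * cst n r = lin fun i => c i * r := by
  simp only [lin, Finset.sum_mul, cst_apply, AddMonoidAlgebra.single_mul_single, add_zero]

theorem lin_sum {ι : Type*} (s : Finset ι) (c : ι → Fin n → R) :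
    lin (∑ x ∈ s, c x) = ∑ x ∈ s, lin (c x) := by
  classical
  induction s using Finset.induction_on with
  | empty => simpa using lin_zero
  | insert x s hx ih => rw [Finset.sum_insert hx, Finset.sum_insert hx, lin_add, ih]

theorem lin_smul {F R : Type*} [CommSemiring F] [Semiring R] [Algebra F R] (a : F)
    (c : Fin n → R) : lin (a • c) = a • lin c := by
  simp only [lin, Pi.smul_apply, Finset.smul_sum, AddMonoidAlgebra.smul_single]

theorem algebraMap_alg {F R : Type*} [CommSemiring F] [Semiring R] [Algebra F R] (a : F) :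
    algebraMap F (Alg R (Fin n)) a = cst n (algebraMap F R a) := rfl

theorem commute_single {m m' : Fin n →₀ ℕ} {r r' : R} (h : Commute r r') :
    Commute (AddMonoidAlgebra.single m r : Alg R (Fin n)) (AddMonoidAlgebra.single m' r') := by
  rw [Commute, SemiconjBy, AddMonoidAlgebra.single_mul_single, AddMonoidAlgebra.single_mul_single,
    h.eq, add_comm]

theorem commute_lin {c c' : Fin n → R} (h : ∀ i j, Commute (c i) (c' j)) :
    Commute (lin c) (lin c') :=
  Commute.sum_left _ _ _ fun i _ => Commute.sum_right _ _ _ fun j _ => commute_single (h i j)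

theorem amap_inc {F F' D D' : Type*} [Field F] [Field F'] [DivisionRing D] [DivisionRing D']
    [Algebra F D] [Algebra F' D'] (φF : F →+* F') (φ : D →+* D')
    (h : ∀ c, φ (algebraMap F D c) = algebraMap F' D' (φF c)) (g : MvPolynomial (Fin n) F) :
    amap n φ (inc F D (Fin n) g) = inc F' D' (Fin n) (map φF g) := by
  refine AddMonoidAlgebra.ext (Finsupp.ext fun m => ?_)
  rw [coeff_amap]
  have h1 : (inc F D (Fin n) g).coeff m = algebraMap F D (coeff m g) := by
    simp only [inc, AddMonoidAlgebra.coeff_mapRingHom]; rfl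
  have h2 : (inc F' D' (Fin n) (map φF g)).coeff m = algebraMap F' D' (coeff m (map φF g)) := by
    simp only [inc, AddMonoidAlgebra.coeff_mapRingHom]; rfl
  rw [h1, h2, h, coeff_map]

end lin

/-- centralizers as division algebras -/
theorem exists_cent {F D : Type u} [Field F] [DivisionRing D] [Algebra F D]
    [FiniteDimensional F D] (S : Set D) :
    ∃ (E : Type u) (_ : DivisionRing E) (_ : Algebra F E) (_ : FiniteDimensional F E)
      (ι : E →ₐ[F] D), ∀ x, (∃ e, ι e = x) ↔ ∀ z ∈ S, Commute x z := by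
  let C := Subalgebra.centralizer F S
  refine ⟨C, divisionRingOfFiniteDimensional F C, inferInstanceAs (Algebra F C),
    inferInstanceAs (FiniteDimensional F C), C.val, fun x => ⟨?_, fun h => ⟨⟨x, ?_⟩, rfl⟩⟩⟩
  · rintro ⟨e, rfl⟩ z hz
    exact ((Subalgebra.mem_centralizer_iff F).1 e.2 z hz).symm
  · exact (Subalgebra.mem_centralizer_iff F).2 fun z hz => (h z hz).symm.eq

theorem St.commute_lin (s : St.{u} n) (p q : s.O) : Commute (lin (s.ω p)) (lin (s.ω q)) := by
  rw [← s.ev_X, ← s.ev_X]
  exact (Commute.all _ _).map s.ev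

theorem St.ev_rename_xs (s : St.{u} n) (g : MvPolynomial (Fin n) s.F) :
    s.ev (rename s.xs g) = inc s.F s.D (Fin n) g := by
  induction g using MvPolynomial.induction_on with
  | C a =>
    rw [rename_C, ← algebraMap_eq, AlgHom.commutes, algebraMap_alg]
    exact (AddMonoidAlgebra.mapRingHom_single _ _ _).symm
  | add p q hp hq => simp only [map_add, hp, hq]
  | mul_X p i hp =>
    rw [map_mul, map_mul, map_mul, hp, rename_X, s.ev_X, s.ω_xs]
    congr 1
    have h : inc s.F s.D (Fin n) (X i) = AddMonoidAlgebra.single (Finsupp.single i 1) 1 := by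
      rw [← map_one (algebraMap s.F s.D)]
      exact AddMonoidAlgebra.mapRingHom_single _ _ _
    rw [h, lin, Finset.sum_eq_single i]
    · simp
    · intro j _ hj
      simp [hj]
    · simp

/-- a linear polynomial evaluates to a linear form -/
theorem St.exists_lin (s : St.{u} n) {l : MvPolynomial s.O s.F} (hl : l.IsHomogeneous 1) :
    ∃ c : s.O → s.F, l = ∑ p, c p • X p ∧ s.ev l = lin (∑ p, c p • s.ω p) := by
  classical
  have h : l = ∑ p, coeff (Finsupp.single p 1) l • X p := by
    ext m
    rw [coeff_sum]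
    simp only [coeff_smul, coeff_X, smul_eq_mul, mul_ite, mul_one, mul_zero]
    by_cases hm : ∃ p, Finsupp.single p 1 = m
    · obtain ⟨p, rfl⟩ := hm
      rw [Finset.sum_eq_single p]
      · simp
      · intro q _ hq
        exact if_neg fun h => hq (Finsupp.single_left_injective one_ne_zero h)
      · simp
    · rw [Finset.sum_eq_zero fun p _ => if_neg fun h => hm ⟨p, h⟩]
      refine hl.coeff_eq_zero fun h => hm ?_
      obtain ⟨p, hp⟩ := (Finsupp.sum_eq_one_iff m).1 h
      exact ⟨p, hp.symm⟩
  refine ⟨_, h, ?_⟩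
  conv_lhs => rw [h]
  simp only [map_sum, map_smul, s.ev_X, lin_sum, lin_smul]

theorem St.Pt.lin {s : St.{u} n} {Ω : Type u} [Field Ω] [Algebra s.F Ω] {χ : s.O → Ω}
    (h : s.Pt Ω χ) {l : MvPolynomial s.O s.F} (hl : l.IsHomogeneous 1) (h0 : s.ev l = 0) :
    aeval χ l = 0 := by
  have := h (l * l) (hl.mul hl) (by rw [map_mul, h0, mul_zero])
  rw [map_mul] at this
  exact mul_self_eq_zero.1 this

theorem St.good_lin {s : St.{u} n} {l : MvPolynomial s.O s.F} (hl : l.IsHomogeneous 1)
    (h0 : s.ev l = 0) : s.Good l := ⟨h0, fun _ _ _ _ h => h.lin hl h0⟩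

theorem St.good_two {s : St.{u} n} {Q : MvPolynomial s.O s.F} (hQ : Q.IsHomogeneous 2)
    (h0 : s.ev Q = 0) : s.Good Q := ⟨h0, fun _ _ _ _ h => h Q hQ h0⟩

/-- the ideal of good relations -/
def St.gd (s : St.{u} n) : Ideal (MvPolynomial s.O s.F) where
  carrier := {P | s.Good P}
  add_mem' := fun ha hb => ⟨by rw [map_add, ha.1, hb.1, add_zero], fun Ω _ _ χ h => by
    rw [map_add, ha.2 Ω χ h, hb.2 Ω χ h, add_zero]⟩
  zero_mem' := ⟨map_zero _, fun _ _ _ _ _ => map_zero _⟩
  smul_mem' := fun c _ hb => ⟨by rw [smul_eq_mul, map_mul, hb.1, mul_zero], fun Ω _ _ χ h => by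
    rw [smul_eq_mul, map_mul, hb.2 Ω χ h, mul_zero]⟩

theorem St.mem_gd {s : St.{u} n} {P : MvPolynomial s.O s.F} : P ∈ s.gd ↔ s.Good P := Iff.rfl

namespace Mor

variable {s s' s'' : St.{u} n}

theorem push_apply (μ : Mor s s') (P : MvPolynomial s.O s.F) :
    μ.push P = rename μ.e (map μ.φF P) := rfl

@[simp] theorem push_X (μ : Mor s s') (p : s.O) : μ.push (X p) = X (μ.e p) := by
  rw [push_apply, map_X, rename_X]

@[simp] theorem push_C (μ : Mor s s') (c : s.F) : μ.push (C c) = C (μ.φF c) := by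
  rw [push_apply, map_C, rename_C]

theorem push_hom (μ : Mor s s') {P : MvPolynomial s.O s.F} {d : ℕ} (h : P.IsHomogeneous d) :
    (μ.push P).IsHomogeneous d := (h.map _).rename_isHomogeneous

theorem push_rename_xs (μ : Mor s s') (g : MvPolynomial (Fin n) s.F) :
    μ.push (rename s.xs g) = rename s'.xs (map μ.φF g) := by
  rw [push_apply, map_rename, rename_rename]
  congr 2
  exact funext μ.xs_e

theorem push_aeval {σ : Type*} (μ : Mor s s') (l : σ → MvPolynomial s.O s.F)
    (g : MvPolynomial σ s.F) :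
    μ.push (aeval l g) = aeval (fun x => μ.push (l x)) (map μ.φF g) := by
  induction g using MvPolynomial.induction_on with
  | C a => simp
  | add p q hp hq => simp only [map_add, hp, hq]
  | mul_X p i hp => simp only [map_mul, hp, aeval_X, map_X]

theorem ev_push (μ : Mor s s') (P : MvPolynomial s.O s.F) :
    s'.ev (μ.push P) = amap n μ.φ (s.ev P) := by
  induction P using MvPolynomial.induction_on with
  | C a =>
    rw [push_C, ← algebraMap_eq, ← algebraMap_eq, AlgHom.commutes, AlgHom.commutes,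
      algebraMap_alg, algebraMap_alg, amap_cst, μ.alg]
  | add p q hp hq => simp only [map_add, hp, hq]
  | mul_X p i hp =>
    simp only [map_mul, hp, push_X, St.ev_X, amap_lin]
    congr 2
    exact funext (μ.ω_e i)

theorem aeval_push (μ : Mor s s') {Ω : Type*} [CommRing Ω] [Algebra s'.F Ω] [Algebra s.F Ω]
    (h : ∀ c, algebraMap s.F Ω c = algebraMap s'.F Ω (μ.φF c)) (χ : s'.O → Ω)
    (P : MvPolynomial s.O s.F) : aeval χ (μ.push P) = aeval (fun p => χ (μ.e p)) P := by
  induction P using MvPolynomial.induction_on with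
  | C a => simp [h]
  | add p q hp hq => simp only [map_add, hp, hq]
  | mul_X p i hp => simp only [map_mul, hp, push_X, aeval_X]

theorem pt_pull (μ : Mor s s') {Ω : Type u} [Field Ω] [Algebra s'.F Ω] [Algebra s.F Ω]
    (h : ∀ c, algebraMap s.F Ω c = algebraMap s'.F Ω (μ.φF c)) {χ : s'.O → Ω}
    (hχ : s'.Pt Ω χ) : s.Pt Ω fun p => χ (μ.e p) := fun Q hQ h0 => by
  rw [← μ.aeval_push h]
  exact hχ _ (μ.push_hom hQ) (by rw [ev_push, h0, map_zero])

theorem good_push (μ : Mor s s') {P : MvPolynomial s.O s.F} (h : s.Good P) :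
    s'.Good (μ.push P) := by
  refine ⟨by rw [ev_push, h.1, map_zero], fun Ω _ _ χ hχ => ?_⟩
  let : Algebra s.F Ω := ((algebraMap s'.F Ω).comp μ.φF).toAlgebra
  rw [μ.aeval_push fun _ => rfl]
  exact h.2 Ω _ (μ.pt_pull (fun _ => rfl) hχ)

/-- the identity -/
def refl (s : St.{u} n) : Mor s s where
  φF := RingHom.id _
  φ := RingHom.id _
  alg _ := rfl
  e := id
  ω_e _ _ := rfl
  xs_e _ := rfl
  comm _ h := h
  zero _ _ _ _ _ h := h

@[simp] theorem push_refl (P : MvPolynomial s.O s.F) : (refl s).push P = P := by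
  simp [push_apply, refl, map_id]

/-- composition -/
def trans (μ : Mor s s') (ν : Mor s' s'') : Mor s s'' where
  φF := ν.φF.comp μ.φF
  φ := ν.φ.comp μ.φ
  alg c := by rw [RingHom.comp_apply, μ.alg, ν.alg, RingHom.comp_apply]
  e := ν.e ∘ μ.e
  ω_e p i := by rw [Function.comp_apply, ν.ω_e, μ.ω_e, RingHom.comp_apply]
  xs_e i := by rw [Function.comp_apply, μ.xs_e, ν.xs_e]
  comm x h := ν.comm _ (μ.comm x h)
  zero Ω _ _ χ hχ h := by
    let : Algebra s'.F Ω := ((algebraMap s''.F Ω).comp ν.φF).toAlgebra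
    exact ν.zero Ω χ hχ (μ.zero Ω _ (ν.pt_pull (fun _ => rfl) hχ) h)

theorem push_trans (μ : Mor s s') (ν : Mor s' s'') (P : MvPolynomial s.O s.F) :
    (μ.trans ν).push P = ν.push (μ.push P) := by
  simp only [push_apply, trans, map_rename, rename_rename, map_map]

end Mor

section bc

variable (s : St.{u} n) {F' D' : Type u} [Field F'] [DivisionRing D'] [Algebra F' D']
  [FiniteDimensional F' D'] (φ : s.D →+* D')

theorem St.bc_aux : ∃ ψ : MvPolynomial s.O F' →ₐ[F'] Alg D' (Fin n),
    ∀ p, ψ (X p) = lin fun i => φ (s.ω p i) :=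
  exists_aeval _ fun p q => by
    rw [← amap_lin, ← amap_lin]
    exact (s.commute_lin p q).map _

variable (F') in
/-- base change -/
noncomputable abbrev St.bc : St.{u} n where
  F := F'
  D := D'
  O := s.O
  ω p i := φ (s.ω p i)
  ev := (s.bc_aux (F' := F') φ).choose
  ev_X := (s.bc_aux (F' := F') φ).choose_spec
  xs := s.xs
  ω_xs i := by
    funext j
    rw [s.ω_xs]
    by_cases h : j = i
    · subst h; simp
    · simp [h]

/-- the extension to the base change -/
noncomputable def St.toBc (φF : s.F →+* F')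
    (h : ∀ c, φ (algebraMap s.F s.D c) = algebraMap F' D' (φF c)) : Mor s (s.bc F' φ) where
  φF := φF
  φ := φ
  alg := h
  e := id
  ω_e _ _ := rfl
  xs_e _ := rfl
  comm _ hx p i := (hx p i).map φ
  zero _ _ _ _ _ h := h

end bc

section res

variable (s : St.{u} n) {E : Type u} [DivisionRing E] [Algebra s.F E] [FiniteDimensional s.F E]
  (ι : E →ₐ[s.F] s.D) (h : ∀ p i, ∃ e, ι e = s.ω p i)

theorem St.res_aux : ∃ ψ : MvPolynomial s.O s.F →ₐ[s.F] Alg E (Fin n),
    ∀ p, ψ (X p) = lin fun i => (h p i).choose :=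
  exists_aeval _ fun p q => amap_injective (φ := (ι : E →+* s.D)) (RingHom.injective _) (by
    have h1 : ∀ p, amap n (ι : E →+* s.D) (lin fun i => (h p i).choose) = lin (s.ω p) := fun p => by
      rw [amap_lin]
      exact congrArg lin (funext fun i => (h p i).choose_spec)
    rw [map_mul, map_mul, h1, h1]
    exact s.commute_lin p q)

/-- restriction of coefficients to a subalgebra -/
noncomputable abbrev St.res : St.{u} n where
  F := s.F
  D := E
  O := s.O
  ω p i := (h p i).choose
  ev := (s.res_aux ι h).choose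
  ev_X := (s.res_aux ι h).choose_spec
  xs := s.xs
  ω_xs i := by
    funext j
    refine (ι : E →+* s.D).injective ?_
    change ι _ = ι _
    rw [(h _ _).choose_spec, s.ω_xs]
    by_cases h : j = i
    · subst h; simp
    · simp [h]

theorem St.res_ω (p : s.O) (i : Fin n) : ι ((s.res ι h).ω p i) = s.ω p i := (h p i).choose_spec

theorem St.res_ev (P : MvPolynomial s.O s.F) :
    amap n (ι : E →+* s.D) ((s.res ι h).ev P) = s.ev P := by
  induction P using MvPolynomial.induction_on with
  | C a =>
    rw [← algebraMap_eq, AlgHom.commutes, AlgHom.commutes, algebraMap_alg, algebraMap_alg,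
      amap_cst]
    exact congrArg (cst n) (ι.commutes a)
  | add p q hp hq => simp only [map_add, hp, hq]
  | mul_X p i hp =>
    rw [map_mul, map_mul, map_mul, hp, St.ev_X, St.ev_X, amap_lin]
    congr 2
    exact funext (s.res_ω ι h i)

theorem St.res_ev_eq_zero (P : MvPolynomial s.O s.F) : (s.res ι h).ev P = 0 ↔ s.ev P = 0 := by
  rw [← s.res_ev ι h]
  exact (map_eq_zero_iff _ (amap_injective (ι : E →+* s.D).injective)).symm

theorem St.res_pt {Ω : Type u} [Field Ω] [Algebra s.F Ω] (χ : s.O → Ω) :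
    (s.res ι h).Pt Ω χ ↔ s.Pt Ω χ :=
  forall₂_congr fun Q _ => by rw [s.res_ev_eq_zero ι h]

theorem St.res_good (P : MvPolynomial s.O s.F) : (s.res ι h).Good P ↔ s.Good P :=
  and_congr (s.res_ev_eq_zero ι h P)
    ⟨fun H Ω _ _ χ hχ => H Ω χ ((s.res_pt ι h χ).2 hχ),
      fun H Ω _ _ χ hχ => H Ω χ ((s.res_pt ι h χ).1 hχ)⟩

theorem exists_cores {R E D : Type*} [Ring R] [DivisionRing E] [DivisionRing D] (ι : E →+* D)
    (φ : R →+* D) (hφ : ∀ x, ∃ e, ι e = φ x) : ∃ ψ : R →+* E, ∀ x, ι (ψ x) = φ x := by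
  choose ψ hψ using hφ
  exact ⟨{ toFun := ψ
           map_one' := ι.injective (by rw [hψ, map_one, map_one])
           map_mul' := fun x y => ι.injective (by rw [map_mul, hψ, hψ, hψ, map_mul])
           map_zero' := ι.injective (by rw [hψ, map_zero, map_zero])
           map_add' := fun x y => ι.injective (by rw [map_add, hψ, hψ, hψ, map_add]) }, hψ⟩

variable {s} in
/-- an extension whose image lies in a subalgebra -/
noncomputable def Mor.cores {s₀ : St.{u} n} (μ : Mor s₀ s) (ψ : s₀.D →+* E)
    (hψ : ∀ x, ι (ψ x) = μ.φ x) : Mor s₀ (s.res ι h) where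
  φF := μ.φF
  φ := ψ
  alg c := (ι : E →+* s.D).injective (by
    change ι _ = ι _
    rw [hψ, μ.alg, AlgHom.commutes])
  e := μ.e
  ω_e p i := (ι : E →+* s.D).injective (by
    change ι _ = ι _
    rw [hψ, s.res_ω ι h, μ.ω_e])
  xs_e := μ.xs_e
  comm x hx p i := (ι : E →+* s.D).injective (by
    change ι _ = ι _
    rw [map_mul, map_mul, hψ, s.res_ω ι h]
    exact μ.comm x hx p i)
  zero Ω _ _ χ hχ := μ.zero Ω χ ((s.res_pt ι h χ).1 hχ)

variable {s} in
theorem Mor.push_cores {s₀ : St.{u} n} (μ : Mor s₀ s) (ψ : s₀.D →+* E)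
    (hψ : ∀ x, ι (ψ x) = μ.φ x) (P : MvPolynomial s₀.O s₀.F) :
    (μ.cores ι h ψ hψ).push P = μ.push P := rfl

end res

/-- transport of blocks -/
noncomputable def Blk.map {F D F' D' : Type u} [Field F] [DivisionRing D] [Algebra F D] [Field F']
    [DivisionRing D'] [Algebra F' D'] {ζ : F} {A M : ℕ} (B : Blk F D ζ A M) (φF : F →+* F')
    (φ : D →+* D') (h : ∀ c, φ (algebraMap F D c) = algebraMap F' D' (φF c)) :
    Blk F' D' (φF ζ) A M where
  γ r := φ (B.γ r)
  v r := φ (B.v r)
  a r := φ (B.a r)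
  g r := MvPolynomial.map φF (B.g r)
  γ0 r := (map_ne_zero φ).2 (B.γ0 r)
  v0 r := (map_ne_zero φ).2 (B.v0 r)
  γA r := by
    obtain ⟨c, hc⟩ := B.γA r
    exact ⟨φF c, by rw [← map_pow, hc, h]⟩
  vA r := by
    obtain ⟨c, hc⟩ := B.vA r
    exact ⟨φF c, by rw [← map_pow, hc, h]⟩
  γγ r t := (B.γγ r t).map φ
  vγ r := by
    rw [← map_mul, B.vγ, Algebra.smul_def, Algebra.smul_def, map_mul, h, map_mul]
  vγ' r t hrt := (B.vγ' r t hrt).map φ
  vv r t hrt := by
    rw [← map_mul, B.vv r t hrt, Algebra.smul_def, Algebra.smul_def, map_mul, h, map_mul]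
  aγ r := by
    have := B.aγ r
    generalize B.a r = x at this
    induction this using Algebra.adjoin_induction with
    | mem x hx => exact Algebra.subset_adjoin (by rw [Set.mem_singleton_iff.1 hx]; rfl)
    | algebraMap c => rw [h]; exact Subalgebra.algebraMap_mem _ _
    | add x y _ _ hx hy => rw [map_add]; exact add_mem hx hy
    | mul x y _ _ hx hy => rw [map_mul]; exact mul_mem hx hy
  av r k h0 hk hc := B.av r k h0 hk (φ.injective (by
    rw [map_mul, map_mul, map_pow]
    exact hc))
  gh r := (B.gh r).map _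
  hg r := by
    rw [← amap_inc φF φ h, ← B.hg, map_pow, amap_lin]
    congr 2
    funext i
    fin_cases i <;> simp

end Vale.Agent.P200.G
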