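import Vale.Agent.P200.G.TE
import Vale.Agent.P200.G.StB

/-! The matrix data over the weight subring. -/

open Finset TensorProduct

namespace Vale.Agent.P200.G

open Vale.Agent.P200.Eq

universe u

section mlin

variable {ι : Type*} [Fintype ι]

open Classical in
theorem mat_coeff_mlin_mul {R : Type*} [Semiring R] (m m' : Fin 2 → Matrix ι ι R) (c c'' : ι)
    (μ : Fin 2 →₀ ℕ) :
    ((mlin m * mlin m') c c'').coeff μ = ∑ c', ∑ ε, ∑ ε',
      if Finsupp.single ε 1 + Finsupp.single ε' 1 = μ then m ε c c' * m' ε' c' c'' else 0 := by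
  simp only [Matrix.mul_apply, mlin, Matrix.of_apply, lin, Finset.sum_mul_sum,
    AddMonoidAlgebra.single_mul_single, AddMonoidAlgebra.coeff_sum, Finsupp.finsetSum_apply,
    AddMonoidAlgebra.coeff_single, Finsupp.single_apply]

theorem mat_transfer {k S X : Type*} [Semiring k] [Semiring S] [AddCommMonoid X] (φ : S →+ X)
    (hφ : Function.Injective φ) (Λ : ι → ι → k →+ X) {m₁ m₂ m₃ m₄ : Fin 2 → Matrix ι ι S}
    {b₁ b₂ b₃ b₄ : Fin 2 → Matrix ι ι k}
    (h₁ : ∀ ε ε' c c' c'', φ (m₁ ε c c' * m₂ ε' c' c'') = Λ c c'' (b₁ ε c c' * b₂ ε' c' c''))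
    (h₂ : ∀ ε ε' c c' c'', φ (m₃ ε c c' * m₄ ε' c' c'') = Λ c c'' (b₃ ε c c' * b₄ ε' c' c''))
    (h : mlin b₁ * mlin b₂ = mlin b₃ * mlin b₄) : mlin m₁ * mlin m₂ = mlin m₃ * mlin m₄ := by
  classical
  refine Matrix.ext fun c c'' => AddMonoidAlgebra.ext (Finsupp.ext fun μ => hφ ?_)
  have e := congrArg (fun M => Λ c c'' ((M c c'').coeff μ)) h
  simp only [mat_coeff_mlin_mul, map_sum, apply_ite (Λ c c''), map_zero] at e
  simp only [mat_coeff_mlin_mul, map_sum, apply_ite φ, map_zero, h₁, h₂]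
  exact e

end mlin

variable {A : ℕ} [NeZero A] {F L : Type u} [Field F] [Field L] [Algebra F L] {Z : Cyc F L A}
  (P : Pk Z) (E : Type u) [DivisionRing E] [Algebra F E] (s : F)

section grp

/-- the group element of the entry `(c, c')` -/
def matg (n : Fin A → ℤ) (c c' : Fin A) : Gw A := gs (-c) * gu n * gs c'

theorem matg_k (n : Fin A → ℤ) (c c' : Fin A) : (matg n c c').k = 1 := by
  simp [matg, gs, gu]

theorem matg_h (n : Fin A → ℤ) (c c' : Fin A) : (matg n c c').h = c' - c := by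
  simp [matg, gs, gu, neg_add_eq_sub]

theorem matg_n (n : Fin A → ℤ) (c c' j : Fin A) : (matg n c c').n j = n (j + c) := by
  simp [matg, gs, gu]

theorem mat_gs_mul (h h' : Fin A) : gs h * gs h' = gs (h + h') := by
  refine Gw.ext (funext fun j => ?_) ?_ ?_ <;> simp [gs]

theorem mat_gs_zero : gs (0 : Fin A) = 1 := rfl

theorem matg_self (n : Fin A → ℤ) (c : Fin A) : matg n c c = gu fun i => n (i + c) := by
  refine Gw.ext (funext fun j => ?_) ?_ ?_
  · rw [matg_n]; rfl
  · rw [matg_k]; rfl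
  · rw [matg_h, sub_self]; rfl

theorem matg_sh (n : Fin A → ℤ) (c c' : Fin A) : matg (sh n) (c + 1) (c' + 1) = matg n c c' := by
  refine Gw.ext (funext fun j => ?_) ?_ ?_
  · rw [matg_n, matg_n, sh, ← add_assoc, add_sub_cancel_right]
  · rw [matg_k, matg_k]
  · rw [matg_h, matg_h, add_sub_add_right_eq_sub]

theorem matg_mul_gs (n : Fin A → ℤ) (c c' : Fin A) :
    matg n c c' * gs (-c') = gs (-c) * gu n := by
  rw [matg, mul_assoc, mat_gs_mul, add_neg_cancel, mat_gs_zero, mul_one]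

theorem matg_mul (n n' : Fin A → ℤ) (c c' c'' : Fin A) :
    matg n c c' * matg n' c' c'' = ⟨fun j => (n + n') (j + c), 1 + 1, c'' - c⟩ := by
  refine Gw.ext (funext fun j => ?_) ?_ ?_
  · rw [Gw.mul_n, matg_n, matg_n, matg_h]
    have : j - (c' - c) + c' = j + c := by abel
    rw [this]
    rfl
  · rw [Gw.mul_k, matg_k, matg_k]
  · rw [Gw.mul_h, matg_h, matg_h]
    dsimp only
    abel

theorem mat_gs_smul (h c : Fin A) : gs h • ((c, 0) : Ix A) = (c + h, 0) := by
  rw [Gw.smul_def]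
  simp [gs, pd]

end grp

/-- the element `(f ⊗ 1) [g]` -/
noncomputable def Pk.el (g : Gw A) : P.k →ₗ[F] P.X E s where
  toFun f := CP.sgl (P.cd E s) g (f ⊗ₜ 1)
  map_add' f f' := by rw [add_tmul, CP.sgl_add]
  map_smul' a f := by rw [← smul_tmul', CP.sgl_smul]; rfl

theorem Pk.el_apply (g : Gw A) (f : P.k) : P.el E s g f = CP.sgl (P.cd E s) g (f ⊗ₜ 1) := rfl

theorem Pk.mat_sgl_mul (g g' : Gw A) (f f' : P.k) (e e' : E) :
    CP.sgl (P.cd E s) g (f ⊗ₜ e) * CP.sgl (P.cd E s) g' (f' ⊗ₜ e') =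
      s ^ ((g.k.val + g'.k.val) / A) • CP.sgl (P.cd E s) (g * g') ((f * P.α g f') ⊗ₜ (e * e')) := by
  rw [CP.sgl_mul_sgl, Pk.cd_τ, Pk.cd_α_tmul, Algebra.TensorProduct.tmul_mul_tmul, CP.sgl_smul]

theorem Pk.el_mul (g g' : Gw A) (f f' : P.k) :
    P.el E s g f * P.el E s g' f' =
      s ^ ((g.k.val + g'.k.val) / A) • P.el E s (g * g') (f * P.α g f') := by
  rw [el_apply, el_apply, el_apply, mat_sgl_mul, mul_one]

theorem Pk.el_mem {g : Gw A} {f : P.k} (hf : f ∈ P.N g) : P.el E s g f ∈ P.DD E s :=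
  P.sgl_mem_Sub E s (tmul_mem_TE hf 1)

theorem Pk.mat_alg_mem (x : L) : algebraMap L P.k x ∈ P.N 1 := by
  have h := (P.W (ixo A) (ixo A)).smul_mem x (P.W_one (ixo A))
  rw [← Algebra.algebraMap_eq_smul_one] at h
  unfold Pk.N
  rw [one_smul]
  exact h

/-- the copy of `L` -/
noncomputable def Pk.matL : L →ₐ[F] P.DD E s :=
  ((CP.base (P.cd E s)).comp ((Algebra.TensorProduct.includeLeft (R := F) (S := F) (B := E)).comp
    (IsScalarTower.toAlgHom F L P.k))).codRestrict (P.DD E s) fun x =>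
      P.el_mem E s (P.mat_alg_mem x)

theorem Pk.matL_coe (x : L) :
    (P.matL E s x : P.X E s) = CP.sgl (P.cd E s) 1 (algebraMap L P.k x ⊗ₜ 1) := rfl

/-- the copy of `E` -/
noncomputable def Pk.matE : E →ₐ[F] P.DD E s :=
  ((CP.base (P.cd E s)).comp (Algebra.TensorProduct.includeRight (R := F) (A := P.k))).codRestrict
    (P.DD E s) fun e => P.sgl_mem_Sub E s (tmul_mem_TE P.one_mem_N e)

theorem Pk.matE_coe (e : E) :
    (P.matE E s e : P.X E s) = CP.sgl (P.cd E s) 1 (1 ⊗ₜ e) := rfl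

theorem Pk.mat_sgl_L (g : Gw A) (f : P.k) (e : E) (x : L) :
    CP.sgl (P.cd E s) g (f ⊗ₜ e) * (P.matL E s x : P.X E s) =
      CP.sgl (P.cd E s) g ((f * algebraMap L P.k (sg Z.σ g.h x)) ⊗ₜ e) := by
  rw [matL_coe, mat_sgl_mul, P.α_L]
  simp [Nat.div_eq_of_lt g.k.2]

theorem Pk.mat_L_sgl (g : Gw A) (f : P.k) (e : E) (x : L) :
    (P.matL E s x : P.X E s) * CP.sgl (P.cd E s) g (f ⊗ₜ e) =
      CP.sgl (P.cd E s) g ((algebraMap L P.k x * f) ⊗ₜ e) := by
  rw [matL_coe, mat_sgl_mul]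
  simp [Nat.div_eq_of_lt g.k.2]

theorem Pk.mat_deg (g : Gw A) (f : P.k) (e : E) (x : L) :
    CP.sgl (P.cd E s) g (f ⊗ₜ e) * (P.matL E s x : P.X E s) =
      (P.matL E s (sg Z.σ g.h x) : P.X E s) * CP.sgl (P.cd E s) g (f ⊗ₜ e) := by
  rw [mat_sgl_L, mat_L_sgl, mul_comm f]

theorem Pk.el_E (g : Gw A) (f : P.k) (e : E) :
    P.el E s g f * (P.matE E s e : P.X E s) = (P.matE E s e : P.X E s) * P.el E s g f := by
  rw [matE_coe, el_apply, mat_sgl_mul, mat_sgl_mul]
  simp

theorem Pk.mat_b_mem {n : Fin A → ℤ} (hn : Pos n) (ε : Fin 2) (c c' : Fin A) :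
    P.α (gs (-c)) (P.b n ε c c') ∈ P.N (matg n c c') := by
  have h := P.W_act (gs (-c)) _ _ _ (P.b_W n hn ε c c')
  rw [mat_gs_smul, add_neg_cancel] at h
  unfold Pk.N
  rw [matg, mul_smul, mul_smul, ixo, mat_gs_smul, zero_add]
  exact h

open Classical in
/-- the matrices of linear forms -/
noncomputable def Pk.matm (n : Fin A → ℤ) (ε : Fin 2) : Matrix (Fin A) (Fin A) (P.DD E s) :=
  Matrix.of fun c c' => if hn : Pos n then
    ⟨P.el E s (matg n c c') (P.α (gs (-c)) (P.b n ε c c')), P.el_mem E s (P.mat_b_mem hn ε c c')⟩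
  else 0

theorem Pk.matm_coe {n : Fin A → ℤ} (hn : Pos n) (ε : Fin 2) (c c' : Fin A) :
    (P.matm E s n ε c c' : P.X E s) = P.el E s (matg n c c') (P.α (gs (-c)) (P.b n ε c c')) := by
  rw [matm, Matrix.of_apply, dif_pos hn]

theorem Pk.matm_neg {n : Fin A → ℤ} (hn : ¬ Pos n) (ε : Fin 2) (c c' : Fin A) :
    P.matm E s n ε c c' = 0 := by
  rw [matm, Matrix.of_apply, dif_neg hn]

theorem Pk.matm_mul {n n' : Fin A → ℤ} (hn : Pos n) (hn' : Pos n') (ε ε' : Fin 2)
    (c c' c'' : Fin A) :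
    ((P.matm E s n ε c c' * P.matm E s n' ε' c' c'' : P.DD E s) : P.X E s) =
      s ^ (((1 : Fin A).val + (1 : Fin A).val) / A) •
        P.el E s ⟨fun j => (n + n') (j + c), 1 + 1, c'' - c⟩
          (P.α (gs (-c)) (P.b n ε c c' * P.α (gu n) (P.b n' ε' c' c''))) := by
  rw [Subalgebra.coe_mul, P.matm_coe E s hn, P.matm_coe E s hn', el_mul, matg_k, matg_k, matg_mul,
    ← AlgEquiv.mul_apply, ← map_mul P.α, matg_mul_gs, map_mul P.α, AlgEquiv.mul_apply,
    ← map_mul]

/-- the diagonal entries of the central shifts -/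
noncomputable def Pk.matβ (j c : Fin A) : P.DD E s := P.matm E s (nw fun _ => j) 0 c c

theorem Pk.matβ_coe (j c : Fin A) :
    (P.matβ E s j c : P.X E s) = P.el E s (gu fun i => nw (fun _ => j) (i + c))
      (algebraMap L P.k (cc Z.pt (j - c) 0)) := by
  rw [matβ, P.matm_coe E s (pos_nw _), matg_self, P.b_c0, Matrix.diagonal_apply_eq, P.α_L]
  change P.el E s _ (algebraMap L P.k (sg Z.σ (-c) _)) = _
  rw [Z.sg_cc, add_neg_cancel, ← sub_eq_add_neg]

theorem Pk.mat_list_prod (l : List ((Fin A → ℤ) × L)) :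
    (l.map fun p => P.el E s (gu p.1) (algebraMap L P.k p.2)).prod =
      s ^ (l.length / A) • P.el E s ⟨(l.map Prod.fst).sum, Fin.ofNat A l.length, 0⟩
        (algebraMap L P.k (l.map Prod.snd).prod) := by
  have hA : 0 < A := Nat.pos_of_ne_zero (NeZero.ne A)
  have h1 : (1 : Fin A).val = 1 := by
    rw [Fin.val_one', Nat.mod_eq_of_lt (by have := Z.hA; omega)]
  induction l with
  | nil =>
    simp only [List.map_nil, List.prod_nil, List.length_nil, Nat.zero_div, pow_zero, one_smul,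
      List.sum_nil, map_one]
    rfl
  | cons p l ih =>
    rw [List.map_cons, List.prod_cons, ih, mul_smul_comm, el_mul, smul_smul, ← pow_add, P.α_L]
    have e1 : l.length / A + ((gu p.1).k.val + (Fin.ofNat A l.length).val) / A =
        (p :: l).length / A := by
      change _ + ((1 : Fin A).val + l.length % A) / A = (l.length + 1) / A
      rw [h1, add_comm 1]
      conv_rhs => rw [← Nat.div_add_mod l.length A, add_assoc, Nat.mul_add_div hA]
    have e2 : gu p.1 * (⟨(l.map Prod.fst).sum, Fin.ofNat A l.length, 0⟩ : Gw A) =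
        ⟨((p :: l).map Prod.fst).sum, Fin.ofNat A (p :: l).length, 0⟩ := by
      refine Gw.ext (funext fun j => ?_) (Fin.ext ?_) ?_
      · simp [gu]
      · change ((1 : Fin A) + Fin.ofNat A l.length).val = (l.length + 1) % A
        rw [Fin.val_add, h1]
        change (1 + l.length % A) % A = _
        rw [Nat.add_mod_mod, add_comm]
      · simp [gu]
    have e3 : sg Z.σ (gu p.1).h (l.map Prod.snd).prod = (l.map Prod.snd).prod := Z.sg_zero _
    rw [e1, e2, e3, ← map_mul, List.map_cons (f := Prod.snd), List.prod_cons]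

theorem Pk.matβ_prod (c : Fin A) :
    (List.ofFn fun j => P.matβ E s j c).prod = algebraMap F (P.DD E s) s := by
  refine Subtype.ext ?_
  have h := P.mat_list_prod E s
    (List.ofFn fun j => ((fun i => nw (fun _ => j) (i + c)), cc Z.pt (j - c) 0))
  have hA : 0 < A := Nat.pos_of_ne_zero (NeZero.ne A)
  have e1 : ∑ j : Fin A, (fun i => nw (fun _ => j) (i + c)) = 0 := by
    funext i
    have := congrFun (sum_nw_const (A := A)) (i + c)
    rw [Finset.sum_apply] at this ⊢
    exact this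
  have e2 : ∏ j : Fin A, cc Z.pt (j - c) 0 = 1 :=
    (Equiv.prod_comp (Equiv.subRight c) fun j => cc Z.pt j 0).trans (prod_cc Z.pt_inj 0)
  have e3 : Fin.ofNat A A = 0 := Fin.ext (Nat.mod_self A)
  simp only [List.map_ofFn, List.length_ofFn, List.sum_ofFn, List.prod_ofFn, Function.comp_def,
    Nat.div_self hA, pow_one, e1, e2, e3, map_one] at h
  change (P.DD E s).val _ = algebraMap F (P.X E s) s
  rw [map_list_prod, List.map_ofFn, Algebra.algebraMap_eq_smul_one]
  simp only [Function.comp_def, Subalgebra.coe_val, matβ_coe]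
  exact h

theorem Pk.matβ_sgl (j c : Fin A) (g : Gw A) (f : P.k) (hf : f ∈ P.N g) (e : E) :
    (P.matβ E s j c : P.X E s) * CP.sgl (P.cd E s) g (f ⊗ₜ e) =
      CP.sgl (P.cd E s) g (f ⊗ₜ e) * (P.matβ E s j (c + g.h) : P.X E s) := by
  have h := P.α_c (fun i => nw (fun _ => j) (i + c)) (j - c) (fun j' => by
    have h1 := pd_nw_const j (j' + c)
    have h2 : pd (fun i => nw (fun _ => j) (i + c)) j' = pd (nw fun _ => j) (j' + c) := by
      simp only [pd, sub_add_eq_add_sub]
    rw [h2, h1]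
    simp only [eq_sub_iff_add_eq]) _ _ f hf
  have e1 : (gu fun i => nw (fun _ => j) (i + c)) * g =
      g * gu fun i => nw (fun _ => j) (i + (c + g.h)) := by
    refine Gw.ext (funext fun i => ?_) (add_comm _ _) (add_comm _ _)
    have : i - g.h + (c + g.h) = i + c := by abel
    simp only [Gw.mul_n, gu, sub_zero, this, add_comm]
  have e2 : sg Z.σ g.h (cc Z.pt (j - (c + g.h)) 0) = cc Z.pt (j - c) (g • ixo A).1 := by
    rw [Z.sg_cc]
    congr 1
    abel
  rw [matβ_coe, matβ_coe, el_apply, el_apply, mat_sgl_mul, mat_sgl_mul, e1, P.α_L, e2,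
    mul_comm f, ← Algebra.smul_def, ← Algebra.smul_def, ← h, one_mul, mul_one, add_comm g.k.val]
  rfl

theorem Pk.matβ_cent (x : P.DD E s) : ∃ xs : Fin A → P.DD E s, x = ∑ h, xs h ∧ ∀ h,
    (∀ y, xs h * P.matL E s y = P.matL E s (sg Z.σ h y) * xs h) ∧
      ∀ j c, P.matβ E s j c * xs h = xs h * P.matβ E s j (c + h) := by
  classical
  have hm : ∀ h : Fin A, CP.ofCo (P.cd E s) ((x : P.X E s).co.filter fun g => g.h = h) ∈
      P.Sub E s fun g => if g.h = h then P.N g else ⊥ := by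
    intro h g
    rw [CP.co_ofCo, Finsupp.filter_apply]
    dsimp only
    split_ifs
    · exact x.2 g
    · exact zero_mem _
  have hle : ∀ h : Fin A, (P.Sub E s fun g => if g.h = h then P.N g else ⊥) ≤ P.Sub E s P.N :=
    fun h => P.Sub_mono E s fun g => by
      split_ifs
      · exact le_rfl
      · exact bot_le
  refine ⟨fun h => ⟨_, hle h (hm h)⟩, Subtype.ext ?_, fun h => ?_⟩
  · rw [AddSubmonoidClass.coe_finsetSum]
    refine CP.ext fun g => ?_
    rw [CP.co_sum, Finsupp.finsetSum_apply]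
    simp only [CP.co_ofCo, Finsupp.filter_apply]
    rw [Finset.sum_ite_eq, if_pos (mem_univ _)]
  · have key := P.Sub_induction E s (p := fun z =>
      (∀ y, z * (P.matL E s y : P.X E s) = (P.matL E s (sg Z.σ h y) : P.X E s) * z) ∧
        ∀ j c, (P.matβ E s j c : P.X E s) * z = z * (P.matβ E s j (c + h) : P.X E s))
      (by simp)
      (fun z z' _ _ h1 h2 => ⟨fun y => by rw [add_mul, mul_add, h1.1, h2.1],
        fun j c => by rw [add_mul, mul_add, h1.2, h2.2]⟩)
      (fun g f hf e => by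
        split_ifs at hf with hg
        · subst hg
          exact ⟨fun y => P.mat_deg E s g f e y, fun j c => P.matβ_sgl E s j c g f hf e⟩
        · rw [(Submodule.mem_bot F).1 hf, zero_tmul, CP.sgl_zero]
          simp) (hm h)
    exact ⟨fun y => Subtype.ext (key.1 y), fun j c => Subtype.ext (key.2 j c)⟩

theorem exists_md : Nonempty (Md Z E s (P.DD E s)) := by
  classical
  refine ⟨{
    jL := P.matL E s
    jE := P.matE E s
    m := P.matm E s
    β := P.matβ E s
    jLE := fun x e => Subtype.ext (P.el_E E s 1 (algebraMap L P.k x) e)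
    m_E := fun n ε c c' e => ?_
    m_deg := fun n ε c c' x => ?_
    m_mul := fun n n' z z' hn hn' hz hz' h => ?_
    m_sh := fun n hn ε c c' => Subtype.ext ?_
    m_c0 := fun j => ?_
    m_c1 := fun j => ?_
    β_L := fun j c x => Subtype.ext ?_
    β_prod := P.matβ_prod E s
    β_cent := P.matβ_cent E s }⟩
  · by_cases hn : Pos n
    · refine Subtype.ext ?_
      rw [Subalgebra.coe_mul, Subalgebra.coe_mul, P.matm_coe E s hn]
      exact P.el_E E s _ _ e
    · rw [P.matm_neg E s hn]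
      exact Commute.zero_left _
  · by_cases hn : Pos n
    · refine Subtype.ext ?_
      rw [Subalgebra.coe_mul, Subalgebra.coe_mul, P.matm_coe E s hn, ← matg_h n c c']
      exact P.mat_deg E s _ _ 1 x
    · rw [P.matm_neg E s hn, zero_mul, mul_zero]
  · refine mat_transfer (P.DD E s).val.toRingHom.toAddMonoidHom Subtype.val_injective
      (fun c c'' => ((s ^ (((1 : Fin A).val + (1 : Fin A).val) / A) •
        P.el E s ⟨fun j => (n + n') (j + c), 1 + 1, c'' - c⟩).comp
          (P.α (gs (-c))).toLinearMap).toAddMonoidHom)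
      (fun ε ε' c c' c'' => P.matm_mul E s hn hn' ε ε' c c' c'')
      (fun ε ε' c c' c'' => ?_) (P.b_mul n n' z z' hn hn' hz hz' h)
    rw [h]
    exact P.matm_mul E s hz hz' ε ε' c c' c''
  · rw [P.matm_coe E s hn.sh, P.matm_coe E s hn, matg_sh, P.b_sh n hn, ← AlgEquiv.mul_apply,
      ← map_mul P.α, mat_gs_mul, neg_add, neg_add_cancel_right]
  · refine Matrix.ext fun c c' => ?_
    by_cases hc : c = c'
    · subst hc
      rw [Matrix.diagonal_apply_eq]
      rfl
    · refine Subtype.ext ?_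
      rw [Matrix.diagonal_apply_ne _ hc, P.matm_coe E s (pos_nw _), P.b_c0,
        Matrix.diagonal_apply_ne _ hc, map_zero, map_zero]
      rfl
  · refine Matrix.ext fun c c' => Subtype.ext ?_
    by_cases hc : c = c'
    · subst hc
      rw [Matrix.diagonal_apply_eq, P.matm_coe E s (pos_nw _), P.b_c1, Matrix.diagonal_apply_eq,
        P.α_L, Subalgebra.coe_neg, Subalgebra.coe_mul, P.matβ_coe, Pk.el_apply P E s (gu _),
        P.mat_sgl_L, ← Pk.el_apply, ← map_neg, matg_self, ← map_mul, ← map_neg]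
      change P.el E s _ (algebraMap L P.k (sg Z.σ (-c) _)) =
        P.el E s _ (algebraMap L P.k (-(_ * sg Z.σ 0 _)))
      rw [map_neg (sg Z.σ (-c)), map_mul (sg Z.σ (-c)), Z.sg_cc, Z.sg_pt, Z.sg_zero,
        add_neg_cancel, ← sub_eq_add_neg, mul_comm]
    · rw [Matrix.diagonal_apply_ne _ hc, P.matm_coe E s (pos_nw _), P.b_c1,
        Matrix.diagonal_apply_ne _ hc, map_zero, map_zero]
      rfl
  · rw [Subalgebra.coe_mul, Subalgebra.coe_mul, P.matβ_coe, Pk.el_apply, P.mat_deg]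
    rw [show sg Z.σ (gu fun i => nw (fun _ => j) (i + c)).h x = x from Z.sg_zero x]

end Vale.Agent.P200.G
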