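import Vale.Agent.P200.G.Aut

/-! The birational action of the shifts. -/

open Finset Polynomial Matrix

namespace Vale.Agent.P200.G

open Vale.Agent.P200.Eq

universe u

variable {A : ℕ} [NeZero A] {F L : Type u} [Field F] [Field L] [Algebra F L] {Z : Cyc F L A}

theorem rho_inj (Z : Cyc F L A) : Function.Injective Z.ph :=
  (algebraMap L (Kh A L)).injective.comp Z.a_inj

theorem rho_relN {k : Type*} [Field k] {a : Fin A → k} (ha : Function.Injective a) (Φ : Fl A k)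
    (n : ℕ) : ∃ B, Rel a Φ (fun _ => A * n) (A * n) B Φ := by
  induction n with
  | zero => exact ⟨1, rel_zero a Φ⟩
  | succ n ih =>
    obtain ⟨B, hB⟩ := ih
    exact ⟨_, hB.comp ha (rel_A ha Φ)⟩

omit [NeZero A] in
theorem rho_sum_const (m : ℕ) : ∑ _j : Fin A, m = A * m := by simp

theorem exists_rho_pos (Z : Cyc F L A) {d : Fin A → ℕ} {n : ℕ} (hd : ∑ j, d j = A * n) :
    ∃ (ρ : Kh A L ≃ₐ[L] Kh A L) (B : Matrix (Fin A) (Fin A) (Kh A L)[X]),
      Rel Z.ph (Phig A L) d n B ((Phig A L).map ρ) := by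
  have ha := rho_inj Z
  have hG : GoodFl Z.ph (Phig A L) := good_Phig Z.a_inj
  obtain ⟨B, Φ', hrel, hN⟩ := exists_rel ha hG hd
  suffices hgen : ∀ K : IntermediateField L (Kh A L), (∀ j i c, Φ' j i c ∈ K) →
      ∀ j i c, Phig A L j i c ∈ K by
    obtain ⟨ρ, hρ⟩ := exists_aut hN hgen
    exact ⟨ρ, B, hρ ▸ hrel⟩
  intro K hK
  let ΦK : Fl A K := fun j => Matrix.of fun i c => ⟨Φ' j i c, hK j i c⟩
  let aK : Fin A → K := fun j => algebraMap L K (Z.pt j)
  have haK : Function.Injective aK := (algebraMap L K).injective.comp Z.a_inj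
  have hG' : GoodFl Z.ph Φ' := hrel.good ha hG hN.det_ne hd
  have hGK : GoodFl aK ΦK := GoodFl.of_map (algebraMap K (Kh A L)) hG'
  have hle : ∀ j, d j ≤ A * n := fun j =>
    hd ▸ Finset.single_le_sum (f := d) (fun _ _ => Nat.zero_le _) (mem_univ j)
  have hn : n ≤ A * n := Nat.le_mul_of_pos_left n (NeZero.pos A)
  have e1 : (d + fun j => A * n - d j) = fun _ => A * n := by
    funext j
    exact Nat.add_sub_cancel' (hle j)
  have hd' : ∑ j, (A * n - d j) = A * (A * n - n) := by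
    have h1 : ∑ j, (d + fun j => A * n - d j) j = A * (A * n) := by rw [e1, rho_sum_const]
    simp only [Pi.add_apply, Finset.sum_add_distrib, hd] at h1
    rw [Nat.mul_sub]
    omega
  obtain ⟨B', Φ'', hrel', hN'⟩ := exists_rel haK hGK hd'
  have h2 : Rel Z.ph Φ' _ _ _ _ := hrel'.map (algebraMap K (Kh A L))
  have h3 := hrel.comp ha h2
  rw [e1, Nat.add_sub_cancel' hn] at h3
  obtain ⟨B0, h4⟩ := rho_relN ha (Phig A L) n
  have h5 := (h4.unique ha h3 (nf_Phig (A := A) (L := L)).det_ne nf_Phig (hN'.map _) (rho_sum_const _)).2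
  intro j i c
  rw [h5]
  exact (Φ'' j i c).2

theorem rho_ext {ρ ρ' : Kh A L ≃ₐ[L] Kh A L} (h : (Phig A L).map ρ = (Phig A L).map ρ') :
    ρ = ρ' := by
  have h1 := kh_ext (ψ := (ρ : Kh A L →+* Kh A L)) (ψ' := (ρ' : Kh A L →+* Kh A L))
    (fun x => (ρ.commutes x).trans (ρ'.commutes x).symm) h
  exact AlgEquiv.ext fun x => DFunLike.congr_fun h1 x

theorem rho_nat (Z : Cyc F L A) : ∃ (ρ : (Fin A → ℕ) → (Kh A L ≃ₐ[L] Kh A L))
    (B : (Fin A → ℕ) → Matrix (Fin A) (Fin A) (Kh A L)[X]),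
    (∀ d n, ∑ j, d j = A * n → Rel Z.ph (Phig A L) d n (B d) ((Phig A L).map (ρ d))) ∧
    (∀ d d', A ∣ ∑ j, d j → A ∣ ∑ j, d' j → ρ (d + d') = ρ d * ρ d') ∧
    ∀ N, ρ (fun _ => A * N) = 1 := by
  have ha := rho_inj Z
  have h0 : ∀ d : Fin A → ℕ, ∃ (ρ : Kh A L ≃ₐ[L] Kh A L)
      (B : Matrix (Fin A) (Fin A) (Kh A L)[X]), ∀ n, ∑ j, d j = A * n →
        Rel Z.ph (Phig A L) d n B ((Phig A L).map ρ) := by
    intro d
    by_cases h : ∃ n, ∑ j, d j = A * n
    · obtain ⟨n, hn⟩ := h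
      obtain ⟨ρ, B, h1⟩ := exists_rho_pos Z hn
      refine ⟨ρ, B, fun m hm => ?_⟩
      rwa [← Nat.eq_of_mul_eq_mul_left (NeZero.pos A) (hn.symm.trans hm)]
    · exact ⟨1, 1, fun n hn => absurd ⟨n, hn⟩ h⟩
  choose ρ B h using h0
  have hN : ∀ τ : Kh A L ≃ₐ[L] Kh A L, NF ((Phig A L).map τ) := fun τ =>
    nf_Phig.map (τ : Kh A L →+* Kh A L)
  refine ⟨ρ, B, h, ?_, fun N => ?_⟩
  · rintro d d' ⟨n, hn⟩ ⟨n', hn'⟩
    have hs : ∑ j, (d + d') j = A * (n + n') := by
      simp only [Pi.add_apply, Finset.sum_add_distrib, hn, hn', mul_add]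
    have h1 := (h d' n' hn').map (ρ d : Kh A L →+* Kh A L)
    have e : (fun j => (ρ d : Kh A L →+* Kh A L) (Z.ph j)) = Z.ph :=
      funext fun j => (ρ d).commutes _
    rw [e] at h1
    have h2 : Rel Z.ph (Phig A L) (d + d') (n + n') _ ((Phig A L).map ⇑(ρ d * ρ d')) :=
      (h d n hn).comp ha h1
    exact rho_ext ((h _ _ hs).unique ha h2 (nf_Phig (A := A) (L := L)).det_ne (hN _) (hN _) hs).2
  · obtain ⟨B0, h1⟩ := rho_relN ha (Phig A L) N
    have e : (Phig A L).map ⇑(1 : Kh A L ≃ₐ[L] Kh A L) = Phig A L := by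
      funext j
      ext i c
      exact AlgEquiv.one_apply (R := L) _
    have hs : ∑ j, (fun _ : Fin A => A * N) j = A * (A * N) := rho_sum_const _
    have h2 := h (fun _ => A * N) (A * N) hs
    have hd : ∀ j, (Phig A L j).det ≠ 0 := NF.det_ne nf_Phig
    have h3 := (h2.unique ha h1 hd (hN _) nf_Phig hs).2
    exact rho_ext (h3.trans e.symm)

theorem exists_raw (Z : Cyc F L A) : Nonempty (Raw Z) := by
  obtain ⟨ρ, B, h1, h2, h3⟩ := rho_nat Z
  obtain ⟨s, hs1, hs2⟩ := exists_s (A := A) Z.σ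
  let T : (Fin A → ℤ) → ℕ → Fin A → ℕ := fun e N j => (e j + (A * N : ℕ)).toNat
  let M : (Fin A → ℤ) → ℕ := fun e => ∑ j, (e j).natAbs
  have hM : ∀ (e : Fin A → ℤ) j, 0 ≤ e j + (A * M e : ℕ) := by
    intro e j
    have h4 : (e j).natAbs ≤ M e :=
      Finset.single_le_sum (f := fun j => (e j).natAbs) (fun _ _ => Nat.zero_le _) (mem_univ j)
    have h5 : M e ≤ A * M e := Nat.le_mul_of_pos_left _ (NeZero.pos A)
    omega
  have hT : ∀ (e : Fin A → ℤ) (N : ℕ), (A : ℤ) ∣ ∑ j, e j → (∀ j, 0 ≤ e j + (A * N : ℕ)) →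
      A ∣ ∑ j, T e N j := by
    intro e N he hN
    rw [← Int.natCast_dvd_natCast, Nat.cast_sum,
      Finset.sum_congr rfl fun j _ => Int.toNat_of_nonneg (hN j), Finset.sum_add_distrib,
      ← Nat.cast_sum, rho_sum_const, Nat.cast_mul]
    exact he.add (dvd_mul_right _ _)
  have hT' : ∀ (e : Fin A → ℤ) (N N' : ℕ), (A : ℤ) ∣ ∑ j, e j → (∀ j, 0 ≤ e j + (A * N : ℕ)) →
      ρ (T e (N + N')) = ρ (T e N) := by
    intro e N N' he hN
    have e1 : T e (N + N') = T e N + fun _ => A * N' := by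
      funext j
      have := hN j
      simp only [T, Pi.add_apply, mul_add]
      omega
    rw [e1, h2 _ _ (hT e N he hN) (by rw [rho_sum_const]; exact dvd_mul_right _ _), h3, mul_one]
  have hT2 : ∀ (e : Fin A → ℤ) (N : ℕ), (A : ℤ) ∣ ∑ j, e j → (∀ j, 0 ≤ e j + (A * N : ℕ)) →
      ρ (T e (M e)) = ρ (T e N) := by
    intro e N he hN
    rw [← hT' e (M e) N he (hM e), add_comm, hT' e N (M e) he hN]
  refine ⟨⟨fun e => ρ (T e (M e)), B, s, fun e e' he he' => ?_, ?_, fun d n hd => ?_, hs1, hs2⟩⟩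
  · have e1 : T (e + e') (M e + M e') = T e (M e) + T e' (M e') := by
      funext j
      have := hM e j
      have := hM e' j
      simp only [T, Pi.add_apply, mul_add]
      omega
    rw [hT2 (e + e') (M e + M e'), e1, h2 _ _ (hT _ _ he (hM e)) (hT _ _ he' (hM e'))]
    · simp only [Pi.add_apply, Finset.sum_add_distrib]
      exact he.add he'
    · intro j
      have := hM e j
      have := hM e' j
      simp only [Pi.add_apply, mul_add]
      omega
  · have e1 : T (fun _ => (A : ℤ)) 0 = fun _ => A * 1 := by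
      funext j
      simp [T]
    rw [hT2 _ 0 (Finset.dvd_sum fun _ _ => dvd_rfl) (fun _ => by simp), e1, h3]
  · have e1 : T (fun j => (d j : ℤ)) 0 = d := by
      funext j
      simp [T]
    rw [hT2 _ 0 (by rw [← Nat.cast_sum, hd, Nat.cast_mul]; exact dvd_mul_right _ _)
      (fun _ => by simp), e1]
    exact h1 d n hd

end Vale.Agent.P200.G
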