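import Vale.Agent.P200.G.PackL
import Vale.Agent.P200.G.Rho
import Vale.Agent.P200.G.StB

/-! The action package. -/

open Finset Polynomial Matrix

namespace Vale.Agent.P200.G

open Vale.Agent.P200.Eq

universe u

variable {A : ℕ} [NeZero A] {F L : Type u} [Field F] [Field L] [Algebra F L] {Z : Cyc F L A}

/-- the shift vector of `gu n` as a vector of natural numbers -/
def pkD (n : Fin A → ℤ) : Fin A → ℕ := fun j => (pd n j + 1).toNat

theorem pkD_cast {n : Fin A → ℤ} (h : Pos n) (j : Fin A) : (pkD n j : ℤ) = pd n j + 1 :=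
  Int.toNat_of_nonneg (h j)

theorem pk_val_one (hA : 3 ≤ A) : ((1 : Fin A)).val = 1 := by
  rw [Fin.val_one']
  exact Nat.mod_eq_of_lt (by omega)

theorem pk_gu_e (hA : 3 ≤ A) (n : Fin A → ℤ) (j : Fin A) : (gu n).e j = pd n j + 1 := by
  simp only [Gw.e, gu, pk_val_one hA, Nat.cast_one]

theorem pkD_e (hA : 3 ≤ A) {n : Fin A → ℤ} (h : Pos n) :
    (fun j => (pkD n j : ℤ)) = (gu n).e :=
  funext fun j => by rw [pkD_cast h, pk_gu_e hA]

theorem pkD_sum {n : Fin A → ℤ} (h : Pos n) : ∑ j, pkD n j = A * 1 := by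
  have h1 : ((∑ j, pkD n j : ℕ) : ℤ) = A := by
    rw [Nat.cast_sum, Finset.sum_congr rfl fun j _ => pkD_cast h j, Finset.sum_add_distrib, sum_pd]
    simp
  rw [mul_one]
  exact_mod_cast h1

theorem pkD_add {n n' z z' : Fin A → ℤ} (hn : Pos n) (hn' : Pos n') (hz : Pos z) (hz' : Pos z')
    (h : n + n' = z + z') : pkD n + pkD n' = pkD z + pkD z' := by
  funext j
  have h1 := congrFun (congrArg pd h) j
  rw [pd_add, pd_add, Pi.add_apply, Pi.add_apply] at h1
  have h2 := pkD_cast hn j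
  have h3 := pkD_cast hn' j
  have h4 := pkD_cast hz j
  have h5 := pkD_cast hz' j
  rw [Pi.add_apply, Pi.add_apply]
  omega

theorem pkD_sh (n : Fin A → ℤ) : pkD (sh n) = sh (pkD n) := by
  funext j
  simp only [pkD, pd_sh, sh]

theorem pkD_const (j : Fin A) : pkD (nw fun _ => j) = Pi.single j A := by
  funext j'
  rw [pkD, pd_nw_const, Pi.single_apply]
  split_ifs <;> simp

theorem pk_lin {k : Type*} [CommRing k] (p : k[X]) :
    lin (fun ε : Fin 2 => p.coeff (1 - ε.val)) = homogenize p 1 := by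
  rw [lin, homogenize, Fin.sum_univ_two, Finset.Nat.antidiagonal_succ, Finset.sum_cons,
    Finset.Nat.antidiagonal_zero, Finset.map_singleton, Finset.sum_singleton, add_comm]
  have h0 : (fun₀ | 0 => 0 | 1 => 1 : Fin 2 →₀ ℕ) = Finsupp.single 1 1 := by
    ext i
    fin_cases i <;> simp
  have h1 : (fun₀ | 0 => 1 | 1 => 0 : Fin 2 →₀ ℕ) = Finsupp.single 0 1 := by
    ext i
    fin_cases i <;> simp
  congr 1
  · rw [← h0]
    rfl
  · rw [← h1]
    rfl

theorem pk_mlin_mul {k : Type*} [CommRing k] {ι : Type*} [Fintype ι] (B B' : Matrix ι ι k[X])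
    (hB : ∀ c c', (B c c').natDegree ≤ 1) (hB' : ∀ c c', (B' c c').natDegree ≤ 1) :
    mlin (fun ε : Fin 2 => B.map fun p => p.coeff (1 - ε.val)) *
      mlin (fun ε : Fin 2 => B'.map fun p => p.coeff (1 - ε.val)) =
      (B * B').map fun p => homogenize p 2 := by
  refine Matrix.ext fun c c' => ?_
  simp only [Matrix.mul_apply, mlin, Matrix.of_apply, Matrix.map_apply, pk_lin,
    homogenize_finsetSum]
  exact Finset.sum_congr rfl fun x _ => (homogenize_mul _ _ (hB c x) (hB' x c')).symm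

variable (R : Raw Z)

/-- the coefficient matrices -/
noncomputable def Raw.pkB (n : Fin A → ℤ) (ε : Fin 2) : Matrix (Fin A) (Fin A) (Kh A L) :=
  (R.B (pkD n)).map fun p => p.coeff (1 - ε.val)

theorem Raw.pk_mul {n n' : Fin A → ℤ} (hn : Pos n) (hn' : Pos n') :
    mlin (R.pkB n) * mlin (fun ε => (R.pkB n' ε).map (R.ρ (gu n).e)) =
      (R.B (pkD n + pkD n')).map fun p => homogenize p 2 := by
  rw [R.B_add (pkD_sum hn) (pkD_sum hn'), ← pk_mlin_mul _ _ (R.rel _ _ (pkD_sum hn)).1,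
    ← pkD_e Z.hA hn]
  · congr 2
    funext ε
    ext c c'
    simp only [Raw.pkB, Matrix.map_apply, Polynomial.coeff_map]
    rfl
  · intro c c'
    exact natDegree_map_le.trans ((R.rel _ _ (pkD_sum hn')).1 c c')

theorem Raw.s_pow_L (m : ℕ) (x : L) :
    (R.s ^ m) (algebraMap L (Kh A L) x) = algebraMap L (Kh A L) ((Z.σ ^ m) x) := by
  induction m with
  | zero => rfl
  | succ m ih => rw [pow_succ', pow_succ', AlgEquiv.mul_apply, AlgEquiv.mul_apply, ih, R.s_L]

theorem Raw.Wt_s_pow (m : ℕ) {x y : Ix A} {f : Kh A L} (h : f ∈ Wt L x y) :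
    (R.s ^ m) f ∈ Wt L (x.1 + (m : ℤ) • 1, x.2) (y.1 + (m : ℤ) • 1, y.2) := by
  induction m with
  | zero => simpa using h
  | succ m ih =>
    rw [pow_succ', AlgEquiv.mul_apply, Nat.cast_succ, add_zsmul, one_zsmul, ← add_assoc,
      ← add_assoc]
    exact R.Wt_s ih

theorem Raw.ρ_nat (m : ℕ) : R.ρ (fun _ => (m : ℤ)) = R.ρ 1 ^ m := by
  induction m with
  | zero => rw [pow_zero]; exact R.ρ_zero
  | succ m ih =>
    rw [pow_succ, ← ih, ← R.ρ_add]
    · congr 1
    · simp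
    · simp

theorem pk_e_zero {g : Gw A} (h : g.n = 0) : g.e = fun _ => (g.k.val : ℤ) := by
  funext j
  simp [Gw.e, h, pd]

theorem exists_pk (Z : Cyc F L A) : Nonempty (Pk Z) := by
  obtain ⟨R⟩ := exists_raw Z
  obtain ⟨α, hα⟩ := R.exists_α
  obtain ⟨T, θ, h1, h2, h3, h4, h5, h6, h7, h8, h9, h10⟩ := R.exists_local
  have hO : ∀ f, f ∈ T.O ↔ f ∈ T.Fil 0 := fun f => by simp [T.mem_Fil]
  have hu : ∀ n f, α (gu n) f = R.ρ (gu n).e f := fun n f => by
    rw [hα]
    rfl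
  have hρF : ∀ (i m : ℕ), ∀ f ∈ T.Fil m, (R.ρ 1 ^ i) f ∈ T.Fil m := fun i m f hf => by
    induction i with
    | zero => exact hf
    | succ i ih => rw [pow_succ', AlgEquiv.mul_apply]; exact h1 m _ ih
  have hsF : ∀ (i m : ℕ), ∀ f ∈ T.Fil m, (R.s ^ i) f ∈ T.Fil m := fun i m f hf => by
    induction i with
    | zero => exact hf
    | succ i ih => rw [pow_succ', AlgEquiv.mul_apply]; exact h3 m _ ih
  have hρ0 : ∀ (i : ℕ), ∀ f ∈ T.O, T.ty ((R.ρ 1 ^ i) f) 0 = T.ty f 0 := fun i f hf => by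
    induction i with
    | zero => rfl
    | succ i ih =>
      rw [pow_succ', AlgEquiv.mul_apply, h2 _ ((hO _).2 (hρF i 0 f ((hO _).1 hf))), ih]
  have hs0 : ∀ (i : ℕ), ∀ f ∈ T.O, T.ty ((R.s ^ i) f) 0 = (Z.σ ^ i) (T.ty f 0) := fun i f hf => by
    induction i with
    | zero => rfl
    | succ i ih =>
      rw [pow_succ', pow_succ', AlgEquiv.mul_apply, AlgEquiv.mul_apply,
        h4 _ ((hO _).2 (hsF i 0 f ((hO _).1 hf))), ih]
  have hθρ : ∀ (i : ℕ) f, θ ((R.ρ 1 ^ i) f) = (R.ρ 1 ^ i) (θ f) := fun i f => by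
    induction i with
    | zero => rfl
    | succ i ih => rw [pow_succ', AlgEquiv.mul_apply, AlgEquiv.mul_apply, h6, ih]
  have hθs : ∀ (i : ℕ) f, θ ((R.s ^ i) f) = (R.s ^ i) (θ f) := fun i f => by
    induction i with
    | zero => rfl
    | succ i ih => rw [pow_succ', AlgEquiv.mul_apply, AlgEquiv.mul_apply, h7, ih]
  refine ⟨{
    k := Kh A L
    α := α
    α_L := fun g x => ?_
    α_const := fun z => ?_
    W := Wt L
    W_one := Wt_one
    W_mul := fun x y z f hf f' hf' => Wt_mul hf hf'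
    W_inv := fun x y f hf => Wt_inv hf
    W_act := fun g x y f hf => ?_
    W_ne := Wt_ne Z.hA
    α_A := fun n x f hf => ?_
    b := R.pkB
    b_W := fun n hn ε c c' => ?_
    b_mul := fun n n' z z' hn hn' hz hz' h => ?_
    b_sh := fun n hn ε c c' => ?_
    b_c0 := fun j => ?_
    b_c1 := fun j => ?_
    α_c := fun n j hn x y f hf => ?_
    V := Vr A
    T := T
    α_fil := fun g hg m f hf => ?_
    α_res := fun g hg f hf => ?_
    θ := θ
    θ_A := h5
    θ_α := fun g hg f => ?_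
    θ_O := h8
    θ_ty := h9
    θ_W := h10 }⟩
  · rw [hα, R.s_pow_L, AlgEquiv.commutes]
    rfl
  · ext f
    have he : (gn fun _ : Fin A => z).e = 0 := by
      funext j
      simp [Gw.e, gn, pd]
    rw [hα, he, R.ρ_zero]
    rfl
  · rw [hα, Gw.smul_eq_ixs, Gw.smul_eq_ixs]
    refine R.Wt_ρ (dvd_sum_e g) ?_
    have h := R.Wt_s_pow g.h.val hf
    rwa [val_zsmul_one] at h
  · have he : (gn ((A : ℤ) • n)).e = (A : ℤ) • pd n := by
      funext j
      rw [← pd_smul]
      simp [Gw.e, gn]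
    rw [hα, he]
    exact R.ρ_A_smul _ hf
  · have h := R.B_Wt (pkD_sum hn) c c' (1 - ε.val)
    rw [pkD_e Z.hA hn] at h
    rw [Gw.smul_eq_ixs]
    have h0 : c' + (gu n).h = c' := add_zero c'
    simp only [h0]
    exact h
  · have e1 : ∀ n, ⇑(α (gu n)) = ⇑(R.ρ (gu n).e) := fun n => funext (hu n)
    rw [e1, e1, R.pk_mul hn hn', R.pk_mul hz hz', pkD_add hn hn' hz hz' h]
  · have he : (gs (1 : Fin A)).e = 0 := by
      funext j
      simp [Gw.e, gs, pd]
    have hh : (gs (1 : Fin A)).h.val = 1 := pk_val_one Z.hA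
    rw [hα, he, R.ρ_zero, hh, pow_one]
    simp only [Raw.pkB, Matrix.map_apply, pkD_sh, R.B_sh (pkD_sum hn), Polynomial.coeff_map]
    rfl
  · ext c c'
    simp only [Raw.pkB, pkD_const, R.B_single, Matrix.map_apply, Matrix.diagonal_apply]
    split_ifs
    · simp
    · simp
  · ext c c'
    simp only [Raw.pkB, pkD_const, R.B_single, Matrix.map_apply, Matrix.diagonal_apply]
    split_ifs
    · simp [Cyc.ph, mul_comm]
    · simp
  · have he : (gu n).e = Pi.single j (A : ℤ) := by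
      funext j'
      rw [pk_gu_e Z.hA, hn, Pi.single_apply]
    rw [hu, he]
    exact R.ρ_single j hf
  · rw [hα, pk_e_zero hg, R.ρ_nat]
    exact hρF _ _ _ (hsF _ _ _ hf)
  · rw [hα, pk_e_zero hg, R.ρ_nat, hρ0 _ _ ((hO _).2 (hsF _ 0 f ((hO _).1 hf))), hs0 _ _ hf]
    rfl
  · rw [hα, hα, pk_e_zero hg, R.ρ_nat, hθρ, hθs]

end Vale.Agent.P200.G
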