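import Vale.Agent.P200.G.Gw

/-! Flags at the points `a j` of the line, their shifts, normal forms and the generic tuple. -/

open Finset Polynomial Matrix

namespace Vale.Agent.P200.G

universe u

/-- tuples of square matrices -/
abbrev Fl (A : ℕ) (k : Type*) := Fin A → Matrix (Fin A) (Fin A) k

variable {A : ℕ} [NeZero A]

section rel

variable {k : Type*} [CommRing k]

/-- the elementary shift at the point `a j` -/
noncomputable def pim (a : Fin A → k) (j : Fin A) : Matrix (Fin A) (Fin A) k[X] :=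
  Matrix.of fun i i' =>
    if i' + 1 = i then (if i = 0 then X - C (a j) else C (a j - a (j + i))) else 0

/-- the value at `x` is lower unitriangular -/
def Iw (x : k) (Y : Matrix (Fin A) (Fin A) k[X]) : Prop :=
  (∀ i, (Y i i).eval x = 1) ∧ ∀ i i', i < i' → (Y i i').eval x = 0

/-- `B` is a basis of degree `n` of the `d`-th shift of `Φ`, and `Φ'` is the shifted tuple -/
def Rel (a : Fin A → k) (Φ : Fl A k) (d : Fin A → ℕ) (n : ℕ) (B : Matrix (Fin A) (Fin A) k[X])
    (Φ' : Fl A k) : Prop :=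
  (∀ c c', (B c c').natDegree ≤ n) ∧
    ∀ j, ∃ Y, Iw (a j) Y ∧ (Φ j).map C * B = pim a j ^ d j * Y * (Φ' j).map C

/-- normal form -/
def NF (Φ : Fl A k) : Prop :=
  ∀ j, (∀ c, Φ j 0 c = if c = j then 1 else 0) ∧ (∀ i i', i' < i → Φ j i (j + i') = 0) ∧
    ∀ i, Φ j i (j + i) ≠ 0

/-- sections of the `d`-th shift -/
def Mem (a : Fin A → k) (Φ : Fl A k) (d : Fin A → ℕ) (m : Fin A → k[X]) : Prop :=
  ∀ j, ∃ m', (Φ j).map C *ᵥ m = (pim a j ^ d j) *ᵥ m'

/-- no sections of degree `< n` -/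
def Bal (a : Fin A → k) (Φ : Fl A k) (d : Fin A → ℕ) (n : ℕ) : Prop :=
  ∀ m, Mem a Φ d m → (∀ c, (m c).degree < n) → m = 0

/-- the same condition for `r j ≤ A`, by evaluation -/
def Bal0 (a : Fin A → k) (Φ : Fl A k) (r : Fin A → ℕ) (n : ℕ) : Prop :=
  ∀ m : Fin A → k[X], (∀ c, (m c).degree < n) →
    (∀ j (i : Fin A), i.val < r j → ∑ c, Φ j i c * (m c).eval (a j) = 0) → m = 0

/-- invertible and balanced for all shifts -/
def GoodFl (a : Fin A → k) (Φ : Fl A k) : Prop :=
  (∀ j, (Φ j).det ≠ 0) ∧ ∀ d n, ∑ j, d j = A * n → Bal a Φ d n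

/-- image of a tuple under a map of coefficients -/
def Fl.map {k' : Type*} (Φ : Fl A k) (ψ : k → k') : Fl A k' := fun j => (Φ j).map ψ

/-- the tuple of cyclic permutation matrices -/
def Phi0 (A : ℕ) [NeZero A] (k : Type*) [CommRing k] : Fl A k :=
  fun j => Matrix.of fun i c => if c = j + i then 1 else 0

/-- action of the torus on tuples; `ϑ'` is the inverse of `ϑ` -/
def tor (ϑ ϑ' : Ix A → k) (Φ : Fl A k) : Fl A k :=
  fun j => Matrix.of fun i c => ϑ' (j, i) * Φ j i c * ϑ (c, 0)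

end rel

/-- the constants of the shift by `A ε j` -/
noncomputable def cc {k : Type*} [Field k] (a : Fin A → k) (j c : Fin A) : k :=
  if c = j then ∏ i ∈ univ.erase 0, (a j - a (j + i)) else (a c - a j)⁻¹

/-- the coordinates of normal forms -/
abbrev Vr (A : ℕ) := {x : Fin A × Fin A × Fin A // 0 < x.2.1.val ∧ x.2.1 ≤ x.2.2}

/-- weights of the coordinates -/
def wtV (v : Vr A) : ℕ := if v.1.2.1 = v.1.2.2 then A else v.1.2.2.val - v.1.2.1.val

/-- the function field of the space of normal forms -/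
abbrev Kh (A : ℕ) (L : Type u) [Field L] : Type u := FractionRing (MvPolynomial (Vr A) L)

/-- the generic normal form, with polynomial entries -/
noncomputable def Phip (A : ℕ) [NeZero A] (L : Type*) [CommRing L] :
    Fl A (MvPolynomial (Vr A) L) :=
  fun j => Matrix.of fun i c => (if c = j + i then 1 else 0) +
    if h : 0 < i.val ∧ i ≤ c - j then MvPolynomial.X ⟨(j, i, c - j), h⟩ else 0

variable {L : Type u} [Field L]

/-- the generic normal form -/
noncomputable def Phig (A : ℕ) [NeZero A] (L : Type u) [Field L] : Fl A (Kh A L) :=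
  (Phip A L).map (algebraMap (MvPolynomial (Vr A) L) (Kh A L))

/-- the coordinate functions -/
noncomputable def Xg (L : Type u) [Field L] (v : Vr A) : Kh A L :=
  algebraMap (MvPolynomial (Vr A) L) (Kh A L) (MvPolynomial.X v)

/-- `θ` is the automorphism given by the torus element `ϑ` -/
def IsTor (ϑ : Ix A → Lˣ) (θ : Kh A L ≃ₐ[L] Kh A L) : Prop :=
  (Phig A L).map θ = tor (fun x => algebraMap L (Kh A L) (ϑ x))
    (fun x => algebraMap L (Kh A L) ((ϑ x)⁻¹ : Lˣ)) (Phig A L)

/-- functions of weight `ε y - ε x` -/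
def Wt (L : Type u) [Field L] (x y : Ix A) : Submodule L (Kh A L) where
  carrier := {f | ∀ ϑ θ, IsTor ϑ θ → (ϑ x : L) • θ f = (ϑ y : L) • f}
  add_mem' := fun {f g} hf hg ϑ θ h => by rw [map_add, smul_add, smul_add, hf ϑ θ h, hg ϑ θ h]
  zero_mem' := fun ϑ θ _ => by rw [map_zero, smul_zero, smul_zero]
  smul_mem' := fun c f hf ϑ θ h => by
    rw [map_smul, smul_comm, hf ϑ θ h, smul_comm]

/-- a cyclic Kummer extension of degree `A ≥ 3` with an element with distinct conjugates -/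
structure Cyc (F L : Type u) [Field F] [Field L] [Algebra F L] (A : ℕ) [NeZero A] where
  hA : 3 ≤ A
  ζ : F
  hζ : IsPrimitiveRoot ζ A
  σ : L ≃ₐ[F] L
  γ : L
  γ0 : γ ≠ 0
  σγ : σ γ = ζ • γ
  c : F
  γA : γ ^ A = algebraMap F L c
  bL : Module.Basis (Fin A) F L
  bL_eq : ∀ i, bL i = γ ^ i.val
  a : L
  a_inj : Function.Injective fun j : Fin A => sg σ j a

variable {F : Type u} [Field F] [Algebra F L]

/-- the conjugates -/
def Cyc.pt (Z : Cyc F L A) (j : Fin A) : L := sg Z.σ j Z.a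

/-- the conjugates in the function field -/
noncomputable def Cyc.ph (Z : Cyc F L A) (j : Fin A) : Kh A L := algebraMap L (Kh A L) (Z.pt j)

/-- the birational action of the shifts and of the Galois group -/
structure Raw (Z : Cyc F L A) where
  ρ : (Fin A → ℤ) → (Kh A L ≃ₐ[L] Kh A L)
  B : (Fin A → ℕ) → Matrix (Fin A) (Fin A) (Kh A L)[X]
  s : Kh A L ≃ₐ[F] Kh A L
  ρ_add : ∀ e e', (A : ℤ) ∣ ∑ j, e j → (A : ℤ) ∣ ∑ j, e' j → ρ (e + e') = ρ e * ρ e'
  ρ_A : ρ (fun _ => A) = 1
  rel : ∀ d n, ∑ j, d j = A * n →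
    Rel Z.ph (Phig A L) d n (B d) ((Phig A L).map (ρ fun j => d j))
  s_L : ∀ x, s (algebraMap L (Kh A L) x) = algebraMap L (Kh A L) (Z.σ x)
  s_Φ : ∀ j i c, s (Phig A L j i c) = Phig A L (j + 1) i (c + 1)

end Vale.Agent.P200.G
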