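import Vale.Agent.P200.G.Defs
import Vale.Agent.P200.G.CP
import Vale.Agent.P200.G.RDefs

/-! The interface between the matrix part and the crossed product part of the link. -/

open Finset TensorProduct

namespace Vale.Agent.P200.G

open Vale.Agent.P200.Eq

universe u

variable {A : ℕ} [NeZero A] {F L : Type u} [Field F] [Field L] [Algebra F L]

/-- a matrix of linear forms in two variables -/
noncomputable def mlin {R : Type*} [Semiring R] {ι : Type*} (m : Fin 2 → Matrix ι ι R) :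
    Matrix ι ι (Alg R (Fin 2)) :=
  Matrix.of fun c c' => lin fun ε => m ε c c'

/-- a local subring with Taylor coefficients -/
structure Tay (L k : Type u) [Field L] [Field k] [Algebra L k] (V : Type) where
  wt : V → ℕ
  wt_pos : ∀ v, 0 < wt v
  O : Subalgebra L k
  ty : k →ₗ[L] (Mon V → L)
  Fil : ℕ → Submodule L k
  mem_Fil : ∀ m f, f ∈ Fil m ↔ f ∈ O ∧ ∀ μ, Finsupp.weight wt μ < m → ty f μ = 0
  frac : ∀ f : k, ∃ d ∈ O, d ≠ 0 ∧ d * f ∈ O
  ty_inj : ∀ f ∈ O, ty f = 0 → f = 0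
  ty_one : ty 1 0 = 1
  ty_mul_zero : ∀ f ∈ O, ∀ f' ∈ O, ty (f * f') 0 = ty f 0 * ty f' 0
  fil_mul : ∀ m m', ∀ f ∈ Fil m, ∀ f' ∈ Fil m', f * f' ∈ Fil (m + m')
  ty_mon : ∀ μ, ∃ f ∈ O, ty f μ = 1 ∧ ∀ μ', μ' ≠ μ → ty f μ' = 0
  ty_shift : ∀ v, ∃ x ∈ O, ∀ f ∈ O, ∀ μ,
    ty (x * f) μ ≠ 0 ↔ ∃ μ', μ = μ' + Finsupp.single v 1 ∧ ty f μ' ≠ 0

/-- the action package -/
structure Pk (Z : Cyc F L A) : Type (u + 1) where
  k : Type u
  [fk : Field k]
  [aL : Algebra L k]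
  [aF : Algebra F k]
  [tw : IsScalarTower F L k]
  α : Gw A →* (k ≃ₐ[F] k)
  α_L : ∀ g x, α g (algebraMap L k x) = algebraMap L k (sg Z.σ g.h x)
  α_const : ∀ z : ℤ, α (gn fun _ => z) = 1
  W : Ix A → Ix A → Submodule L k
  W_one : ∀ x, 1 ∈ W x x
  W_mul : ∀ x y z, ∀ f ∈ W x y, ∀ f' ∈ W y z, f * f' ∈ W x z
  W_inv : ∀ x y, ∀ f ∈ W x y, f⁻¹ ∈ W y x
  W_act : ∀ (g : Gw A) x y, ∀ f ∈ W x y, α g f ∈ W (g • x) (g • y)
  W_ne : ∀ x y, ∃ f ∈ W x y, f ≠ 0
  α_A : ∀ (n : Fin A → ℤ) x, ∀ f ∈ W x x, α (gn ((A : ℤ) • n)) f = f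
  b : (Fin A → ℤ) → Fin 2 → Matrix (Fin A) (Fin A) k
  b_W : ∀ n, Pos n → ∀ ε c c', b n ε c c' ∈ W (c, 0) (gu n • (c', 0))
  b_mul : ∀ n n' z z', Pos n → Pos n' → Pos z → Pos z' → n + n' = z + z' →
    mlin (b n) * mlin (fun ε => (b n' ε).map (α (gu n))) =
      mlin (b z) * mlin (fun ε => (b z' ε).map (α (gu z)))
  b_sh : ∀ n, Pos n → ∀ ε c c', b (sh n) ε (c + 1) (c' + 1) = α (gs 1) (b n ε c c')
  b_c0 : ∀ j, b (nw fun _ => j) 0 = Matrix.diagonal fun c => algebraMap L k (cc Z.pt j c)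
  b_c1 : ∀ j, b (nw fun _ => j) 1 =
    Matrix.diagonal fun c => algebraMap L k (-(Z.pt j * cc Z.pt j c))
  α_c : ∀ n j, (∀ j', pd n j' + 1 = if j' = j then (A : ℤ) else 0) → ∀ x y, ∀ f ∈ W x y,
    cc Z.pt j x.1 • α (gu n) f = cc Z.pt j y.1 • f
  V : Type
  [fV : Fintype V]
  T : Tay L k V
  α_fil : ∀ g : Gw A, g.n = 0 → ∀ m, ∀ f ∈ T.Fil m, α g f ∈ T.Fil m
  α_res : ∀ g : Gw A, g.n = 0 → ∀ f ∈ T.O, T.ty (α g f) 0 = sg Z.σ g.h (T.ty f 0)
  θ : k ≃ₐ[L] k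
  θ_A : θ ^ A = 1
  θ_α : ∀ g : Gw A, g.n = 0 → ∀ f, θ (α g f) = α g (θ f)
  θ_O : ∀ f ∈ T.O, θ f ∈ T.O
  θ_ty : ∀ f ∈ T.O, ∀ μ, T.ty (θ f) μ = Z.ζ ^ Finsupp.weight T.wt μ • T.ty f μ
  θ_W : ∀ x y, ∀ f ∈ W x y,
    Z.ζ ^ (x.1 + x.2).val • θ f = Z.ζ ^ (y.1 + y.2).val • f

attribute [instance] Pk.fk Pk.aL Pk.aF Pk.tw Pk.fV

/-- the cyclic algebra in which the link starts -/
structure Inp (Z : Cyc F L A) (E D : Type u) [DivisionRing E] [Algebra F E] [DivisionRing D]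
    [Algebra F D] where
  s : F
  s0 : s ≠ 0
  ι : E →ₐ[F] D
  jL : L →ₐ[F] D
  comm : ∀ x e, Commute (jL x) (ι e)
  v : D
  v_ι : ∀ e, Commute v (ι e)
  vA : v ^ A = algebraMap F D s
  vσ : ∀ x, v * jL (Z.σ x) = jL x * v
  ind : ∀ f : Fin A → L ⊗[F] E,
    ∑ m, Algebra.TensorProduct.lift jL ι comm (f m) * v ^ m.val = 0 → ∀ m, f m = 0

/-- `N ⊗ E` inside `k ⊗ E` -/
noncomputable def TE {k : Type u} [Field k] [Algebra F k] (E : Type u) [DivisionRing E]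
    [Algebra F E] (N : Submodule F k) : Submodule F (k ⊗[F] E) :=
  Submodule.span F {x | ∃ f ∈ N, ∃ e : E, x = f ⊗ₜ e}

variable {Z : Cyc F L A} (P : Pk Z) (E : Type u) [DivisionRing E] [Algebra F E] (s : F)

theorem carry_assoc (a b c : Fin A) :
    (a.val + b.val) / A + ((a + b).val + c.val) / A =
      (b.val + c.val) / A + (a.val + (b + c).val) / A := by
  have hA : 0 < A := Nat.pos_of_ne_zero (NeZero.ne A)
  have h : ∀ x y : ℕ, (x + y) / A = x / A + (x % A + y) / A := fun x y => by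
    conv_lhs => rw [← Nat.div_add_mod x A, add_assoc, Nat.mul_add_div hA]
  rw [Fin.val_add, Fin.val_add, ← h, add_comm a.val ((b.val + c.val) % A), ← h]
  congr 1
  ring

/-- the crossed product data -/
noncomputable def Pk.cd : Cd F (Gw A) (P.k ⊗[F] E) where
  α :=
    { toFun := fun g => Algebra.TensorProduct.congr (P.α g) AlgEquiv.refl
      map_one' := by
        ext x
        induction x using TensorProduct.induction_on with
        | zero => simp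
        | add x y hx hy => rw [map_add, map_add, hx, hy]
        | tmul f e => simp
      map_mul' := fun g h => by
        ext x
        induction x using TensorProduct.induction_on with
        | zero => simp
        | add x y hx hy => rw [map_add, map_add, hx, hy]
        | tmul f e => simp }
  τ g g' := s ^ ((g.k.val + g'.k.val) / A)
  τ_one_left g := by simp [Nat.div_eq_of_lt g.k.2]
  τ_one_right g := by simp [Nat.div_eq_of_lt g.k.2]
  τ_assoc g h k := by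
    rw [← pow_add, ← pow_add, Gw.mul_k, Gw.mul_k, carry_assoc]

theorem Pk.cd_α_tmul (g : Gw A) (f : P.k) (e : E) :
    (P.cd E s).α g (f ⊗ₜ e) = P.α g f ⊗ₜ e := rfl

theorem Pk.cd_τ (g g' : Gw A) : (P.cd E s).τ g g' = s ^ ((g.k.val + g'.k.val) / A) := rfl

/-- the crossed product -/
abbrev Pk.X : Type u := CP (P.cd E s)

/-- elements whose coefficient at `g` lies in `N g ⊗ E` -/
noncomputable def Pk.Sub (N : Gw A → Submodule F P.k) : Submodule F (P.X E s) where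
  carrier := {x | ∀ g, x.co g ∈ TE E (N g)}
  add_mem' := fun hx hy g => add_mem (hx g) (hy g)
  zero_mem' := fun _ => zero_mem _
  smul_mem' := fun c _ hx g => Submodule.smul_mem _ c (hx g)

/-- the weight condition -/
noncomputable def Pk.N (g : Gw A) : Submodule F P.k :=
  (P.W (ixo A) (g • ixo A)).restrictScalars F

open Classical in
/-- the weight condition, supported on `n = 0` -/
noncomputable def Pk.N0 (g : Gw A) : Submodule F P.k := if g.n = 0 then P.N g else ⊥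

open Classical in
/-- the weight condition, supported on `n ≥ 0` and `|n| ≥ m` -/
noncomputable def Pk.Np (m : ℕ) (g : Gw A) : Submodule F P.k :=
  if 0 ≤ g.n ∧ (m : ℤ) ≤ ∑ j, g.n j then P.N g else ⊥

open Classical in
/-- order at least `m` at the origin, supported on the elements `gc m` -/
noncomputable def Pk.Nc (m : ℕ) (g : Gw A) : Submodule F P.k :=
  if g.n = 0 ∧ g.k + g.h = 0 then (P.T.Fil m).restrictScalars F else ⊥

/-- a domain that is left finite over a commutative subring -/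
def DomFin (R : Type u) [Ring R] : Prop :=
  (1 : R) ≠ 0 ∧ (∀ x y : R, x * y = 0 → x = 0 ∨ y = 0) ∧
    ∃ (Y : Subring R) (S : Finset R), (∀ a ∈ Y, ∀ b ∈ Y, a * b = b * a) ∧
      ∀ r : R, ∃ c : R → R, (∀ x, c x ∈ Y) ∧ r = ∑ x ∈ S, c x * x

/-- the matrix data of a link -/
structure Md (Z : Cyc F L A) (E : Type u) [DivisionRing E] [Algebra F E] (s : F) (R : Type u)
    [Ring R] [Algebra F R] where
  jL : L →ₐ[F] R
  jE : E →ₐ[F] R
  m : (Fin A → ℤ) → Fin 2 → Matrix (Fin A) (Fin A) R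
  β : Fin A → Fin A → R
  jLE : ∀ x e, Commute (jL x) (jE e)
  m_E : ∀ n ε c c' e, Commute (m n ε c c') (jE e)
  m_deg : ∀ n ε c c' x, m n ε c c' * jL x = jL (sg Z.σ (c' - c) x) * m n ε c c'
  m_mul : ∀ n n' z z', Pos n → Pos n' → Pos z → Pos z' → n + n' = z + z' →
    mlin (m n) * mlin (m n') = mlin (m z) * mlin (m z')
  m_sh : ∀ n, Pos n → ∀ ε c c', m (sh n) ε (c + 1) (c' + 1) = m n ε c c'
  m_c0 : ∀ j, m (nw fun _ => j) 0 = Matrix.diagonal (β j)
  m_c1 : ∀ j, m (nw fun _ => j) 1 = Matrix.diagonal fun c => -(β j c * jL (Z.pt (j - c)))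
  β_L : ∀ j c x, Commute (β j c) (jL x)
  β_prod : ∀ c, (List.ofFn fun j => β j c).prod = algebraMap F R s
  β_cent : ∀ x : R, ∃ xs : Fin A → R, x = ∑ h, xs h ∧ ∀ h,
    (∀ y, xs h * jL y = jL (sg Z.σ h y) * xs h) ∧ ∀ j c, β j c * xs h = xs h * β j (c + h)

/-- the element `∑ γ ^ i ⊗ x i` -/
noncomputable def Cyc.cmb (Z : Cyc F L A) {R : Type u} [Ring R] [Algebra F R] (x : Fin A → R) :
    L ⊗[F] R :=
  ∑ i, (Z.γ ^ i.val) ⊗ₜ x i

/-- the descended data of a link -/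
structure Ld (Z : Cyc F L A) (E : Type u) [DivisionRing E] [Algebra F E] (s : F) (R : Type u)
    [Ring R] [Algebra F R] where
  jE : E →ₐ[F] R
  ω : (Fin A → Fin A) → Fin A → Fin 2 → R
  b : Fin A → Fin A → R
  ω_E : ∀ w i ε e, Commute (ω w i ε) (jE e)
  ω_comm : ∀ w i w' i', Commute (lin (ω w i)) (lin (ω w' i'))
  b_cent : ∀ j i x, Commute (b j i) x
  ver : ∀ w w' z z', ct w + ct w' = ct z + ct z' →
    (Z.cmb fun i => lin (ω w i)) * (Z.cmb fun i => lin (ω w' i)) =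
      (Z.cmb fun i => lin (ω z i)) * (Z.cmb fun i => lin (ω z' i))
  nrm : ∀ j, (Z.cmb fun i => lin (ω (fun _ => j) i)) = (Z.cmb fun i => cst 2 (b j i)) *
    ((1 : L) ⊗ₜ lin ![(1 : R), 0] - Z.pt j ⊗ₜ lin ![(0 : R), 1])
  prd : (List.ofFn fun j => Z.cmb fun i => cst 2 (b j i)).prod =
    algebraMap F (L ⊗[F] Alg R (Fin 2)) s
  yid : ∀ i, i ≠ 0 → ω id i = 0

end Vale.Agent.P200.G
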