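import Vale.Agent.P200.G.RDefs
import Vale.Agent.P200.Eq.Basic

/-! Words, cyclic differences, conjugates and the constants of the central shifts. -/

open Finset

namespace Vale.Agent.P200.G

open Vale.Agent.P200.Eq

universe u

variable {A : ℕ} [NeZero A]

theorem pd_add (n n' : Fin A → ℤ) : pd (n + n') = pd n + pd n' := by
  funext j
  simp only [pd, Pi.add_apply]
  ring

theorem pd_smul (z : ℤ) (n : Fin A → ℤ) : pd (z • n) = z • pd n := by
  funext j
  simp only [pd, Pi.smul_apply, smul_eq_mul]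
  ring

theorem pd_const (z : ℤ) : pd (fun _ : Fin A => z) = 0 := funext fun _ => sub_self z

theorem pd_sh (n : Fin A → ℤ) : pd (sh n) = sh (pd n) := rfl

theorem sum_pd (n : Fin A → ℤ) : ∑ j, pd n j = 0 := by
  simp only [pd, sum_sub_distrib]
  exact sub_eq_zero.2 (Equiv.sum_comp (Equiv.subRight (1 : Fin A)) n).symm

theorem dvd_sum_e (g : Gw A) : (A : ℤ) ∣ ∑ j, g.e j := by
  simp only [Gw.e, sum_add_distrib, sum_pd, zero_add, sum_const, card_univ, Fintype.card_fin,
    nsmul_eq_mul]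
  exact dvd_mul_right _ _

theorem Pos.sh {n : Fin A → ℤ} (h : Pos n) : Pos (sh n) := fun j => h (j - 1)

theorem sum_ct (w : Fin A → Fin A) : ∑ j, ct w j = A := by
  simp only [ct, Finset.sum_apply]
  rw [sum_comm]
  simp [Pi.single_apply]

theorem wd_pd_nu (j j' : Fin A) :
    pd (nu j) j' = (if j' = j then 1 else 0) - if j' = 0 then 1 else 0 := by
  obtain ⟨B, rfl⟩ : ∃ B, A = B + 1 := Nat.exists_eq_succ_of_ne_zero (NeZero.ne A)
  have h1 := Fin.coe_sub_one j'
  have h2 := j.2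
  simp only [pd, nu, Fin.lt_def, h1]
  by_cases h0 : j' = 0
  · subst h0
    simp only [Fin.ext_iff, Fin.val_zero]
    split_ifs <;> omega
  · have h3 : j'.val ≠ 0 := fun e => h0 (Fin.ext e)
    simp only [if_neg h0, Fin.ext_iff]
    split_ifs <;> omega

theorem wd_pd_sum {ι : Type*} (s : Finset ι) (n : ι → Fin A → ℤ) (j : Fin A) :
    pd (∑ i ∈ s, n i) j = ∑ i ∈ s, pd (n i) j := by
  simp only [pd, Finset.sum_apply, sum_sub_distrib]

theorem pd_nw (w : Fin A → Fin A) (j : Fin A) : pd (nw w) j + 1 = ct w j := by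
  have h : pd (nw w) j = pd (∑ p, nu (w p)) j - pd (∑ j' : Fin A, nu j') j := by
    simp only [pd, nw, Pi.sub_apply]
    ring
  rw [h, wd_pd_sum, wd_pd_sum]
  simp [wd_pd_nu, sum_sub_distrib, ct, Finset.sum_apply, Pi.single_apply]

theorem pos_nw (w : Fin A → Fin A) : Pos (nw w) := fun j => by
  rw [pd_nw]
  exact Int.natCast_nonneg _

theorem pd_nw_const (j j' : Fin A) :
    pd (nw fun _ => j) j' + 1 = if j' = j then (A : ℤ) else 0 := by
  rw [pd_nw]
  by_cases h : j' = j <;> simp [ct, Finset.sum_apply, Pi.single_apply, h]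

theorem wd_sum_nu (w : Fin A → Fin A) : ∑ p, nu (w p) = ∑ j, ct w j • nu j := by
  simp only [ct, Finset.sum_apply, sum_smul]
  rw [sum_comm]
  simp [Pi.single_apply]

theorem nw_add {w w' z z' : Fin A → Fin A} (h : ct w + ct w' = ct z + ct z') :
    nw w + nw w' = nw z + nw z' := by
  have e : ∀ u u' : Fin A → Fin A, nw u + nw u' =
      ∑ j, (ct u + ct u') j • nu j - 2 • ∑ j, nu j := fun u u' => by
    simp only [nw, wd_sum_nu, Pi.add_apply, add_smul, sum_add_distrib]
    abel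
  rw [e, e, h]

theorem nw_id : nw (id : Fin A → Fin A) = 0 := sub_self _

theorem sum_nw_const : ∑ j : Fin A, nw (fun _ => j) = 0 := by
  simp only [nw, sum_sub_distrib, sum_const, card_univ, Fintype.card_fin, ← smul_sum, sub_self]

theorem ixs_add (e e' : Fin A → ℤ) (x : Ix A) : ixs (e + e') x = ixs e (ixs e' x) := by
  refine Prod.ext rfl ?_
  simp only [ixs, Pi.add_apply, add_zsmul]
  abel

theorem ixs_A_smul (e : Fin A → ℤ) (x : Ix A) : ixs ((A : ℤ) • e) x = x := by
  refine Prod.ext rfl ?_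
  simp only [ixs, Pi.smul_apply, smul_eq_mul]
  rw [mul_comm, mul_zsmul, A_zsmul_one, zsmul_zero, add_zero]

theorem wd_sum_ct (v : Fin A × Fin A → Fin A) :
    ∑ r, ct (fun p => v (r, p)) = ∑ q, Pi.single (v q) 1 := by
  rw [Fintype.sum_prod_type]
  rfl

theorem wd_two {Q : Type*} [CommMonoid Q] (x : (Fin A → Fin A) → Q)
    (h : ∀ w w' z z', ct w + ct w' = ct z + ct z' → x w * x w' = x z * x z')
    (v v' : Fin A → Fin A → Fin A) (hs : ∑ r, ct (v r) = ∑ r, ct (v' r)) {r r' : Fin A}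
    (hr : r ≠ r') (ho : ∀ t, t ≠ r → t ≠ r' → v t = v' t) : ∏ t, x (v t) = ∏ t, x (v' t) := by
  have ho' : ∀ t ∈ ({r, r'} : Finset (Fin A))ᶜ, v t = v' t := fun t ht => by
    simp only [mem_compl, mem_insert, mem_singleton, not_or] at ht
    exact ho t ht.1 ht.2
  rw [← sum_add_sum_compl {r, r'}, ← sum_add_sum_compl {r, r'}, sum_pair hr, sum_pair hr,
    sum_congr rfl fun t ht => congrArg ct (ho' t ht)] at hs
  rw [← prod_mul_prod_compl {r, r'}, ← prod_mul_prod_compl {r, r'}, prod_pair hr, prod_pair hr,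
    prod_congr rfl fun t ht => congrArg x (ho' t ht), h _ _ _ _ (add_right_cancel hs)]

/-- the Veronese relation from its quadratic part -/
theorem veronese {Q : Type*} [CommMonoid Q] (hA : 2 ≤ A) (x : (Fin A → Fin A) → Q)
    (h : ∀ w w' z z', ct w + ct w' = ct z + ct z' → x w * x w' = x z * x z')
    (w : Fin A → Fin A) : x w ^ A = ∏ p, x fun _ => w p := by
  have key : ∀ π : Equiv.Perm (Fin A × Fin A), ∀ v : Fin A × Fin A → Fin A,
      ∏ r, x (fun p => v (π (r, p))) = ∏ r, x fun p => v (r, p) := by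
    intro π
    induction π using Equiv.Perm.swap_induction_on with
    | one => exact fun _ => rfl
    | swap_mul f a b _ ih =>
      intro v
      refine (ih fun q => v (Equiv.swap a b q)).trans ?_
      have : Nontrivial (Fin A) := Fin.nontrivial_iff_two_le.2 hA
      obtain ⟨r, hr, hb⟩ : ∃ r, a.1 ≠ r ∧ (b.1 = a.1 ∨ b.1 = r) := by
        by_cases e : b.1 = a.1
        · obtain ⟨r, hr⟩ := exists_ne a.1
          exact ⟨r, hr.symm, Or.inl e⟩
        · exact ⟨b.1, Ne.symm e, Or.inr rfl⟩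
      refine wd_two x h _ _ ?_ hr fun t h1 h2 => funext fun p => ?_
      · rw [wd_sum_ct fun q => v (Equiv.swap a b q), wd_sum_ct v]
        exact Equiv.sum_comp (Equiv.swap a b) fun q => (Pi.single (v q) 1 : Fin A → ℕ)
      · rw [Equiv.swap_apply_of_ne_of_ne (fun e => h1 (congrArg Prod.fst e))
          fun e => Or.elim hb (fun e' => h1 ((congrArg Prod.fst e).trans e'))
            fun e' => h2 ((congrArg Prod.fst e).trans e')]
  have := key (Equiv.prodComm _ _) fun q => w q.2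
  simp only [Equiv.prodComm_apply, Prod.swap_prod_mk, prod_const, card_univ,
    Fintype.card_fin] at this
  exact this.symm

section cc

variable {k : Type*} [Field k] {a : Fin A → k}

theorem cc_ne_zero (ha : Function.Injective a) (j c : Fin A) : cc a j c ≠ 0 := by
  unfold cc
  split_ifs with h
  · refine prod_ne_zero_iff.2 fun i hi => sub_ne_zero.2 fun e => ?_
    exact (mem_erase.1 hi).1 (left_eq_add.1 (ha e))
  · exact inv_ne_zero (sub_ne_zero.2 fun e => h (ha e))

theorem prod_cc (ha : Function.Injective a) (c : Fin A) : ∏ j, cc a j c = 1 := by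
  rw [← Equiv.prod_comp (Equiv.addLeft c) fun j => cc a j c, ← mul_prod_erase _ _ (mem_univ 0)]
  simp only [Equiv.coe_addLeft, add_zero]
  rw [cc, if_pos rfl, ← prod_mul_distrib]
  refine prod_eq_one fun i hi => ?_
  have h : c ≠ c + i := fun e => (mem_erase.1 hi).1 (left_eq_add.1 e)
  rw [cc, if_neg h, mul_inv_cancel₀ (sub_ne_zero.2 fun e => h (ha e))]

theorem map_cc {k' : Type*} [Field k'] (ψ : k →+* k') (j c : Fin A) :
    ψ (cc a j c) = cc (fun i => ψ (a i)) j c := by
  unfold cc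
  split_ifs
  · simp only [map_prod, map_sub]
  · simp only [map_inv₀, map_sub]

end cc

theorem pow_val_add {M : Type*} [Monoid M] {x : M} (hx : x ^ A = 1) (h h' : Fin A) :
    x ^ (h + h').val = x ^ h.val * x ^ h'.val := by
  rw [Fin.val_add, ← pow_eq_pow_mod _ hx, pow_add]

variable {F L : Type u} [Field F] [Field L] [Algebra F L] (Z : Cyc F L A)

theorem wd_pow_γ (m : ℕ) : (Z.σ ^ m) Z.γ = Z.ζ ^ m • Z.γ := by
  induction m with
  | zero => simp
  | succ m ih => rw [pow_succ, AlgEquiv.mul_apply, Z.σγ, map_smul, ih, smul_smul, ← pow_succ']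

theorem Cyc.σ_pow_A : Z.σ ^ A = 1 := by
  refine AlgEquiv.toLinearMap_injective (Z.bL.ext fun i => ?_)
  simp only [AlgEquiv.toLinearMap_apply, Z.bL_eq, map_pow, wd_pow_γ, Z.hζ.pow_eq_one, one_smul,
    AlgEquiv.one_apply]

theorem Cyc.sg_zero (x : L) : sg Z.σ (0 : Fin A) x = x := by
  rw [sg, Fin.val_zero, pow_zero, AlgEquiv.one_apply]

theorem Cyc.sg_one (x : L) : sg Z.σ (1 : Fin A) x = Z.σ x := by
  rw [sg, Fin.val_one', ← pow_eq_pow_mod _ Z.σ_pow_A, pow_one]

theorem Cyc.sg_add (h h' : Fin A) (x : L) : sg Z.σ (h + h') x = sg Z.σ h (sg Z.σ h' x) := by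
  rw [sg, pow_val_add Z.σ_pow_A, AlgEquiv.mul_apply, sg, sg]

theorem Cyc.sg_γ (h : Fin A) : sg Z.σ h Z.γ = Z.ζ ^ h.val • Z.γ := wd_pow_γ Z _

theorem Cyc.sg_pt (h j : Fin A) : sg Z.σ h (Z.pt j) = Z.pt (j + h) := by
  rw [Cyc.pt, Cyc.pt, add_comm, Z.sg_add]

theorem Cyc.pt_inj : Function.Injective Z.pt := Z.a_inj

theorem Cyc.ph_inj : Function.Injective Z.ph := (algebraMap L (Kh A L)).injective.comp Z.pt_inj

theorem Cyc.sg_cc (h j c : Fin A) : sg Z.σ h (cc Z.pt j c) = cc Z.pt (j + h) (c + h) := by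
  unfold cc
  by_cases e : c = j
  · rw [if_pos e, if_pos (by rw [e]), map_prod]
    refine prod_congr rfl fun i _ => ?_
    rw [map_sub, Z.sg_pt, Z.sg_pt, add_right_comm]
  · rw [if_neg e, if_neg fun e' => e (add_right_cancel e'), map_inv₀, map_sub, Z.sg_pt, Z.sg_pt]

include Z in
theorem Cyc.cast_ne_zero : (A : F) ≠ 0 := Z.hζ.neZero'.out

end Vale.Agent.P200.G
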