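import Vale.Agent.P200.G.StB
import Vale.Agent.P200.G.PDefs
import Vale.Agent.P200.G.Wd

/-! Descent of the matrix data along the cyclic extension. -/

open Finset TensorProduct

namespace Vale.Agent.P200.G

open Vale.Agent.P200.Eq

universe u

variable {A : ℕ} [NeZero A] {F L : Type u} [Field F] [Field L] [Algebra F L] {Z : Cyc F L A}
  {E : Type u} [DivisionRing E] [Algebra F E] {s : F} {R : Type u} [Ring R] [Algebra F R]

namespace Th

section idem

omit [NeZero A] in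
theorem geo {ξ : F} (h : ξ ^ A = 1) (h1 : ξ ≠ 1) : ∑ i : Fin A, ξ ^ i.val = 0 := by
  rw [Fin.sum_univ_eq_sum_range (fun i => ξ ^ i) A, geom_sum_eq h1, h, sub_self, zero_div]

variable (Z)

/-- the characters of the cyclic group -/
def chi (c : Fin A) : F := Z.ζ ^ c.val

theorem chi_add (c c' : Fin A) : chi Z (c + c') = chi Z c * chi Z c' :=
  pow_val_add Z.hζ.pow_eq_one c c'

theorem chi_zero : chi Z 0 = 1 := by simp [chi]

theorem chi_one : chi Z 1 = Z.ζ := by
  have h : 1 % A = 1 := Nat.mod_eq_of_lt (by have := Z.hA; omega)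
  simp [chi, h]

theorem chi_ne_zero (c : Fin A) : chi Z c ≠ 0 := pow_ne_zero _ (Z.hζ.ne_zero (NeZero.ne A))

theorem chi_pow_A (c : Fin A) : chi Z c ^ A = 1 := by
  rw [chi, ← pow_mul, mul_comm, pow_mul, Z.hζ.pow_eq_one, one_pow]

theorem chi_ne_one {c : Fin A} (hc : c ≠ 0) : chi Z c ≠ 1 :=
  Z.hζ.pow_ne_one_of_pos_of_lt (fun h => hc (Fin.ext (by simpa using h))) c.2

theorem chi_inj : Function.Injective (chi Z) := fun c c' h => Fin.ext (Z.hζ.pow_inj c.2 c'.2 h)

theorem vdm {V : Type*} [AddCommGroup V] [Module F V] (v : Fin A → V)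
    (h : ∀ k : ℕ, ∑ i, chi Z i ^ k • v i = 0) (i : Fin A) : v i = 0 := by
  refine (Module.forall_dual_apply_eq_zero_iff F _).1 fun φ => ?_
  have := Matrix.eq_zero_of_forall_pow_sum_mul_pow_eq_zero (f := chi Z) (v := fun i => φ (v i))
    (chi_inj Z) fun k => by
      have h1 := congrArg φ (h k.val)
      rw [map_sum, map_zero] at h1
      rw [← h1]
      exact Finset.sum_congr rfl fun j _ => by rw [map_smul, smul_eq_mul, mul_comm]
  exact congrFun this i

theorem vdm_comm {T : Type*} [Ring T] [Algebra F T] (a : Fin A → T) (y : T)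
    (h : ∀ k : ℕ, Commute (∑ i, chi Z i ^ k • a i) y) (i : Fin A) : Commute (a i) y := by
  refine sub_eq_zero.1 (vdm Z (fun i => a i * y - y * a i) (fun k => ?_) i)
  have := sub_eq_zero.2 (h k).eq
  rw [Finset.sum_mul, Finset.mul_sum, ← Finset.sum_sub_distrib] at this
  rw [← this]
  exact Finset.sum_congr rfl fun j _ => by rw [smul_sub, smul_mul_assoc, mul_smul_comm]

/-- inverses of the conjugates of the generator -/
noncomputable def uu (c : Fin A) : L := chi Z c • Z.γ⁻¹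

theorem uu_add (c c' : Fin A) : uu Z (c + c') = chi Z c • uu Z c' := by
  rw [uu, uu, chi_add, mul_smul]

theorem sg_uu (h c : Fin A) : sg Z.σ h (uu Z (c + h)) = uu Z c := by
  rw [uu, uu, map_smul, map_inv₀, Z.sg_γ, chi_add, smul_inv₀, smul_smul]
  congr 1
  exact mul_inv_cancel_right₀ (chi_ne_zero Z h) _

theorem uu_mul (c : Fin A) : uu Z c * sg Z.σ (-c) Z.γ = 1 := by
  rw [uu, Z.sg_γ, smul_mul_smul_comm, inv_mul_cancel₀ Z.γ0]
  change (chi Z c * chi Z (-c)) • (1 : L) = 1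
  rw [← chi_add, add_neg_cancel, chi_zero, one_smul]

theorem c_ne_zero : Z.c ≠ 0 := fun h => pow_ne_zero A Z.γ0 (by rw [Z.γA, h, map_zero])

theorem uu_pow_A (c : Fin A) : uu Z c ^ A = algebraMap F L Z.c⁻¹ := by
  rw [uu, smul_pow, chi_pow_A, one_smul, inv_pow, Z.γA, map_inv₀]

variable {S : Type u} [Ring S] [Algebra F S] (j : L →ₐ[F] S)

/-- elements of order dividing `A` -/
noncomputable def zz (c : Fin A) : L ⊗[F] S := Z.γ ⊗ₜ j (uu Z c)

theorem zz_add (c c' : Fin A) : zz Z j (c + c') = chi Z c • zz Z j c' := by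
  rw [zz, zz, uu_add, map_smul, tmul_smul]

theorem zz_pow (c : Fin A) (i : ℕ) : zz Z j c ^ i = (Z.γ ^ i) ⊗ₜ j (uu Z c ^ i) := by
  rw [zz, Algebra.TensorProduct.tmul_pow, map_pow]

theorem zz_pow_A (c : Fin A) : zz Z j c ^ A = 1 := by
  rw [zz_pow, uu_pow_A, Z.γA, AlgHom.commutes, Algebra.algebraMap_eq_smul_one,
    Algebra.algebraMap_eq_smul_one, smul_tmul_smul, mul_inv_cancel₀ (c_ne_zero Z), one_smul,
    Algebra.TensorProduct.one_def]

/-- the idempotents -/
noncomputable def ee (c : Fin A) : L ⊗[F] S := (A : F)⁻¹ • ∑ i : Fin A, zz Z j c ^ i.val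

theorem ee_mul_zz (c : Fin A) : ee Z j c * zz Z j c = ee Z j c := by
  have h := geom_sum_mul (zz Z j c) A
  rw [zz_pow_A, sub_self, mul_sub, mul_one, sub_eq_zero] at h
  rw [ee, smul_mul_assoc, Fin.sum_univ_eq_sum_range (fun i => zz Z j c ^ i) A, h]

theorem ee_mul_zz_pow (c c' : Fin A) (i : ℕ) :
    ee Z j c * zz Z j c' ^ i = chi Z (c' - c) ^ i • ee Z j c := by
  induction i with
  | zero => simp
  | succ i ih =>
    have h : zz Z j c' = chi Z (c' - c) • zz Z j c := by rw [← zz_add, sub_add_cancel]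
    rw [pow_succ, ← mul_assoc, ih, smul_mul_assoc, pow_succ, mul_smul]
    congr 1
    rw [h, mul_smul_comm, ee_mul_zz]

theorem ee_mul_ee (c c' : Fin A) : ee Z j c * ee Z j c' = if c' = c then ee Z j c else 0 := by
  have h0 : ee Z j c' = (A : F)⁻¹ • ∑ i : Fin A, zz Z j c' ^ i.val := rfl
  rw [h0, mul_smul_comm, Finset.mul_sum]
  simp only [ee_mul_zz_pow]
  rw [← Finset.sum_smul, smul_smul]
  split_ifs with h
  · rw [h, sub_self, chi_zero]
    simp [inv_mul_cancel₀ Z.cast_ne_zero]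
  · rw [geo (chi_pow_A Z _) (chi_ne_one Z (sub_ne_zero.2 h)), mul_zero, zero_smul]

theorem sum_ee : ∑ c, ee Z j c = 1 := by
  have h : ∀ c, zz Z j c = chi Z c • zz Z j 0 := fun c => by rw [← zz_add, add_zero]
  have h2 : ∀ (c i : Fin A), chi Z c ^ i.val = chi Z i ^ c.val := fun c i => by
    rw [chi, chi, ← pow_mul, ← pow_mul, mul_comm]
  have h3 : ∀ c, ∑ i : Fin A, zz Z j c ^ i.val =
      ∑ i : Fin A, chi Z i ^ c.val • zz Z j 0 ^ i.val := fun c =>
    Finset.sum_congr rfl fun i _ => by rw [h c, smul_pow, h2]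
  simp only [ee]
  rw [← Finset.smul_sum]
  simp only [h3]
  rw [Finset.sum_comm, Finset.sum_eq_single 0]
  · rw [← Finset.sum_smul, smul_smul, chi_zero]
    simp [inv_mul_cancel₀ Z.cast_ne_zero]
  · intro i _ hi
    rw [← Finset.sum_smul, geo (chi_pow_A Z _) (chi_ne_one Z hi), zero_smul]
  · simp

theorem ee_mul_left (c : Fin A) (y : L) :
    ee Z j c * (y ⊗ₜ 1) = ee Z j c * (1 ⊗ₜ j (sg Z.σ (-c) y)) := by
  have h1 : ee Z j c * (Z.γ ⊗ₜ 1) = ee Z j c * (1 ⊗ₜ j (sg Z.σ (-c) Z.γ)) := by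
    conv_rhs => rw [← ee_mul_zz, mul_assoc, zz, Algebra.TensorProduct.tmul_mul_tmul, mul_one,
      ← map_mul, uu_mul, map_one]
  have h2 : ∀ i : ℕ, ee Z j c * ((Z.γ ^ i) ⊗ₜ 1) =
      ee Z j c * (1 ⊗ₜ j (sg Z.σ (-c) (Z.γ ^ i))) := fun i => by
    induction i with
    | zero => simp
    | succ i ih =>
      have e1 : ((Z.γ ^ (i + 1)) ⊗ₜ 1 : L ⊗[F] S) = (Z.γ ⊗ₜ 1) * ((Z.γ ^ i) ⊗ₜ 1) := by
        rw [Algebra.TensorProduct.tmul_mul_tmul, mul_one, pow_succ']
      have e2 : ((1 : L) ⊗ₜ j (sg Z.σ (-c) Z.γ) : L ⊗[F] S) * ((Z.γ ^ i) ⊗ₜ 1) =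
          ((Z.γ ^ i) ⊗ₜ 1) * ((1 : L) ⊗ₜ j (sg Z.σ (-c) Z.γ)) := by
        simp only [Algebra.TensorProduct.tmul_mul_tmul, mul_one, one_mul]
      rw [e1, ← mul_assoc, h1, mul_assoc, e2, ← mul_assoc, ih, mul_assoc,
        Algebra.TensorProduct.tmul_mul_tmul, mul_one, ← map_mul, ← map_mul, pow_succ]
  rw [← Z.bL.sum_repr y]
  simp only [map_sum, map_smul, sum_tmul, tmul_sum, Finset.mul_sum, ← smul_tmul', tmul_smul,
    mul_smul_comm, Z.bL_eq, h2]

theorem tmul_mul_ee {x : S} {h : Fin A} (hx : ∀ y, x * j y = j (sg Z.σ h y) * x) (c : Fin A) :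
    ((1 : L) ⊗ₜ x) * ee Z j (c + h) = ee Z j c * (1 ⊗ₜ x) := by
  rw [ee, ee, mul_smul_comm, smul_mul_assoc, Finset.mul_sum, Finset.sum_mul]
  congr 1
  refine Finset.sum_congr rfl fun i _ => ?_
  rw [zz_pow, zz_pow, Algebra.TensorProduct.tmul_mul_tmul, Algebra.TensorProduct.tmul_mul_tmul,
    one_mul, mul_one, hx, map_pow, sg_uu]

/-- the descent map on matrices -/
noncomputable def th (M : Matrix (Fin A) (Fin A) S) : L ⊗[F] S :=
  ∑ c, ∑ c', ee Z j c * (1 ⊗ₜ M c c')

theorem th_mul (M N : Matrix (Fin A) (Fin A) S)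
    (hM : ∀ c c' y, M c c' * j y = j (sg Z.σ (c' - c) y) * M c c') :
    th Z j M * th Z j N = th Z j (M * N) := by
  have h1 : ∀ c c' d, ee Z j c * (1 ⊗ₜ M c c') * ee Z j d =
      if d = c' then ee Z j c * (1 ⊗ₜ M c c') else 0 := fun c c' d => by
    have h2 := tmul_mul_ee Z j (hM c c') (d - (c' - c))
    rw [sub_add_cancel] at h2
    rw [mul_assoc, h2, ← mul_assoc, ee_mul_ee]
    by_cases h : d = c'
    · rw [if_pos h, if_pos (by rw [h, sub_sub_cancel])]
    · rw [if_neg h, if_neg, zero_mul]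
      intro h3
      refine h ?_
      rw [← sub_add_cancel d (c' - c), h3, add_sub_cancel]
  have h4 : ∀ c, ∑ c', ee Z j c * (1 ⊗ₜ (M * N) c c') =
      ∑ c', ∑ d', ee Z j c * (1 ⊗ₜ M c c') * ((1 : L) ⊗ₜ[F] N c' d') := fun c => by
    rw [Finset.sum_comm]
    refine Finset.sum_congr rfl fun d' _ => ?_
    rw [Matrix.mul_apply, tmul_sum, Finset.mul_sum]
    refine Finset.sum_congr rfl fun c' _ => ?_
    rw [mul_assoc, Algebra.TensorProduct.tmul_mul_tmul, mul_one]
  rw [th, th, th, Finset.sum_mul]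
  refine Finset.sum_congr rfl fun c _ => ?_
  rw [h4, Finset.sum_mul]
  refine Finset.sum_congr rfl fun c' _ => ?_
  rw [Finset.mul_sum, Finset.sum_eq_single c']
  · rw [Finset.mul_sum]
    refine Finset.sum_congr rfl fun d' _ => ?_
    rw [← mul_assoc, h1, if_pos rfl]
  · intro d _ hd
    rw [Finset.mul_sum]
    refine Finset.sum_eq_zero fun d' _ => ?_
    rw [← mul_assoc, h1, if_neg hd, zero_mul]
  · simp

theorem th_diag (d : Fin A → S) :
    th Z j (Matrix.diagonal d) = ∑ c, ee Z j c * (1 ⊗ₜ d c) := by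
  refine Finset.sum_congr rfl fun c _ => ?_
  rw [Finset.sum_eq_single c]
  · rw [Matrix.diagonal_apply_eq]
  · intro c' _ h
    rw [Matrix.diagonal_apply_ne _ h.symm, tmul_zero, mul_zero]
  · simp

theorem th_eq_cmb (M : Matrix (Fin A) (Fin A) S) :
    th Z j M = Z.cmb fun i => (A : F)⁻¹ • ∑ c, ∑ c', j (uu Z c ^ i.val) * M c c' := by
  simp only [th, Cyc.cmb, ee, smul_mul_assoc, Finset.sum_mul, zz_pow, tmul_smul, tmul_sum,
    Algebra.TensorProduct.tmul_mul_tmul, mul_one, ← Finset.smul_sum]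
  congr 1
  symm
  rw [Finset.sum_comm]
  exact Finset.sum_congr rfl fun c _ => Finset.sum_comm

theorem th_prod (l : List (Fin A → S)) (hl : ∀ d ∈ l, ∀ c y, Commute (d c) (j y)) :
    (l.map fun d => th Z j (Matrix.diagonal d)).prod =
      th Z j (Matrix.diagonal fun c => (l.map fun d => d c).prod) := by
  induction l with
  | nil =>
    rw [th_diag]
    simp only [List.map_nil, List.prod_nil, ← Algebra.TensorProduct.one_def, mul_one, sum_ee]
  | cons d l ih =>
    rw [List.map_cons, List.prod_cons, ih fun d' hd' => hl d' (List.mem_cons_of_mem _ hd'),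
      th_mul, Matrix.diagonal_mul_diagonal]
    · simp only [List.map_cons, List.prod_cons]
    · intro c c' y
      by_cases h : c = c'
      · subst h
        rw [Matrix.diagonal_apply_eq, sub_self, Z.sg_zero]
        exact hl d List.mem_cons_self c y
      · rw [Matrix.diagonal_apply_ne _ h, zero_mul, mul_zero]

end idem

section main

variable (M : Md Z E s R)

/-- the scalars of the extension as constants -/
noncomputable def jj : L →ₐ[F] Alg R (Fin 2) := AddMonoidAlgebra.singleZeroAlgHom.comp M.jL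

theorem jj_apply (y : L) : jj M y = cst 2 (M.jL y) := rfl

/-- the descended coefficients -/
noncomputable def om (n : Fin A → ℤ) (i : Fin A) (ε : Fin 2) : R :=
  (A : F)⁻¹ • ∑ c, ∑ c', M.jL (uu Z c ^ i.val) * M.m n ε c c'

/-- the descended constants -/
noncomputable def bb (k i : Fin A) : R := (A : F)⁻¹ • ∑ c, M.jL (uu Z c ^ i.val) * M.β k c

theorem cmb_om (n : Fin A → ℤ) :
    (Z.cmb fun i => lin (om M n i)) = th Z (jj M) (mlin (M.m n)) := by
  rw [th_eq_cmb]
  congr 1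
  funext i
  have h : om M n i = (A : F)⁻¹ • ∑ c, ∑ c', fun ε => M.jL (uu Z c ^ i.val) * M.m n ε c c' := by
    funext ε
    simp only [om, Pi.smul_apply, Finset.sum_apply]
  rw [h, lin_smul]
  simp only [lin_sum, jj_apply, mlin, Matrix.of_apply, cst_mul_lin]

theorem cmb_bb (k : Fin A) :
    (Z.cmb fun i => cst 2 (bb M k i)) =
      th Z (jj M) (Matrix.diagonal fun c => cst 2 (M.β k c)) := by
  rw [th_eq_cmb]
  congr 1
  funext i
  have h : ∀ (a : F) (x : R), cst 2 (a • x) = a • cst 2 x := fun a x => by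
    rw [cst_apply, cst_apply, AddMonoidAlgebra.smul_single]
  rw [bb, h, map_sum]
  congr 1
  refine Finset.sum_congr rfl fun c _ => ?_
  rw [Finset.sum_eq_single c]
  · rw [Matrix.diagonal_apply_eq, map_mul, jj_apply]
  · intro c' _ h
    rw [Matrix.diagonal_apply_ne _ h.symm, mul_zero]
  · simp

theorem mlin_deg (n : Fin A → ℤ) (c c' : Fin A) (y : L) :
    mlin (M.m n) c c' * jj M y = jj M (sg Z.σ (c' - c) y) * mlin (M.m n) c c' := by
  simp only [jj_apply, mlin, Matrix.of_apply, cst_mul_lin, lin_mul_cst, M.m_deg]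

theorem om_ver {n n' z z' : Fin A → ℤ} (hn : Pos n) (hn' : Pos n') (hz : Pos z) (hz' : Pos z')
    (h : n + n' = z + z') :
    (Z.cmb fun i => lin (om M n i)) * (Z.cmb fun i => lin (om M n' i)) =
      (Z.cmb fun i => lin (om M z i)) * (Z.cmb fun i => lin (om M z' i)) := by
  simp only [cmb_om]
  rw [th_mul _ _ _ _ (mlin_deg M n), th_mul _ _ _ _ (mlin_deg M z),
    M.m_mul n n' z z' hn hn' hz hz' h]

theorem om_sh {n : Fin A → ℤ} (hn : Pos n) (i : Fin A) : om M (sh n) i = chi Z i • om M n i := by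
  funext ε
  rw [Pi.smul_apply, om, om, smul_comm]
  congr 1
  rw [← Equiv.sum_comp (Equiv.addRight 1), Finset.smul_sum]
  refine Finset.sum_congr rfl fun c _ => ?_
  rw [← Equiv.sum_comp (Equiv.addRight 1), Finset.smul_sum]
  refine Finset.sum_congr rfl fun c' _ => ?_
  simp only [Equiv.coe_addRight]
  rw [M.m_sh n hn, add_comm c 1, uu_add, chi_one, smul_pow, map_smul, smul_mul_assoc, chi]

theorem pos_iter {n : Fin A → ℤ} (hn : Pos n) (k : ℕ) : Pos (sh^[k] n) := by
  induction k with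
  | zero => exact hn
  | succ k ih => rw [Function.iterate_succ_apply']; exact ih.sh

theorem om_iter {n : Fin A → ℤ} (hn : Pos n) (k : ℕ) (i : Fin A) :
    om M (sh^[k] n) i = chi Z i ^ k • om M n i := by
  induction k with
  | zero => simp
  | succ k ih =>
    rw [Function.iterate_succ_apply', om_sh M (pos_iter hn k), ih, smul_smul, pow_succ']

theorem om_comm {n n' : Fin A → ℤ} (hn : Pos n) (hn' : Pos n') (i i' : Fin A) :
    Commute (lin (om M n i)) (lin (om M n' i')) := by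
  have h1 : ∀ {n : Fin A → ℤ}, Pos n → ∀ k, (Z.cmb fun i => lin (om M (sh^[k] n) i)) =
      ∑ i, chi Z i ^ k • ((Z.γ ^ i.val) ⊗ₜ[F] lin (om M n i)) := fun hn k => by
    simp only [Cyc.cmb, om_iter M hn, lin_smul, tmul_smul]
  have h2 : Commute ((Z.γ ^ i.val) ⊗ₜ[F] lin (om M n i))
      ((Z.γ ^ i'.val) ⊗ₜ[F] lin (om M n' i')) := by
    refine vdm_comm Z (fun i => (Z.γ ^ i.val) ⊗ₜ[F] lin (om M n i)) _ (fun k => ?_) i
    refine (vdm_comm Z (fun i => (Z.γ ^ i.val) ⊗ₜ[F] lin (om M n' i)) _ (fun k' => ?_) i').symm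
    rw [← h1 hn, ← h1 hn']
    exact om_ver M (pos_iter hn' k') (pos_iter hn k) (pos_iter hn k) (pos_iter hn' k')
      (add_comm _ _)
  have h3 := congrArg (fun t => ((Z.γ ^ i.val * Z.γ ^ i'.val)⁻¹ ⊗ₜ[F] (1 : Alg R (Fin 2))) * t)
    h2.eq
  have h4 : Z.γ ^ i.val * Z.γ ^ i'.val ≠ 0 :=
    mul_ne_zero (pow_ne_zero _ Z.γ0) (pow_ne_zero _ Z.γ0)
  simp only [Algebra.TensorProduct.tmul_mul_tmul, one_mul] at h3
  rw [mul_comm (Z.γ ^ i'.val), inv_mul_cancel₀ h4] at h3
  exact Algebra.TensorProduct.includeRight_injective (A := L) (algebraMap F L).injective h3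

theorem om_zero {i : Fin A} (hi : i ≠ 0) : om M (nw id) i = 0 := by
  have h := om_sh M (pos_nw (id : Fin A → Fin A)) i
  have h0 : sh (nw (id : Fin A → Fin A)) = nw id := by
    rw [nw_id]
    rfl
  rw [h0] at h
  have h1 : (chi Z i - 1) • om M (nw id) i = 0 := by rw [sub_smul, one_smul, ← h, sub_self]
  exact (smul_eq_zero.1 h1).resolve_left (sub_ne_zero.2 (chi_ne_one Z hi))

theorem bb_cent (k i : Fin A) (x : R) : Commute (bb M k i) x := by
  obtain ⟨xs, rfl, hx⟩ := M.β_cent x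
  refine Commute.sum_right _ _ _ fun h _ => ?_
  refine Commute.smul_left ?_ _
  rw [Commute, SemiconjBy, Finset.sum_mul, Finset.mul_sum]
  symm
  rw [← Equiv.sum_comp (Equiv.addRight h)]
  refine Finset.sum_congr rfl fun c _ => ?_
  rw [Equiv.coe_addRight, ← mul_assoc, (hx h).1, map_pow, sg_uu, mul_assoc, mul_assoc, (hx h).2]

theorem om_nrm (k : Fin A) :
    (Z.cmb fun i => lin (om M (nw fun _ => k) i)) = (Z.cmb fun i => cst 2 (bb M k i)) *
      ((1 : L) ⊗ₜ lin ![(1 : R), 0] - Z.pt k ⊗ₜ lin ![(0 : R), 1]) := by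
  have h : mlin (M.m (nw fun _ => k)) =
      Matrix.diagonal fun c => lin ![M.β k c, -(M.β k c * M.jL (Z.pt (k - c)))] := by
    ext1 c c'
    rw [mlin, Matrix.of_apply]
    by_cases h : c = c'
    · subst h
      rw [Matrix.diagonal_apply_eq]
      congr 1
      funext ε
      fin_cases ε
      · simp [M.m_c0]
      · simp [M.m_c1]
    · rw [Matrix.diagonal_apply_ne _ h, ← lin_zero]
      congr 1
      funext ε
      fin_cases ε
      · simp [M.m_c0, h]
      · simp [M.m_c1, h]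
  rw [cmb_om, cmb_bb, h, th_diag, th_diag, Finset.sum_mul]
  refine Finset.sum_congr rfl fun c _ => ?_
  have h2 : (1 ⊗ₜ cst 2 (M.β k c) : L ⊗[F] Alg R (Fin 2)) * (Z.pt k ⊗ₜ lin ![(0 : R), 1]) =
      (Z.pt k ⊗ₜ 1) * (1 ⊗ₜ (cst 2 (M.β k c) * lin ![(0 : R), 1])) := by
    simp only [Algebra.TensorProduct.tmul_mul_tmul, mul_one, one_mul]
  rw [mul_assoc, mul_sub, mul_sub, h2, ← mul_assoc _ (Z.pt k ⊗ₜ 1), ee_mul_left, mul_assoc,
    ← mul_sub, Algebra.TensorProduct.tmul_mul_tmul, Algebra.TensorProduct.tmul_mul_tmul, mul_one,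
    ← tmul_sub, jj_apply, Z.sg_pt, cst_mul_lin, cst_mul_lin, cst_mul_lin]
  congr 2
  rw [eq_sub_iff_add_eq, ← lin_add]
  congr 1
  funext ε
  fin_cases ε
  · simp
  · simp [sub_eq_add_neg, (M.β_L k c _).eq]

theorem bb_prd : (List.ofFn fun k => Z.cmb fun i => cst 2 (bb M k i)).prod =
    algebraMap F (L ⊗[F] Alg R (Fin 2)) s := by
  have h := th_prod Z (jj M) (List.ofFn fun k c => cst 2 (M.β k c)) fun d hd c y => by
    obtain ⟨k, rfl⟩ := List.mem_ofFn.1 hd
    exact (M.β_L k c y).map (cst 2)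
  have h2 : ∀ c, ((List.ofFn fun k c => cst 2 (M.β k c)).map fun d => d c).prod =
      algebraMap F (Alg R (Fin 2)) s := fun c => by
    rw [algebraMap_alg, ← M.β_prod c, map_list_prod, List.map_ofFn, List.map_ofFn]
    rfl
  simp only [h2] at h
  rw [List.map_ofFn] at h
  simp only [cmb_bb]
  refine Eq.trans h ?_
  rw [th_diag, ← Finset.sum_mul, sum_ee, one_mul, Algebra.algebraMap_eq_smul_one,
    Algebra.algebraMap_eq_smul_one, tmul_smul, Algebra.TensorProduct.one_def]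

end main

end Th

theorem exists_ld (M : Md Z E s R) : Nonempty (Ld Z E s R) :=
  ⟨{ jE := M.jE
     ω := fun w => Th.om M (nw w)
     b := Th.bb M
     ω_E := fun _ _ ε e => Commute.smul_left (Commute.sum_left _ _ _ fun c _ =>
       Commute.sum_left _ _ _ fun c' _ => (M.jLE _ e).mul_left (M.m_E _ ε c c' e)) _
     ω_comm := fun w i w' i' => Th.om_comm M (pos_nw w) (pos_nw w') i i'
     b_cent := Th.bb_cent M
     ver := fun w w' z z' h =>
       Th.om_ver M (pos_nw w) (pos_nw w') (pos_nw z) (pos_nw z') (nw_add h)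
     nrm := Th.om_nrm M
     prd := Th.bb_prd M
     yid := fun _ hi => Th.om_zero M hi }⟩

end Vale.Agent.P200.G
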