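import Vale.Agent.P200.G.MkL
import Vale.Agent.P200.G.Pack
import Vale.Agent.P200.G.DomD
import Vale.Agent.P200.G.Mat
import Vale.Agent.P200.G.Theta
import Vale.Agent.P200.G.LinkFin
import Vale.Agent.P200.G.Graft

/-! The link lemma. -/

open MvPolynomial

namespace Vale.Agent.P200.G

open Vale.Agent.P200.Eq

universe u

section

variable {F E D : Type u} [Field F] [DivisionRing E] [Algebra F E] [FiniteDimensional F E]
  [DivisionRing D] [Algebra F D] [FiniteDimensional F D] (ι : E →ₐ[F] D) {A M : ℕ} {ζ : F}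

theorem link_two (B : Blk F D ζ 2 M) (r : Fin M) (hγ : ∀ e, Commute (B.γ r) (ι e))
    (hv : ∀ e, Commute (B.v r) (ι e)) :
    ∃ (t : St.{u} 2) (φF : F →+* t.F) (φ : E →+* t.D) (y : MvPolynomial t.O t.F),
      (∀ c, φ (algebraMap F E c) = algebraMap t.F t.D (φF c)) ∧
      (∀ e p i, Commute (φ e) (t.ω p i)) ∧ t.Zero ∧ y.IsHomogeneous 1 ∧
      t.Good (y ^ 2 - rename t.xs (map φF (B.g r))) := by
  let ω : Fin 2 ⊕ Unit → Fin 2 → D :=
    Sum.elim (fun i => Pi.single i 1) fun _ => ![B.v r, -(B.a r * B.v r)]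
  have h1 : ∀ (i j : Fin 2) (x : D), Commute ((Pi.single i 1 : Fin 2 → D) j) x := by
    intro i j x
    by_cases h : j = i
    · subst h; simp
    · simp [h]
  obtain ⟨ev, hev⟩ : ∃ ψ : MvPolynomial (Fin 2 ⊕ Unit) F →ₐ[F] Alg D (Fin 2),
      ∀ p, ψ (X p) = lin (ω p) := by
    refine exists_aeval _ fun p q => ?_
    rcases p with p | p
    · exact commute_lin fun i j => h1 p i _
    rcases q with q | q
    · exact commute_lin fun i j => (h1 q j _).symm
    · exact Commute.refl _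
  let t : St.{u} 2 :=
    { F := F, D := D, O := Fin 2 ⊕ Unit, ω := ω, ev := ev, ev_X := hev, xs := Sum.inl,
      ω_xs := fun _ => rfl }
  have ha : ∀ e, Commute (B.a r) (ι e) := by
    intro e
    have := B.aγ r
    generalize B.a r = x at this
    induction this using Algebra.adjoin_induction with
    | mem x hx => rw [Set.mem_singleton_iff.1 hx]; exact hγ e
    | algebraMap c => exact Algebra.commutes c _
    | add x y _ _ hx hy => exact hx.add_left hy
    | mul x y _ _ hx hy => exact hx.mul_left hy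
  have hQ : ((X (Sum.inr ()) : MvPolynomial t.O t.F) ^ 2 -
      rename t.xs (map (RingHom.id F) (B.g r))).IsHomogeneous 2 :=
    (by simpa using (isHomogeneous_X t.F (Sum.inr () : t.O)).pow 2 :
      ((X (Sum.inr ()) : MvPolynomial t.O t.F) ^ 2).IsHomogeneous 2).sub
      ((B.gh r).map _).rename_isHomogeneous
  have h0 : t.ev ((X (Sum.inr ()) : MvPolynomial t.O t.F) ^ 2 -
      rename t.xs (map (RingHom.id F) (B.g r))) = 0 := by
    rw [map_sub, map_pow, t.ev_X, t.ev_rename_xs, map_id, sub_eq_zero]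
    exact B.hg r
  refine ⟨t, RingHom.id F, (ι : E →+* D), X (Sum.inr ()), fun c => ι.commutes c, ?_, ?_,
    isHomogeneous_X _ _, St.good_two hQ h0⟩
  · rintro e (p | p) i
    · exact (h1 p i _).symm
    · fin_cases i
      · exact (hv e).symm
      · exact ((ha e).mul_left (hv e)).neg_left.symm
  · intro Ω _ _ χ hχ hz
    have h2 := hχ _ hQ h0
    have h3 : (χ ∘ t.xs) = fun _ => 0 := funext hz
    have h4 : aeval (fun _ : Fin 2 => (0 : Ω)) (B.g r) = 0 := by
      rw [aeval_zero', constantCoeff_eq, (B.gh r).coeff_eq_zero (by simp), map_zero]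
    rw [map_sub, map_pow, aeval_X, aeval_rename, map_id, h3] at h2
    rintro (p | p)
    · exact hz p
    · exact pow_eq_zero_iff two_ne_zero |>.1 ((sub_eq_zero.1 h2).trans h4)

theorem link (hA : 2 ≤ A) (hζ : IsPrimitiveRoot ζ A) (B : Blk F D ζ A M) (r : Fin M)
    (hγ : ∀ e, Commute (B.γ r) (ι e)) (hv : ∀ e, Commute (B.v r) (ι e)) :
    ∃ (t : St.{u} 2) (φF : F →+* t.F) (φ : E →+* t.D) (y : MvPolynomial t.O t.F),
      (∀ c, φ (algebraMap F E c) = algebraMap t.F t.D (φF c)) ∧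
      (∀ e p i, Commute (φ e) (t.ω p i)) ∧ t.Zero ∧ y.IsHomogeneous 1 ∧
      t.Good (y ^ A - rename t.xs (map φF (B.g r))) := by
  rcases hA.eq_or_lt with rfl | hA
  · exact link_two ι B r hγ hv
  have : NeZero A := ⟨by omega⟩
  obtain ⟨L, _, _, Z, I, hg⟩ := mkL ι hA hζ B r hγ hv
  obtain ⟨P⟩ := exists_pk Z
  obtain ⟨m⟩ := exists_md P E I.s
  obtain ⟨Λ⟩ := exists_ld m
  exact linkFin Λ (domFin P I) _ hg

end

theorem linkSt {n A M : ℕ} (hA : 2 ≤ A) (s : St.{u} n) {ζ : s.F} (hζ : IsPrimitiveRoot ζ A)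
    {D : Type u} [DivisionRing D] [Algebra s.F D] [FiniteDimensional s.F D] (ι : s.D →ₐ[s.F] D)
    (B : Blk s.F D ζ A M) (r : Fin M) (hγ : ∀ e, Commute (B.γ r) (ι e))
    (hv : ∀ e, Commute (B.v r) (ι e)) (l : Fin 2 → MvPolynomial s.O s.F)
    (hl : ∀ ε, (l ε).IsHomogeneous 1) :
    ∃ (s' : St.{u} n) (μ : Mor s s') (y : MvPolynomial s'.O s'.F),
      y.IsHomogeneous 1 ∧ s'.Good (y ^ A - μ.push (aeval l (B.g r))) := by
  obtain ⟨t, φF, φ, y, h1, h2, h3, h4, h5⟩ := link ι hA hζ B r hγ hv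
  exact graft s t φF φ h1 h2 h3 l hl y h4 A _ h5

end Vale.Agent.P200.G
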