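import Vale.Agent.P200.G.PDefs
import Vale.Agent.P200.G.AW

/-! The division ring of fractions of a domain that is finite over a commutative subring. -/

open Finset

namespace Vale.Agent.P200.G

open Vale.Agent.P200.Eq

universe u

theorem loc_key {R : Type u} [Ring R] [Nontrivial R] [NoZeroDivisors R] (Y : Subring R)
    (S : Finset R) (hY : ∀ a ∈ Y, ∀ b ∈ Y, a * b = b * a)
    (hS : ∀ r : R, ∃ c : R → R, (∀ x, c x ∈ Y) ∧ r = ∑ x ∈ S, c x * x) (a b : R) (hb : b ≠ 0) :
    ∃ y ∈ Y, y ≠ 0 ∧ ∃ r, y * a = r * b := by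
  classical
  have hfin : Module.Finite Y R := by
    refine ⟨⟨S, eq_top_iff.2 fun r _ => ?_⟩⟩
    obtain ⟨c, hc, rfl⟩ := hS r
    exact Submodule.sum_mem _ fun x hx =>
      Submodule.smul_mem _ (⟨c x, hc x⟩ : Y) (Submodule.subset_span hx)
  have hsr : StrongRankCondition Y := by
    let : CommRing Y := { (inferInstance : Ring Y) with
      mul_comm := fun p q => Subtype.ext (hY _ p.2 _ q.2) }
    exact commRing_strongRankCondition Y
  obtain ⟨s, g, h0, hne⟩ := not_linearIndependent_iff.1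
    (Module.Finite.not_linearIndependent_of_infinite (R := Y) fun i : ℕ => a * b ^ i)
  obtain ⟨i0, ⟨hi0, hg0⟩, hmin⟩ : ∃ i0, (i0 ∈ s ∧ g i0 ≠ 0) ∧ ∀ i < i0, i ∈ s → g i = 0 :=
    ⟨Nat.find hne, Nat.find_spec hne, fun i hi his => by
      by_contra h
      exact Nat.find_min hne hi ⟨his, h⟩⟩
  have h1 : (∑ i ∈ s, (g i : R) * a * b ^ (i - i0)) * b ^ i0 = 0 := by
    rw [← h0, sum_mul]
    refine sum_congr rfl fun i hi => ?_
    change _ = (g i : R) * (a * b ^ i)
    rcases lt_or_ge i i0 with h | h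
    · simp [hmin i h hi]
    · rw [mul_assoc, ← pow_add, Nat.sub_add_cancel h, mul_assoc]
  have h2 := (mul_eq_zero.1 h1).resolve_right (pow_ne_zero _ hb)
  rw [← add_sum_erase _ _ hi0, Nat.sub_self, pow_zero, mul_one, add_eq_zero_iff_eq_neg] at h2
  refine ⟨g i0, (g i0).2, fun h => hg0 (Subtype.ext h),
    -∑ i ∈ s.erase i0, (g i : R) * a * b ^ (i - i0 - 1), ?_⟩
  rw [h2, neg_mul, sum_mul]
  congr 1
  refine sum_congr rfl fun i hi => ?_
  obtain ⟨h3, h4⟩ := mem_erase.1 hi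
  rcases lt_or_ge i i0 with h | h
  · simp [hmin i h h4]
  · rw [mul_assoc _ _ b, ← pow_succ, Nat.sub_add_cancel (by omega)]

theorem loc_main {F R D : Type u} [Field F] [Ring R] [Algebra F R] [DivisionRing D] (φ : R →+* D)
    (hφ : Function.Injective φ) (Y : Subring R) (S : Finset R)
    (hY : ∀ a ∈ Y, ∀ b ∈ Y, a * b = b * a)
    (hS : ∀ r : R, ∃ c : R → R, (∀ x, c x ∈ Y) ∧ r = ∑ x ∈ S, c x * x)
    (hD : ∀ d : D, ∃ y ∈ Y, ∃ r, d = (φ y)⁻¹ * φ r) :
    ∃ (F' : Type u) (_ : Field F') (_ : Algebra F' D) (_ : FiniteDimensional F' D) (φF : F →+* F'),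
      (∀ c, φ (algebraMap F R c) = algebraMap F' D (φF c)) ∧
      ∀ z, (∀ r, Commute z r) → ∃ c, φ z = algebraMap F' D c := by
  classical
  obtain ⟨Z, _, _, hZ⟩ := exists_center D
  have hcen : ∀ z, (∀ r, Commute z r) → ∃ c, φ z = algebraMap Z D c := by
    intro z hz
    refine hZ _ fun d => ?_
    obtain ⟨y, _, r, rfl⟩ := hD d
    exact ((hz y).map φ).inv_right₀.mul_right ((hz r).map φ)
  let C : Subring D := Subring.centralizer (φ '' Y)
  let Y' : Subring D := Subring.centralizer (C : Set D)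
  have h1 : ∀ y ∈ Y, φ y ∈ Y' := fun y hy => Subring.mem_centralizer_iff.2 fun g hg =>
    (Subring.mem_centralizer_iff.1 hg (φ y) ⟨y, hy, rfl⟩).symm
  have h2 : ∀ y ∈ Y, φ y ∈ C := fun y hy => Subring.mem_centralizer_iff.2 (by
    rintro _ ⟨y', hy', rfl⟩
    rw [← map_mul, ← map_mul, hY y' hy' y hy])
  have h3 : ∀ a ∈ Y', a ∈ C := fun a ha => Subring.mem_centralizer_iff.2 (by
    rintro _ ⟨y, hy, rfl⟩
    exact Subring.mem_centralizer_iff.1 ha _ (h2 y hy))
  have hinv : ∀ a ∈ Y', a⁻¹ ∈ Y' := fun a ha => Subring.mem_centralizer_iff.2 fun g hg =>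
    (Commute.inv_right₀ (Subring.mem_centralizer_iff.1 ha g hg)).eq
  have hfd : FiniteDimensional Z D := by
    refine fd_center hZ Y' (fun a ha b hb => Subring.mem_centralizer_iff.1 hb a (h3 a ha)) hinv
      (S.image φ) fun d => ?_
    obtain ⟨y, hy, r, rfl⟩ := hD d
    obtain ⟨c, hc, rfl⟩ := hS r
    refine ⟨fun x => (φ y)⁻¹ * φ (c (Function.invFun φ x)),
      fun x => mul_mem (hinv _ (h1 y hy)) (h1 _ (hc _)), ?_⟩
    rw [sum_image fun a _ b _ h => hφ h, map_sum, mul_sum]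
    refine sum_congr rfl fun x _ => ?_
    beta_reduce
    rw [Function.leftInverse_invFun hφ x, map_mul, mul_assoc]
  choose f hf using fun c : F => hcen (algebraMap F R c) fun r => Algebra.commutes c r
  have hinj := (algebraMap Z D).injective
  exact ⟨Z, inferInstance, inferInstance, hfd,
    { toFun := f
      map_one' := hinj (by rw [← hf, map_one, map_one, map_one])
      map_mul' := fun a b => hinj (by rw [map_mul, ← hf, ← hf, ← hf, map_mul, map_mul])
      map_zero' := hinj (by rw [← hf, map_zero, map_zero, map_zero])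
      map_add' := fun a b => hinj (by rw [map_add, ← hf, ← hf, ← hf, map_add, map_add]) },
    hf, hcen⟩

open nonZeroDivisors OreLocalization in
theorem exists_loc {F R : Type u} [Field F] [Ring R] [Algebra F R] (h : DomFin R) :
    ∃ (F' D : Type u) (_ : Field F') (_ : DivisionRing D) (_ : Algebra F' D)
      (_ : FiniteDimensional F' D) (φF : F →+* F') (φ : R →+* D), Function.Injective φ ∧
      (∀ c, φ (algebraMap F R c) = algebraMap F' D (φF c)) ∧
      ∀ z, (∀ r, Commute z r) → ∃ c, φ z = algebraMap F' D c := by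
  obtain ⟨h10, hdom, Y, S, hY, hS⟩ := h
  have : Nontrivial R := ⟨1, 0, h10⟩
  have : NoZeroDivisors R := ⟨fun {x y} => hdom x y⟩
  obtain ⟨_⟩ : Nonempty (OreSet R⁰) := nonempty_oreSet_iff_of_noZeroDivisors.2 fun r s => by
    obtain ⟨y, _, hy, r', h⟩ := loc_key Y S hY hS r s (nonZeroDivisors.coe_ne_zero s)
    exact ⟨r', ⟨y, mem_nonZeroDivisors_of_ne_zero hy⟩, h⟩
  let ι : R →+* R[R⁰⁻¹] := numeratorRingHom
  have hι : Function.Injective ι := numeratorHom_inj inf_le_left
  obtain ⟨F', i1, i2, i3, φF, h1, h2⟩ := loc_main (F := F) ι hι Y S hY hS fun d => by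
    induction d using OreLocalization.ind with | _ r s
    obtain ⟨y, hyY, hy, r', h⟩ := loc_key Y S hY hS 1 s (nonZeroDivisors.coe_ne_zero s)
    have h8 : ι s * (r /ₒ s) = ι r := OreLocalization.mul_cancel
    have h9 : ι y ≠ 0 := (map_ne_zero_iff ι hι).2 hy
    refine ⟨y, hyY, r' * r, (eq_inv_mul_iff_mul_eq₀ h9).2 ?_⟩
    rw [mul_one] at h
    rw [h, map_mul, map_mul, mul_assoc, h8]
  exact ⟨F', R[R⁰⁻¹], i1, inferInstance, i2, i3, φF, ι, hι, h1, h2⟩

end Vale.Agent.P200.G
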