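import Vale.Agent.P200.G.RelB
import Vale.Agent.P200.G.RelC

/-! The shift by the all-one vector near the cyclic point. -/

open Finset Polynomial Matrix

namespace Vale.Agent.P200.G

open Vale.Agent.P200.Eq

universe u

/-- naturality of `Rel` over commutative rings -/
theorem relmap_Loc1 {A : ℕ} [NeZero A] {O k : Type*} [CommRing O] [CommRing k] (ψ : O →+* k)
    {a : Fin A → O} {Φ Φ' : Fl A O} {d : Fin A → ℕ} {n : ℕ} {B : Matrix (Fin A) (Fin A) O[X]}
    (h : Rel a Φ d n B Φ') :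
    Rel (fun j => ψ (a j)) (Φ.map ψ) d n (B.map (Polynomial.map ψ)) (Φ'.map ψ) := by
  refine ⟨fun c c' => natDegree_map_le.trans (h.1 c c'), fun j => ?_⟩
  obtain ⟨Y, hY, e⟩ := h.2 j
  have ev : ∀ p : O[X], (p.map ψ).eval (ψ (a j)) = ψ (p.eval (a j)) := fun p => by
    rw [eval_map, eval₂_at_apply]
  refine ⟨Y.map (Polynomial.map ψ), ⟨fun i => ?_, fun i i' hi => ?_⟩, ?_⟩
  · rw [Matrix.map_apply, ev, hY.1, map_one]
  · rw [Matrix.map_apply, ev, hY.2 i i' hi, map_zero]
  have hC : ∀ M : Matrix (Fin A) (Fin A) O,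
      (mapRingHom ψ).mapMatrix (M.map C) = (M.map ψ).map C := fun M => by
    refine Matrix.ext fun i c => ?_
    simp
  have hp : (mapRingHom ψ).mapMatrix (pim a j) = pim (fun j => ψ (a j)) j := by
    refine Matrix.ext fun i c => ?_
    simp only [pim, RingHom.mapMatrix_apply, Matrix.map_apply, Matrix.of_apply]
    split_ifs <;> simp
  have := congrArg (mapRingHom ψ).mapMatrix e
  rw [map_mul, map_mul, map_mul, map_pow, hC, hC, hp] at this
  exact this

/-- a matrix whose residue is a permutation matrix is invertible -/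
theorem unit_Loc1 {n O L : Type*} [Fintype n] [DecidableEq n] [CommRing O] [Field L]
    (ε : O →+* L) (hloc : ∀ x, ε x ≠ 0 → IsUnit x) (M : Matrix n n O) (σ : Equiv.Perm n)
    (h : ∀ i c, ε (M i c) = if c = σ i then 1 else 0) : IsUnit M.det := by
  apply hloc
  rw [RingHom.map_det]
  have e : ε.mapMatrix M = (1 : Matrix n n L).submatrix σ id := by
    refine Matrix.ext fun i c => ?_
    simp [h, Matrix.one_apply, eq_comm]
  rw [e, Matrix.det_permute, det_one, mul_one]
  rcases Int.units_eq_one_or (Equiv.Perm.sign σ) with h | h <;> simp [h]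

/-- the diagonal shift -/
theorem diag_Loc1 {A : ℕ} [NeZero A] {O L : Type*} [CommRing O] [Field L]
    (ε : O →+* L) (hloc : ∀ x, ε x ≠ 0 → IsUnit x) (a : Fin A → O)
    (ha : Function.Injective fun j => ε (a j)) (Φ : Fl A O)
    (h0 : ∀ j c, Φ j 0 c = if c = j then 1 else 0) (hε : Φ.map ε = Phi0 A L) (j : Fin A) :
    ∃ Z : Matrix (Fin A) (Fin A) O[X],
      (Φ j).map C * (Matrix.diagonal fun c => X - C (a c)) = pim a j * Z ∧
      ∀ r c, ε ((Z r c).eval (a j)) = if c = j + (r + 1) then 1 else 0 := by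
  have hΦ : ∀ i c, ε (Φ j i c) = if c = j + i then 1 else 0 := fun i c =>
    congrFun (congrFun (congrFun hε j) i) c
  have hu : ∀ i : Fin A, ∃ u, i ≠ 0 → (a j - a (j + i)) * u = 1 := fun i => by
    by_cases hi : i = 0
    · exact ⟨0, fun h => absurd hi h⟩
    · obtain ⟨u, hu⟩ := (hloc (a j - a (j + i)) (by
        rw [map_sub, sub_ne_zero]
        exact fun e => hi (left_eq_add.1 (ha e)))).exists_right_inv
      exact ⟨u, fun _ => hu⟩
  choose u hu using hu
  refine ⟨Matrix.of fun r c => if r + 1 = 0 then C (Φ j 0 c) else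
    C (u (r + 1) * Φ j (r + 1) c) * (X - C (a c)), Matrix.ext fun i c => ?_, fun r c => ?_⟩
  · rw [Matrix.mul_diagonal, Matrix.mul_apply, Finset.sum_eq_single (i - 1)]
    · simp only [pim, Matrix.of_apply, sub_add_cancel, if_true, Matrix.map_apply]
      split_ifs with hi
      · rw [hi, h0]
        split_ifs with hc
        · rw [hc, mul_comm]
        · simp
      · rw [← mul_assoc, ← C_mul, ← mul_assoc, hu i hi, one_mul]
    · intro b _ hb
      rw [pim, Matrix.of_apply, if_neg fun e => hb (eq_sub_of_add_eq e), zero_mul]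
    · simp
  · rw [Matrix.of_apply]
    by_cases hr : r + 1 = 0
    · rw [if_pos hr, eval_C, hΦ, hr]
    · rw [if_neg hr, eval_mul, eval_C, eval_sub, eval_X, eval_C, map_mul, map_mul, hΦ]
      split_ifs with hc
      · rw [mul_one, ← map_mul, hc, mul_comm, hu _ hr, map_one]
      · rw [mul_zero, zero_mul]

/-- normalisation near the cyclic point -/
theorem norm_Loc1 {A : ℕ} [NeZero A] {O L : Type*} [CommRing O] [Field L]
    (ε : O →+* L) (hloc : ∀ x, ε x ≠ 0 → IsUnit x) (Ψ : Fl A O)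
    (hΨ : ∀ j r c, ε (Ψ j r c) = if c = j + (r + 1) then 1 else 0) :
    ∃ (U : Matrix (Fin A) (Fin A) O) (Y Φ' : Fl A O), Φ'.map ε = Phi0 A L ∧
      ∀ j, Ψ j * U = Y j * Φ' j ∧ (∀ i, Y j i i = 1) ∧ (∀ i i', i < i' → Y j i i' = 0) ∧
        (∀ c, Φ' j 0 c = if c = j then 1 else 0) ∧ (∀ i i', i' < i → Φ' j i (j + i') = 0) ∧
        ∀ i, IsUnit (Φ' j i (j + i)) := by
  obtain ⟨U, hU⟩ : ∃ U, (Matrix.of fun j c => Ψ j 0 c) * U = 1 :=
    ⟨_, Matrix.mul_nonsing_inv _ (unit_Loc1 ε hloc _ (Equiv.addRight 1) fun j c => by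
      rw [Matrix.of_apply, hΨ, zero_add, Equiv.coe_addRight])⟩
  have hU0 : ∀ j c, (Ψ j * U) 0 c = if j = c then 1 else 0 := fun j c => by
    rw [← Matrix.one_apply, ← hU]
    rfl
  have hm : ∀ j i c, ε ((Ψ j * U) i c) = ε (U (j + (i + 1)) c) := fun j i c => by
    simp [Matrix.mul_apply, hΨ]
  have hP : ∀ j i c, ε ((Ψ j * U) i c) = if j + i = c then 1 else 0 := fun j i c => by
    rw [hm, ← add_assoc, ← zero_add (1 : Fin A), ← hm, hU0]
    split_ifs <;> simp
  have hT : ∀ j i i', ε (((Ψ j * U).submatrix id (j + ·)) i i') = if i' = i then 1 else 0 :=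
    fun j i i' => by
      rw [Matrix.submatrix_apply, hP]
      simp [eq_comm]
  have hlu := fun j => exists_lu ((Ψ j * U).submatrix id (j + ·)) fun p hp =>
    unit_Loc1 ε hloc _ 1 fun i c => by
      rw [Matrix.submatrix_apply, hT]
      exact if_congr (Fin.castLE_injective hp).eq_iff rfl rfl
  choose Y V e hY1 hY0 hV0 hV1 using hlu
  have hV : ∀ j, (1 : Matrix (Fin A) (Fin A) L) = (V j).map ε := fun j => by
    refine lu_unique (Y₁ := 1) (Y₂ := (Y j).map ε) ?_ (fun i => one_apply_eq i)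
      (fun i i' h => one_apply_ne h.ne) (fun i => ?_) (fun i i' h => ?_)
      (fun i i' h => one_apply_ne h.ne') (fun i => ?_) (fun i i' h => ?_)
    · rw [← Matrix.map_mul, ← e, one_mul]
      refine Matrix.ext fun i i' => ?_
      rw [Matrix.map_apply, hT, Matrix.one_apply]
      simp [eq_comm]
    · rw [Matrix.map_apply, hY1, map_one]
    · rw [Matrix.map_apply, hY0 j i i' h, map_zero]
    · simp
    · rw [Matrix.map_apply, hV0 j i i' h, map_zero]
  have e' : ∀ j, Ψ j * U = Y j * (V j).submatrix id (· - j) := fun j => by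
    refine Matrix.ext fun i c => ?_
    have := congrFun (congrFun (e j) i) (c - j)
    rw [Matrix.submatrix_apply, add_sub_cancel] at this
    exact this
  refine ⟨U, Y, fun j => (V j).submatrix id (· - j), ?_, fun j => ⟨e' j, hY1 j, hY0 j,
    fun c => ?_, fun i i' h => ?_, fun i => ?_⟩⟩
  · funext j i c
    have := congrFun (congrFun (hV j) i) (c - j)
    refine this.symm.trans ?_
    rw [Matrix.one_apply, Phi0, Matrix.of_apply]
    simp [eq_sub_iff_add_eq', eq_comm]
  · have := congrFun (congrFun (e' j) 0) c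
    rw [hU0, Matrix.mul_apply, Finset.sum_eq_single 0, hY1, one_mul] at this
    · exact this.symm.trans (if_congr eq_comm rfl rfl)
    · intro b _ hb
      rw [hY0 j 0 b (Fin.pos_iff_ne_zero' b |>.2 hb), zero_mul]
    · simp
  · change V j i (j + i' - j) = 0
    rw [add_sub_cancel_left]
    exact hV0 j i i' h
  · change IsUnit (V j i (j + i - j))
    rw [add_sub_cancel_left]
    exact hV1 j i

theorem rel_one_local {A : ℕ} [NeZero A] {O k L : Type*} [CommRing O] [Field k] [Field L]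
    (i : O →+* k) (ε : O →+* L) (hloc : ∀ x, ε x ≠ 0 → IsUnit x) (a : Fin A → O)
    (ha : Function.Injective fun j => ε (a j)) (Φ : Fl A O)
    (h0 : ∀ j c, Φ j 0 c = if c = j then 1 else 0) (hε : Φ.map ε = Phi0 A L) :
    ∃ (B : Matrix (Fin A) (Fin A) k[X]) (Φ' : Fl A O), Φ'.map ε = Phi0 A L ∧ NF (Φ'.map i) ∧
      Rel (fun j => i (a j)) (Φ.map i) 1 1 B (Φ'.map i) := by
  choose Z hZ hZε using diag_Loc1 ε hloc a ha Φ h0 hε
  obtain ⟨U, Y, Φ', hΦ', h⟩ := norm_Loc1 ε hloc (fun j => (Z j).map (eval (a j))) hZε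
  refine ⟨_, Φ', hΦ', fun j => ⟨fun c => ?_, fun r r' hr => ?_, fun r => ?_⟩,
    relmap_Loc1 i (B := (Matrix.diagonal fun c => X - C (a c)) * U.map C)
      ⟨fun c c' => ?_, fun j => ?_⟩⟩
  · rw [Fl.map, Matrix.map_apply, (h j).2.2.2.1]
    split_ifs <;> simp
  · rw [Fl.map, Matrix.map_apply, (h j).2.2.2.2.1 r r' hr, map_zero]
  · exact (((h j).2.2.2.2.2 r).map i).ne_zero
  · rw [Matrix.diagonal_mul, Matrix.map_apply]
    exact (natDegree_mul_C_le _ _).trans (natDegree_X_sub_C_le _)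
  have hd : IsUnit (Φ' j).det := unit_Loc1 ε hloc _ (Equiv.addLeft j) fun r c =>
    congrFun (congrFun (congrFun hΦ' j) r) c
  have hev : (Z j * U.map C * (Φ' j)⁻¹.map C).map (eval (a j)) = Y j := by
    have hC : ∀ M : Matrix (Fin A) (Fin A) O, (M.map C).map (evalRingHom (a j)) = M := fun M => by
      refine Matrix.ext fun r c => ?_
      simp
    have e1 : (Z j).map (evalRingHom (a j)) * U = Y j * Φ' j := (h j).1
    rw [← coe_evalRingHom, Matrix.map_mul, Matrix.map_mul, hC, hC, e1, Matrix.mul_assoc,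
      Matrix.mul_nonsing_inv _ hd, Matrix.mul_one]
  refine ⟨Z j * U.map C * (Φ' j)⁻¹.map C, ⟨fun r => ?_, fun r r' hr => ?_⟩, ?_⟩
  · exact (congrFun (congrFun hev r) r).trans ((h j).2.1 r)
  · exact (congrFun (congrFun hev r) r').trans ((h j).2.2.1 r r' hr)
  · rw [Pi.one_apply, pow_one, ← Matrix.mul_assoc, hZ, Matrix.mul_assoc (pim a j) (_ * _),
      Matrix.mul_assoc (_ * _), ← Matrix.map_mul, Matrix.nonsing_inv_mul _ hd,
      Matrix.map_one _ C_0 C_1, Matrix.mul_one, Matrix.mul_assoc]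

end Vale.Agent.P200.G
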