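import Vale.Agent.P200.G.Stage
import Vale.Agent.P200.G.Final

/-! The conjecture for all degrees whose factorials are invertible. -/

open MvPolynomial

namespace Vale.Agent.P200.G

open Vale.Agent.P200.Eq

universe u

theorem egh_all (K : Type u) [Field K] (n c : ℕ) (hc : c ≤ n) (a : Fin c → ℕ)
    (ha : ∀ i, 2 ≤ a i) (hmono : Monotone a) (hfac : ∀ i, ((a i).factorial : K) ≠ 0)
    (f : Fin c → MvPolynomial (Fin n) K) (hdeg : ∀ i, (f i).IsHomogeneous (a i)) (hreg : Reg f)
    (I : Ideal (MvPolynomial (Fin n) K)) (hf : ∀ i, f i ∈ I) :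
    ∃ A : Set (Fin n →₀ ℕ),
      (∀ i : Fin c, X (Fin.castLE hc i) ^ a i ∈
        Ideal.span ((fun α => monomial α (1 : K)) '' A)) ∧
      ∀ d, dimIn I d = dimIn (Ideal.span ((fun α => monomial α (1 : K)) '' A)) d := by
  let k := AlgebraicClosure K
  have hpos : ∀ i, 0 < a i := fun i => lt_of_lt_of_le two_pos (ha i)
  have hdeg' : ∀ i, (map (algebraMap K k) (f i)).IsHomogeneous (a i) := fun i => (hdeg i).map _
  have hfac' : ∀ i, ((a i).factorial : k) ≠ 0 := fun i h => hfac i
    ((algebraMap K k).injective (by rw [map_natCast, h, map_zero]))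
  have key : ∀ t, t ≤ c → ∃ (s : St.{u} n) (φ : k →+* s.F) (y : Fin n → MvPolynomial s.O s.F),
      Inv hc a (fun i => map (algebraMap K k) (f i)) s φ y (c - t) := by
    intro t
    induction t with
    | zero => exact fun _ => start hc a _ hpos hdeg' (hreg.map (k := k))
    | succ t ih =>
      intro ht
      obtain ⟨s, φ, y, h⟩ := ih (by omega)
      refine stage hc a _ ha hmono hfac' hdeg' (by omega) s φ y ?_
      rwa [show c - (t + 1) + 1 = c - t by omega]
  obtain ⟨s, φ, y, h⟩ := key c le_rfl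
  rw [Nat.sub_self] at h
  refine final hc a hpos f hdeg I hf s (φ.comp (algebraMap K k)) y ?_
  simpa only [Inv, map_map] using h

end Vale.Agent.P200.G
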