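import Vale.Agent.P200.G.Link
import Vale.Agent.P200.G.Sym
import Vale.Agent.P200.G.QB

/-! Merging cyclic blocks. -/

open MvPolynomial

namespace Vale.Agent.P200.G

open Vale.Agent.P200.Eq

universe u

namespace Mg

section alg

variable {F D : Type u} [Field F] [DivisionRing D] [Algebra F D]

/-- commutation up to a scalar -/
def QC (c : F) (x y : D) : Prop := x * y = c • (y * x)

theorem QC.of_commute {x y : D} (h : Commute x y) : QC (1 : F) x y := by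
  rw [QC, one_smul]; exact h

theorem QC.commute {c : F} {x y : D} (h : QC c x y) (hc : c = 1) : Commute x y := by
  rw [QC, hc, one_smul] at h; exact h

theorem QC.cast {c c' : F} {x y : D} (h : QC c x y) (hc : c = c') : QC c' x y := hc ▸ h

theorem QC.mul_right {c c' : F} {x y z : D} (h : QC c x y) (h' : QC c' x z) :
    QC (c * c') x (y * z) := by
  rw [QC, ← mul_assoc, h, smul_mul_assoc, mul_assoc, h', mul_smul_comm, smul_smul, mul_assoc]

theorem QC.mul_left {c c' : F} {x y z : D} (h : QC c x z) (h' : QC c' y z) :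
    QC (c * c') (x * y) z := by
  rw [QC, mul_assoc, h', mul_smul_comm, ← mul_assoc, h, smul_mul_assoc, smul_smul, mul_comm c',
    mul_assoc]

theorem QC.symm {c : F} {x y : D} (h : QC c x y) (hc : c ≠ 0) : QC c⁻¹ y x := by
  rw [QC, h, smul_smul, inv_mul_cancel₀ hc, one_smul]

theorem QC.inv_right {c : F} {x y : D} (h : QC c x y) (hc : c ≠ 0) : QC c⁻¹ x y⁻¹ := by
  by_cases hy : y = 0
  · simp [QC, hy]
  have h1 : y⁻¹ * x = c • (x * y⁻¹) := by
    have h2 : y⁻¹ * (x * y) * y⁻¹ = y⁻¹ * (c • (y * x)) * y⁻¹ := by rw [h]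
    rwa [← mul_assoc, mul_inv_cancel_right₀ hy, mul_smul_comm, inv_mul_cancel_left₀ hy,
      smul_mul_assoc] at h2
  rw [QC, h1, smul_smul, inv_mul_cancel₀ hc, one_smul]

theorem QC.inv_left {c : F} {x y : D} (h : QC c x y) (hc : c ≠ 0) : QC c⁻¹ x⁻¹ y :=
  ((h.symm hc).inv_right (inv_ne_zero hc)).symm (inv_ne_zero (inv_ne_zero hc)) |>.cast
    (by rw [inv_inv])

theorem QC.neg_right {c : F} {x y : D} (h : QC c x y) : QC c x (-y) := by
  rw [QC, mul_neg, neg_mul, smul_neg, h]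

theorem QC.neg_left {c : F} {x y : D} (h : QC c x y) : QC c (-x) y := by
  rw [QC, mul_neg, neg_mul, smul_neg, h]

theorem commute_adjoin {γ a x : D} (ha : a ∈ Algebra.adjoin F {γ}) (h : Commute γ x) :
    Commute a x :=
  (Algebra.commute_of_mem_adjoin_singleton_of_commute ha h.symm).symm

theorem inc_C (n : ℕ) (c : F) : inc F D (Fin n) (C c) = cst n (algebraMap F D c) :=
  AddMonoidAlgebra.mapRingHom_single _ _ _

theorem inc_X (n : ℕ) (i : Fin n) :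
    inc F D (Fin n) (X i) = AddMonoidAlgebra.single (Finsupp.single i 1) 1 := by
  rw [← map_one (algebraMap F D)]
  exact AddMonoidAlgebra.mapRingHom_single _ _ _

variable {ζ : F} {A M K : ℕ}

/-- an element that commutes with a system of blocks -/
def Cm (B : Blk F D ζ A M) (x : D) : Prop := ∀ r, Commute (B.γ r) x ∧ Commute (B.v r) x

/-- two systems of blocks that commute -/
def CC (B : Blk F D ζ A M) (B' : Blk F D ζ A K) : Prop := ∀ r, Cm B (B'.γ r) ∧ Cm B (B'.v r)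

theorem CC.symm {B : Blk F D ζ A M} {B' : Blk F D ζ A K} (h : CC B B') : CC B' B := fun r =>
  ⟨fun t => ⟨((h t).1 r).1.symm, ((h t).2 r).1.symm⟩,
    fun t => ⟨((h t).1 r).2.symm, ((h t).2 r).2.symm⟩⟩

theorem exists_twist (B : Blk F D ζ A M) (f : Fin K → Fin M) (hf : StrictMono f) {w : D}
    (hw : w ≠ 0) {c : F} (hc : w ^ A = algebraMap F D c) (hγ : ∀ r, Commute (B.γ (f r)) w)
    (hv : ∀ r, Commute (B.v (f r)) w) :
    ∃ B' : Blk F D ζ A K, (∀ r, B'.γ r = B.γ (f r)) ∧ (∀ r, B'.v r = B.v (f r) * w⁻¹) ∧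
      ∀ r, B.g (f r) = C c * B'.g r := by
  have hc0 : c ≠ 0 := fun h => pow_ne_zero A hw (by rw [hc, h, map_zero])
  have hc' : w⁻¹ ^ A = algebraMap F D c⁻¹ := by rw [inv_pow, hc, map_inv₀]
  have ha : ∀ r, Commute (B.a (f r)) w := fun r => commute_adjoin (B.aγ _) (hγ r)
  refine ⟨{ γ := fun r => B.γ (f r)
            v := fun r => B.v (f r) * w⁻¹
            a := fun r => B.a (f r)
            g := fun r => C c⁻¹ * B.g (f r)
            γ0 := fun r => B.γ0 _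
            v0 := fun r => mul_ne_zero (B.v0 _) (inv_ne_zero hw)
            γA := fun r => B.γA _
            vA := fun r => ?_
            γγ := fun r t => B.γγ _ _
            vγ := fun r => ?_
            vγ' := fun r t hrt =>
              (B.vγ' _ _ fun h => hrt (hf.injective h)).mul_left (hγ t).symm.inv_left₀
            vv := fun r t hrt => ?_
            aγ := fun r => B.aγ _
            av := fun r k h0 hk h => B.av (f r) k h0 hk ?_
            gh := fun r => ?_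
            hg := fun r => ?_ }, fun _ => rfl, fun _ => rfl, fun r => ?_⟩
  · obtain ⟨d, hd⟩ := B.vA (f r)
    exact ⟨d * c⁻¹, by rw [(hv r).inv_right₀.mul_pow, hd, hc', map_mul]⟩
  · exact (QC.mul_left (B.vγ (f r)) (QC.of_commute (hγ r).symm.inv_left₀)).cast (mul_one _)
  · exact (QC.mul_left (QC.mul_right (B.vv _ _ (hf hrt)) (QC.of_commute (hv r).inv_right₀))
      (QC.of_commute ((hv t).symm.inv_left₀.mul_right (Commute.refl _)))).cast
        (by rw [mul_one, mul_one])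
  · rw [(hv r).inv_right₀.mul_pow] at h
    have h1 := h.mul_right ((ha r).pow_right k)
    rwa [inv_pow, inv_mul_cancel_right₀ (pow_ne_zero k hw)] at h1
  · simpa using (isHomogeneous_C _ c⁻¹).mul (B.gh (f r))
  · have h1 : lin ![B.v (f r) * w⁻¹, -(B.a (f r) * (B.v (f r) * w⁻¹))] =
        lin ![B.v (f r), -(B.a (f r) * B.v (f r))] * cst 2 w⁻¹ := by
      rw [lin_mul_cst]
      congr 1
      funext i
      fin_cases i <;> simp [mul_assoc]
    have h2 : Commute (lin ![B.v (f r), -(B.a (f r) * B.v (f r))]) (cst 2 w⁻¹) := by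
      refine Commute.sum_left _ _ _ fun i _ => commute_single ?_
      fin_cases i
      · exact (hv r).inv_right₀
      · exact ((ha r).mul_left (hv r)).inv_right₀.neg_left
    rw [h1, h2.mul_pow, B.hg, ← map_pow, hc', ← inc_C, ← map_mul, mul_comm]
  · change _ = C c * (C c⁻¹ * _)
    rw [← mul_assoc, ← C_mul, mul_inv_cancel₀ hc0, C_1, one_mul]

theorem exists_pair (hA : A ≠ 0) (hζ : IsPrimitiveRoot ζ A) {γ v : D} (hγ : γ ≠ 0) (hv : v ≠ 0)
    (h : QC ζ v γ) {c a : F} (hc : γ ^ A = algebraMap F D c) (ha : v ^ A = algebraMap F D a) :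
    ∃ (b : F) (B : Blk F D ζ A 1), (-(γ * v)) ^ A = algebraMap F D b ∧ (∀ r, B.γ r = γ) ∧
      (∀ r, B.v r = v) ∧ ∀ r, B.g r = C a * X 0 ^ A + C b * X 1 ^ A := by
  have hb : (-(γ * v)) ^ A = algebraMap F D ((-1) ^ A * (ζ ^ A.choose 2 * (c * a))) := by
    rw [neg_pow, q_mul_pow h, hc, ha, Algebra.smul_def]
    simp only [map_mul, map_pow, map_neg, map_one]
  generalize (-1) ^ A * (ζ ^ A.choose 2 * (c * a)) = b at hb
  refine ⟨b,
    { γ := fun _ => γ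
      v := fun _ => v
      a := fun _ => γ
      g := fun _ => C a * X 0 ^ A + C b * X 1 ^ A
      γ0 := fun _ => hγ
      v0 := fun _ => hv
      γA := fun _ => ⟨c, hc⟩
      vA := fun _ => ⟨a, ha⟩
      γγ := fun _ _ => Commute.refl _
      vγ := fun _ => h
      vγ' := fun r t hrt => absurd (Subsingleton.elim r t) hrt
      vv := fun r t hrt => absurd (Subsingleton.elim r t) hrt.ne
      aγ := fun _ => Algebra.self_mem_adjoin_singleton _ _
      av := fun _ k h0 hk hcm => ?_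
      gh := fun _ => ?_
      hg := fun _ => ?_ }, hb, fun _ => rfl, fun _ => rfl, fun _ => rfl⟩
  · have h1 := q_mul_pow_left h k
    rw [← hcm.eq] at h1
    have h2 : (ζ ^ k - 1) • (γ * v ^ k) = 0 := by rw [sub_smul, one_smul, ← h1, sub_self]
    rcases smul_eq_zero.1 h2 with h3 | h3
    · exact hζ.pow_ne_one_of_pos_of_lt h0.ne' hk (sub_eq_zero.1 h3)
    · exact mul_ne_zero hγ (pow_ne_zero _ hv) h3
  · refine IsHomogeneous.add ?_ ?_
    · simpa using (isHomogeneous_C _ a).mul ((isHomogeneous_X F (0 : Fin 2)).pow A)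
    · simpa using (isHomogeneous_C _ b).mul ((isHomogeneous_X F (1 : Fin 2)).pow A)
  · have h1 : QC ζ v (-(γ * v)) :=
      ((h.mul_right (QC.of_commute (Commute.refl v))).cast (mul_one _)).neg_right
    have h2 : lin ![v, -(γ * v)] = AddMonoidAlgebra.single (Finsupp.single 0 1) v +
        AddMonoidAlgebra.single (Finsupp.single 1 1) (-(γ * v)) := by
      rw [lin, Fin.sum_univ_two]
      rfl
    have h3 : ∀ (i : Fin 2) (x : D) (e : F), x ^ A = algebraMap F D e →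
        (AddMonoidAlgebra.single (Finsupp.single i 1) x : Alg D (Fin 2)) ^ A =
          inc F D (Fin 2) (C e * X i ^ A) := fun i x e hx => by
      rw [map_mul, map_pow, inc_C, inc_X, AddMonoidAlgebra.single_pow, AddMonoidAlgebra.single_pow,
        cst_apply, AddMonoidAlgebra.single_mul_single, zero_add, one_pow, mul_one, hx]
    rw [h2, qb_two hA hζ, map_add, h3 _ _ _ ha, h3 _ _ _ hb]
    rw [AddMonoidAlgebra.single_mul_single, AddMonoidAlgebra.single_mul_single, h1,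
      AddMonoidAlgebra.smul_single, add_comm]

theorem exists_prod (B : Blk F D ζ A M) (S : Finset (Fin M)) :
    ∃ Γ : D, Γ ≠ 0 ∧ (∀ x, (∀ r, Commute (B.γ r) x) → Commute Γ x) ∧
      (∀ t, QC (if t ∈ S then ζ else 1) (B.v t) Γ) ∧ ∃ c, Γ ^ A = algebraMap F D c := by
  induction S using Finset.induction_on with
  | empty =>
    exact ⟨1, one_ne_zero, fun x _ => Commute.one_left x,
      fun t => (QC.of_commute (Commute.one_right _)).cast (by simp), 1, by simp⟩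
  | insert r S hr ih =>
    obtain ⟨Γ, h0, h1, h2, c, hc⟩ := ih
    obtain ⟨d, hd⟩ := B.γA r
    refine ⟨B.γ r * Γ, mul_ne_zero (B.γ0 r) h0, fun x hx => (hx r).mul_left (h1 x hx),
      fun t => ?_, d * c, ?_⟩
    · by_cases h : t = r
      · subst h
        exact (QC.mul_right (B.vγ t) (h2 t)).cast (by simp [hr])
      · exact (QC.mul_right (QC.of_commute (B.vγ' t r h)) (h2 t)).cast (by simp [h])
    · rw [(h1 _ fun t => B.γγ t r).symm.mul_pow, hd, hc, map_mul]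

theorem split (hA : A ≠ 0) (hζ : IsPrimitiveRoot ζ A) (B : Blk F D ζ A (M + 1)) {p q : D}
    (hp : p ≠ 0) (hq : q ≠ 0) (hBp : Cm B p) (hBq : Cm B q) (hpq : QC ζ p q)
    (hpA : ∃ c, p ^ A = algebraMap F D c) (hqA : ∃ c, q ^ A = algebraMap F D c) :
    ∃ (B₁ : Blk F D ζ A M) (B₂ B₃ : Blk F D ζ A 1) (a b : F),
      (∀ r, B.g r.castSucc = C a * B₁.g r) ∧ B.g (Fin.last M) = C b * B₂.g 0 ∧
      B₃.g 0 = C a * X 0 ^ A + C b * X 1 ^ A ∧ CC B₁ B₂ ∧ CC B₁ B₃ ∧ CC B₂ B₃ ∧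
      ∀ x, Cm B x → Commute p x → Commute q x → Cm B₁ x ∧ Cm B₂ x ∧ Cm B₃ x := by
  have hζ0 : ζ ≠ 0 := hζ.ne_zero hA
  obtain ⟨Γ, hΓ0, hΓ, hvΓ, cΓ, hcΓ⟩ := exists_prod B Finset.univ
  simp only [Finset.mem_univ, if_true] at hvΓ
  obtain ⟨cp, hcp⟩ := hpA
  obtain ⟨cq, hcq⟩ := hqA
  obtain ⟨cm, hcm⟩ := B.γA (Fin.last M)
  have hγΓ : ∀ r, Commute (B.γ r) Γ := fun r => (hΓ _ fun t => B.γγ t r).symm
  obtain ⟨vF, hvF⟩ : ∃ vF, vF = (B.γ (Fin.last M))⁻¹ * p := ⟨_, rfl⟩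
  obtain ⟨γF, hγF⟩ : ∃ γF, γF = q * Γ := ⟨_, rfl⟩
  have vF0 : vF ≠ 0 := hvF ▸ mul_ne_zero (inv_ne_zero (B.γ0 _)) hp
  have γF0 : γF ≠ 0 := hγF ▸ mul_ne_zero hq hΓ0
  have vFA : vF ^ A = algebraMap F D (cm⁻¹ * cp) := by
    rw [hvF, (hBp _).1.inv_left₀.mul_pow, inv_pow, hcm, hcp, map_mul, map_inv₀]
  have γFA : γF ^ A = algebraMap F D (cq * cΓ) := by
    rw [hγF, (hΓ _ fun r => (hBq r).1).symm.mul_pow, hcq, hcΓ, map_mul]
  have vFγF : QC ζ vF γF := by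
    rw [hvF, hγF]
    exact (QC.mul_left (QC.of_commute ((hBq _).1.mul_right (hγΓ _)).inv_left₀)
      (QC.mul_right hpq (QC.of_commute (hΓ _ fun r => (hBp r).1).symm))).cast
        (by rw [mul_one, one_mul])
  have γvF : ∀ r, Commute (B.γ r) vF := fun r =>
    hvF ▸ (B.γγ r _).inv_right₀.mul_right (hBp r).1
  have γγF : ∀ r, Commute (B.γ r) γF := fun r => hγF ▸ (hBq r).1.mul_right (hγΓ r)
  have vγF : ∀ r, QC ζ (B.v r) γF := fun r =>
    hγF ▸ (QC.mul_right (QC.of_commute (hBq r).2) (hvΓ r)).cast (one_mul _)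
  have vvF : ∀ r : Fin M, Commute (B.v r.castSucc) vF := fun r =>
    hvF ▸ (B.vγ' _ _ (Fin.castSucc_lt_last r).ne).inv_right₀.mul_right (hBp _).2
  have vMvF : QC ζ⁻¹ (B.v (Fin.last M)) vF :=
    hvF ▸ (QC.mul_right (QC.inv_right (B.vγ _) hζ0) (QC.of_commute (hBp _).2)).cast (mul_one _)
  obtain ⟨b, B₃, hb, h3γ, h3v, h3g⟩ := exists_pair hA hζ γF0 vF0 vFγF γFA vFA
  obtain ⟨w, hw⟩ : ∃ w, w = -(γF * vF) := ⟨_, rfl⟩
  rw [← hw] at hb
  have w0 : w ≠ 0 := hw ▸ neg_ne_zero.2 (mul_ne_zero γF0 vF0)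
  have γw : ∀ r, Commute (B.γ r) w := fun r => hw ▸ ((γγF r).mul_right (γvF r)).neg_right
  have vMw : Commute (B.v (Fin.last M)) w :=
    hw ▸ (QC.mul_right (vγF _) vMvF).neg_right.commute (mul_inv_cancel₀ hζ0)
  have vw : ∀ r : Fin M, QC ζ (B.v r.castSucc) w := fun r =>
    hw ▸ (QC.mul_right (vγF _) (QC.of_commute (vvF r))).neg_right.cast (mul_one _)
  have vFw : QC ζ vF w :=
    hw ▸ (QC.mul_right vFγF (QC.of_commute (Commute.refl _))).neg_right.cast (mul_one _)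
  have wγF : QC ζ w γF :=
    hw ▸ (QC.mul_left (QC.of_commute (Commute.refl _)) vFγF).neg_left.cast (one_mul _)
  obtain ⟨B₁, h1γ, h1v, h1g⟩ := exists_twist B Fin.castSucc Fin.strictMono_castSucc vF0 vFA
    (fun r => γvF _) vvF
  obtain ⟨B₂, h2γ, h2v, h2g⟩ := exists_twist B (fun _ : Fin 1 => Fin.last M)
    (Subsingleton.strictMono _) w0 hb (fun _ => γw _) fun _ => vMw
  have vFvt : Commute vF (B.v (Fin.last M) * w⁻¹) :=
    (QC.mul_right (vMvF.symm (inv_ne_zero hζ0)) (vFw.inv_right hζ0)).commute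
      (by rw [inv_inv, mul_inv_cancel₀ hζ0])
  refine ⟨B₁, B₂, B₃, _, b, h1g, h2g 0, h3g 0, fun t => ⟨fun r => ?_, fun r => ?_⟩,
    fun t => ⟨fun r => ?_, fun r => ?_⟩, fun t => ⟨fun r => ?_, fun r => ?_⟩,
    fun x hx hpx hqx => ?_⟩
  · rw [h1γ, h1v, h2γ]
    exact ⟨B.γγ _ _,
      (B.vγ' _ _ (Fin.castSucc_lt_last r).ne).mul_left (γvF _).symm.inv_left₀⟩
  · rw [h1γ, h1v, h2v]
    refine ⟨(B.vγ' _ _ (Fin.castSucc_lt_last r).ne').symm.mul_right (γw _).inv_right₀,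
      Commute.mul_left ?_ vFvt.inv_left₀⟩
    exact (QC.mul_right (B.vv _ _ (Fin.castSucc_lt_last r)) ((vw r).inv_right hζ0)).commute
      (mul_inv_cancel₀ hζ0)
  · rw [h1γ, h1v, h3γ]
    exact ⟨γγF _, (QC.mul_left (vγF _) (vFγF.inv_left hζ0)).commute (mul_inv_cancel₀ hζ0)⟩
  · rw [h1γ, h1v, h3v]
    exact ⟨γvF _, (vvF r).mul_left (Commute.refl vF).inv_left₀⟩
  · rw [h2γ, h2v, h3γ]
    exact ⟨γγF _, (QC.mul_left (vγF _) (wγF.inv_left hζ0)).commute (mul_inv_cancel₀ hζ0)⟩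
  · rw [h2γ, h2v, h3v]
    exact ⟨γvF _, vFvt.symm⟩
  · have h1 : Commute vF x := hvF ▸ (hx _).1.inv_left₀.mul_left hpx
    have h2 : Commute γF x := hγF ▸ hqx.mul_left (hΓ x fun r => (hx r).1)
    have h3 : Commute w x := hw ▸ (h2.mul_left h1).neg_left
    refine ⟨fun r => ?_, fun r => ?_, fun r => ?_⟩
    · rw [h1γ, h1v]
      exact ⟨(hx _).1, (hx _).2.mul_left h1.inv_left₀⟩
    · rw [h2γ, h2v]
      exact ⟨(hx _).1, (hx _).2.mul_left h3.inv_left₀⟩
    · rw [h3γ, h3v]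
      exact ⟨h2, h1⟩

theorem exists_pull {E : Type u} [DivisionRing E] [Algebra F E] (ι : E →ₐ[F] D)
    (B : Blk F D ζ A M) (hγ : ∀ r, ∃ e, ι e = B.γ r) (hv : ∀ r, ∃ e, ι e = B.v r) :
    ∃ B' : Blk F E ζ A M, (∀ r, ι (B'.γ r) = B.γ r) ∧ (∀ r, ι (B'.v r) = B.v r) ∧
      ∀ r, B'.g r = B.g r := by
  choose γ hγ using hγ
  choose v hv using hv
  have hi : Function.Injective ι := (ι : E →+* D).injective
  have ha : ∀ r, ∃ a ∈ Algebra.adjoin F {γ r}, ι a = B.a r := fun r => by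
    have h := B.aγ r
    rw [← hγ, ← AlgHom.map_adjoin_singleton] at h
    exact h
  choose a haγ ha using ha
  refine ⟨{ γ := γ
            v := v
            a := a
            g := B.g
            γ0 := fun r h => B.γ0 r (by rw [← hγ, h, map_zero])
            v0 := fun r h => B.v0 r (by rw [← hv, h, map_zero])
            γA := fun r => (B.γA r).imp fun c hc => hi (by rw [map_pow, hγ, hc, ι.commutes])
            vA := fun r => (B.vA r).imp fun c hc => hi (by rw [map_pow, hv, hc, ι.commutes])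
            γγ := fun r t => hi (by rw [map_mul, map_mul, hγ, hγ]; exact B.γγ r t)
            vγ := fun r => hi (by rw [map_smul, map_mul, map_mul, hγ, hv]; exact B.vγ r)
            vγ' := fun r t h => hi (by rw [map_mul, map_mul, hγ, hv]; exact B.vγ' r t h)
            vv := fun r t h => hi (by rw [map_smul, map_mul, map_mul, hv, hv]; exact B.vv r t h)
            aγ := haγ
            av := fun r k h0 hk h => B.av r k h0 hk ?_
            gh := B.gh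
            hg := fun r => amap_injective (φ := (ι : E →+* D)) hi ?_ }, hγ, hv, fun _ => rfl⟩
  · have h1 := h.map ι
    rwa [map_pow, ha, hv] at h1
  · rw [amap_inc (RingHom.id F) (ι : E →+* D) ι.commutes, map_id, ← B.hg, map_pow, amap_lin]
    congr 2
    funext i
    fin_cases i <;> simp [ha, hv]

theorem exists_centB [FiniteDimensional F D] (B : Blk F D ζ A M) :
    ∃ (E : Type u) (_ : DivisionRing E) (_ : Algebra F E) (_ : FiniteDimensional F E)
      (ι : E →ₐ[F] D), ∀ x, (∃ e, ι e = x) ↔ Cm B x := by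
  obtain ⟨E, _, _, _, ι, h⟩ := exists_cent (F := F) (Set.range B.γ ∪ Set.range B.v)
  refine ⟨E, inferInstance, inferInstance, inferInstance, ι,
    fun x => (h x).trans ⟨fun H r => ⟨?_, ?_⟩, ?_⟩⟩
  · exact (H _ (Or.inl ⟨r, rfl⟩)).symm
  · exact (H _ (Or.inr ⟨r, rfl⟩)).symm
  · rintro H z (⟨r, rfl⟩ | ⟨r, rfl⟩)
    · exact (H r).1.symm
    · exact (H r).2.symm

theorem cm_of_pull {E : Type u} [DivisionRing E] [Algebra F E] {ι : E →ₐ[F] D}
    {B : Blk F D ζ A M} {B' : Blk F E ζ A M} (hγ : ∀ r, ι (B'.γ r) = B.γ r)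
    (hv : ∀ r, ι (B'.v r) = B.v r) {x : E} (h : Cm B (ι x)) : Cm B' x := fun r =>
  ⟨(ι : E →+* D).injective (by
      change ι _ = ι _
      rw [map_mul, map_mul, hγ]
      exact (h r).1),
    (ι : E →+* D).injective (by
      change ι _ = ι _
      rw [map_mul, map_mul, hv]
      exact (h r).2)⟩

end alg

section st

variable {n A K : ℕ}

theorem cm_map {s s' : St.{u} n} (μ : Mor s s') {ζ : s.F} {B : Blk s.F s.D ζ A K} {x : s.D}
    (h : Cm B x) : Cm (B.map μ.φF μ.φ μ.alg) (μ.φ x) := fun r =>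
  ⟨(h r).1.map μ.φ, (h r).2.map μ.φ⟩

theorem cm_map_ω {s s' : St.{u} n} (μ : Mor s s') {ζ : s.F} {B : Blk s.F s.D ζ A K}
    (h : ∀ p i, Cm B (s.ω p i)) (p : s'.O) (i : Fin n) :
    Cm (B.map μ.φF μ.φ μ.alg) (s'.ω p i) := fun r =>
  ⟨μ.comm _ (fun p i => (h p i r).1) p i, μ.comm _ (fun p i => (h p i r).2) p i⟩

theorem link_one (hA : 2 ≤ A) {s₀ s : St.{u} n} (μ : Mor s₀ s) {ζ : s.F}
    (hζ : IsPrimitiveRoot ζ A) (B : Blk s.F s.D ζ A 1) (hω : ∀ p i, Cm B (s.ω p i))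
    (hφ : ∀ x, Cm B (μ.φ x)) (l : Fin 2 → MvPolynomial s.O s.F)
    (hl : ∀ ε, (l ε).IsHomogeneous 1) :
    ∃ (s' : St.{u} n) (μ' : Mor s₀ s') (y : MvPolynomial s'.O s'.F), y.IsHomogeneous 1 ∧
      ∀ P, s.Good (aeval l (B.g 0) - μ.push P) → s'.Good (y ^ A - μ'.push P) := by
  obtain ⟨E, _, _, _, ι, hι⟩ := exists_centB B
  have h : ∀ p i, ∃ e, ι e = s.ω p i := fun p i => (hι _).2 (hω p i)
  obtain ⟨ψ, hψ⟩ : ∃ ψ : s₀.D →+* E, ∀ x, ι (ψ x) = μ.φ x :=
    exists_cores (ι : E →+* s.D) μ.φ fun x => (hι _).2 (hφ x)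
  obtain ⟨s', ν, y, hy, hg⟩ := @linkSt n A 1 hA (s.res ι h) ζ hζ s.D _ s.aD s.fd ι B 0
    (fun e => ((hι _).1 ⟨e, rfl⟩ 0).1) (fun e => ((hι _).1 ⟨e, rfl⟩ 0).2) l hl
  refine ⟨s', (μ.cores ι h ψ hψ).trans ν, y, hy, fun P hP => ?_⟩
  have h1 := ν.good_push ((s.res_good ι h _).2 hP)
  have h2 := s'.gd.add_mem (St.mem_gd.2 hg) (St.mem_gd.2 h1)
  rw [map_sub, sub_add_sub_cancel] at h2
  rw [Mor.push_trans, Mor.push_cores]
  exact h2

theorem link_two' (hA : 2 ≤ A) {s₀ s : St.{u} n} (μ : Mor s₀ s) {ζ : s.F}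
    (hζ : IsPrimitiveRoot ζ A) (B B' : Blk s.F s.D ζ A 1) (hω : ∀ p i, Cm B (s.ω p i))
    (hφ : ∀ x, Cm B (μ.φ x)) (hω' : ∀ p i, Cm B' (s.ω p i)) (hφ' : ∀ x, Cm B' (μ.φ x))
    (hBB : CC B B') {a b : s.F} (hg : B'.g 0 = C a * X 0 ^ A + C b * X 1 ^ A)
    (l : Fin 2 → MvPolynomial s.O s.F) (hl : ∀ ε, (l ε).IsHomogeneous 1)
    (z : MvPolynomial s.O s.F) (hz : z.IsHomogeneous 1) :
    ∃ (s' : St.{u} n) (μ' : Mor s₀ s') (y : MvPolynomial s'.O s'.F), y.IsHomogeneous 1 ∧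
      ∀ P, s.Good (C a * z ^ A + C b * aeval l (B.g 0) - μ.push P) →
        s'.Good (y ^ A - μ'.push P) := by
  obtain ⟨E, _, _, _, ι, hι⟩ := exists_centB B
  have h : ∀ p i, ∃ e, ι e = s.ω p i := fun p i => (hι _).2 (hω p i)
  obtain ⟨ψ, hψ⟩ : ∃ ψ : s₀.D →+* E, ∀ x, ι (ψ x) = μ.φ x :=
    exists_cores (ι : E →+* s.D) μ.φ fun x => (hι _).2 (hφ x)
  obtain ⟨s₁, ν, y₁, hy₁, hg₁⟩ := @linkSt n A 1 hA (s.res ι h) ζ hζ s.D _ s.aD s.fd ι B 0
    (fun e => ((hι _).1 ⟨e, rfl⟩ 0).1) (fun e => ((hι _).1 ⟨e, rfl⟩ 0).2) l hl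
  obtain ⟨B₁, h1γ, h1v, h1g⟩ := exists_pull ι B' (fun r => (hι _).2 (hBB r).1)
    fun r => (hι _).2 (hBB r).2
  have hω₁ : ∀ p i, Cm B₁ ((s.res ι h).ω p i) := fun p i =>
    cm_of_pull h1γ h1v (by rw [s.res_ω ι h]; exact hω' p i)
  have hφ₁ : ∀ x, Cm B₁ (ψ x) := fun x => cm_of_pull h1γ h1v (by rw [hψ]; exact hφ' x)
  obtain ⟨s', μ', y, hy, hgood⟩ := link_one hA ((μ.cores ι h ψ hψ).trans ν)
    (hζ.map_of_injective ν.φF.injective)
    (Blk.map (F := (s.res ι h).F) (D := (s.res ι h).D) B₁ ν.φF ν.φ ν.alg)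
    (cm_map_ω ν hω₁) (fun x => cm_map ν (hφ₁ x)) ![ν.push z, y₁] (fun ε => by
      fin_cases ε
      · exact ν.push_hom hz
      · exact hy₁)
  refine ⟨s', μ', y, hy, fun P hP => hgood P ?_⟩
  have h1 := ν.good_push ((s.res_good ι h _).2 hP)
  have h2 := s₁.gd.add_mem (St.mem_gd.2 h1) (s₁.gd.mul_mem_left (C (ν.φF b)) (St.mem_gd.2 hg₁))
  have h3 : (Blk.map (F := (s.res ι h).F) (D := (s.res ι h).D) B₁ ν.φF ν.φ ν.alg).g 0 =
      C (ν.φF a) * X 0 ^ A + C (ν.φF b) * X 1 ^ A := by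
    change MvPolynomial.map ν.φF (B₁.g 0) = _
    rw [h1g, hg]
    simp only [map_add, map_mul, map_pow, map_C, map_X]
  rw [h3, Mor.push_trans, Mor.push_cores]
  refine St.mem_gd.1 ?_
  convert h2 using 1
  have h4 : ∀ c : s.F, ν.push (C c) = C (ν.φF c) := ν.push_C
  simp only [map_add, map_sub, map_mul, map_pow, aeval_C, aeval_X, h4, algebraMap_eq,
    Matrix.cons_val_zero, Matrix.cons_val_one]
  ring

end st

end Mg

theorem merge {n A : ℕ} (hA : 2 ≤ A) (M : ℕ) (s : St.{u} n) {ζ : s.F}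
    (hζ : IsPrimitiveRoot ζ A) {D : Type u} [DivisionRing D] [Algebra s.F D]
    [FiniteDimensional s.F D] (ι : s.D →ₐ[s.F] D) (B : Blk s.F D ζ A M)
    (hγ : ∀ r e, Commute (B.γ r) (ι e)) (hv : ∀ r e, Commute (B.v r) (ι e))
    (l : Fin M → Fin 2 → MvPolynomial s.O s.F) (hl : ∀ r ε, (l r ε).IsHomogeneous 1) :
    ∃ (s' : St.{u} n) (μ : Mor s s') (y : MvPolynomial s'.O s'.F),
      y.IsHomogeneous 1 ∧ s'.Good (y ^ A - μ.push (∑ r, aeval (l r) (B.g r))) := by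
  induction M generalizing s D with
  | zero =>
    refine ⟨s, Mor.refl s, 0, isHomogeneous_zero _ _ _, St.mem_gd.1 ?_⟩
    rw [zero_pow (by omega), Finset.univ_eq_empty, Finset.sum_empty, map_zero, sub_zero]
    exact zero_mem _
  | succ M ih =>
    obtain ⟨F₁, D₁, _, _, _, _, φF, φ, p, q, hφ, hp, hq, hpφ, hqφ, hpq, hpA, hqA⟩ :=
      exists_symbol (D := D) (by omega : 0 < A) hζ.pow_eq_one
    have hζ₁ : IsPrimitiveRoot (φF ζ) A := hζ.map_of_injective φF.injective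
    obtain ⟨B₁, B₂, B₃, a, b, h1g, h2g, h3g, h12, h13, h23, hcm⟩ :=
      Mg.split (by omega) hζ₁ (B.map φF φ hφ) hp hq (fun r => ⟨(hpφ _).symm, (hpφ _).symm⟩)
        (fun r => ⟨(hqφ _).symm, (hqφ _).symm⟩) hpq hpA hqA
    have hc : ∀ e, Mg.Cm B₁ (φ (ι e)) ∧ Mg.Cm B₂ (φ (ι e)) ∧ Mg.Cm B₃ (φ (ι e)) := fun e =>
      hcm _ (fun r => ⟨(hγ r e).map φ, (hv r e).map φ⟩) (hpφ _) (hqφ _)
    obtain ⟨E, _, _, _, κ, hκ⟩ := Mg.exists_centB B₁
    obtain ⟨ψ, hψ⟩ := exists_cores (κ : E →+* D₁) (φ.comp (ι : s.D →+* D))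
      fun x => (hκ _).2 (hc x).1
    have hψ' : ∀ x, κ (ψ x) = φ (ι x) := hψ
    have hal : ∀ c, ψ (algebraMap s.F s.D c) = algebraMap F₁ E (φF c) := fun c =>
      (κ : E →+* D₁).injective (by
        change κ _ = κ _
        rw [hψ', ι.commutes, hφ, κ.commutes])
    obtain ⟨C₂, h2γ, h2v, h2g'⟩ := Mg.exists_pull κ B₂ (fun r => (hκ _).2 (h12 r).1)
      fun r => (hκ _).2 (h12 r).2
    obtain ⟨C₃, h3γ, h3v, h3g'⟩ := Mg.exists_pull κ B₃ (fun r => (hκ _).2 (h13 r).1)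
      fun r => (hκ _).2 (h13 r).2
    have c2 : ∀ x, Mg.Cm C₂ (ψ x) := fun x =>
      Mg.cm_of_pull h2γ h2v (by rw [hψ']; exact (hc x).2.1)
    have c3 : ∀ x, Mg.Cm C₃ (ψ x) := fun x =>
      Mg.cm_of_pull h3γ h3v (by rw [hψ']; exact (hc x).2.2)
    have c23 : Mg.CC C₂ C₃ := fun r =>
      ⟨Mg.cm_of_pull h2γ h2v (by rw [h3γ]; exact (h23 r).1),
        Mg.cm_of_pull h2γ h2v (by rw [h3v]; exact (h23 r).2)⟩
    obtain ⟨s₂, ν, z, hz, hgz⟩ := ih (s.bc F₁ ψ) hζ₁ κ B₁ (fun r e => ((hκ _).1 ⟨e, rfl⟩ r).1)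
      (fun r e => ((hκ _).1 ⟨e, rfl⟩ r).2) (fun r ε => (s.toBc ψ φF hal).push (l r.castSucc ε))
      fun r ε => (s.toBc ψ φF hal).push_hom (hl _ _)
    obtain ⟨s', μ', y, hy, hgood⟩ := Mg.link_two' hA ((s.toBc ψ φF hal).trans ν)
      (hζ₁.map_of_injective ν.φF.injective)
      (Blk.map (F := (s.bc F₁ ψ).F) (D := (s.bc F₁ ψ).D) C₂ ν.φF ν.φ ν.alg)
      (Blk.map (F := (s.bc F₁ ψ).F) (D := (s.bc F₁ ψ).D) C₃ ν.φF ν.φ ν.alg)
      (Mg.cm_map_ω ν fun p i => c2 _) (fun x => Mg.cm_map ν (c2 x))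
      (Mg.cm_map_ω ν fun p i => c3 _) (fun x => Mg.cm_map ν (c3 x))
      (fun r => ⟨Mg.cm_map ν (c23 r).1, Mg.cm_map ν (c23 r).2⟩) (a := ν.φF a) (b := ν.φF b)
      (by
        change MvPolynomial.map ν.φF (C₃.g 0) = _
        rw [h3g', h3g]
        simp only [map_add, map_mul, map_pow, map_C, map_X])
      (fun ε => ν.push ((s.toBc ψ φF hal).push (l (Fin.last M) ε)))
      (fun ε => ν.push_hom ((s.toBc ψ φF hal).push_hom (hl _ _))) z hz
    refine ⟨s', μ', y, hy, hgood _ (St.mem_gd.1 ?_)⟩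
    have h1 := s₂.gd.mul_mem_left (C (ν.φF a)) (St.mem_gd.2 hgz)
    have h2 : (s.toBc ψ φF hal).push (∑ r, aeval (l r) (B.g r)) =
        C a * ∑ r : Fin M, aeval (fun ε => (s.toBc ψ φF hal).push (l r.castSucc ε)) (B₁.g r) +
          C b * aeval (fun ε => (s.toBc ψ φF hal).push (l (Fin.last M) ε)) (B₂.g 0) := by
      rw [Fin.sum_univ_castSucc, map_add, map_sum, Finset.mul_sum, Mor.push_aeval]
      congr 1
      · refine Finset.sum_congr rfl fun r _ => ?_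
        rw [Mor.push_aeval]
        have h3 : MvPolynomial.map (s.toBc ψ φF hal).φF (B.g r.castSucc) = C a * B₁.g r := h1g r
        rw [h3, map_mul, aeval_C, algebraMap_eq]
      · have h3 : MvPolynomial.map (s.toBc ψ φF hal).φF (B.g (Fin.last M)) = C b * B₂.g 0 := h2g
        rw [h3, map_mul, aeval_C, algebraMap_eq]
    have h3 : (Blk.map (F := (s.bc F₁ ψ).F) (D := (s.bc F₁ ψ).D) C₂ ν.φF ν.φ ν.alg).g 0 =
        MvPolynomial.map ν.φF (B₂.g 0) := by
      rw [← h2g']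
      rfl
    rw [h3, ← ν.push_aeval, Mor.push_trans, h2]
    convert h1 using 1
    have h4 : ∀ c : F₁, ν.push (C c) = C (ν.φF c) := ν.push_C
    simp only [map_add, map_mul, h4]
    ring

end Vale.Agent.P200.G
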