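import Vale.Agent.P200.G.StB
import Vale.Agent.P200.G.PDefs
import Vale.Agent.P200.G.Wd
import Vale.Agent.P200.G.QB

/-! The cyclic field generated by the Kummer element of a block. -/

open MvPolynomial TensorProduct

namespace Vale.Agent.P200.G

open Vale.Agent.P200.Eq

universe u

theorem mkl_eig {F D : Type u} [Field F] [DivisionRing D] [Algebra F D] {A : ℕ} {ξ : F}
    (hξ : IsPrimitiveRoot ξ A) {w : D} (hw : w ≠ 0) (x : Fin A → D)
    (h : ∀ i, w * x i = ξ ^ i.val • (x i * w)) (h0 : ∑ i, x i = 0) (i : Fin A) : x i = 0 := by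
  let T : Module.End F D := (LinearMap.mulRight F w⁻¹).comp (LinearMap.mulLeft F w)
  have hinj : Function.Injective fun i : Fin A => ξ ^ i.val := fun i j hij =>
    Fin.ext (hξ.pow_inj i.2 j.2 hij)
  have hi := T.eigenspaces_iSupIndep.comp hinj
  rw [iSupIndep_iff_finsetSum_eq_zero_imp_eq_zero] at hi
  refine hi Finset.univ x (fun j _ => ?_) h0 i (Finset.mem_univ _)
  show x j ∈ T.eigenspace (ξ ^ j.val)
  rw [Module.End.mem_eigenspace_iff]
  show w * x j * w⁻¹ = _
  rw [h, smul_mul_assoc, mul_assoc, mul_inv_cancel₀ hw, mul_one]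

theorem mkl_field {F D : Type u} [Field F] [DivisionRing D] [Algebra F D]
    [FiniteDimensional F D] (γ : D) :
    ∃ (L : Type u) (_ : Field L) (_ : Algebra F L) (_ : FiniteDimensional F L)
      (jL : L →ₐ[F] D), ∀ x, (∃ y, jL y = x) ↔ x ∈ Algebra.adjoin F {γ} := by
  let S := Algebra.adjoin F {γ}
  let fl : Field S :=
    { divisionRingOfFiniteDimensional F S with
      mul_comm := fun x y => Subtype.ext
        (Algebra.commute_of_mem_adjoin_singleton_of_commute y.2
          (Algebra.commute_of_mem_adjoin_self x.2).symm).eq }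
  refine ⟨S, fl, inferInstanceAs (Algebra F S), inferInstanceAs (FiniteDimensional F S), S.val,
    fun x => ⟨?_, fun h => ⟨⟨x, h⟩, rfl⟩⟩⟩
  rintro ⟨y, rfl⟩
  exact y.2

theorem mkl_span {F L : Type u} [Field F] [Ring L] [Algebra F L] {A : ℕ} (hA : 0 < A) {γ : L}
    {c : F} (hc : γ ^ A = algebraMap F L c) {x : L} (hx : x ∈ Algebra.adjoin F {γ}) :
    x ∈ Submodule.span F (Set.range fun i : Fin A => γ ^ i.val) := by
  have hp : ∀ n : ℕ, γ ^ n ∈ Submodule.span F (Set.range fun i : Fin A => γ ^ i.val) := by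
    intro n
    rw [← Nat.div_add_mod n A, pow_add, pow_mul, hc, ← map_pow, ← Algebra.smul_def]
    exact Submodule.smul_mem _ _ (Submodule.subset_span ⟨⟨n % A, Nat.mod_lt _ hA⟩, rfl⟩)
  rw [Algebra.adjoin_singleton_eq_range_aeval] at hx
  obtain ⟨p, rfl⟩ := hx
  show Polynomial.aeval γ p ∈ _
  rw [Polynomial.aeval_eq_sum_range]
  exact Submodule.sum_mem _ fun n _ => Submodule.smul_mem _ _ (hp n)

theorem mkl_conj {F L D : Type u} [Field F] [Field L] [Algebra F L] [FiniteDimensional F L]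
    [DivisionRing D] [Algebra F D] (jL : L →ₐ[F] D) {γ v : D} {ζ : F}
    (hL : ∀ x, (∃ y, jL y = x) ↔ x ∈ Algebra.adjoin F {γ}) (hv : v ≠ 0) (hζ : ζ ≠ 0)
    (h : v * γ = ζ • (γ * v)) : ∃ σ : L ≃ₐ[F] L, ∀ x, v * jL (σ x) = jL x * v := by
  have key : ∀ x ∈ Algebra.adjoin F {γ}, v⁻¹ * x * v ∈ Algebra.adjoin F {γ} := by
    intro x hx
    induction hx using Algebra.adjoin_induction with
    | mem x hx =>
      rw [Set.mem_singleton_iff.1 hx]
      have : v⁻¹ * γ * v = ζ⁻¹ • γ := by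
        rw [mul_assoc, inv_mul_eq_iff_eq_mul₀ hv, mul_smul_comm, h, smul_smul,
          inv_mul_cancel₀ hζ, one_smul]
      rw [this]
      exact Subalgebra.smul_mem _ (Algebra.self_mem_adjoin_singleton F γ) _
    | algebraMap r =>
      rw [mul_assoc, Algebra.commutes, ← mul_assoc, inv_mul_cancel₀ hv, one_mul]
      exact Subalgebra.algebraMap_mem _ r
    | add x y _ _ hx hy =>
      rw [mul_add, add_mul]
      exact add_mem hx hy
    | mul x y _ _ hx hy =>
      have : v⁻¹ * (x * y) * v = (v⁻¹ * x * v) * (v⁻¹ * y * v) := by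
        simp only [mul_assoc, mul_inv_cancel_left₀ hv]
      rw [this]
      exact mul_mem hx hy
  have hex : ∀ x : L, ∃ y, jL y = v⁻¹ * jL x * v := fun x =>
    (hL _).2 (key _ ((hL _).1 ⟨x, rfl⟩))
  choose s hs using hex
  have hj : Function.Injective jL := jL.toRingHom.injective
  let σ0 : L →ₐ[F] L :=
    { toFun := s
      map_one' := hj (by rw [hs, map_one, mul_one, inv_mul_cancel₀ hv])
      map_mul' := fun x y => hj (by
        rw [map_mul, hs, hs, hs, map_mul]
        simp only [mul_assoc, mul_inv_cancel_left₀ hv])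
      map_zero' := hj (by rw [hs, map_zero, mul_zero, zero_mul])
      map_add' := fun x y => hj (by rw [map_add, hs, hs, hs, map_add, mul_add, add_mul])
      commutes' := fun r => hj (by
        rw [hs, AlgHom.commutes, mul_assoc, Algebra.commutes, ← mul_assoc, inv_mul_cancel₀ hv,
          one_mul]) }
  refine ⟨AlgEquiv.ofBijective σ0 σ0.bijective, fun x => ?_⟩
  show v * jL (s x) = _
  rw [hs, mul_assoc, mul_inv_cancel_left₀ hv]

theorem mkl_pow {F L D : Type u} [Field F] [Field L] [Algebra F L] [Ring D] [Algebra F D]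
    {jL : L →ₐ[F] D} {v : D} {σ : L ≃ₐ[F] L} (h : ∀ x, v * jL (σ x) = jL x * v) (m : ℕ) (x : L) :
    v ^ m * jL ((σ ^ m) x) = jL x * v ^ m := by
  induction m with
  | zero => simp
  | succ m ih =>
    rw [pow_succ v, pow_succ' σ, AlgEquiv.mul_apply, mul_assoc, h, ← mul_assoc, ih, mul_assoc]

theorem mkl_lin {L D : Type u} [Field L] [Ring D] (φ : L →+* D) (x : L) :
    amap 2 φ (X 0 - C x * X 1 : MvPolynomial (Fin 2) L) = lin ![1, -φ x] := by
  have h : (X 0 - C x * X 1 : MvPolynomial (Fin 2) L) = lin ![1, -x] := by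
    rw [lin, Fin.sum_univ_two, C_mul_X_eq_monomial, sub_eq_add_neg, ← map_neg]
    rfl
  rw [h, amap_lin]
  congr 1
  funext i
  fin_cases i <;> simp

theorem mkl_prod {F L D : Type u} [Field F] [Field L] [Algebra F L] [Ring D] [Algebra F D]
    {jL : L →ₐ[F] D} {v : D} {σ : L ≃ₐ[F] L} (h : ∀ x, v * jL (σ x) = jL x * v) (a : L) (m : ℕ) :
    lin ![v, -(jL a * v)] ^ m = cst 2 (v ^ m) * amap 2 jL.toRingHom
      (∏ j ∈ Finset.range m, (X 0 - C ((σ ^ (j + 1)) a) * X 1) : MvPolynomial (Fin 2) L) := by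
  induction m with
  | zero => simp
  | succ m ih =>
    rw [pow_succ', ih, Finset.prod_range_succ_comm, map_mul, mkl_lin, ← mul_assoc, ← mul_assoc,
      lin_mul_cst, cst_mul_lin]
    congr 2
    funext i
    fin_cases i
    · simp [pow_succ']
    · have := mkl_pow h (m + 1) a
      show -(jL a * v) * v ^ m = v ^ (m + 1) * -(jL ((σ ^ (m + 1)) a))
      rw [mul_neg, this, pow_succ' v, neg_mul, mul_assoc]

theorem mkL {F E D : Type u} [Field F] [DivisionRing E] [Algebra F E] [DivisionRing D]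
    [Algebra F D] [FiniteDimensional F D] (ι : E →ₐ[F] D) {A M : ℕ} [NeZero A] (hA : 3 ≤ A)
    {ζ : F} (hζ : IsPrimitiveRoot ζ A) (B : Blk F D ζ A M) (r : Fin M)
    (hγ : ∀ e, Commute (B.γ r) (ι e)) (hv : ∀ e, Commute (B.v r) (ι e)) :
    ∃ (L : Type u) (_ : Field L) (_ : Algebra F L) (Z : Cyc F L A) (I : Inp Z E D),
      map (algebraMap F L) (B.g r) =
        C (algebraMap F L I.s) * ∏ j, (X 0 - C (Z.pt j) * X 1) := by
  have hA0 : 0 < A := by omega
  have hζ0 : ζ ≠ 0 := hζ.ne_zero hA0.ne'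
  obtain ⟨L, fL, aL, fd, jL, hL⟩ := mkl_field (F := F) (B.γ r)
  obtain ⟨σ, hσ⟩ := mkl_conj jL hL (B.v0 r) hζ0 (B.vγ r)
  have hj : Function.Injective jL := jL.toRingHom.injective
  obtain ⟨γ, hγL⟩ := (hL _).2 (Algebra.self_mem_adjoin_singleton F (B.γ r))
  obtain ⟨a, ha⟩ := (hL _).2 (B.aγ r)
  obtain ⟨c, hc⟩ := B.γA r
  obtain ⟨s, hs⟩ := B.vA r
  have hvγ : ∀ i : ℕ, B.v r * B.γ r ^ i = ζ ^ i • (B.γ r ^ i * B.v r) :=
    q_mul_pow_right (B.vγ r)
  have hγv : ∀ i : ℕ, B.γ r * B.v r ^ i = ζ⁻¹ ^ i • (B.v r ^ i * B.γ r) := fun i => by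
    rw [q_mul_pow_left (B.vγ r), smul_smul, ← mul_pow, inv_mul_cancel₀ hζ0, one_pow, one_smul]
  have hγ0 : γ ≠ 0 := by
    rintro rfl
    exact B.γ0 r (by rw [← hγL, map_zero])
  have hγA : γ ^ A = algebraMap F L c := hj (by rw [map_pow, hγL, hc, AlgHom.commutes])
  have hli : LinearIndependent F fun i : Fin A => γ ^ i.val := by
    rw [Fintype.linearIndependent_iff]
    intro g hg i
    have := mkl_eig hζ (B.v0 r) (fun i => g i • B.γ r ^ i.val) (fun i => by
      rw [mul_smul_comm, hvγ, smul_mul_assoc, smul_comm]) (by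
      have := congrArg jL hg
      simpa only [map_sum, map_smul, map_pow, hγL, map_zero] using this) i
    exact (smul_eq_zero.1 this).resolve_right (pow_ne_zero _ (B.γ0 r))
  have hsp : ⊤ ≤ Submodule.span F (Set.range fun i : Fin A => γ ^ i.val) := by
    intro x _
    have h1 := mkl_span hA0 hc ((hL _).1 ⟨x, rfl⟩)
    obtain ⟨g, hg⟩ := (Submodule.mem_span_range_iff_exists_fun F).1 h1
    refine (Submodule.mem_span_range_iff_exists_fun F).2 ⟨g, hj ?_⟩
    simpa only [map_sum, map_smul, map_pow, hγL] using hg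
  have hσγ : σ γ = ζ⁻¹ • γ := hj (mul_left_cancel₀ (B.v0 r) (by
    rw [hσ, map_smul, mul_smul_comm, hγL, B.vγ, smul_smul, inv_mul_cancel₀ hζ0, one_smul]))
  have hlt : ∀ j k : ℕ, j < k → k < A → (σ ^ j) a ≠ (σ ^ k) a := by
    intro j k hjk hk he
    obtain ⟨d, rfl⟩ := Nat.exists_eq_add_of_lt hjk
    rw [add_assoc, pow_add, AlgEquiv.mul_apply] at he
    have h2 := (σ ^ j).injective he
    have h3 := mkl_pow hσ (d + 1) a
    rw [← h2, ha] at h3
    exact B.av r (d + 1) (by omega) (by omega) h3.symm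
  have hinj : Function.Injective fun j : Fin A => sg σ j a := by
    intro j k hjk
    rcases lt_trichotomy j k with h | h | h
    · exact absurd hjk (hlt _ _ h k.2)
    · exact h
    · exact absurd hjk.symm (hlt _ _ h j.2)
  let Z : Cyc F L A :=
    { hA := hA
      ζ := ζ⁻¹
      hζ := hζ.inv
      σ := σ
      γ := γ
      γ0 := hγ0
      σγ := hσγ
      c := c
      γA := hγA
      bL := Module.Basis.mk hli hsp
      bL_eq := fun i => Module.Basis.mk_apply hli hsp i
      a := a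
      a_inj := hinj }
  have hcomm : ∀ x e, Commute (jL x) (ι e) := fun x e =>
    (Algebra.commute_of_mem_adjoin_singleton_of_commute ((hL _).1 ⟨x, rfl⟩) (hγ e).symm).symm
  have hs0 : s ≠ 0 := by
    rintro rfl
    exact pow_ne_zero A (B.v0 r) (by rw [hs, map_zero])
  have hμγ : ∀ f, Commute (B.γ r) (Algebra.TensorProduct.lift jL ι hcomm f) := by
    intro f
    induction f using TensorProduct.induction_on with
    | zero => simp
    | add x y hx hy => rw [map_add]; exact hx.add_right hy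
    | tmul x e =>
      rw [Algebra.TensorProduct.lift_tmul]
      refine Commute.mul_right ?_ (hγ e)
      rw [← hγL]
      exact (Commute.all _ _).map jL
  have hμ : ∀ f, Algebra.TensorProduct.lift jL ι hcomm f = 0 → f = 0 := by
    intro f hf
    obtain ⟨g, rfl⟩ := TensorProduct.eq_repr_basis_left Z.bL f
    rw [Finsupp.sum_fintype _ _ (fun i => by simp)] at hf ⊢
    simp only [map_sum, Algebra.TensorProduct.lift_tmul, Z.bL_eq, map_pow] at hf
    have h1 : jL Z.γ = B.γ r := hγL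
    rw [h1] at hf
    have h2 := mkl_eig hζ (B.v0 r) (fun i => B.γ r ^ i.val * ι (g i)) (fun i => by
      rw [← mul_assoc, hvγ, smul_mul_assoc, mul_assoc, mul_assoc, (hv _).eq]) hf
    refine Finset.sum_eq_zero fun i _ => ?_
    have h3 := (mul_eq_zero.1 (h2 i)).resolve_left (pow_ne_zero _ (B.γ0 r))
    have h4 : g i = 0 := ι.toRingHom.injective (by rw [map_zero]; exact h3)
    rw [h4, TensorProduct.tmul_zero]
  let I : Inp Z E D :=
    { s := s
      s0 := hs0
      ι := ι
      jL := jL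
      comm := hcomm
      v := B.v r
      v_ι := hv
      vA := hs
      vσ := hσ
      ind := fun f hf m => by
        have h2 := mkl_eig hζ.inv (B.γ0 r)
          (fun m => Algebra.TensorProduct.lift jL ι hcomm (f m) * B.v r ^ m.val) (fun i => by
            rw [← mul_assoc, (hμγ _).eq, mul_assoc, hγv, mul_smul_comm, mul_assoc]) hf m
        exact hμ _ ((mul_eq_zero.1 h2).resolve_right (pow_ne_zero _ (B.v0 r))) }
  refine ⟨L, fL, aL, Z, I, ?_⟩
  have hσA : (σ ^ A) a = a := hj (mul_left_cancel₀ (pow_ne_zero A (B.v0 r)) (by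
    rw [mkl_pow hσ, hs, Algebra.commutes]))
  have hP : (∏ j : Fin A, (X 0 - C (Z.pt j) * X 1) : MvPolynomial (Fin 2) L) =
      ∏ j ∈ Finset.range A, (X 0 - C ((σ ^ (j + 1)) a) * X 1) := by
    have h1 : (∏ j : Fin A, (X 0 - C (Z.pt j) * X 1) : MvPolynomial (Fin 2) L) =
        ∏ j ∈ Finset.range A, (X 0 - C ((σ ^ j) a) * X 1) :=
      Fin.prod_univ_eq_prod_range (fun j => (X 0 - C ((σ ^ j) a) * X 1 : MvPolynomial (Fin 2) L)) A
    obtain ⟨A', hA'⟩ : ∃ A', A = A' + 1 := ⟨A - 1, by omega⟩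
    have h2 : (σ ^ (A' + 1)) a = (σ ^ 0) a := by rw [← hA', hσA]; rfl
    rw [h1, hA', Finset.prod_range_succ', Finset.prod_range_succ, h2]
  apply amap_injective (n := 2) (φ := jL.toRingHom) hj
  have h1 := mkl_prod hσ a A
  rw [ha, B.hg, hs] at h1
  have h2 : amap 2 jL.toRingHom (C (algebraMap F L I.s) : MvPolynomial (Fin 2) L) =
      cst 2 (algebraMap F D s) := by
    rw [← jL.commutes s]
    exact amap_cst jL.toRingHom _
  rw [hP, map_mul, h2, ← h1]
  refine AddMonoidAlgebra.ext (Finsupp.ext fun m => ?_)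
  rw [coeff_amap]
  have h3 : (inc F D (Fin 2) (B.g r)).coeff m = algebraMap F D (coeff m (B.g r)) := by
    simp only [inc, AddMonoidAlgebra.coeff_mapRingHom]; rfl
  rw [h3, ← jL.commutes, ← coeff_map]
  rfl

end Vale.Agent.P200.G
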