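import Vale.Agent.P200.G.PDefs

/-! Taylor expansion of rational functions at the origin. -/

open Finset

namespace Vale.Agent.P200.G

open Vale.Agent.P200.Eq

universe u

section
variable (L : Type u) [Field L] (V : Type) (K : Type u) [Field K] [Algebra (MvPolynomial V L) K]
  [IsFractionRing (MvPolynomial V L) K] [Algebra L K] [IsScalarTower L (MvPolynomial V L) K]

/-- rational functions that are regular at the origin -/
def tayO : Subalgebra L K where
  carrier := {f | ∃ p q : MvPolynomial V L, MvPolynomial.constantCoeff q ≠ 0 ∧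
    f * algebraMap _ K q = algebraMap _ K p}
  mul_mem' := by
    rintro f g ⟨p, q, hq, h⟩ ⟨p', q', hq', h'⟩
    refine ⟨p * p', q * q', by rw [map_mul]; exact mul_ne_zero hq hq', ?_⟩
    rw [map_mul, map_mul, ← h, ← h']
    ring
  add_mem' := by
    rintro f g ⟨p, q, hq, h⟩ ⟨p', q', hq', h'⟩
    refine ⟨p * q' + p' * q, q * q', by rw [map_mul]; exact mul_ne_zero hq hq', ?_⟩
    rw [map_add, map_mul, map_mul, map_mul, ← h, ← h']
    ring
  algebraMap_mem' c := ⟨algebraMap L _ c, 1, by simp, by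
    rw [map_one, mul_one, ← IsScalarTower.algebraMap_apply]⟩

omit [IsFractionRing (MvPolynomial V L) K] in
theorem tay_poly (p : MvPolynomial V L) : algebraMap _ K p ∈ tayO L V K :=
  ⟨p, 1, by simp, by rw [map_one, mul_one]⟩

theorem tay_cc (p : MvPolynomial V L) :
    MvPowerSeries.constantCoeff (p : MvPowerSeries V L) = MvPolynomial.constantCoeff p :=
  MvPolynomial.coeff_coe p 0

theorem tay_exists : ∃ Ty : K →ₗ[L] MvPowerSeries V L,
    (∀ p : MvPolynomial V L, Ty (algebraMap _ K p) = p) ∧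
    (∀ f ∈ tayO L V K, ∀ g ∈ tayO L V K, Ty (f * g) = Ty f * Ty g) ∧
    ∀ f ∈ tayO L V K, Ty f = 0 → f = 0 := by
  let ι := IsScalarTower.toAlgHom L (MvPowerSeries V L) (FractionRing (MvPowerSeries V L))
  have hι : Function.Injective ι := IsFractionRing.injective _ _
  have hc : ∀ p : MvPolynomial V L, MvPolynomial.coeToMvPowerSeries.algHom L p = p := fun p => by
    simp
  have hg : Function.Injective (ι.comp (MvPolynomial.coeToMvPowerSeries.algHom L)) :=
    fun p q h => MvPolynomial.coe_injective V L (by rw [← hc, ← hc]; exact hι h)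
  let j : K →ₐ[L] FractionRing (MvPowerSeries V L) := IsFractionRing.liftAlgHom hg
  have hj : ∀ p : MvPolynomial V L, j (algebraMap _ K p) = ι p := fun p => by
    rw [← hc]
    exact IsFractionRing.lift_algebraMap hg p
  obtain ⟨r, hr⟩ := ι.toLinearMap.exists_leftInverse_of_injective (LinearMap.ker_eq_bot.2 hι)
  have key : ∀ f s, j f = ι s → r (j f) = s := fun f s h => by
    rw [h]
    exact LinearMap.congr_fun hr s
  have hO : ∀ f ∈ tayO L V K, j f = ι (r (j f)) := by
    rintro f ⟨p, q, hq, h⟩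
    obtain ⟨u, hu⟩ : IsUnit (q : MvPowerSeries V L) :=
      MvPowerSeries.isUnit_iff_constantCoeff.2 (by rw [tay_cc]; exact hq.isUnit)
    have h1 : j f = ι (p * ↑u⁻¹) := by
      rw [map_mul, ← hj, ← h, map_mul, hj, mul_assoc, ← map_mul, ← hu, Units.mul_inv, map_one,
        mul_one]
    rw [key f _ h1, h1]
  refine ⟨r ∘ₗ j.toLinearMap, fun p => key _ _ (hj p), fun f hf g hg' => key _ _ ?_,
    fun f hf h => ?_⟩
  · rw [map_mul, map_mul]
    exact congrArg₂ (· * ·) (hO f hf) (hO g hg')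
  · have h1 : r (j f) = 0 := h
    refine j.toRingHom.injective ?_
    rw [map_zero]
    exact (hO f hf).trans (by rw [h1, map_zero])

end

theorem tay_ord_mul {L : Type u} [Field L] {V : Type} {wt : V → ℕ} {m m' : ℕ}
    {s s' : MvPowerSeries V L}
    (h : ∀ μ, Finsupp.weight wt μ < m → MvPowerSeries.coeff μ s = 0)
    (h' : ∀ μ, Finsupp.weight wt μ < m' → MvPowerSeries.coeff μ s' = 0) (μ : V →₀ ℕ)
    (hμ : Finsupp.weight wt μ < m + m') : MvPowerSeries.coeff μ (s * s') = 0 := by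
  classical
  rw [MvPowerSeries.coeff_mul]
  refine Finset.sum_eq_zero fun p hp => ?_
  rw [← Finset.HasAntidiagonal.mem_antidiagonal.1 hp, map_add] at hμ
  rcases lt_or_ge (Finsupp.weight wt p.1) m with a | a
  · rw [h _ a, zero_mul]
  · rw [h' _ (by omega), mul_zero]

theorem tay_wt_zero {V : Type} {wt : V → ℕ} (hwt : ∀ v, 0 < wt v) {μ : V →₀ ℕ}
    (h : Finsupp.weight wt μ < 1) : μ = 0 := by
  by_contra h0
  obtain ⟨v, hv⟩ := Finsupp.ne_iff.1 h0
  have h1 := Finsupp.le_weight_of_ne_zero' wt hv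
  have h2 := hwt v
  omega

theorem tay_rescale {L : Type u} [Field L] {V : Type} (a : V → L) (v : V) :
    MvPowerSeries.rescale a (MvPowerSeries.X v) = a v • MvPowerSeries.X v := by
  classical
  ext μ
  rw [MvPowerSeries.coeff_rescale, map_smul, MvPowerSeries.coeff_X, smul_eq_mul]
  split_ifs with h
  · rw [h, Finsupp.prod_single_index (h := fun s m => a s ^ m) (pow_zero _), pow_one]
  · rw [mul_zero, mul_zero]

theorem tay_prod {L : Type u} [Field L] {V : Type} (wt : V → ℕ) (t : L) (μ : V →₀ ℕ) :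
    (μ.prod fun v m => (t ^ wt v) ^ m) = t ^ Finsupp.weight wt μ := by
  rw [Finsupp.weight_apply, Finsupp.sum, Finsupp.prod, ← Finset.prod_pow_eq_pow_sum]
  exact Finset.prod_congr rfl fun v _ => by rw [← pow_mul, smul_eq_mul, mul_comm]

section
variable {L : Type u} [Field L] {V : Type} {K : Type u} [Field K] [Algebra L K]

theorem Tay.mono (T : Tay L K V) {m m' : ℕ} (h : m ≤ m') {f : K} (hf : f ∈ T.Fil m') :
    f ∈ T.Fil m :=
  (T.mem_Fil _ _).2 ⟨((T.mem_Fil _ _).1 hf).1, fun μ hμ =>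
    ((T.mem_Fil _ _).1 hf).2 μ (hμ.trans_le h)⟩

theorem Tay.fil_zero (T : Tay L K V) {f : K} : f ∈ T.Fil 0 ↔ f ∈ T.O :=
  (T.mem_Fil _ _).trans ⟨fun h => h.1, fun h => ⟨h, fun _ hμ => absurd hμ (Nat.not_lt_zero _)⟩⟩

theorem Tay.fil_one (T : Tay L K V) {f : K} : f ∈ T.Fil 1 ↔ f ∈ T.O ∧ T.ty f 0 = 0 :=
  (T.mem_Fil _ _).trans (and_congr_right fun _ =>
    ⟨fun h => h 0 (by simp), fun h _ hμ => tay_wt_zero T.wt_pos hμ ▸ h⟩)

theorem Tay.ty_alg (T : Tay L K V) (c : L) : T.ty (algebraMap L K c) 0 = c := by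
  rw [Algebra.algebraMap_eq_smul_one, map_smul, Pi.smul_apply, T.ty_one, smul_eq_mul, mul_one]

variable [Algebra (MvPolynomial V L) K] [IsScalarTower L (MvPolynomial V L) K]

theorem Tay.semi_poly (T : Tay L K V) {σ : L →+* L} {ψ : K →+* K}
    (h1 : ∀ x, ψ (algebraMap L K x) = algebraMap L K (σ x))
    (h2 : ∀ v, ψ (algebraMap (MvPolynomial V L) K (MvPolynomial.X v)) ∈ T.Fil (T.wt v))
    {m : ℕ} {p : MvPolynomial V L} (hp : ∀ μ, Finsupp.weight T.wt μ < m → p.coeff μ = 0) :
    ψ (algebraMap _ K p) ∈ T.Fil m := by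
  have hm : ∀ (μ : V →₀ ℕ) (c : L),
      ψ (algebraMap _ K (MvPolynomial.monomial μ c)) ∈ T.Fil (Finsupp.weight T.wt μ) := by
    intro μ c
    induction μ using Finsupp.induction_linear generalizing c with
    | zero =>
      rw [map_zero, T.fil_zero, ← MvPolynomial.C_apply, ← MvPolynomial.algebraMap_eq,
        ← IsScalarTower.algebraMap_apply, h1]
      exact T.O.algebraMap_mem _
    | add μ ν hμ hν =>
      rw [map_add, ← mul_one c, ← MvPolynomial.monomial_mul, map_mul, map_mul]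
      exact T.fil_mul _ _ _ (hμ c) _ (hν 1)
    | single v k =>
      rw [← MvPolynomial.C_mul_X_pow_eq_monomial, map_mul, map_mul, map_pow, map_pow,
        ← MvPolynomial.algebraMap_eq, ← IsScalarTower.algebraMap_apply, h1, ← Algebra.smul_def,
        Finsupp.weight_single, smul_eq_mul]
      refine Submodule.smul_mem _ _ ?_
      induction k with
      | zero =>
        rw [pow_zero, zero_mul, T.fil_zero]
        exact T.O.one_mem
      | succ k ih =>
        rw [pow_succ, add_mul, one_mul]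
        exact T.fil_mul _ _ _ ih _ (h2 v)
  rw [p.as_sum, map_sum, map_sum]
  refine Submodule.sum_mem _ fun μ hμ => T.mono ?_ (hm μ _)
  exact not_lt.1 fun h => MvPolynomial.mem_support_iff.1 hμ (hp μ h)

omit [Algebra (MvPolynomial V L) K] [IsScalarTower L (MvPolynomial V L) K] in
theorem Tay.semi_res (T : Tay L K V) {σ : L →+* L} {ψ : K →+* K}
    (h1 : ∀ x, ψ (algebraMap L K x) = algebraMap L K (σ x)) {f : K} {c : L}
    (h : ψ (f - algebraMap L K c) ∈ T.Fil 1) : ψ f ∈ T.O ∧ T.ty (ψ f) 0 = σ c := by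
  rw [map_sub, h1, T.fil_one, map_sub, Pi.sub_apply, T.ty_alg, sub_eq_zero] at h
  exact ⟨by simpa using T.O.add_mem h.1 (T.O.algebraMap_mem (σ c)), h.2⟩

end

theorem exists_tay_gen (L : Type u) [Field L] (V : Type) (K : Type u) [Field K]
    [Algebra (MvPolynomial V L) K] [IsFractionRing (MvPolynomial V L) K] [Algebra L K]
    [IsScalarTower L (MvPolynomial V L) K] (wt : V → ℕ) (hwt : ∀ v, 0 < wt v) :
    ∃ T : Tay L K V, T.wt = wt ∧
      (∀ p : MvPolynomial V L, algebraMap _ K p ∈ T.O ∧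
        ∀ μ, T.ty (algebraMap _ K p) μ = p.coeff μ) ∧
      (∀ f ∈ T.O, T.ty f 0 ≠ 0 → f⁻¹ ∈ T.O) ∧
      (∀ (σ : L →+* L) (ψ : K →+* K), (∀ x, ψ (algebraMap L _ x) = algebraMap L _ (σ x)) →
        (∀ v, ψ (algebraMap (MvPolynomial V L) _ (MvPolynomial.X v)) ∈ T.Fil (wt v)) →
        (∀ m, ∀ f ∈ T.Fil m, ψ f ∈ T.Fil m) ∧ ∀ f ∈ T.O, T.ty (ψ f) 0 = σ (T.ty f 0)) ∧
      ∀ (ψ : K →ₐ[L] K) (t : L),
        (∀ v, ψ (algebraMap (MvPolynomial V L) _ (MvPolynomial.X v)) =
          t ^ wt v • algebraMap (MvPolynomial V L) _ (MvPolynomial.X v)) →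
        ∀ f ∈ T.O, ψ f ∈ T.O ∧ ∀ μ, T.ty (ψ f) μ = t ^ Finsupp.weight wt μ * T.ty f μ := by
  classical
  obtain ⟨Ty, hp, hm, hi⟩ := tay_exists L V K
  have hpq : ∀ {f : K} {p q : MvPolynomial V L}, f ∈ tayO L V K →
      f * algebraMap _ K q = algebraMap _ K p → Ty f * q = p := fun {f p q} hf h => by
    rw [← hp, ← hp, ← h, hm f hf _ (tay_poly L V K q)]
  let T : Tay L K V :=
    { wt := wt
      wt_pos := hwt
      O := tayO L V K
      ty := LinearMap.pi fun μ => MvPowerSeries.coeff μ ∘ₗ Ty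
      Fil := fun m =>
        { carrier := {f | f ∈ tayO L V K ∧
            ∀ μ, Finsupp.weight wt μ < m → MvPowerSeries.coeff μ (Ty f) = 0}
          add_mem' := fun ha hb => ⟨add_mem ha.1 hb.1, fun μ hμ => by
            rw [map_add, map_add, ha.2 μ hμ, hb.2 μ hμ, add_zero]⟩
          zero_mem' := ⟨zero_mem _, fun μ _ => by rw [map_zero, map_zero]⟩
          smul_mem' := fun c _ ha => ⟨Subalgebra.smul_mem _ ha.1 c, fun μ hμ => by
            rw [map_smul, map_smul, ha.2 μ hμ, smul_zero]⟩ }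
      mem_Fil := fun _ _ => Iff.rfl
      frac := fun f => by
        obtain ⟨a, b, hb, rfl⟩ := IsFractionRing.div_surjective (A := MvPolynomial V L) f
        have h0 : algebraMap _ K b ≠ 0 :=
          IsFractionRing.to_map_ne_zero_of_mem_nonZeroDivisors hb
        exact ⟨_, tay_poly L V K b, h0, by rw [mul_div_cancel₀ _ h0]; exact tay_poly L V K a⟩
      ty_inj := fun f hf h => hi f hf (MvPowerSeries.ext fun μ => congrFun h μ)
      ty_one := by
        change MvPowerSeries.coeff 0 (Ty 1) = 1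
        rw [← map_one (algebraMap (MvPolynomial V L) K), hp]
        simp
      ty_mul_zero := fun f hf g hg => by
        change MvPowerSeries.constantCoeff (Ty (f * g)) =
          MvPowerSeries.constantCoeff (Ty f) * MvPowerSeries.constantCoeff (Ty g)
        rw [hm f hf g hg, map_mul]
      fil_mul := fun m m' f hf g hg => ⟨mul_mem hf.1 hg.1, fun μ hμ => by
        rw [hm f hf.1 g hg.1]
        exact tay_ord_mul hf.2 hg.2 μ hμ⟩
      ty_mon := fun μ => ⟨_, tay_poly L V K (MvPolynomial.monomial μ 1), by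
        change MvPowerSeries.coeff μ (Ty _) = 1
        rw [hp, MvPolynomial.coeff_coe, MvPolynomial.coeff_monomial, if_pos rfl], fun μ' h => by
        change MvPowerSeries.coeff μ' (Ty _) = 0
        rw [hp, MvPolynomial.coeff_coe, MvPolynomial.coeff_monomial, if_neg h.symm]⟩
      ty_shift := fun v => ⟨_, tay_poly L V K (MvPolynomial.X v), fun f hf μ => by
        change MvPowerSeries.coeff μ (Ty _) ≠ 0 ↔
          ∃ μ', μ = μ' + Finsupp.single v 1 ∧ MvPowerSeries.coeff μ' (Ty f) ≠ 0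
        rw [hm _ (tay_poly L V K _) f hf, hp, MvPolynomial.coe_X, MvPowerSeries.X_def,
          MvPowerSeries.coeff_monomial_mul, one_mul]
        constructor
        · intro h
          split_ifs at h with h1
          · exact ⟨_, (tsub_add_cancel_of_le h1).symm, h⟩
          · exact absurd rfl h
        · rintro ⟨μ', rfl, h⟩
          rwa [if_pos le_add_self, add_tsub_cancel_right]⟩ }
  have hty : ∀ f μ, T.ty f μ = MvPowerSeries.coeff μ (Ty f) := fun _ _ => rfl
  have hinv : ∀ f ∈ T.O, T.ty f 0 ≠ 0 → f⁻¹ ∈ T.O := by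
    intro f hf h0
    obtain ⟨p, q, hq, h⟩ := id hf
    have hf0 : f ≠ 0 := fun h1 => h0 (by rw [h1, map_zero]; rfl)
    refine ⟨q, p, ?_, by rw [← h, inv_mul_cancel_left₀ hf0]⟩
    rw [← tay_cc, ← hpq hf h, map_mul, tay_cc]
    exact mul_ne_zero h0 hq
  refine ⟨T, rfl, fun p => ⟨tay_poly L V K p, fun μ => by rw [hty, hp, MvPolynomial.coeff_coe]⟩,
    hinv, fun σ ψ h1 h2 => ?_, fun ψ t h f hf => ?_⟩
  · have hF : ∀ m, ∀ f ∈ T.Fil m, ψ f ∈ T.Fil m := by
      intro m f hf
      obtain ⟨p, q, hq, h⟩ := id hf.1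
      have a1 : ψ (algebraMap _ K p) ∈ T.Fil m := T.semi_poly h1 h2 fun μ hμ => by
        rw [← MvPolynomial.coeff_coe, ← hpq hf.1 h]
        exact tay_ord_mul (m' := 0) hf.2 (fun _ h => absurd h (Nat.not_lt_zero _)) μ hμ
      obtain ⟨a2, a3⟩ := T.semi_res h1 (f := algebraMap _ K q) (c := MvPolynomial.constantCoeff q)
        (by
          rw [IsScalarTower.algebraMap_apply L (MvPolynomial V L) K, ← map_sub]
          refine T.semi_poly h1 h2 fun μ hμ => ?_
          rw [tay_wt_zero hwt hμ, ← MvPolynomial.constantCoeff_eq]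
          simp)
      have a4 : T.ty (ψ (algebraMap _ K q)) 0 ≠ 0 := by
        rw [a3]
        exact (map_ne_zero σ).2 hq
      have a5 : ψ (algebraMap _ K q) ≠ 0 := fun h1 => a4 (by rw [h1, map_zero]; rfl)
      rw [(eq_mul_inv_iff_mul_eq₀ a5).2 ((map_mul ψ _ _).symm.trans (congrArg ψ h))]
      exact T.fil_mul m 0 _ a1 _ (T.fil_zero.2 (hinv _ a2 a4))
    refine ⟨hF, fun f hf => (T.semi_res h1 (hF 1 _ (T.fil_one.2 ⟨?_, ?_⟩))).2⟩
    · exact T.O.sub_mem hf (T.O.algebraMap_mem _)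
    · rw [map_sub, Pi.sub_apply, T.ty_alg, sub_self]
  · have hs : ∀ p : MvPolynomial V L, ∃ p' : MvPolynomial V L,
        ψ (algebraMap _ K p) = algebraMap _ K p' ∧
          (p' : MvPowerSeries V L) = MvPowerSeries.rescale (fun v => t ^ wt v) p := by
      intro p
      induction p using MvPolynomial.induction_on with
      | C c =>
        refine ⟨MvPolynomial.C c, ?_, ?_⟩
        · rw [← MvPolynomial.algebraMap_eq, ← IsScalarTower.algebraMap_apply, ψ.commutes]
        · rw [MvPolynomial.coe_C]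
          exact ((MvPowerSeries.rescaleAlgHom fun v => t ^ wt v).commutes c).symm.trans
            (MvPowerSeries.rescaleAlgHom_apply _ _)
      | add p q hp hq =>
        obtain ⟨p', a, b⟩ := hp
        obtain ⟨q', c, d⟩ := hq
        exact ⟨p' + q', by rw [map_add, map_add, map_add, a, c],
          by rw [MvPolynomial.coe_add, MvPolynomial.coe_add, map_add, b, d]⟩
      | mul_X p v hp =>
        obtain ⟨p', a, b⟩ := hp
        refine ⟨p' * t ^ wt v • MvPolynomial.X v, ?_, ?_⟩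
        · rw [map_mul, map_mul, map_mul, a, h, Algebra.smul_def, Algebra.smul_def, map_mul,
            ← IsScalarTower.algebraMap_apply]
        · rw [MvPolynomial.coe_mul, MvPolynomial.coe_mul, map_mul, b, MvPolynomial.coe_smul,
            MvPolynomial.coe_X, tay_rescale]
    obtain ⟨p, q, hq, e⟩ := id hf
    obtain ⟨p', a, b⟩ := hs p
    obtain ⟨q', c, d⟩ := hs q
    have hq' : MvPolynomial.constantCoeff q' ≠ 0 := by
      rw [← tay_cc, d, ← MvPowerSeries.coeff_zero_eq_constantCoeff_apply,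
        MvPowerSeries.coeff_rescale, Finsupp.prod_zero_index, one_mul,
        MvPowerSeries.coeff_zero_eq_constantCoeff_apply, tay_cc]
      exact hq
    have e' : ψ f * algebraMap _ K q' = algebraMap _ K p' := by rw [← a, ← c, ← e, map_mul]
    have hO : ψ f ∈ tayO L V K := ⟨p', q', hq', e'⟩
    have hne : (q' : MvPowerSeries V L) ≠ 0 := fun h0 => hq' (by rw [← tay_cc, h0, map_zero])
    have e2 : Ty (ψ f) = MvPowerSeries.rescale (fun v => t ^ wt v) (Ty f) :=
      mul_right_cancel₀ hne (by rw [hpq hO e', b, d, ← map_mul, hpq hf e])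
    exact ⟨hO, fun μ => by rw [hty, hty, e2, MvPowerSeries.coeff_rescale, tay_prod]⟩

theorem exists_tay (L : Type u) [Field L] (V : Type) [Fintype V] (wt : V → ℕ)
    (hwt : ∀ v, 0 < wt v) :
    ∃ T : Tay L (FractionRing (MvPolynomial V L)) V, T.wt = wt ∧
      (∀ p : MvPolynomial V L, algebraMap _ (FractionRing (MvPolynomial V L)) p ∈ T.O ∧
        ∀ μ, T.ty (algebraMap _ (FractionRing (MvPolynomial V L)) p) μ = p.coeff μ) ∧
      (∀ f ∈ T.O, T.ty f 0 ≠ 0 → f⁻¹ ∈ T.O) ∧
      (∀ (σ : L →+* L) (ψ : FractionRing (MvPolynomial V L) →+* FractionRing (MvPolynomial V L)),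
        (∀ x, ψ (algebraMap L _ x) = algebraMap L _ (σ x)) →
        (∀ v, ψ (algebraMap (MvPolynomial V L) _ (MvPolynomial.X v)) ∈ T.Fil (wt v)) →
        (∀ m, ∀ f ∈ T.Fil m, ψ f ∈ T.Fil m) ∧ ∀ f ∈ T.O, T.ty (ψ f) 0 = σ (T.ty f 0)) ∧
      ∀ (ψ : FractionRing (MvPolynomial V L) →ₐ[L] FractionRing (MvPolynomial V L)) (t : L),
        (∀ v, ψ (algebraMap (MvPolynomial V L) _ (MvPolynomial.X v)) =
          t ^ wt v • algebraMap (MvPolynomial V L) _ (MvPolynomial.X v)) →
        ∀ f ∈ T.O, ψ f ∈ T.O ∧ ∀ μ, T.ty (ψ f) μ = t ^ Finsupp.weight wt μ * T.ty f μ :=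
  exists_tay_gen L V _ wt hwt

end Vale.Agent.P200.G
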