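import Vale.Agent.P200.G.Raw2
import Vale.Agent.P200.G.Tay
import Vale.Agent.P200.G.Loc1

/-! The local data at the cyclic point. -/

open Finset Polynomial Matrix

namespace Vale.Agent.P200.G

open Vale.Agent.P200.Eq

universe u

variable {A : ℕ} [NeZero A] {F L : Type u} [Field F] [Field L] [Algebra F L] {Z : Cyc F L A}

private theorem pl_wt_pos (v : Vr A) : 0 < wtV v := by
  unfold wtV
  split_ifs with h
  · exact Nat.pos_of_ne_zero (NeZero.ne A)
  · have : v.1.2.1 < v.1.2.2 := lt_of_le_of_ne v.2.2 h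
    exact Nat.sub_pos_of_lt this

omit [NeZero A] in
private theorem pl_wt_le (v : Vr A) : wtV v ≤ A := by
  unfold wtV
  split_ifs with h
  · exact le_rfl
  · exact (Nat.sub_le _ _).trans v.1.2.2.2.le

private theorem pl_scale {ϑ ϑ' : Ix A → Lˣ} {θ : Kh A L ≃ₐ[L] Kh A L} (h : IsTor ϑ θ) (c : Lˣ)
    (hc : ∀ x, ϑ' x = c * ϑ x) : IsTor ϑ' θ := by
  unfold IsTor at h ⊢
  rw [h]
  funext j
  ext i c'
  simp only [tor, Matrix.of_apply, hc, mul_inv, Units.val_mul, map_mul]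
  have h1 : algebraMap L (Kh A L) ((c⁻¹ : Lˣ) : L) * algebraMap L (Kh A L) (c : L) = 1 := by
    rw [← map_mul, Units.inv_mul, map_one]
  linear_combination (-(algebraMap L (Kh A L) (((ϑ (j, i))⁻¹ : Lˣ) : L) * Phig A L j i c' *
    algebraMap L (Kh A L) (ϑ (c', 0) : L))) * h1

private theorem pl_tor_apply {ϑ : Ix A → Lˣ} {θ : Kh A L ≃ₐ[L] Kh A L} (h : IsTor ϑ θ)
    (j i c : Fin A) :
    θ (Phig A L j i c) = (((ϑ (j, i))⁻¹ * ϑ (c, 0) : Lˣ) : L) • Phig A L j i c := by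
  have := congrFun (congrFun (congrFun h j) i) c
  simp only [tor, Matrix.of_apply, Fl.map, Matrix.map_apply] at this
  rw [this, Algebra.smul_def, Units.val_mul, map_mul]
  ring

private theorem pl_pow {ϑ : Ix A → Lˣ} {θ : Kh A L ≃ₐ[L] Kh A L} (h : IsTor ϑ θ)
    (hϑ : ∀ x, ϑ x ^ A = 1) : θ ^ A = 1 := by
  have h1 : ∀ (m : ℕ) j i c, (θ ^ m) (Phig A L j i c) =
      ((((ϑ (j, i))⁻¹ * ϑ (c, 0)) ^ m : Lˣ) : L) • Phig A L j i c := by
    intro m j i c
    induction m with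
    | zero => simp
    | succ m ih =>
      rw [pow_succ, AlgEquiv.mul_apply, pl_tor_apply h, map_smul, ih, smul_smul, pow_succ',
        Units.val_mul (_ * _)]
  have h2 : ((θ ^ A : Kh A L ≃ₐ[L] Kh A L) : Kh A L →+* Kh A L) = RingHom.id _ := by
    refine kh_ext (fun x => (θ ^ A).commutes x) ?_
    funext j
    ext i c
    simp only [Fl.map, Matrix.map_apply, RingHom.coe_coe, RingHom.id_apply]
    rw [h1, mul_pow, inv_pow, hϑ, hϑ]
    simp
  ext f
  exact RingHom.congr_fun h2 f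

private theorem pl_X {z : Lˣ} (hz : z ^ A = 1) {θ : Kh A L ≃ₐ[L] Kh A L}
    (h : IsTor (fun x => z ^ (x.1 + x.2).val) θ) (v : Vr A) :
    θ (Xg L v) = (z : L) ^ wtV v • Xg L v := by
  have h1 := pl_tor_apply h v.1.1 v.1.2.1 (v.1.1 + v.1.2.2)
  simp only [add_zero] at h1
  rw [pow_val_add hz, pow_val_add hz, Phig_apply] at h1
  unfold wtV
  split_ifs with hv
  · rw [if_pos hv, hv, inv_mul_cancel, Units.val_one, one_smul, map_add, map_one] at h1
    rw [← Units.val_pow_eq_pow_val, hz, Units.val_one, one_smul]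
    exact add_left_cancel h1
  · rw [if_neg hv, zero_add] at h1
    rw [h1, ← Units.val_pow_eq_pow_val]
    congr 2
    have h2 : v.1.2.1.val ≤ v.1.2.2.val := v.2.2
    rw [pow_sub z h2, mul_inv, mul_mul_mul_comm, inv_mul_cancel, one_mul, mul_comm]

private theorem pl_weight {V : Type} {wt : V → ℕ} (hwt : ∀ v, 0 < wt v) {μ : V →₀ ℕ}
    (h : Finsupp.weight wt μ = 0) : μ = 0 := by
  rw [Finsupp.weight_apply, Finsupp.sum, Finset.sum_eq_zero_iff] at h
  ext v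
  by_contra hv
  have := h v (Finsupp.mem_support_iff.2 hv)
  rw [smul_eq_mul, Nat.mul_eq_zero] at this
  exact this.elim hv (hwt v).ne'

private theorem pl_s (R : Raw Z) (v : Vr A) :
    R.s (Xg L v) = Xg L ⟨(v.1.1 + 1, v.1.2), v.2⟩ := by
  have h1 := R.s_Φ v.1.1 v.1.2.1 (v.1.1 + v.1.2.2)
  have h2 := Phig_apply (L := L) (⟨(v.1.1 + 1, v.1.2), v.2⟩ : Vr A)
  rw [Phig_apply, add_right_comm, map_add] at h1
  rw [h2] at h1
  refine add_left_cancel (Eq.trans ?_ h1)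
  congr 1
  split_ifs <;> simp

section tay

variable (T : Tay L (Kh A L) (Vr A))
  (hp : ∀ p : MvPolynomial (Vr A) L, algebraMap _ (Kh A L) p ∈ T.O ∧
    ∀ μ, T.ty (algebraMap _ (Kh A L) p) μ = p.coeff μ)

private noncomputable def pl_eps : T.O →+* L where
  toFun f := T.ty f 0
  map_one' := T.ty_one
  map_mul' f g := T.ty_mul_zero _ f.2 _ g.2
  map_zero' := by simp
  map_add' f g := by simp

include hp

omit [NeZero A] in
private theorem pl_XFil (hw : T.wt = wtV) (v : Vr A) : Xg L v ∈ T.Fil (wtV v) := by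
  classical
  refine (T.mem_Fil _ _).2 ⟨(hp _).1, fun μ hμ => ?_⟩
  rw [Xg, (hp _).2, MvPolynomial.coeff_X, if_neg]
  rintro rfl
  rw [Finsupp.weight_single, hw, one_smul] at hμ
  exact lt_irrefl _ hμ

private theorem pl_rho (hi : ∀ f ∈ T.O, T.ty f 0 ≠ 0 → f⁻¹ ∈ T.O) (R : Raw Z) (j i c : Fin A) :
    R.ρ 1 (Phig A L j i c) ∈ T.O ∧
      T.ty (R.ρ 1 (Phig A L j i c)) 0 = if c = j + i then 1 else 0 := by
  have ha : ∀ x : L, pl_eps T (algebraMap L T.O x) = x := fun x => by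
    change T.ty (algebraMap L (Kh A L) x) 0 = x
    rw [Algebra.algebraMap_eq_smul_one, map_smul, Pi.smul_apply, T.ty_one, smul_eq_mul, mul_one]
  obtain ⟨B, Φ', h1, h2, h3⟩ := rel_one_local (A := A) (T.O.val : T.O →+* Kh A L) (pl_eps T)
    (fun x hx => by
      have h0 : (x : Kh A L) ≠ 0 := fun h => hx (by
        change T.ty (x : Kh A L) 0 = 0
        rw [h, map_zero, Pi.zero_apply])
      exact IsUnit.of_mul_eq_one ⟨_, hi _ x.2 hx⟩ (Subtype.ext (mul_inv_cancel₀ h0)))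
    (fun j => algebraMap L T.O (Z.pt j)) (by simpa only [ha] using Z.pt_inj)
    (fun j => Matrix.of fun i c => ⟨Phig A L j i c, (hp _).1⟩)
    (fun j c => Subtype.ext (by
      rw [Matrix.of_apply, apply_ite Subtype.val]
      exact ((nf_Phig (L := L)) j).1 c))
    (by
      funext j
      ext i c
      change T.ty (algebraMap _ (Kh A L) (Phip A L j i c)) 0 = if c = j + i then 1 else 0
      rw [(hp _).2, Phip, Matrix.of_apply, MvPolynomial.coeff_add]
      split_ifs <;> simp)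
  have hd : ∑ j, (1 : Fin A → ℕ) j = A * 1 := by simp
  have h4 := (Rel.unique Z.ph_inj (R.rel 1 1 hd) h3 (nf_Phig.det_ne)
    (nf_Phig.map (R.ρ fun j => ((1 : Fin A → ℕ) j : ℤ) : Kh A L →+* Kh A L)) h2 hd).2
  have h5 : R.ρ 1 (Phig A L j i c) = (Φ' j i c : Kh A L) :=
    congrFun (congrFun (congrFun h4 j) i) c
  rw [h5]
  exact ⟨(Φ' j i c).2, congrFun (congrFun (congrFun h1 j) i) c⟩

end tay

theorem Raw.exists_local (R : Raw Z) :
    ∃ (T : Tay L (Kh A L) (Vr A)) (θ : Kh A L ≃ₐ[L] Kh A L),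
      (∀ m, ∀ f ∈ T.Fil m, R.ρ 1 f ∈ T.Fil m) ∧ (∀ f ∈ T.O, T.ty (R.ρ 1 f) 0 = T.ty f 0) ∧
      (∀ m, ∀ f ∈ T.Fil m, R.s f ∈ T.Fil m) ∧ (∀ f ∈ T.O, T.ty (R.s f) 0 = Z.σ (T.ty f 0)) ∧
      θ ^ A = 1 ∧ (∀ f, θ (R.ρ 1 f) = R.ρ 1 (θ f)) ∧ (∀ f, θ (R.s f) = R.s (θ f)) ∧
      (∀ f ∈ T.O, θ f ∈ T.O) ∧
      (∀ f ∈ T.O, ∀ μ, T.ty (θ f) μ = Z.ζ ^ Finsupp.weight T.wt μ • T.ty f μ) ∧
      ∀ x y, ∀ f ∈ Wt L x y, Z.ζ ^ (x.1 + x.2).val • θ f = Z.ζ ^ (y.1 + y.2).val • f := by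
  obtain ⟨T, hw, hp, hi, hψ, hθ⟩ := exists_tay L (Vr A) wtV pl_wt_pos
  have hζ : IsPrimitiveRoot (algebraMap F L Z.ζ) A :=
    Z.hζ.map_of_injective (algebraMap F L).injective
  obtain ⟨z, hz⟩ := hζ.isUnit (NeZero.ne A)
  have hzA : z ^ A = 1 := Units.ext (by rw [Units.val_pow_eq_pow_val, hz, hζ.pow_eq_one]; rfl)
  have hz1 : z ^ (1 : Fin A).val = z := by
    have := Z.hA
    rw [Fin.val_one', Nat.mod_eq_of_lt (by omega), pow_one]
  obtain ⟨θ, hT⟩ := exists_tor (L := L) (fun x : Ix A => z ^ (x.1 + x.2).val)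
  have hX := pl_X hzA hT
  have hθ' := hθ (θ : Kh A L →ₐ[L] Kh A L) z hX
  have hρθ : ∀ f, θ (R.ρ 1 f) = R.ρ 1 (θ f) := fun f =>
    R.tor_ρ (by simp) hT (pl_scale hT z fun x => by
      simp only [ixs, Pi.one_apply, one_smul]
      rw [← add_assoc, pow_val_add hzA, hz1, mul_comm]) f
  have hρ := hψ (RingHom.id L) (R.ρ 1 : Kh A L →+* Kh A L) (fun x => (R.ρ 1).commutes x) fun v => by
    obtain ⟨h1, h2⟩ := pl_rho T hp hi R v.1.1 v.1.2.1 (v.1.1 + v.1.2.2)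
    rw [Phig_apply, map_add] at h1 h2
    have h3 : R.ρ 1 (if v.1.2.1 = v.1.2.2 then 1 else 0) ∈ T.O := by
      split_ifs
      · rw [map_one]; exact one_mem _
      · rw [map_zero]; exact zero_mem _
    have h4 : R.ρ 1 (Xg L v) ∈ T.O := by simpa using sub_mem h1 h3
    have h5 : T.ty (R.ρ 1 (Xg L v)) 0 = 0 := by
      rw [map_add, Pi.add_apply] at h2
      by_cases hv : v.1.2.1 = v.1.2.2
      · rw [if_pos hv, if_pos (by rw [hv]), map_one, T.ty_one] at h2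
        simpa using h2
      · rw [if_neg hv, if_neg (fun h => hv (add_left_cancel h).symm), map_zero, map_zero] at h2
        simpa using h2
    refine (T.mem_Fil _ _).2 ⟨h4, fun μ hμ => ?_⟩
    by_contra hne
    have h6 := (hθ' _ h4).2 μ
    change T.ty (θ (R.ρ 1 (Xg L v))) μ = _ at h6
    rw [hρθ, hX, map_smul, map_smul, Pi.smul_apply, smul_eq_mul] at h6
    have h7 := mul_right_cancel₀ hne h6
    rw [hw] at hμ
    have h8 : Finsupp.weight wtV μ ≠ 0 := fun h => hne (by rw [pl_weight pl_wt_pos h]; exact h5)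
    rw [hz, ← Nat.sub_add_cancel hμ.le, pow_add,
      mul_eq_right₀ (pow_ne_zero _ (hz ▸ z.ne_zero))] at h7
    have := pl_wt_le v
    exact hζ.pow_ne_one_of_pos_of_lt (by omega) (by omega) h7
  have hs := hψ (Z.σ : L →+* L) (R.s : Kh A L →+* Kh A L) R.s_L fun v => by
    change R.s (Xg L v) ∈ _
    rw [pl_s]
    exact pl_XFil T hp hw ⟨(v.1.1 + 1, v.1.2), v.2⟩
  refine ⟨T, θ, hρ.1, hρ.2, hs.1, hs.2, pl_pow hT fun x => ?_, hρθ, fun f => ?_,
    fun f hf => (hθ' f hf).1, fun f hf μ => ?_, fun x y f hf => ?_⟩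
  · rw [← pow_mul, mul_comm, pow_mul, hzA, one_pow]
  · refine (R.tor_s (pl_scale (ϑ' := fun x => z * z ^ (x.1 + x.2).val) hT z fun _ => rfl) hT
      (fun j i => ?_) f).symm
    simp only
    rw [add_right_comm, pow_val_add hzA, hz1, mul_comm, Units.val_mul, Units.val_pow_eq_pow_val,
      hz, map_mul, map_pow, AlgEquiv.commutes]
  · rw [hw, Algebra.smul_def, map_pow, ← hz]
    exact (hθ' f hf).2 μ
  · have := hf _ θ hT
    simp only [Units.val_pow_eq_pow_val, hz, ← map_pow, algebraMap_smul] at this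
    exact this

end Vale.Agent.P200.G
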