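import Vale.Agent.P200.G.StB
import Vale.Agent.P200.Eq.Step

/-! Definitions for the plain step: pencils, multilinear block polynomials, models. -/

open MvPolynomial Finset

namespace Vale.Agent.P200.G

open Vale.Agent.P200.Eq

universe u

/-- at most `b` indices have the property `P` -/
def Few {M : ℕ} (b : ℕ) (P : Fin M → Prop) : Prop :=
  ∀ S : Finset (Fin M), (∀ s ∈ S, P s) → S.card ≤ b

/-- a binary monomial evaluated at a pencil of linear forms -/
noncomputable def pen {A : Type*} [CommRing A] {N : ℕ} (P : Fin 2 → Fin N → A)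
    (β : Fin 2 →₀ ℕ) : MvPolynomial (Fin N) A :=
  ∏ ε, (∑ x, C (P ε x) * X x) ^ β ε

/-- the restriction of a functional to a pencil -/
noncomputable def res {A : Type*} [CommRing A] {N : ℕ} (R : (Fin N →₀ ℕ) → A)
    (P : Fin 2 → Fin N → A) (β : Fin 2 →₀ ℕ) : A :=
  fn R (pen P β)

variable {M a n : ℕ} [NeZero a]

/-- multilinear block polynomials -/
noncomputable def psi {A : Type*} [Semiring A] (R : Fin M → (ZMod a → Fin n) → A) :
    Alg A (Var M a n) :=
  ∑ s, ∑ f, AddMonoidAlgebra.single (mon s f) (R s f)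

/-- symmetric coefficient functions -/
noncomputable def up (a : ℕ) [NeZero a] {A : Type*} (R : Fin M → (Fin n →₀ ℕ) → A) :
    Fin M → (ZMod a → Fin n) → A :=
  fun s f => R s (bet f)

variable {K : Type u} [Field K]

/-- the span of `T` contains a triangular system of length `p` -/
def Tri (p : ℕ) (T : Set (Fin M → (ZMod a → Fin n) → K)) : Prop :=
  ∃ (b : Fin p → Fin M) (f : Fin p → ZMod a → Fin n) (R : Fin p → Fin M → (ZMod a → Fin n) → K),
    Function.Injective b ∧ (∀ j, R j ∈ Submodule.span K T) ∧ (∀ j, R j (b j) (f j) ≠ 0) ∧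
      ∀ j j', j' < j → R j (b j') (f j') = 0

/-- the cyclic matrices -/
noncomputable def Vm (ζ : K) (s : Fin M) (ε : Fin 2) :
    Matrix (Gp M a) (Gp M a) (MvPolynomial (Var M a 2) K) :=
  ymat ζ s fun k => X (s, k, ε)

/-- indicator word -/
def indw (m : ZMod a) : ZMod a → Fin 2 := fun k => if k = m then 1 else 0

/-- coefficients of the Lagrange resolvents -/
noncomputable def rsv (ζ : K) (s : Fin M) (i : ZMod a) : Fin M → (ZMod a → Fin 2) → K :=
  fun t f => if t = s then ∑ m, if f = indw m then chi ζ (-(i * m)) else 0 else 0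

/-- the Lagrange resolvents -/
noncomputable def Gm (ζ : K) (s : Fin M) (i : ZMod a) :
    Matrix (Gp M a) (Gp M a) (MvPolynomial (Var M a 2) K) :=
  Matrix.diagonal fun g => C (chi ζ (i * g s)) * (psi (rsv ζ s i) : MvPolynomial (Var M a 2) K)

/-- the image of the universal matrices in a division ring -/
structure Mdl (K D : Type u) [Field K] [DivisionRing D] [Algebra K D] (ζ : K) (a M : ℕ)
    [NeZero a] where
  v : Fin M → D
  u : Fin M → D
  Γ : Fin M → ZMod a → D
  T : (Fin M → (Fin 2 →₀ ℕ) → K) →ₗ[K] D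
  T_cen : ∀ R y, Commute (T R) y
  T_zero : ∀ R, (∀ s β, β.degree = a → R s β = 0) → T R = 0
  pow : ∀ s (ξ : Fin 2 → K), (ξ 0 • v s + ξ 1 • u s) ^ a =
    T fun t β => if t = s then ∏ ε, ξ ε ^ β ε else 0
  v0 : ∀ s, v s ≠ 0
  Γ0 : ∀ s, Γ s 1 ≠ 0
  vv : ∀ s t, s < t → v s * v t = ζ • (v t * v s)
  vΓ : ∀ s i, v s * Γ s i = chi ζ i • (Γ s i * v s)
  vΓ' : ∀ s t, s ≠ t → Commute (v s) (Γ t 1)
  ΓΓ : ∀ s t, Commute (Γ s 1) (Γ t 1)
  Γpow : ∀ s y, Commute (Γ s 1 ^ a) y
  Γsum : ∀ s, ∑ i, Γ s i = (a : K) • (u s * v s ^ (a - 1))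
  Γcen : ∀ s i y, Commute ((Γ s 1 ^ i.val)⁻¹ * Γ s i) y

end Vale.Agent.P200.G
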