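import Vale.Agent.P200.G.PlTr

/-! Divisibility of multiplicities. -/

open MvPolynomial Finset Matrix

namespace Vale.Agent.P200.G

open Vale.Agent.P200.Eq

universe u

variable {M a n : ℕ} [NeZero a]

theorem pldiv_moment {Γ : Type*} [AddCommGroup Γ] (dg : Γ →+ ℤ) {M a r : ℕ} [NeZero a]
    (f : Fin M → ZMod a → Γ →+ ℤ) (k α k' : ZG Γ) (z : Γ) (hz : dg z = -a)
    (hfz : ∀ s t, f s t z = 0) (hk : k = α * (1 - q z) ^ r + k')
    (hk' : k' ∈ augI Γ ^ (r + 1 + M))
    (hsum : ∀ s γ, k.coeff γ ≠ 0 → ∑ t, f s t γ = 1) (θ : Fin M → Γ ≃ Γ)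
    (h1 : ∀ s γ, k.coeff (θ s γ) = k.coeff γ) (h2 : ∀ s γ, dg (θ s γ) = dg γ)
    (h3 : ∀ s t γ, f s (t + 1) (θ s γ) = f s t γ)
    (h4 : ∀ s s' t γ, s' ≠ s → f s' t (θ s γ) = f s' t γ) :
    ((a : ℤ) ^ (M + r)) ∣ PowerSeries.coeff r (piS dg k) := by
  let w : (Fin M → ZMod a) → Γ → ℤ := fun t => ∏ s, ⇑(f s (t s))
  have hw : ∀ t γ, w t γ = ∏ s, f s (t s) γ := fun t γ => Finset.prod_apply γ _ _
  have e1 : k = ∑ t, momW (w t) k := by
    refine AddMonoidAlgebra.ext (Finsupp.ext fun γ => ?_)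
    rw [AddMonoidAlgebra.coeff_sum, Finsupp.finsetSum_apply]
    simp only [momW_coeff, hw]
    rw [← sum_mul]
    by_cases h : k.coeff γ = 0
    · rw [h, mul_zero]
    · have h5 := Finset.prod_univ_sum (fun _ : Fin M => (univ : Finset (ZMod a)))
        fun s t => f s t γ
      rw [Fintype.piFinset_univ] at h5
      rw [← h5, prod_congr rfl fun s _ => hsum s γ h, prod_const_one, one_mul]
  have e2 : ∀ t, piS dg (momW (w t) k) = piS dg (momW (w 0) k) := by
    refine mom_const (fun t => piS dg (momW (w t) k)) fun t s =>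
      mom_reindex dg (θ s) (h2 s) fun γ => ?_
    rw [momW_coeff, momW_coeff, h1, hw, hw]
    refine congrArg (· * _) (prod_congr rfl fun s' _ => ?_)
    rcases eq_or_ne s' s with rfl | hs
    · rw [Function.update_self, h3]
    · rw [Function.update_of_ne hs, h4 s s' _ γ hs]
  have e3 : (a : ℤ) ^ r ∣ PowerSeries.coeff r (piS dg (momW (w 0) k)) := by
    have h5 : PowerSeries.X ^ (r + 1) ∣ piS dg (momW (w 0) k') :=
      mom_aug dg (r + 1) (momW_prod_mem_pow (fun s => f s 0) _ univ (r + 1) k' (by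
        rwa [card_univ, Fintype.card_fin]))
    obtain ⟨G, hG, hG'⟩ := mom_one_sub dg z
    rw [hk, momW_add, momW_mul_pow _ z fun γ => by simp [hw, hfz], map_add, map_add,
      PowerSeries.X_pow_dvd_iff.1 h5 r r.lt_succ_self, add_zero, map_mul, map_pow, hG, mul_pow, mul_left_comm,
      PowerSeries.coeff_X_pow_mul', if_pos le_rfl, Nat.sub_self,
      PowerSeries.coeff_zero_eq_constantCoeff, map_mul, map_pow, hG', hz]
    exact Dvd.dvd.mul_left (pow_dvd_pow_of_dvd (dvd_neg.2 dvd_rfl) r) _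
  rw [e1, map_sum, sum_congr rfl fun t _ => e2 t, sum_const, card_univ, Fintype.card_fun,
    ZMod.card, Fintype.card_fin, map_nsmul, nsmul_eq_mul, Nat.cast_pow, pow_add]
  exact mul_dvd_mul_left _ e3

theorem pldiv_sum {K : Type*} [Field K] {r : ℕ} (lam : Fin r → Fin M → (Fin n →₀ ℕ) → K) :
    ∑ y ∈ univ.filter (fun y : Var M a n => y.2.1 = 0),
      X (Sum.inl y) * bB (fun j => lam j y.1) y =
      ∑ j, X (Sum.inr j) * rename Sum.inl (psi (up a (lam j)) : MvPolynomial (Var M a n) K) := by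
  have h1 : ∑ y ∈ univ.filter (fun y : Var M a n => y.2.1 = 0),
      X (Sum.inl y) * bB (fun j => lam j y.1) y =
      ∑ s : Fin M, ∑ i, X (Sum.inl (s, 0, i)) * bB (fun j => lam j s) ((s, 0, i) : Var M a n) := by
    rw [Finset.sum_filter, Fintype.sum_prod_type]
    refine Finset.sum_congr rfl fun s _ => ?_
    rw [Fintype.sum_prod_type, Finset.sum_eq_single (0 : ZMod a)]
    · simp
    · intro k _ hk
      simp [hk]
    · simp
  have h2 : ∀ j, rename Sum.inl (psi (up a (lam j)) : MvPolynomial (Var M a n) K) =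
      ∑ s : Fin M, ∑ f : ZMod a → Fin n, C (lam j s (bet f)) *
        ∏ k, (X (Sum.inl (s, k, f k)) : MvPolynomial (Var M a n ⊕ Fin r) K) := by
    intro j
    unfold psi up
    rw [map_sum]
    refine Finset.sum_congr rfl fun s _ => ?_
    rw [map_sum]
    refine Finset.sum_congr rfl fun f _ => ?_
    rw [single_eq_monomial, mon, monomial_sum_index, map_mul, rename_C, map_prod]
    exact congrArg _ (Finset.prod_congr rfl fun k _ => rename_X _ _)
  simp only [h1, h2, bhom_block, Finset.mul_sum]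
  rw [Finset.sum_comm (s := (univ : Finset (Fin r)))]
  refine Finset.sum_congr rfl fun s _ => ?_
  rw [Finset.sum_comm]
  refine Finset.sum_congr rfl fun j _ => Finset.sum_congr rfl fun f _ => ?_
  ring

theorem div_block' {K E : Type u} [Field K] [DivisionRing E] [Algebra K E] {r b : ℕ}
    (hn : 2 ≤ n * (a - 1)) (hr : r + 2 * b < M) (lam : Fin r → Fin M → (Fin n →₀ ℕ) → K)
    (hlam : ∀ (F : Type u) [Field F] [Algebra K F] (c : Fin r → F), c ≠ 0 →
      Few b fun s => Rk1 (fun β => ∑ j, c j * algebraMap K F (lam j s β)) (a - 1))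
    (G : Gr (Gp M a) (Var M a n) (Gam M a)) (hw : G.w = wB) (hwt : G.wt = wtB)
    {U1 U0 : Submodule (Alg E (Var M a n)) (Gp M a → Alg E (Var M a n))} (h1 : G.Graded U1)
    (h0 : G.Graded U0) (hle : U0 ≤ U1)
    (hφ : ∀ j, ∀ u ∈ U1, inc K E (Var M a n) (psi (up a (lam j))) • u ∈ U0)
    (hS : ∀ s, ∃ S : (Gp M a → Alg E (Var M a n)) ≃ₗ[E] (Gp M a → Alg E (Var M a n)),
      (∀ γ v, v ∈ G.piece E γ ↔ S v ∈ G.piece E (thB s γ)) ∧ (∀ v, v ∈ U1 ↔ S v ∈ U1) ∧
        ∀ v, v ∈ U0 ↔ S v ∈ U0)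
    {k : ZG (Gam M a)} (hk : G.IsK U1 U0 k) :
    (a : ℤ) ^ (M + r) ∣ PowerSeries.coeff r (piS (dgB M a) k) := by
  classical
  have ha : 0 < a := Nat.pos_of_ne_zero (NeZero.ne a)
  have hcardT : Fintype.card {k : ZMod a // k ≠ 0} = a - 1 := by
    rw [Fintype.card_subtype_compl, ZMod.card, Fintype.card_unique]
  let Υ : Finset (Var M a n) := univ.filter fun y => y.2.1 = 0
  have hΥ : Υ.card = M * n := by
    have : Υ = univ.map ⟨fun p : Fin M × Fin n => ((p.1, 0, p.2) : Var M a n), fun p p' h => by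
        simp only [Prod.mk.injEq] at h
        exact Prod.ext h.1 h.2.2⟩ := by
      ext ⟨s, k, i⟩
      simp only [Υ, mem_filter, mem_univ, true_and, mem_map, Prod.exists]
      constructor
      · rintro rfl
        exact ⟨s, i, rfl⟩
      · rintro ⟨_, _, h⟩
        exact (congrArg (fun y : Var M a n => y.2.1) h).symm
    rw [this, card_map, card_univ, Fintype.card_prod, Fintype.card_fin, Fintype.card_fin]
  have hcardV : Fintype.card (Var M a n) = M * n + M * (n * (a - 1)) := by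
    simp only [Fintype.card_prod, Fintype.card_fin, ZMod.card]
    obtain ⟨a', rfl⟩ : ∃ a', a = a' + 1 := ⟨a - 1, by omega⟩
    simp only [Nat.add_sub_cancel]
    ring
  have hdec : ∃ α k', k = α * (1 - q (-dB M a a)) ^ r + k' ∧
      k' ∈ augI (Gam M a) ^ (r + 1 + M) := by
    have h3 : 2 * M ≤ M * (n * (a - 1)) := by
      rw [mul_comm 2 M]
      exact Nat.mul_le_mul_left M hn
    refine core (K := K) G (dgB M a + (a : ℤ) • hB M a) (hB M a) (0, 0, 1) (dB M a a) rfl rfl
      (fun i => by rw [hw]; rfl) (fun v => by rw [hwt]; rfl) (fun v => ?_) ?_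
      (fun j => psi (up a (lam j))) Υ (fun y => bB (fun j => lam j y.1) y) ?_ (pldiv_sum lam)
      (r + M * (n * (a - 1)) + 2 * b - 2 * M) (r + 1 + M) (by rw [hΥ, hcardV]; omega) ?_ h1 h0 hle
      hφ hk
    · rw [hwt]
      simp [dgB, hB, wtB]
    · simp [dgB, hB, dB]
      omega
    · rintro ⟨s, t, i⟩ hy
      have ht : t = 0 := by simpa [Υ] using hy
      subst ht
      have := bB_hom (fun j => lam j s) s i (2 • ((0, 0, 1) : Gam M a) - dB M a a)
      rw [sub_add_cancel] at this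
      rw [hwt]
      exact this
    · intro σ hσ hcard j
      obtain ⟨g, m, hg, hg', hm⟩ := exists_mem_span' (b := b) (T := {k : ZMod a // k ≠ 0}) lam
        (by rw [hcardT]; exact hlam) (fun s t i => (Sum.inl (s, t.1, i) : Var M a n ⊕ Fin r))
        Sum.inr σ (by
          rintro (⟨s, t, i⟩ | j) hv
          · by_cases ht : t = 0
            · subst ht
              exact absurd hv (hσ _ (by simp [Υ]))
            · exact Or.inl ⟨s, ⟨t, ht⟩, i, rfl⟩
          · exact Or.inr ⟨j, rfl⟩) (by rw [hcardT]; omega) j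
      refine ⟨g, m, hg, hg', Ideal.span_mono ?_ hm⟩
      rintro _ ⟨⟨s, i⟩, rfl⟩
      exact ⟨(s, 0, i), by simp [Υ], rfl⟩
  obtain ⟨α, k', hk1, hk2⟩ := hdec
  obtain ⟨𝒞, h𝒞, -⟩ := exists_cells G h1 h0 hle
  refine pldiv_moment (dgB M a) fB k α k' (-dB M a a) (by simp [dgB, dB])
    (fun s t => by simp [fB, dB]) hk1 hk2 (fun s γ hγ => ?_) (fun s => (thB s).toEquiv) (fun s γ => ?_) (fun s γ => rfl)
    (fun s t γ => by simp [fB, thB]) (fun s s' t γ h => by simp [fB, thB, h])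
  · rw [hk.unique h𝒞] at hγ
    have := coeff_support G (∑ t, fB s t) (fun g => by
      rw [hw, AddMonoidHom.finsetSum_apply]; exact sum_fB_wB s g) (fun v => by
      rw [hwt, AddMonoidHom.finsetSum_apply]; exact sum_fB_wtB s v) 𝒞 γ hγ
    rwa [AddMonoidHom.finsetSum_apply] at this
  · obtain ⟨S, hS1, hS2, hS3⟩ := hS s
    exact hk.invariant (thB s) (piB s) (fun v => by rw [hwt]; exact thB_wtB s v) S hS1 hS2 hS3 γ

end Vale.Agent.P200.G
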