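import Vale.Agent.P200.G.PlDefs

/-! Points in general position. -/

open MvPolynomial Finset Matrix

namespace Vale.Agent.P200.G

open Vale.Agent.P200.Eq

universe u

theorem kron_inj {σ : Type} [Fintype σ] {k d : ℕ} (e : σ ≃ Fin k) {m m' : σ →₀ ℕ}
    (hm : ∀ x, m x ≤ d) (hm' : ∀ x, m' x ≤ d)
    (h : ∑ x, m x * (d + 1) ^ (e x : ℕ) = ∑ x, m' x * (d + 1) ^ (e x : ℕ)) : m = m' := by
  have key : ∀ (n : σ →₀ ℕ) (hn : ∀ x, n x ≤ d),
      ((finFunctionFinEquiv fun i : Fin k =>
        (⟨n (e.symm i), Nat.lt_succ_of_le (hn _)⟩ : Fin (d + 1))) : ℕ) =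
        ∑ x, n x * (d + 1) ^ (e x : ℕ) := by
    intro n hn
    rw [finFunctionFinEquiv_apply_val, ← e.sum_comp]
    simp
  have h1 := finFunctionFinEquiv.injective (Fin.ext ((key m hm).trans (h.trans (key m' hm').symm)))
  ext x
  have h2 := congrArg Fin.val (congrFun h1 (e x))
  simpa using h2

theorem gp_points (K : Type u) [Field K] [Infinite K] (σ : Type) [Fintype σ] (d : ℕ) :
    ∃ b : ℕ, ∀ M : ℕ, ∃ p : Fin M → σ → K, ∀ (Ω : Type u) [Field Ω] [Algebra K Ω]
      (Q : MvPolynomial σ Ω), Q ≠ 0 → Q.totalDegree ≤ d →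
        Few b fun s => eval (fun x => algebraMap K Ω (p s x)) Q = 0 := by
  classical
  let e := Fintype.equivFin σ
  let t := Infinite.natEmbedding K
  refine ⟨∑ x, d * (d + 1) ^ (e x : ℕ), fun M =>
    ⟨fun s x => t s ^ ((d + 1) ^ (e x : ℕ)), ?_⟩⟩
  intro Ω _ _ Q hQ hd S hS
  let φ : (σ →₀ ℕ) → ℕ := fun m => ∑ x, m x * (d + 1) ^ (e x : ℕ)
  have hle : ∀ m ∈ Q.support, ∀ x, m x ≤ d := fun m hm x =>
    ((monomial_le_degreeOf x hm).trans (degreeOf_le_totalDegree Q x)).trans hd
  let P : Polynomial Ω := ∑ m ∈ Q.support, Polynomial.monomial (φ m) (coeff m Q)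
  have hev : ∀ y : Ω, P.eval y = eval (fun x => y ^ ((d + 1) ^ (e x : ℕ))) Q := by
    intro y
    rw [eval_eq', Polynomial.eval_finsetSum]
    refine Finset.sum_congr rfl fun m _ => ?_
    rw [Polynomial.eval_monomial, ← Finset.prod_pow_eq_pow_sum]
    congr 1
    refine Finset.prod_congr rfl fun x _ => ?_
    rw [← pow_mul, mul_comm]
  have hP : P ≠ 0 := by
    obtain ⟨m0, hm0⟩ := support_nonempty.2 hQ
    intro h0
    have h1 : P.coeff (φ m0) = coeff m0 Q := by
      rw [Polynomial.finsetSum_coeff, Finset.sum_eq_single m0]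
      · simp
      · intro m hm hne
        rw [Polynomial.coeff_monomial, if_neg]
        exact fun h => hne (kron_inj e (hle m hm) (hle m0 hm0) h)
      · exact fun h => absurd hm0 h
    rw [h0, Polynomial.coeff_zero] at h1
    exact mem_support_iff.1 hm0 h1.symm
  have hdeg : P.natDegree ≤ ∑ x, d * (d + 1) ^ (e x : ℕ) := by
    refine Polynomial.natDegree_sum_le_of_forall_le _ _ fun m hm => ?_
    refine (Polynomial.natDegree_monomial_le _).trans ?_
    exact Finset.sum_le_sum fun x _ => Nat.mul_le_mul_right _ (hle m hm x)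
  have hinj : Function.Injective fun s : Fin M => algebraMap K Ω (t s) := fun s s' h =>
    Fin.ext (t.injective ((algebraMap K Ω).injective h))
  rw [← Finset.card_image_of_injective S hinj]
  refine le_trans (Polynomial.card_le_degree_of_subset_roots ?_) hdeg
  intro y hy
  obtain ⟨s, hs, rfl⟩ := Finset.mem_image.1 hy
  rw [Polynomial.mem_roots hP, Polynomial.IsRoot, hev]
  simpa only [map_pow] using hS s hs

end Vale.Agent.P200.G
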