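import Vale.Agent.P200.G.PlDefs

/-! A functional is determined by its restrictions to pencils. -/

open MvPolynomial Finset Matrix

namespace Vale.Agent.P200.G

open Vale.Agent.P200.Eq

universe u

private noncomputable def ppL {Ω : Type u} [Field Ω] {N : ℕ} (p : Fin N → Ω) :
    MvPolynomial (Fin N) Ω := ∑ x, C (p x) * X x

private theorem pp_res {Ω : Type u} [Field Ω] {N : ℕ} (R : (Fin N →₀ ℕ) → Ω)
    (P : Fin 2 → Fin N → Ω) (β : Fin 2 →₀ ℕ) :
    res R P β = fn R (ppL (P 0) ^ β 0 * ppL (P 1) ^ β 1) := by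
  rw [res, pen, Fin.prod_univ_two, ppL, ppL]

private theorem pp_pow {Ω : Type u} [Field Ω] {N : ℕ} (p : Fin N → Ω) (a : ℕ) :
    ppL p ^ a = ∑ γ ∈ finsuppAntidiag univ a,
      monomial γ ((γ.multinomial : Ω) * γ.prod fun r m => p r ^ m) := by
  ext γ
  rw [ppL]
  simp only [← smul_eq_C_mul]
  rw [coeff_linearCombination_X_pow_of_fintype, coeff_sum]
  simp only [coeff_monomial, sum_ite_eq', mem_finsuppAntidiag', subset_univ, and_true]

private theorem pp_zero {Ω : Type u} [Field Ω] [Infinite Ω] {N a : ℕ}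
    (hfac : (a.factorial : Ω) ≠ 0) (R : (Fin N →₀ ℕ) → Ω)
    (h : ∀ p, fn R (ppL p ^ a) = 0) (γ : Fin N →₀ ℕ) (hγ : γ.degree = a) : R γ = 0 := by
  have h1 : (∑ γ ∈ finsuppAntidiag univ a, monomial γ ((γ.multinomial : Ω) * R γ) :
      MvPolynomial (Fin N) Ω) = 0 := by
    refine MvPolynomial.funext fun p => ?_
    rw [map_zero, ← h p, pp_pow, map_sum, map_sum]
    refine sum_congr rfl fun γ _ => ?_
    rw [eval_monomial, fn_monomial]
    ring
  have h2 := congrArg (coeff γ) h1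
  have h3 : γ ∈ finsuppAntidiag univ a := mem_finsuppAntidiag'.2 ⟨hγ, subset_univ _⟩
  rw [coeff_sum, coeff_zero] at h2
  simp only [coeff_monomial, sum_ite_eq', if_pos h3] at h2
  refine (mul_eq_zero.1 h2).resolve_left fun h4 => hfac ?_
  have h5 := Nat.multinomial_spec γ.support γ
  have h6 : ∑ i ∈ γ.support, γ i = a := hγ
  rw [← h6, ← h5, Nat.cast_mul, ← Finsupp.multinomial_eq, h4, mul_zero]

theorem zero_of_pencils {Ω : Type u} [Field Ω] [Infinite Ω] {N a : ℕ}
    (hfac : (a.factorial : Ω) ≠ 0) (R : (Fin N →₀ ℕ) → Ω)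
    (h : ∀ P, res R P (Finsupp.single 0 a) = 0) (γ : Fin N →₀ ℕ) (hγ : γ.degree = a) :
    R γ = 0 := by
  refine pp_zero hfac R (fun p => ?_) γ hγ
  have h1 := h fun _ => p
  rw [pp_res] at h1
  simpa using h1

theorem rk1_of_pencils {Ω : Type u} [Field Ω] [Infinite Ω] {N a : ℕ} (ha : 1 ≤ a)
    (hfac : (a.factorial : Ω) ≠ 0) (R : (Fin N →₀ ℕ) → Ω) (h : ∀ P, Rk1 (res R P) (a - 1)) :
    Rk1 R (a - 1) := by
  obtain ⟨b, rfl⟩ : ∃ b, a = b + 1 := ⟨a - 1, by omega⟩
  rw [Nat.add_sub_cancel] at h ⊢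
  have hd : ∀ (β : Fin N →₀ ℕ) (i : Fin N), β.degree = b →
      (β + Finsupp.single i 1).degree = b + 1 := fun β i hβ => by
    rw [map_add, hβ, Finsupp.degree_single]
  by_cases h0 : ∀ p, fn R (ppL p ^ (b + 1)) = 0
  · intro i j β γ hβ _
    rw [pp_zero hfac R h0 _ (hd β i hβ), pp_zero hfac R h0 _ (hd β j hβ), zero_mul, zero_mul]
  obtain ⟨x, hx⟩ := not_forall.1 h0
  obtain ⟨ρ, hρ⟩ : ∃ ρ, ρ = fn R (ppL x ^ (b + 1)) := ⟨_, rfl⟩
  rw [← hρ] at hx
  obtain ⟨η, hη⟩ : ∃ η : Fin N → Ω, ∀ i, η i = fn R (ppL x ^ b * X i) / ρ := ⟨_, fun _ => rfl⟩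
  have h1 : ∀ y, fn R (ppL x ^ b * ppL y) = ρ * eval η (ppL y) := by
    intro y
    rw [ppL, ppL, mul_sum, map_sum, map_sum, mul_sum]
    refine sum_congr rfl fun i _ => ?_
    rw [mul_left_comm, ← smul_eq_C_mul, map_smul, smul_eq_mul, eval_mul, eval_C, eval_X, hη, ppL]
    field_simp
  have h2 : ∀ y, ∀ k ≤ b + 1,
      fn R (ppL x ^ (b + 1 - k) * ppL y ^ k) = ρ * eval η (ppL y) ^ k := by
    intro y k hk
    induction k with
    | zero => rw [Nat.sub_zero, pow_zero, pow_zero, mul_one, mul_one, hρ]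
    | succ k ih =>
      have h3 := h ![x, y] 0 1 (Finsupp.single 0 (b - k) + Finsupp.single 1 k)
        (Finsupp.single 0 b) (by rw [map_add, Finsupp.degree_single, Finsupp.degree_single]; omega)
        (Finsupp.degree_single _ _)
      simp only [pp_res, Finsupp.add_apply, Finsupp.single_eq_same, Matrix.cons_val_zero,
        Matrix.cons_val_one, Finsupp.single_eq_of_ne (show (0 : Fin 2) ≠ 1 by decide),
        Finsupp.single_eq_of_ne (show (1 : Fin 2) ≠ 0 by decide), add_zero, zero_add, pow_zero,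
        pow_one, mul_one] at h3
      rw [show b - k + 1 = b + 1 - k by omega, ih (by omega), h1, ← hρ] at h3
      rw [show b + 1 - (k + 1) = b - k by omega]
      refine mul_right_cancel₀ hx (h3.symm.trans ?_)
      ring
  have h3 : ∀ q, fn (fun γ => R γ - ρ * eval η (monomial γ 1)) q = fn R q - ρ * eval η q := by
    intro q
    induction q using MvPolynomial.induction_on' with
    | monomial β c =>
      rw [fn_monomial, fn_monomial, eval_monomial, eval_monomial]
      ring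
    | add p q hp hq =>
      rw [map_add, map_add, map_add, hp, hq]
      ring
  have h4 : ∀ γ : Fin N →₀ ℕ, γ.degree = b + 1 → R γ = ρ * eval η (monomial γ 1) := by
    intro γ hγ
    refine sub_eq_zero.1 (pp_zero hfac (fun γ => R γ - ρ * eval η (monomial γ 1)) (fun p => ?_) γ hγ)
    have h5 := h2 p (b + 1) le_rfl
    rw [Nat.sub_self, pow_zero, one_mul] at h5
    rw [h3, h5, map_pow, sub_self]
  intro i j β γ hβ hγ
  rw [h4 _ (hd β i hβ), h4 _ (hd β j hβ), h4 _ (hd γ i hγ), h4 _ (hd γ j hγ)]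
  simp only [monomial_add_single, map_mul, pow_one]
  ring

end Vale.Agent.P200.G
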