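import Vale.Agent.P200.G.PlGP
import Vale.Agent.P200.G.PlPen

/-! Pencils in general position. -/

open MvPolynomial Finset Matrix

namespace Vale.Agent.P200.G

open Vale.Agent.P200.Eq

universe u

theorem pen_hom {A : Type*} [CommRing A] {N : ℕ} (P : Fin 2 → Fin N → A) (β : Fin 2 →₀ ℕ) :
    (pen P β).IsHomogeneous β.degree := by
  rw [Finsupp.degree_eq_sum]
  refine IsHomogeneous.prod _ _ _ fun ε _ => ?_
  simpa using (IsHomogeneous.sum (univ : Finset (Fin N)) (fun x => C (P ε x) * X x) 1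
    fun x _ => isHomogeneous_C_mul_X _ _).pow (β ε)

theorem map_res {A B : Type*} [CommRing A] [CommRing B] {N : ℕ} (ψ : A →+* B)
    (R : (Fin N →₀ ℕ) → A) (P : Fin 2 → Fin N → A) (β : Fin 2 →₀ ℕ) :
    ψ (res R P β) = res (fun γ => ψ (R γ)) (fun ε x => ψ (P ε x)) β := by
  rw [res, map_fn, res]
  simp [pen]

theorem res_sum {A ι : Type*} [CommRing A] {N : ℕ} (s : Finset ι) (c : ι → A)
    (R : ι → (Fin N →₀ ℕ) → A) (P : Fin 2 → Fin N → A) (β : Fin 2 →₀ ℕ) :
    res (fun γ => ∑ j ∈ s, c j * R j γ) P β = ∑ j ∈ s, c j * res (R j) P β := by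
  unfold res
  induction pen P β using MvPolynomial.induction_on' with
  | monomial γ d => simp only [fn_monomial, mul_sum, mul_left_comm]
  | add f g hf hg => simp only [map_add, hf, hg, mul_add, sum_add_distrib]

/-- all coefficients have total degree at most `d` -/
def plgD {A τ : Type*} [CommRing A] {N : ℕ} (d : ℕ)
    (f : MvPolynomial (Fin N) (MvPolynomial τ A)) : Prop := ∀ γ, (f.coeff γ).totalDegree ≤ d

theorem plgD_mul {A τ : Type*} [CommRing A] {N d e : ℕ}
    {f g : MvPolynomial (Fin N) (MvPolynomial τ A)} (hf : plgD d f) (hg : plgD e g) :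
    plgD (d + e) (f * g) := by
  classical
  intro γ
  rw [coeff_mul]
  exact totalDegree_finsetSum_le fun p _ => (totalDegree_mul _ _).trans (add_le_add (hf _) (hg _))

theorem plgD_pow {A τ : Type*} [CommRing A] {N : ℕ}
    {f : MvPolynomial (Fin N) (MvPolynomial τ A)} (hf : plgD 1 f) (k : ℕ) : plgD k (f ^ k) := by
  classical
  induction k with
  | zero =>
    intro γ
    rw [pow_zero, coeff_one]
    split_ifs <;> simp
  | succ k ih =>
    rw [pow_succ]
    exact plgD_mul ih hf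

theorem plg_deg {Ω : Type*} [CommRing Ω] {N : ℕ} (R : (Fin N →₀ ℕ) → Ω) (β : Fin 2 →₀ ℕ) :
    (res (A := MvPolynomial (Fin 2 × Fin N) Ω) (fun γ => C (R γ)) (fun ε x => X (ε, x))
      β).totalDegree ≤ β.degree := by
  classical
  have h1 : ∀ ε : Fin 2, plgD 1 (∑ x, C (X (ε, x)) * X x :
      MvPolynomial (Fin N) (MvPolynomial (Fin 2 × Fin N) Ω)) := by
    intro ε γ
    rw [coeff_sum]
    refine totalDegree_finsetSum_le fun x _ => ?_
    rw [coeff_C_mul, coeff_X]
    split_ifs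
    · simpa using (isHomogeneous_X Ω (ε, x)).totalDegree_le
    · simp
  have h2 : plgD β.degree (pen (fun ε x => (X (ε, x) : MvPolynomial (Fin 2 × Fin N) Ω)) β) := by
    rw [pen, Fin.prod_univ_two, Finsupp.degree_eq_sum, Fin.sum_univ_two]
    exact plgD_mul (plgD_pow (h1 0) _) (plgD_pow (h1 1) _)
  rw [res]
  generalize pen (fun ε x => (X (ε, x) : MvPolynomial (Fin 2 × Fin N) Ω)) β = f at h2
  rw [f.as_sum, map_sum]
  refine totalDegree_finsetSum_le fun γ _ => ?_
  rw [fn_monomial]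
  exact (totalDegree_mul _ _).trans (by simpa using h2 γ)

theorem plg_eval {Ω : Type*} [CommRing Ω] {N : ℕ} (R : (Fin N →₀ ℕ) → Ω) (β : Fin 2 →₀ ℕ)
    (p : Fin 2 × Fin N → Ω) :
    eval p (res (A := MvPolynomial (Fin 2 × Fin N) Ω) (fun γ => C (R γ)) (fun ε x => X (ε, x)) β) =
      res R (fun ε x => p (ε, x)) β := by
  rw [map_res]
  simp

theorem gp_pencils (K : Type u) [Field K] [Infinite K] (N : ℕ) {a : ℕ} (ha : 1 ≤ a)
    (hfac : (a.factorial : K) ≠ 0) :
    ∃ b : ℕ, ∀ M : ℕ, ∃ P : Fin M → Fin 2 → Fin N → K, ∀ (Ω : Type u) [Field Ω] [Algebra K Ω]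
      (R : (Fin N →₀ ℕ) → Ω),
      (¬ Rk1 R (a - 1) →
        Few b fun s => Rk1 (res R fun ε x => algebraMap K Ω (P s ε x)) (a - 1)) ∧
      ((∃ γ : Fin N →₀ ℕ, γ.degree = a ∧ R γ ≠ 0) →
        Few b fun s => res R (fun ε x => algebraMap K Ω (P s ε x)) (Finsupp.single 0 a) = 0) := by
  obtain ⟨b, hb⟩ := gp_points K (Fin 2 × Fin N) (2 * a)
  refine ⟨b, fun M => ?_⟩
  obtain ⟨p, hp⟩ := hb M
  refine ⟨fun s ε x => p s (ε, x), fun Ω _ _ R => ?_⟩
  have : Infinite Ω := Infinite.of_injective _ (algebraMap K Ω).injective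
  have hf : (a.factorial : Ω) ≠ 0 := by
    rw [← map_natCast (algebraMap K Ω)]
    exact (map_ne_zero _).2 hfac
  let Q : (Fin 2 →₀ ℕ) → MvPolynomial (Fin 2 × Fin N) Ω :=
    res (fun γ => C (R γ)) (fun ε x => X (ε, x))
  have hQ : ∀ β q, eval q (Q β) = res R (fun ε x => q (ε, x)) β := fun β q => plg_eval R β q
  refine ⟨fun h => ?_, fun ⟨γ, hγ, h⟩ => ?_⟩
  · obtain ⟨P, hP⟩ := not_forall.1 (mt (rk1_of_pencils ha hf R) h)
    unfold Rk1 at hP
    push Not at hP
    obtain ⟨i, j, β, γ, hβ, hγ, hne⟩ := hP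
    have hd : ∀ (δ : Fin 2 →₀ ℕ) (k : Fin 2), δ.degree = a - 1 →
        (Q (δ + Finsupp.single k 1)).totalDegree ≤ a := fun δ k hδ =>
      (plg_deg R _).trans (by rw [map_add, hδ, Finsupp.degree_single]; omega)
    intro S hS
    refine hp Ω (Q (β + Finsupp.single i 1) * Q (γ + Finsupp.single j 1) -
      Q (β + Finsupp.single j 1) * Q (γ + Finsupp.single i 1)) (fun h0 => hne ?_) ?_ S
      fun s hs => ?_
    · have h1 := congrArg (eval fun q : Fin 2 × Fin N => P q.1 q.2) h0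
      simpa only [map_sub, map_mul, hQ, map_zero, sub_eq_zero] using h1
    · refine (totalDegree_sub _ _).trans (max_le ?_ ?_) <;>
        refine (totalDegree_mul _ _).trans ?_
      · linarith [hd β i hβ, hd γ j hγ]
      · linarith [hd β j hβ, hd γ i hγ]
    · simp only [map_sub, map_mul, hQ, sub_eq_zero]
      exact hS s hs i j β γ hβ hγ
  · obtain ⟨P, hP⟩ := not_forall.1 fun h0 => h (zero_of_pencils hf R h0 γ hγ)
    intro S hS
    refine hp Ω (Q (Finsupp.single 0 a)) (fun h0 => hP ?_) ?_ S fun s hs => ?_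
    · have h1 := congrArg (eval fun q : Fin 2 × Fin N => P q.1 q.2) h0
      simpa only [hQ, map_zero] using h1
    · exact (plg_deg R _).trans (by rw [Finsupp.degree_single]; omega)
    · exact (hQ _ _).trans (hS s hs)

end Vale.Agent.P200.G
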