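import Vale.Agent.P200.G.PlDefs

/-! Identities between the universal matrices. -/

open MvPolynomial Finset Matrix

namespace Vale.Agent.P200.G

open Vale.Agent.P200.Eq

universe u

variable {M a : ℕ} [NeZero a] {K E : Type u} [Field K] [DivisionRing E] [Algebra K E] {ζ : K}

omit [NeZero a] in
theorem pm_chi_mul (hζ : ζ ^ a = 1) (i x : ZMod a) : chi ζ (i * x) = chi ζ x ^ i.val := by
  rw [chi, chi, ZMod.val_mul, ← pow_eq_pow_mod _ hζ, ← pow_mul, mul_comm]

omit [NeZero a] in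
theorem pm_chi_zero (ζ : K) : chi ζ (0 : ZMod a) = 1 := by
  rw [chi, ZMod.val_zero, pow_zero]

omit [NeZero a] in
theorem pm_chi_pow (hζ : ζ ^ a = 1) (x : ZMod a) : chi ζ x ^ a = 1 := by
  rw [chi, ← pow_mul, mul_comm, pow_mul, hζ, one_pow]

theorem pm_prod_range {R : Type*} [CommMonoid R] (L : ZMod a → R) (x : ZMod a) :
    ∏ u ∈ range a, L (x + u) = ∏ k, L k := by
  have h : ∏ u ∈ range a, L (x + u) = ∏ k, L (x + k) := by
    refine prod_bij (fun j _ => (j : ZMod a)) (fun _ _ => mem_univ _) ?_ ?_ (fun _ _ => rfl)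
    · intro j hj k hk hjk
      have := congrArg ZMod.val hjk
      rwa [ZMod.val_cast_of_lt (mem_range.1 hj), ZMod.val_cast_of_lt (mem_range.1 hk)] at this
    · intro x _
      exact ⟨x.val, mem_range.2 (ZMod.val_lt x), ZMod.natCast_zmod_val x⟩
  rw [h]
  exact Equiv.prod_comp (Equiv.addLeft x) L

theorem pm_sum_range {R : Type*} [AddCommMonoid R] (L : ZMod a → R) :
    ∑ u ∈ range a, L u = ∑ k, L k := by
  refine sum_bij (fun j _ => (j : ZMod a)) (fun _ _ => mem_univ _) ?_ ?_ (fun _ _ => rfl)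
  · intro j hj k hk hjk
    have := congrArg ZMod.val hjk
    rwa [ZMod.val_cast_of_lt (mem_range.1 hj), ZMod.val_cast_of_lt (mem_range.1 hk)] at this
  · intro x _
    exact ⟨x.val, mem_range.2 (ZMod.val_lt x), ZMod.natCast_zmod_val x⟩

theorem pm_chi_sum (hζ : IsPrimitiveRoot ζ a) (x : ZMod a) :
    ∑ i : ZMod a, chi ζ (i * x) = if x = 0 then (a : K) else 0 := by
  split_ifs with h
  · simp [h, pm_chi_zero]
  · have h1 : ∑ i : ZMod a, chi ζ (i * x) = ∑ u ∈ range a, chi ζ x ^ u := by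
      rw [← pm_sum_range]
      refine sum_congr rfl fun u hu => ?_
      rw [pm_chi_mul hζ.pow_eq_one, ZMod.val_cast_of_lt (mem_range.1 hu)]
    have h2 : chi ζ x - 1 ≠ 0 := by
      rw [sub_ne_zero, chi]
      exact hζ.pow_ne_one_of_pos_of_lt ((ZMod.val_ne_zero x).2 h) (ZMod.val_lt x)
    have h3 := mul_geom_sum (chi ζ x) a
    rw [pm_chi_pow hζ.pow_eq_one, sub_self] at h3
    rw [h1]
    exact (mul_eq_zero.1 h3).resolve_left h2

theorem pm_psi_rsv (ζ : K) (s : Fin M) (i : ZMod a) :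
    (psi (rsv ζ s i) : MvPolynomial (Var M a 2) K) =
      ∑ m, C (chi ζ (-(i * m))) * ∏ k, X (s, k, indw m k) := by
  rw [psi, sum_eq_single s]
  · simp only [rsv, if_true, single_eq_monomial, map_sum]
    rw [sum_comm]
    refine sum_congr rfl fun m _ => ?_
    rw [sum_eq_single (indw m)]
    · rw [if_pos rfl, mon]
      simp only [X]
      rw [← monomial_sum_one, C_mul_monomial, mul_one]
    · intro f _ hf
      rw [if_neg hf, map_zero]
    · simp
  · intro t _ ht
    simp [rsv, ht]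
  · simp

theorem Vm_Gm (hζ : ζ ^ a = 1) (s : Fin M) (ε : Fin 2) (i : ZMod a) :
    Vm ζ s ε * Gm ζ s i = chi ζ i • (Gm ζ s i * Vm ζ s ε) := by
  rw [Vm, ymat_eq, Gm]
  ext1 g g'
  simp only [Matrix.mul_diagonal, Matrix.diagonal_mul, Matrix.smul_apply, ypw, Matrix.of_apply]
  split_ifs with h
  · rw [h, Pi.add_apply, Pi.single_eq_same, mul_add, mul_one, chi_add hζ, smul_eq_C_mul, map_mul]
    ring
  · simp

theorem Vm_Gm' {s t : Fin M} (h : s ≠ t) (ε : Fin 2) (i : ZMod a) :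
    Vm ζ s ε * Gm ζ t i = Gm ζ t i * Vm ζ s ε := by
  rw [Vm, ymat_eq, Gm]
  ext1 g g'
  simp only [Matrix.mul_diagonal, Matrix.diagonal_mul, ypw, Matrix.of_apply]
  split_ifs with h'
  · rw [h', Pi.add_apply, Pi.single_eq_of_ne h.symm, add_zero]
    ring
  · simp

theorem Gm_Gm (s t : Fin M) (i i' : ZMod a) : Gm ζ s i * Gm ζ t i' = Gm ζ t i' * Gm ζ s i := by
  rw [Gm, Gm, Matrix.diagonal_mul_diagonal, Matrix.diagonal_mul_diagonal]
  congr 1
  funext g
  ring

theorem Gm_pow (hζ : ζ ^ a = 1) (s : Fin M) :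
    Gm ζ s (1 : ZMod a) ^ a =
      Matrix.scalar (Gp M a) ((psi (rsv ζ s (1 : ZMod a)) : MvPolynomial (Var M a 2) K) ^ a) := by
  rw [Gm, Matrix.diagonal_pow, Matrix.scalar_apply]
  congr 1
  funext g
  rw [Pi.pow_apply, mul_pow, ← map_pow, pm_chi_pow hζ, map_one, one_mul]

theorem Gm_sum (hζ : IsPrimitiveRoot ζ a) (s : Fin M) :
    ∑ i : ZMod a, Gm ζ s i = (a : K) • (Vm ζ s 1 * Vm ζ s 0 ^ (a - 1)) := by
  obtain ⟨b, hb⟩ : ∃ b, a = b + 1 := Nat.exists_eq_succ_of_ne_zero (NeZero.ne a)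
  have hb' : a - 1 = b := by omega
  have hc : (1 : ZMod a) + (b : ZMod a) = 0 := by
    rw [add_comm, ← Nat.cast_succ, Nat.succ_eq_add_one, ← hb, ZMod.natCast_self]
  rw [Vm, Vm, ymat_pow, ymat_eq, ypw_mul, hb', ← Pi.single_add, hc, Pi.single_zero]
  ext1 g g'
  simp only [Gm, Matrix.sum_apply, Matrix.diagonal_apply, Matrix.smul_apply, ypw, Matrix.of_apply,
    add_zero]
  by_cases h : g = g'
  · subst h
    simp only [if_true, pm_psi_rsv, mul_sum]
    rw [sum_comm]
    have h1 : ∀ m : ZMod a, ∑ i : ZMod a, C (chi ζ (i * g s)) * (C (chi ζ (-(i * m))) *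
        ∏ k, (X (s, k, indw m k) : MvPolynomial (Var M a 2) K)) =
        if m = g s then (a : K) • ∏ k, X (s, k, indw m k) else 0 := fun m => by
      have h2 : ∀ i : ZMod a, chi ζ (i * g s) * chi ζ (-(i * m)) = chi ζ (i * (g s - m)) :=
        fun i => by rw [← chi_add hζ.pow_eq_one, mul_sub, sub_eq_add_neg]
      simp only [← mul_assoc, ← map_mul, h2]
      rw [← sum_mul, ← map_sum, pm_chi_sum hζ]
      by_cases hm : m = g s
      · rw [if_pos hm, if_pos (by rw [hm, sub_self]), smul_eq_C_mul]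
      · rw [if_neg hm, if_neg fun h => hm (sub_eq_zero.1 h).symm, map_zero, zero_mul]
    rw [sum_congr rfl fun m _ => h1 m, sum_ite_eq', if_pos (mem_univ _)]
    congr 1
    have h3 := pm_prod_range (fun k => (X (s, k, indw (g s) k) : MvPolynomial (Var M a 2) K)) (g s)
    have h4 : ∏ u ∈ range a, (X (s, g s + u, indw (g s) (g s + u)) : MvPolynomial (Var M a 2) K) =
        ∏ u ∈ range (b + 1), X (s, g s + u, indw (g s) (g s + u)) := by rw [← hb]
    have h5 : (C (chi ζ (∑ t ∈ Iio s, g t)) : MvPolynomial (Var M a 2) K) *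
        C (chi ζ (∑ t ∈ Iio s, g t)) ^ b = 1 := by
      rw [← pow_succ', ← hb, ← map_pow, pm_chi_pow hζ.pow_eq_one, map_one]
    rw [← h3, h4, prod_range_succ', ypw_sum_out le_rfl, Pi.add_apply, Pi.single_eq_same,
      mul_mul_mul_comm, h5, one_mul, mul_comm]
    congr 1
    · simp [indw]
    · refine prod_congr rfl fun u hu => ?_
      have h6 : ((u + 1 : ℕ) : ZMod a) ≠ 0 := by
        rw [Ne, ZMod.natCast_eq_zero_iff]
        exact Nat.not_dvd_of_pos_of_lt (Nat.succ_pos u) (by have := mem_range.1 hu; omega)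
      rw [indw, if_neg fun h => h6 (add_eq_left.1 h), Nat.cast_succ, add_assoc, add_comm 1]
  · simp [h, Ne.symm h]

theorem Gm_cen (hζ : ζ ^ a = 1) (s : Fin M) (i : ZMod a)
    (c : Matrix (Gp M a) (Gp M a) (Alg E (Var M a 2))) :
    (inc K E (Var M a 2)).mapMatrix (Gm ζ s i) * c *
        (inc K E (Var M a 2)).mapMatrix (Gm ζ s 1) ^ i.val =
      (inc K E (Var M a 2)).mapMatrix (Gm ζ s 1) ^ i.val * c *
        (inc K E (Var M a 2)).mapMatrix (Gm ζ s i) := by
  simp only [Gm, Matrix.diagonal_pow, RingHom.mapMatrix_apply,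
    Matrix.diagonal_map (map_zero (inc K E (Var M a 2)))]
  ext1 g g'
  simp only [Matrix.mul_diagonal, Matrix.diagonal_mul, Pi.pow_apply]
  rw [← map_pow, ← map_pow, inc_comm, inc_comm _ (c g g'), mul_assoc, mul_assoc, ← map_mul,
    ← map_mul]
  congr 2
  rw [pm_chi_mul hζ, pm_chi_mul hζ i, one_mul, one_mul, mul_pow, mul_pow, map_pow, map_pow]
  ring

theorem Gm_range (hζ : ζ ^ a = 1) (s : Fin M) (i : ZMod a) (g : Gp M a) :
    ∃ v, v ᵥ* (inc K E (Var M a 2)).mapMatrix (Gm ζ s i) =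
      Pi.single g (inc K E (Var M a 2) (psi (rsv ζ s i))) := by
  refine ⟨Pi.single g (inc K E (Var M a 2) (C (chi ζ (-(i * g s))))), ?_⟩
  rw [Gm, RingHom.mapMatrix_apply, Matrix.diagonal_map (map_zero (inc K E (Var M a 2)))]
  funext g'
  rw [Matrix.vecMul_diagonal]
  by_cases h : g' = g
  · subst h
    rw [Pi.single_eq_same, Pi.single_eq_same, ← map_mul, ← mul_assoc, ← map_mul, ← chi_add hζ,
      neg_add_cancel, pm_chi_zero, map_one, one_mul]
  · rw [Pi.single_eq_of_ne h, Pi.single_eq_of_ne h, zero_mul]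

theorem rsv_ne (ζ : K) (s : Fin M) (i : ZMod a) : rsv ζ s i s ≠ 0 := by
  intro h
  have h1 := congrFun h (indw 0)
  rw [rsv, if_pos rfl, sum_eq_single 0] at h1
  · simp [pm_chi_zero] at h1
  · intro m _ hm
    refine if_neg fun h2 => ?_
    have h3 := congrFun h2 m
    simp [indw, hm] at h3
  · simp

theorem Vm_pow (hζ : ζ ^ a = 1) (s : Fin M) (ξ : Fin 2 → K) :
    (ξ 0 • Vm ζ s 0 + ξ 1 • Vm ζ s 1) ^ a = Matrix.scalar (Gp M a)
      (psi (up a fun t (β : Fin 2 →₀ ℕ) => if t = s then ∏ ε, ξ ε ^ β ε else 0) :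
        MvPolynomial (Var M a 2) K) := by
  have h1 : ξ 0 • Vm ζ s 0 + ξ 1 • Vm ζ s 1 =
      ymat ζ s fun k : ZMod a => ∑ ε, ξ ε • X (s, k, ε) := by
    ext1 g g'
    simp only [Vm, ymat, Matrix.add_apply, Matrix.smul_apply, Matrix.of_apply, Fin.sum_univ_two]
    split_ifs
    · simp only [mul_add, mul_smul_comm]
    · simp only [smul_zero, add_zero]
  rw [h1, ymat_pow_self hζ, prod_univ_sum, Fintype.piFinset_univ, psi, sum_eq_single s]
  · congr 1
    refine sum_congr rfl fun f _ => ?_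
    have h2 : ∏ ε, ξ ε ^ bet f ε = ∏ k, ξ (f k) := by
      have h3 : eval ξ (monomial (bet f) (1 : K)) = ∏ k, ξ (f k) := by
        rw [bet, monomial_sum_one, map_prod]
        exact prod_congr rfl fun k _ => eval_X _
      rw [← h3, eval_monomial, one_mul, Finsupp.prod_fintype _ _ fun _ => pow_zero _]
    rw [single_eq_monomial, up, if_pos rfl, h2, mon, monomial_sum_prod]
    refine prod_congr rfl fun k _ => ?_
    rw [X, smul_monomial, smul_eq_mul, mul_one]
  · intro t _ ht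
    simp [up, ht]
  · simp

end Vale.Agent.P200.G
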