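import Vale.Agent.P200.G.PlPrime
import Vale.Agent.P200.G.PlMat

/-! The model in a division ring. -/

open MvPolynomial Finset Matrix

namespace Vale.Agent.P200.G

open Vale.Agent.P200.Eq

universe u

theorem psi_add {M a n : ℕ} [NeZero a] {A : Type*} [Semiring A]
    (R R' : Fin M → (ZMod a → Fin n) → A) : psi (R + R') = psi R + psi R' := by
  simp only [psi, Pi.add_apply, AddMonoidAlgebra.single_add, sum_add_distrib]

theorem psi_smul {M a n : ℕ} [NeZero a] {A : Type*} [Semiring A] (c : A)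
    (R : Fin M → (ZMod a → Fin n) → A) : psi (c • R) = c • psi R := by
  simp only [psi, Pi.smul_apply, smul_sum, AddMonoidAlgebra.smul_single]

theorem exists_mdl {K : Type u} (E : Type u) [Field K] [DivisionRing E] [Algebra K E]
    {M a r b : ℕ} [NeZero a] (ha : 2 ≤ a) {ζ : K} (hζ : IsPrimitiveRoot ζ a) (hr : r + 2 * b < M)
    (lam : Fin r → Fin M → (Fin 2 →₀ ℕ) → K)
    (hlam : ∀ (F : Type u) [Field F] [Algebra K F] (c : Fin r → F), c ≠ 0 →
      Few b fun s => Rk1 (fun β => ∑ j, c j * algebraMap K F (lam j s β)) (a - 1))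
    (htri : Tri r (Set.range fun j => up a (lam j)))
    (hone : ∀ (s : Fin M) (R : Fin M → (ZMod a → Fin 2) → K), (∀ t, t ≠ s → R t = 0) → R s ≠ 0 →
      Tri (r + 1) (insert R (Set.range fun j => up a (lam j)))) :
    ∃ (D : Type u) (_ : DivisionRing D) (_ : Algebra K D) (j : E →ₐ[K] D) (m : Mdl K D ζ a M),
      (∀ s x, Commute (m.v s) (j x)) ∧ (∀ s x, Commute (m.Γ s 1) (j x)) ∧
      (∀ i, m.T (lam i) = 0) ∧
      ∀ R, Tri (r + 1) (insert (up a R) (Set.range fun j => up a (lam j))) → m.T R ≠ 0 := by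
  classical
  have hζ1 := hζ.pow_eq_one
  obtain ⟨J, hJC, hJl, hJr, hprime, h1, hJφ, hJn⟩ :=
    exists_prime' (E := E) hζ1 (by omega) hr lam hlam htri
  let A := Alg E (Var M a 2)
  let j : E →+* Matrix (Gp M a) (Gp M a) A :=
    (Matrix.scalar (Gp M a)).comp AddMonoidAlgebra.singleZeroRingHom
  have hj : ∀ (ε : E) (x : Matrix (Gp M a) (Gp M a) A), ε • x = j ε * x := by
    intro ε x
    ext g g' m
    simp [j, A, AddMonoidAlgebra.coeff_single_zero_mul]
  have hj0 : ∀ ε, j ε ∈ cB E M a 2 ζ 0 := fun ε => scalar_single_mem ζ ε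
  obtain ⟨N, m, hgr⟩ := cB_growth (E := E) (M := M) (a := a) (n := 2) ζ
  obtain ⟨D, _, Φ, Φadd, Φmul, Φone, Φker, Φgen⟩ := exists_ore j hj (cB E M a 2 ζ) J hJC hj0
    (fun d e x hx y hy => cB_mul ζ hx hy) hJl hJr hprime h1 N m (fun d => (hgr d).1)
    (fun d => (hgr d).2)
  have Φzero : ∀ d, Φ d 0 = 0 := fun d => (Φker d 0 (zero_mem _)).2 (zero_mem _)
  let jD : E →+* D :=
    { toFun := fun ε => Φ 0 (j ε)
      map_one' := by rw [map_one, Φone]
      map_mul' := fun x y => by rw [map_mul]; exact Φmul 0 0 _ (hj0 x) _ (hj0 y)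
      map_zero' := by rw [map_zero, Φzero]
      map_add' := fun x y => by rw [map_add]; exact Φadd 0 _ (hj0 x) _ (hj0 y) }
  have Φcomm : ∀ d e, ∀ x ∈ cB E M a 2 ζ d, ∀ y ∈ cB E M a 2 ζ e, x * y = y * x →
      Commute (Φ d x) (Φ e y) := by
    intro d e x hx y hy h
    have h2 := Φmul d e x hx y hy
    rw [add_comm, h, Φmul e d y hy x hx] at h2
    exact h2.symm
  let ι := (inc K E (Var M a 2)).mapMatrix (m := Gp M a)
  have hscal : ∀ x : MvPolynomial (Var M a 2) K,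
      ι (Matrix.scalar (Gp M a) x) = Matrix.scalar (Gp M a) (inc K E _ x) := by
    intro x
    simp only [ι, Matrix.scalar_apply, RingHom.mapMatrix_apply]
    rw [Matrix.diagonal_map (map_zero _)]
  have hcen : ∀ (x : MvPolynomial (Var M a 2) K) y,
      ι (Matrix.scalar (Gp M a) x) * y = y * ι (Matrix.scalar (Gp M a) x) := fun x y => by
    rw [hscal]
    exact Matrix.scalar_commute _ (fun z => inc_comm _ z) y
  have hιj : ∀ y ε, ι y * j ε = j ε * ι y := by
    intro y ε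
    refine Matrix.ext fun g g' => ?_
    simp only [j, ι, RingHom.comp_apply, Matrix.scalar_apply, Matrix.mul_diagonal,
      Matrix.diagonal_mul, RingHom.mapMatrix_apply, Matrix.map_apply]
    exact inc_comm (E := E) (y g g') _
  have hjK : ∀ c : K, j (algebraMap K E c) = ι (Matrix.scalar (Gp M a) (C c)) := by
    intro c
    rw [hscal]
    simp only [j, RingHom.comp_apply, inc]
    congr 1
    exact (AddMonoidAlgebra.mapRingHom_single _ _ _).symm
  let : Algebra K D := (jD.comp (algebraMap K E)).toAlgebra' fun c x =>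
    Φgen _ (fun d y hy => Φcomm 0 d _ (hj0 _) y hy (by rw [hjK]; exact hcen _ y)) x
  let Rep : ℕ → Matrix (Gp M a) (Gp M a) (MvPolynomial (Var M a 2) K) → D → Prop :=
    fun d x y => ι x ∈ cB E M a 2 ζ d ∧ Φ d (ι x) = y
  have Rmul : ∀ {d e x x' y y'}, Rep d x y → Rep e x' y' → Rep (d + e) (x * x') (y * y') := by
    rintro d e x x' _ _ ⟨h, rfl⟩ ⟨h', rfl⟩
    exact ⟨by rw [map_mul]; exact cB_mul ζ h h', by rw [map_mul]; exact Φmul d e _ h _ h'⟩
  have Radd : ∀ {d x x' y y'}, Rep d x y → Rep d x' y' → Rep d (x + x') (y + y') := by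
    rintro d x x' _ _ ⟨h, rfl⟩ ⟨h', rfl⟩
    exact ⟨by rw [map_add]; exact add_mem h h', by rw [map_add]; exact Φadd d _ h _ h'⟩
  have Rsmul : ∀ {d x y} (c : K), Rep d x y → Rep d (c • x) (c • y) := by
    intro d x y c h
    have h2 : Rep 0 (Matrix.scalar (Gp M a) (C c)) (algebraMap K D c) :=
      ⟨hjK c ▸ hj0 _, congrArg (Φ 0) (hjK c).symm⟩
    have h3 := Rmul h2 h
    rw [zero_add, ← Algebra.smul_def] at h3
    have h4 : Matrix.scalar (Gp M a) (C c) * x = c • x := by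
      ext g g' : 2
      rw [Matrix.scalar_apply, Matrix.diagonal_mul, Matrix.smul_apply, smul_eq_C_mul]
    rwa [h4] at h3
  have Rpow : ∀ {d x y}, Rep d x y → ∀ k, Rep (k * d) (x ^ k) (y ^ k) := by
    intro d x y h k
    induction k with
    | zero =>
      rw [pow_zero, pow_zero, zero_mul]
      exact ⟨by rw [map_one, ← map_one j]; exact hj0 1, by rw [map_one, Φone]⟩
    | succ k ih => rw [pow_succ, pow_succ, Nat.succ_mul]; exact Rmul ih h
  have Rsum : ∀ {d} (s : Finset (ZMod a)) {x : ZMod a → _} {y : ZMod a → D},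
      (∀ i, Rep d (x i) (y i)) →
      Rep d (∑ i ∈ s, x i) (∑ i ∈ s, y i) := by
    intro d s x y h
    induction s using Finset.induction_on with
    | empty => exact ⟨by rw [sum_empty, map_zero]; exact zero_mem _,
        by rw [sum_empty, map_zero, Φzero, sum_empty]⟩
    | insert i s hi ih => rw [sum_insert hi, sum_insert hi]; exact Radd (h i) ih
  have Runi : ∀ {d e x x' y y'}, Rep d x y → Rep e x' y' → d = e → x = x' → y = y' := by
    rintro d _ x _ _ _ ⟨-, rfl⟩ ⟨-, rfl⟩ rfl rfl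
    rfl
  have Rcen : ∀ {d x y}, Rep d (Matrix.scalar (Gp M a) x) y → ∀ z, Commute y z := by
    rintro d x _ ⟨h, rfl⟩
    exact Φgen _ fun e y hy => Φcomm d e _ h y hy (hcen x y)
  let sc : (Fin M → (Fin 2 →₀ ℕ) → K) → Matrix (Gp M a) (Gp M a) (MvPolynomial (Var M a 2) K) :=
    fun R => Matrix.scalar (Gp M a) (psi (up a R) : MvPolynomial (Var M a 2) K)
  have RT : ∀ R, Rep a (sc R) (Φ a (ι (sc R))) := fun R =>
    ⟨by rw [hscal]; exact up_mem ζ R, rfl⟩
  have RV : ∀ s ε, Rep 1 (Vm ζ s ε) (Φ 1 (ι (Vm ζ s ε))) := fun s ε => ⟨Vm_mem hζ1 s ε, rfl⟩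
  have RG : ∀ s i, Rep a (Gm ζ s i) (Φ a (ι (Gm ζ s i))) := fun s i => ⟨Gm_mem hζ1 s i, rfl⟩
  let T : (Fin M → (Fin 2 →₀ ℕ) → K) →ₗ[K] D :=
    { toFun := fun R => Φ a (ι (sc R))
      map_add' := fun R R' => Runi (RT _) (Radd (RT R) (RT R')) rfl
        ((congrArg _ (psi_add (up a R) (up a R'))).trans (map_add _ _ _))
      map_smul' := fun c R => Runi (RT _) (Rsmul c (RT R)) rfl
        ((congrArg _ (psi_smul c (up a R))).trans (scalar_smul _ _)) }
  have hT : ∀ R, Tri (r + 1) (insert (up a R) (Set.range fun j => up a (lam j))) → T R ≠ 0 :=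
    fun R h h0 => hJn a _ _ (fun g => ⟨Pi.single g 1, by
      rw [hscal]; exact single_vecMul_scalar g _⟩) h ((Φker a _ (RT R).1).1 h0)
  have hpow : ∀ s (ξ : Fin 2 → K), (ξ 0 • Φ 1 (ι (Vm ζ s 0)) + ξ 1 • Φ 1 (ι (Vm ζ s 1))) ^ a =
      T fun t β => if t = s then ∏ ε, ξ ε ^ β ε else 0 := fun s ξ =>
    Runi (Rpow (Radd (Rsmul _ (RV s 0)) (Rsmul _ (RV s 1))) a) (RT _) (mul_one a) (Vm_pow hζ1 s ξ)
  have hG0 : ∀ s, Φ a (ι (Gm ζ s 1)) ≠ 0 := fun s h0 => hJn a _ _ (Gm_range hζ1 s 1)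
    (hone s _ (fun t ht => _root_.funext fun f => if_neg ht) (rsv_ne ζ s 1)) ((Φker a _ (RG s 1).1).1 h0)
  refine ⟨D, inferInstance, inferInstance, ⟨jD, fun c => rfl⟩,
    { v := fun s => Φ 1 (ι (Vm ζ s 0))
      u := fun s => Φ 1 (ι (Vm ζ s 1))
      Γ := fun s i => Φ a (ι (Gm ζ s i))
      T := T
      T_cen := fun R => Rcen (RT R)
      T_zero := fun R h => ?_
      pow := hpow
      v0 := fun s h0 => ?_
      Γ0 := hG0
      vv := fun s t h => Runi (Rmul (RV s 0) (RV t 0)) (Rsmul ζ (Rmul (RV t 0) (RV s 0))) rfl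
        (ymat_comm hζ1 h _ _)
      vΓ := fun s i => Runi (Rmul (RV s 0) (RG s i)) (Rsmul _ (Rmul (RG s i) (RV s 0)))
        (add_comm _ _) (Vm_Gm hζ1 s 0 i)
      vΓ' := fun s t h => Runi (Rmul (RV s 0) (RG t 1)) (Rmul (RG t 1) (RV s 0)) (add_comm _ _)
        (Vm_Gm' h 0 1)
      ΓΓ := fun s t => Runi (Rmul (RG s 1) (RG t 1)) (Rmul (RG t 1) (RG s 1)) rfl (Gm_Gm s t 1 1)
      Γpow := fun s => Rcen (Gm_pow hζ1 s ▸ Rpow (RG s 1) a)
      Γsum := fun s => Runi (Rsum _ (RG s)) (Rsmul _ (Rmul (RV s 1) (Rpow (RV s 0) (a - 1))))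
        (by omega) (Gm_sum hζ s)
      Γcen := fun s i => Φgen _ fun d y hy => ?_ },
    fun s x => Φcomm 1 0 _ (RV s 0).1 _ (hj0 x) (hιj _ x),
    fun s x => Φcomm a 0 _ (RG s 1).1 _ (hj0 x) (hιj _ x),
    fun i => (Φker a _ (RT _).1).2 (by rw [hscal]; exact hJφ i), hT⟩
  · have h2 : sc R = 0 := by
      simp only [sc, psi, up, h _ _ (degree_bet _), AddMonoidAlgebra.single_zero, sum_const_zero,
        map_zero]
    change Φ a (ι (sc R)) = 0
    rw [h2, map_zero, Φzero]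
  · refine hT _ ?_ ((hpow s ![1, 0]).symm.trans ?_)
    refine hone s _ (fun t ht => _root_.funext fun f => if_neg ht) fun h => ?_
    · have h2 := congrFun h fun _ => 0
      simp [up, bet] at h2
    · have h2 : Φ 1 (ι (Vm ζ s 0)) = 0 := h0
      simp [h2, NeZero.ne a]
  · obtain ⟨h2, h3⟩ := Rpow (RG s 1) i.val
    rw [map_pow] at h2 h3
    have h4 := Φmul _ _ _ (cB_mul ζ (RG s i).1 hy) _ h2
    rw [Gm_cen hζ1 s i y, Φmul _ _ _ (RG s i).1 _ hy, h3,
      show a + d + i.val * a = i.val * a + d + a by omega,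
      Φmul _ _ _ (cB_mul ζ h2 hy) _ (RG s i).1, Φmul _ _ _ h2 _ hy, h3] at h4
    have h5 := pow_ne_zero i.val (hG0 s)
    have h6 : Commute (Φ a (ι (Gm ζ s i))) (Φ a (ι (Gm ζ s 1))) :=
      Runi (Rmul (RG s i) (RG s 1)) (Rmul (RG s 1) (RG s i)) rfl (Gm_Gm s s i 1)
    refine mul_left_cancel₀ h5 (mul_right_cancel₀ h5 ?_)
    rw [← mul_assoc, ← mul_assoc, mul_inv_cancel₀ h5, one_mul, ← h4, mul_assoc, mul_assoc,
      mul_assoc, mul_assoc, (h6.pow_right _).eq, inv_mul_cancel_left₀ h5]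

end Vale.Agent.P200.G
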