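import Vale.Agent.P200.G.PlDefs

/-! Existence of triangular systems. -/

open MvPolynomial Finset Matrix

namespace Vale.Agent.P200.G

open Vale.Agent.P200.Eq

universe u

variable {M a n : ℕ} {K : Type u} [Field K]

theorem plTri_ker {p q : ℕ} (hq : q < p) (A : Fin q → Fin p → K) :
    ∃ c : Fin p → K, c ≠ 0 ∧ ∀ i, ∑ j, c j * A i j = 0 := by
  have h := LinearMap.ker_ne_bot_of_finrank_lt (f := (Matrix.of A).mulVecLin) (by simpa using hq)
  obtain ⟨c, h1, h2⟩ := Submodule.exists_mem_ne_zero_of_ne_bot h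
  refine ⟨c, h2, fun i => ?_⟩
  have h3 := congrFun (LinearMap.mem_ker.1 h1) i
  simpa only [Matrix.mulVecLin_apply, Matrix.mulVec, dotProduct, Matrix.of_apply, Pi.zero_apply,
    mul_comm] using h3

theorem plTri_snoc {q : ℕ} {T : Set (Fin M → (ZMod a → Fin n) → K)} {Q : Fin M → Prop}
    {bb : Fin q → Fin M} {f : Fin q → ZMod a → Fin n} {R : Fin q → Fin M → (ZMod a → Fin n) → K}
    (h1 : Function.Injective bb) (h2 : ∀ j, R j ∈ Submodule.span K T)
    (h3 : ∀ j, R j (bb j) (f j) ≠ 0) (h4 : ∀ j j', j' < j → R j (bb j') (f j') = 0)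
    (h5 : ∀ j, Q (bb j)) {s : Fin M} {g : ZMod a → Fin n} {S : Fin M → (ZMod a → Fin n) → K}
    (k1 : ∀ j, bb j ≠ s) (k2 : S ∈ Submodule.span K T) (k3 : S s g ≠ 0)
    (k4 : ∀ j, S (bb j) (f j) = 0) (k5 : Q s) :
    ∃ (bb' : Fin (q + 1) → Fin M) (f' : Fin (q + 1) → ZMod a → Fin n)
      (R' : Fin (q + 1) → Fin M → (ZMod a → Fin n) → K), Function.Injective bb' ∧
      (∀ j, R' j ∈ Submodule.span K T) ∧ (∀ j, R' j (bb' j) (f' j) ≠ 0) ∧
      (∀ j j', j' < j → R' j (bb' j') (f' j') = 0) ∧ (∀ j, Q (bb' j)) ∧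
      ∀ j, f' j = g ∨ ∃ i, f' j = f i := by
  refine ⟨Fin.snoc (α := fun _ => Fin M) bb s, Fin.snoc (α := fun _ => ZMod a → Fin n) f g,
    Fin.snoc (α := fun _ => Fin M → (ZMod a → Fin n) → K) R S, ?_, fun j => ?_, fun j => ?_,
    fun j j' => ?_, fun j => ?_, fun j => ?_⟩
  · exact Fin.snoc_injective_of_injective h1 (by
      rintro ⟨j, hj⟩
      exact k1 j hj)
  · refine Fin.lastCases ?_ (fun j => ?_) j
    · rwa [Fin.snoc_last]
    · rw [Fin.snoc_castSucc]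
      exact h2 j
  · refine Fin.lastCases ?_ (fun j => ?_) j
    · simpa only [Fin.snoc_last] using k3
    · simpa only [Fin.snoc_castSucc] using h3 j
  · refine Fin.lastCases (fun h => absurd h (Fin.le_last j).not_gt) (fun j' => ?_) j'
    refine Fin.lastCases (fun _ => ?_) (fun j h => ?_) j
    · simpa only [Fin.snoc_last, Fin.snoc_castSucc] using k4 j'
    · simpa only [Fin.snoc_castSucc] using h4 j j' (Fin.castSucc_lt_castSucc_iff.1 h)
  · refine Fin.lastCases ?_ (fun j => ?_) j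
    · rwa [Fin.snoc_last]
    · rw [Fin.snoc_castSucc]
      exact h5 j
  · refine Fin.lastCases (Or.inl ?_) (fun j => Or.inr ⟨j, ?_⟩) j
    · rw [Fin.snoc_last]
    · rw [Fin.snoc_castSucc]

theorem plTri_aux {p b : ℕ} (B : Finset (Fin M)) (hM : p + b + B.card ≤ M)
    (ρ : Fin p → Fin M → (ZMod a → Fin n) → K) (f₀ : ZMod a → Fin n)
    (h : ∀ c : Fin p → K, c ≠ 0 → Few b fun s => ∑ j, c j * ρ j s f₀ = 0) (q : ℕ) (hq : q ≤ p) :
    ∃ (bb : Fin q → Fin M) (f : Fin q → ZMod a → Fin n)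
      (R : Fin q → Fin M → (ZMod a → Fin n) → K), Function.Injective bb ∧
      (∀ j, R j ∈ Submodule.span K (Set.range ρ)) ∧ (∀ j, R j (bb j) (f j) ≠ 0) ∧
      (∀ j j', j' < j → R j (bb j') (f j') = 0) ∧ (∀ j, bb j ∉ B) ∧ ∀ j, f j = f₀ := by
  classical
  induction q with
  | zero =>
    exact ⟨Fin.elim0, Fin.elim0, Fin.elim0, fun j => j.elim0, fun j => j.elim0, fun j => j.elim0,
      fun j => j.elim0, fun j => j.elim0, fun j => j.elim0⟩
  | succ q ih =>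
    obtain ⟨bb, f, R, h1, h2, h3, h4, h5, h6⟩ := ih (Nat.le_of_succ_le hq)
    obtain ⟨c, c0, hc⟩ := plTri_ker hq fun i j => ρ j (bb i) f₀
    have h7 := h c c0 (univ.filter fun s => ∑ j, c j * ρ j s f₀ = 0) fun s hs => (mem_filter.1 hs).2
    obtain ⟨s, -, hs⟩ := exists_mem_notMem_of_card_lt_card
      (s := (univ.filter fun s => ∑ j, c j * ρ j s f₀ = 0) ∪ B) (t := univ) (by
        have h8 := card_union_le (univ.filter fun s => ∑ j, c j * ρ j s f₀ = 0) B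
        rw [card_univ, Fintype.card_fin]
        omega)
    rw [mem_union, mem_filter, not_or] at hs
    have h9 : ∑ j, c j * ρ j s f₀ ≠ 0 := fun e => hs.1 ⟨mem_univ _, e⟩
    have e : ∀ t, (∑ j, c j • ρ j) t f₀ = ∑ j, c j * ρ j t f₀ := fun t => by
      simp only [Finset.sum_apply, Pi.smul_apply, smul_eq_mul]
    obtain ⟨bb', f', R', k1, k2, k3, k4, k5, k6⟩ := plTri_snoc (Q := fun t => t ∉ B) h1 h2 h3 h4 h5
      (s := s) (g := f₀) (S := ∑ j, c j • ρ j) (fun j hj => h9 (hj ▸ hc j))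
      (Submodule.sum_mem _ fun j _ => Submodule.smul_mem _ _ (Submodule.subset_span ⟨j, rfl⟩))
      (by rwa [e]) (fun j => by rw [h6, e, hc]) hs.2
    exact ⟨bb', f', R', k1, k2, k3, k4, k5, fun j => (k6 j).elim id fun ⟨i, hi⟩ => hi.trans (h6 i)⟩

theorem tri_of {p b : ℕ} (hM : p + b ≤ M) (ρ : Fin p → Fin M → (ZMod a → Fin n) → K)
    (f₀ : ZMod a → Fin n) (h : ∀ c : Fin p → K, c ≠ 0 → Few b fun s => ∑ j, c j * ρ j s f₀ = 0) :
    Tri p (Set.range ρ) := by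
  obtain ⟨bb, f, R, h1, h2, h3, h4, -⟩ := plTri_aux ∅ (by simpa using hM) ρ f₀ h p le_rfl
  exact ⟨bb, f, R, h1, h2, h3, h4⟩


theorem tri_one {p b : ℕ} (hM : p + b < M) (ρ : Fin p → Fin M → (ZMod a → Fin n) → K)
    (f₀ : ZMod a → Fin n) (h : ∀ c : Fin p → K, c ≠ 0 → Few b fun s => ∑ j, c j * ρ j s f₀ = 0)
    (s : Fin M) (R : Fin M → (ZMod a → Fin n) → K) (h0 : ∀ t, t ≠ s → R t = 0) (h1 : R s ≠ 0) :
    Tri (p + 1) (insert R (Set.range ρ)) := by
  obtain ⟨bb, f, S, k1, k2, k3, k4, k5, -⟩ := plTri_aux {s} (by rw [card_singleton]; exact hM) ρ f₀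
    h p le_rfl
  obtain ⟨g, hg⟩ := Function.ne_iff.1 h1
  have k6 : ∀ j, bb j ≠ s := fun j e => k5 j (mem_singleton.2 e)
  obtain ⟨bb', f', R', l1, l2, l3, l4, -⟩ := plTri_snoc (T := insert R (Set.range ρ))
    (Q := fun _ => True) k1 (fun j => Submodule.span_mono (Set.subset_insert _ _) (k2 j)) k3 k4
    (fun _ => trivial) (s := s) (g := g) (S := R) k6 (Submodule.subset_span (Set.mem_insert _ _)) hg
    (fun j => by rw [h0 _ (k6 j)]; rfl) trivial
  exact ⟨bb', f', R', l1, l2, l3, l4⟩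


end Vale.Agent.P200.G
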