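import Vale.Agent.P200.G.PlGen
import Vale.Agent.P200.G.PlTri
import Vale.Agent.P200.G.PlMod
import Vale.Agent.P200.G.PlBlk
import Vale.Agent.P200.G.PlFin

/-! The plain step over an infinite field. -/

open MvPolynomial Finset Matrix

namespace Vale.Agent.P200.G

open Vale.Agent.P200.Eq

universe u

theorem not_rk1' {K : Type u} [Field K] {n r p e : ℕ} (w : Fin p → MvPolynomial (Fin n) K)
    (hw : ∀ l, (w l).IsHomogeneous (e + 1))
    (hb : ∀ (Ω : Type u) [Field Ω] [Algebra K Ω] (χ : Fin n → Ω),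
      (∀ i, aeval χ (w i) = 0) → ∀ x, χ x = 0)
    (lam : Fin r → (Fin n →₀ ℕ) → K) (hkill : ∀ j l, fn (lam j) (w l) = 0)
    (β : Fin r → (Fin n →₀ ℕ)) (hβ : ∀ j, (β j).degree = e + 1)
    (hdual : ∀ j j', lam j (β j') = if j = j' then 1 else 0)
    (F : Type u) [Field F] [Algebra K F] (c : Fin r → F) (hc : c ≠ 0) :
    ¬ Rk1 (fun γ => ∑ j, c j * algebraMap K F (lam j γ)) e := by
  intro hR
  obtain ⟨R, hRd⟩ : ∃ R : (Fin n →₀ ℕ) → F, ∀ γ, R γ = ∑ j, c j * algebraMap K F (lam j γ) :=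
    ⟨_, fun _ => rfl⟩
  rw [← funext hRd] at hR
  obtain ⟨j₀, hj₀⟩ := Function.ne_iff.1 hc
  have h1 : R (β j₀) ≠ 0 := by
    rw [hRd, sum_eq_single j₀ (fun j _ hj => by rw [hdual, if_neg hj, map_zero, mul_zero])
      (fun h => absurd (mem_univ _) h), hdual, if_pos rfl, map_one, mul_one]
    exact hj₀
  obtain ⟨i₀, μ, hμ, hβ₀⟩ := nr_split (β j₀) (hβ j₀)
  have h2 : R (μ + Finsupp.single i₀ 1) ≠ 0 := hβ₀ ▸ h1
  obtain ⟨η, hη⟩ : ∃ η : Fin n → F,
      ∀ i, η i = R (μ + Finsupp.single i 1) / R (μ + Finsupp.single i₀ 1) := ⟨_, fun _ => rfl⟩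
  have h3 : ∀ γ : Fin n →₀ ℕ, γ.degree = e + 1 →
      R γ = aeval η (monomial γ (1 : K)) * R (Finsupp.single i₀ (e + 1)) := fun γ hγ => by
    have := nr_eval (K := K) (R := R) i₀ η (fun i ν hν => by
      rw [hη, div_mul_eq_mul_div, eq_div_iff h2, hR i i₀ ν μ hν hμ, mul_comm]) (e + 1) 0 γ hγ rfl
    rwa [Finsupp.single_zero, add_zero] at this
  have h4 : R (Finsupp.single i₀ (e + 1)) ≠ 0 := fun h => h1 (by rw [h3 _ (hβ j₀), h, mul_zero])
  have h5 : ∀ l, aeval η (w l) = 0 := fun l => by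
    refine (mul_eq_zero.1 ?_).resolve_right h4
    have h6 : aeval η (w l) * R (Finsupp.single i₀ (e + 1)) =
        ∑ γ ∈ (w l).support, algebraMap K F (coeff γ (w l)) * R γ := by
      conv_lhs => rw [(w l).as_sum, map_sum, sum_mul]
      refine sum_congr rfl fun γ hγ => ?_
      rw [h3 γ (by rw [Finsupp.degree_eq_weight_one]; exact hw l (mem_support_iff.1 hγ)),
        ← mul_assoc, ← aeval_C η, ← map_mul, C_mul_monomial, mul_one]
    rw [h6]
    simp only [hRd, mul_sum]
    rw [sum_comm]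
    refine sum_eq_zero fun j _ => ?_
    have h7 := congrArg (fun x => c j * algebraMap K F x) ((fn_eq_sum _ _).symm.trans (hkill j l))
    simp only [map_sum, map_mul, map_zero, mul_zero, mul_sum] at h7
    rw [← h7]
    exact sum_congr rfl fun γ _ => mul_left_comm _ _ _
  have h9 := hb F η h5 i₀
  rw [hη, div_self h2] at h9
  exact one_ne_zero h9

theorem bet_zero {a : ℕ} [NeZero a] : bet (fun _ : ZMod a => (0 : Fin 2)) = Finsupp.single 0 a := by
  ext i
  simp [bet, Finsupp.single_apply, ZMod.card]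

theorem hom_expand {K : Type u} [Field K] {N p r a : ℕ} (w : Fin p → MvPolynomial (Fin N) K)
    (lam : Fin r → (Fin N →₀ ℕ) → K) (θ : Fin p → (Fin N →₀ ℕ) → K) (β : Fin r → (Fin N →₀ ℕ))
    (hexp : ∀ γ : Fin N →₀ ℕ, γ.degree = a → monomial γ (1 : K) =
      ∑ l, θ l γ • w l + ∑ j, lam j γ • monomial (β j) 1)
    {f : MvPolynomial (Fin N) K} (hf : f.IsHomogeneous a) :
    f = ∑ l, fn (θ l) f • w l + ∑ j, fn (lam j) f • monomial (β j) 1 := by
  simp only [fn_eq_sum, sum_smul]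
  rw [sum_comm, sum_comm (t := f.support), ← sum_add_distrib]
  conv_lhs => rw [f.as_sum]
  refine sum_congr rfl fun γ hγ => ?_
  have h := hexp γ (by rw [Finsupp.degree_eq_weight_one]; exact hf (mem_support_iff.1 hγ))
  simp only [mul_smul]
  rw [← smul_sum, ← smul_sum, ← smul_add, ← h, smul_monomial, smul_eq_mul, mul_one]

theorem aeval_pen {F F₁ : Type u} [Field F] [Field F₁] (φ : F →+* F₁) {N : ℕ}
    (P : Fin 2 → Fin N → F) (β : Fin 2 →₀ ℕ) (c : F₁) :
    aeval (fun ε => map φ (∑ x, C (P ε x) * X x)) (monomial β c) = C c * map φ (pen P β) := by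
  rw [aeval_monomial, pen, map_prod, Finsupp.prod_fintype _ _ fun _ => pow_zero _]
  simp only [map_pow, algebraMap_eq]

theorem plain_inf {F E : Type u} [Field F] [Infinite F] [DivisionRing E] [Algebra F E]
    [FiniteDimensional F E] {N p a : ℕ} (ha : 2 ≤ a) (hfac : (a.factorial : F) ≠ 0) {ζ : F}
    (hζ : IsPrimitiveRoot ζ a) (w : Fin p → MvPolynomial (Fin N) F)
    (hw : ∀ i, (w i).IsHomogeneous a) (hli : LinearIndependent F w)
    (hb : ∀ (Ω : Type u) [Field Ω] [Algebra F Ω] (χ : Fin N → Ω),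
      (∀ i, aeval χ (w i) = 0) → ∀ x, χ x = 0) :
    ∃ (F₁ D : Type u) (_ : Field F₁) (_ : DivisionRing D) (_ : Algebra F₁ D)
      (_ : FiniteDimensional F₁ D) (φF : F →+* F₁) (φ : E →+* D) (M : ℕ)
      (B : Blk F₁ D (φF ζ) a M) (l : Fin M → Fin 2 → MvPolynomial (Fin N) F₁) (τ : Fin p → F₁),
      (∀ c, φ (algebraMap F E c) = algebraMap F₁ D (φF c)) ∧
      (∀ r x, Commute (B.γ r) (φ x)) ∧ (∀ r x, Commute (B.v r) (φ x)) ∧
      (∀ r ε, (l r ε).IsHomogeneous 1) ∧ (∀ i, τ i ≠ 0) ∧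
      ∑ r, aeval (l r) (B.g r) = ∑ i, C (τ i) * map φF (w i) := by
  classical
  have : NeZero a := ⟨by omega⟩
  obtain ⟨r, lam, θ, β, hβ, hdual, hθβ, hkill, hθw, hexp⟩ := exists_dual w hw hli
  obtain ⟨b, hP⟩ := gp_pencils F N (a := a) (by omega) hfac
  obtain ⟨P, hP⟩ := hP (r + 2 * b + 1)
  have ha1 : a - 1 + 1 = a := by omega
  have hfew : ∀ {q : ℕ} (ρ : Fin q → (Fin N →₀ ℕ) → F),
      (∀ c : Fin q → F, (∀ γ : Fin N →₀ ℕ, γ.degree = a → ∑ j, c j * ρ j γ = 0) → c = 0) →
      ∀ c : Fin q → F, c ≠ 0 → Few b fun s =>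
        ∑ j, c j * up a (fun s => res (ρ j) (P s)) s (fun _ => 0) = 0 := by
    intro q ρ hρ c hc S hS
    refine (hP F fun γ => ∑ j, c j * ρ j γ).2 ?_ S fun s hs => ?_
    · by_contra hn
      push Not at hn
      exact hc (hρ c hn)
    · have := hS s hs
      simp only [up, bet_zero] at this
      exact (res_sum _ _ _ _ _).trans this
  have hlam0 : ∀ c : Fin r → F, (∀ γ : Fin N →₀ ℕ, γ.degree = a → ∑ j, c j * lam j γ = 0) →
      c = 0 := fun c hc => funext fun j => by simpa [hdual] using hc _ (hβ j)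
  obtain ⟨D, _, _, j, m, hv, hΓ, hT0, hT1⟩ := exists_mdl E ha hζ (Nat.lt_succ_self (r + 2 * b))
    (fun j s => res (lam j) (P s)) (fun Ω _ _ c hc S hS =>
      (hP Ω fun γ => ∑ j, c j * algebraMap F Ω (lam j γ)).1 (not_rk1' w (by rw [ha1]; exact hw) hb
        lam hkill β (by rw [ha1]; exact hβ) hdual Ω c hc) S fun s hs => by
          have := hS s hs
          simp only [map_res] at this
          beta_reduce
          rwa [show res (fun γ => ∑ j, c j * algebraMap F Ω (lam j γ))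
            (fun ε x => algebraMap F Ω (P s ε x)) = _ from funext (res_sum _ _ _ _)])
    (tri_of (by omega) _ _ (hfew lam hlam0))
    (fun s R h0 h1 => tri_one (by omega) _ _ (hfew lam hlam0) s R h0 h1)
  obtain ⟨F₁, _, _, φF, B, c, halg, hBv, hBγ, hBg, hT⟩ := blk_of_mdl ha hζ m
  obtain ⟨D₁, _, _, _, φ₁, B₁, h1, h2, h3, h4⟩ := blk_fin (by omega)
    ((map_ne_zero φF).2 (hζ.ne_zero (by omega))) B φF (j : E →+* D)
    (fun c => (j.commutes c).trans (halg c)) (fun s x => by rw [hBγ]; exact hΓ s x)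
    (fun s x => by rw [hBv]; exact hv s x)
  refine ⟨F₁, D₁, inferInstance, inferInstance, inferInstance, inferInstance, φF, φ₁, _, B₁,
    fun s ε => map φF (∑ x, C (P s ε x) * X x),
    fun i => ∑ s, ∑ γ ∈ finsuppAntidiag univ a, φF (res (θ i) (P s) γ) * c s γ, h1, h2, h3,
    fun s ε => IsHomogeneous.map ?_ _, fun i h => ?_, ?_⟩
  · exact IsHomogeneous.sum _ _ _ fun x _ => (isHomogeneous_X F x).C_mul _
  · refine hT1 (fun s => res (θ i) (P s)) ?_ (by rw [hT]; exact (congrArg _ h).trans (map_zero _))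
    have h5 := tri_of (M := r + 2 * b + 1) (p := r + 1) (b := b) (by omega) _ _
      (hfew (Fin.cons (θ i) lam) fun c hc => by
        have h6 : ∀ j, c (Fin.succ j) = 0 := fun j => by
          simpa [Fin.sum_univ_succ, hdual, hθβ] using hc _ (hβ j)
        have h7 : c 0 = 0 := by
          have h8 := hθw i i
          rw [if_pos rfl, fn_eq_sum] at h8
          rw [← mul_one (c 0), ← h8, mul_sum]
          refine sum_eq_zero fun γ hγ => ?_
          have h9 := hc γ (by
            rw [Finsupp.degree_eq_weight_one]; exact hw i (mem_support_iff.1 hγ))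
          simp only [Fin.sum_univ_succ, h6, zero_mul, sum_const_zero, add_zero, Fin.cons_zero] at h9
          rw [mul_left_comm, h9, mul_zero]
        exact funext (Fin.cases h7 h6))
    rwa [Fin.range_fin_succ] at h5
  · have hinj := (algebraMap F₁ D).injective
    have h5 : ∀ i, ∑ s, ∑ γ ∈ finsuppAntidiag univ a, φF (res (lam i) (P s) γ) * c s γ = 0 :=
      fun i => hinj (by rw [← hT, hT0, map_zero])
    have h6 : ∀ s, ∀ γ ∈ finsuppAntidiag (univ : Finset (Fin 2)) a, C (c s γ) * map φF (pen (P s) γ) =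
        ∑ i, C (φF (res (θ i) (P s) γ) * c s γ) * map φF (w i) +
          ∑ i, C (φF (res (lam i) (P s) γ) * c s γ) * monomial (β i) 1 := by
      intro s γ hγ
      have h7 : (pen (P s) γ).IsHomogeneous a := by
        have := pen_hom (P s) γ
        rwa [Finsupp.degree_eq_sum, (mem_finsuppAntidiag.1 hγ).1] at this
      conv_lhs => rw [hom_expand w lam θ β hexp h7]
      simp only [map_add, map_sum, smul_eq_C_mul, map_mul, map_C, map_monomial, map_one, mul_add,
        mul_sum, res]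
      congr 1 <;> exact sum_congr rfl fun _ _ => by ring
    rw [h4, sum_congr rfl fun s _ => by
      rw [hBg s, map_sum, sum_congr rfl fun γ hγ => (aeval_pen φF (P s) γ _).trans (h6 s γ hγ)]]
    simp only [sum_add_distrib, map_sum (C : F₁ →+* MvPolynomial (Fin N) F₁), sum_mul]
    have h8 : ∑ s, ∑ γ ∈ finsuppAntidiag univ a, ∑ i,
        C (φF (res (lam i) (P s) γ) * c s γ) * monomial (β i) (1 : F₁) = 0 := by
      rw [sum_congr rfl fun s _ => sum_comm, sum_comm]
      refine sum_eq_zero fun i _ => ?_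
      simp only [← sum_mul, ← map_sum, h5, map_zero, zero_mul]
    rw [h8, add_zero, sum_congr rfl fun s _ => sum_comm, sum_comm]

end Vale.Agent.P200.G
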