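import Vale.Agent.P200.G.PlDefs

/-! Leading monomials of triangular systems. -/

open MvPolynomial Finset Matrix

namespace Vale.Agent.P200.G

open Vale.Agent.P200.Eq

universe u

variable {M a n : ℕ} [NeZero a] {K : Type u} [Field K]

private theorem pll_coeff {A : Type*} [Semiring A] (R : Fin M → (ZMod a → Fin n) → A) (s : Fin M)
    (f : ZMod a → Fin n) : (psi R).coeff (mon s f) = R s f := by
  unfold psi
  simp only [AddMonoidAlgebra.coeff_sum, Finsupp.finsetSum_apply, AddMonoidAlgebra.coeff_single]
  rw [Finset.sum_eq_single s, Finset.sum_eq_single f, Finsupp.single_eq_same]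
  · intro f' _ hf
    exact Finsupp.single_eq_of_ne fun h => hf (philead_mon_inj h).2.symm
  · simp
  · intro s' _ hs
    exact sum_eq_zero fun f' _ => Finsupp.single_eq_of_ne fun h => hs (philead_mon_inj h).1.symm
  · simp

private theorem pll_supp {A : Type*} [Semiring A] (R : Fin M → (ZMod a → Fin n) → A)
    {m : Mon (Var M a n)} (h : (psi R).coeff m ≠ 0) : ∃ s f, m = mon s f := by
  by_contra h'
  push Not at h'
  refine h ?_
  unfold psi
  simp only [AddMonoidAlgebra.coeff_sum, Finsupp.finsetSum_apply, AddMonoidAlgebra.coeff_single]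
  exact sum_eq_zero fun s _ => sum_eq_zero fun f _ => Finsupp.single_eq_of_ne (h' s f)

private theorem pll_inc {E : Type u} [DivisionRing E] [Algebra K E]
    (R : Fin M → (ZMod a → Fin n) → K) :
    inc K E (Var M a n) (psi R) = psi fun s f => algebraMap K E (R s f) := by
  simp only [psi, map_sum, inc, AddMonoidAlgebra.mapRingHom_single]

private theorem pll_span {E : Type u} [DivisionRing E] [Algebra K E]
    {U : Submodule (Alg E (Var M a n)) (Gp M a → Alg E (Var M a n))}
    {T : Set (Fin M → (ZMod a → Fin n) → K)}
    (ht : ∀ R ∈ T, ∀ g : Gp M a, Pi.single g (inc K E (Var M a n) (psi R)) ∈ U)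
    {R : Fin M → (ZMod a → Fin n) → K} (hR : R ∈ Submodule.span K T) (g : Gp M a) :
    Pi.single g (psi fun s f => algebraMap K E (R s f)) ∈ U := by
  induction hR using Submodule.span_induction with
  | mem x hx =>
    rw [← pll_inc]
    exact ht x hx g
  | zero =>
    have : (psi fun s f => algebraMap K E ((0 : Fin M → (ZMod a → Fin n) → K) s f)) = 0 := by
      simp [psi]
    rw [this, Pi.single_zero]
    exact U.zero_mem
  | add x y _ _ hx hy =>
    have : (psi fun s f => algebraMap K E ((x + y) s f)) =
        (psi fun s f => algebraMap K E (x s f)) + psi fun s f => algebraMap K E (y s f) := by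
      simp only [psi, Pi.add_apply, map_add, AddMonoidAlgebra.single_add, sum_add_distrib]
    rw [this, Pi.single_add]
    exact U.add_mem hx hy
  | smul c x _ hx =>
    have : (psi fun s f => algebraMap K E ((c • x) s f)) =
        (AddMonoidAlgebra.single 0 (algebraMap K E c) : Alg E (Var M a n)) •
          psi fun s f => algebraMap K E (x s f) := by
      simp only [psi, Pi.smul_apply, smul_eq_mul, map_mul, mul_sum,
        AddMonoidAlgebra.single_mul_single, zero_add]
    rw [this, Pi.single_smul]
    exact U.smul_mem _ hx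

theorem psi_bound {E : Type u} [DivisionRing E] [Algebra K E]
    (G : Gr (Gp M a) (Var M a n) (Gam M a)) (hwt : G.wt = wtB)
    {U : Submodule (Alg E (Var M a n)) (Gp M a → Alg E (Var M a n))} (hU : G.Graded U)
    {p : ℕ} {T : Set (Fin M → (ZMod a → Fin n) → K)} (hT : Tri p T)
    (ht : ∀ R ∈ T, ∀ g : Gp M a, Pi.single g (inc K E (Var M a n) (psi R)) ∈ U)
    {k : ZG (Gam M a)} (hk : G.IsK ⊤ U k) :
    Ord (piS (dgB M a) k) p ∧ PowerSeries.coeff p (piS (dgB M a) k) ≤ (a : ℤ) ^ (M + p) := by
  classical
  obtain ⟨b, f, R, hb, hRT, hR, htri⟩ := hT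
  have ha : 0 < a := Nat.pos_of_ne_zero (NeZero.ne a)
  let ω' : Fin M → ZMod a → Fin n → ℕ :=
    Function.extend b (fun j k i => if i = f j k then a * p - j else 0) 0
  let ω : Var M a n → ℕ := fun v => ω' v.1 v.2.1 v.2.2
  have hω : ∀ (j : Fin p) (g : ZMod a → Fin n), Finsupp.weight ω (mon (b j) g) =
      ∑ k, if g k = f j k then a * p - j else 0 := fun j g => by
    rw [philead_weight]
    exact sum_congr rfl fun k _ => by
      simp only [ω, ω', hb.extend_apply]
  have hω' : ∀ j : Fin p, Finsupp.weight ω (mon (b j) (f j)) = a * (a * p - j) :=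
    fun j => by rw [hω]; simp [ZMod.card]
  have hap : p ≤ a * p := Nat.le_mul_of_pos_left p ha
  have h := lead_bound G (dgB M a) (fun v => by rw [hwt]; rfl) hU (a := a)
    (fun j => psi fun s g => algebraMap K E (R j s g)) ω (fun j => mon (b j) (f j))
    (fun j => by rw [pll_coeff]; exact (_root_.map_ne_zero _).2 (hR j)) (fun j m hm => ?_)
    (fun i j hij => ?_) (fun j => by simp [mon, ZMod.card])
    (fun j g => pll_span ht (hRT j) g) hk
  · refine ⟨h.1, h.2.trans (le_of_eq ?_)⟩
    rw [Fintype.card_fun, ZMod.card, Fintype.card_fin, pow_add]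
    push_cast
    rfl
  · obtain ⟨s, g, rfl⟩ := pll_supp _ hm
    rw [pll_coeff, _root_.map_ne_zero] at hm
    have hj := j.2
    rw [hω']
    by_cases hs : ∃ s', b s' = s
    · obtain ⟨s, rfl⟩ := hs
      have hs' := s.2
      by_cases hg : g = f s
      · subst hg
        rcases lt_trichotomy s j with h1 | rfl | h1
        · exact absurd (htri _ _ h1) hm
        · exact Or.inl rfl
        · right
          rw [hω']
          have h2 : j.1 < s.1 := h1
          exact (Nat.mul_lt_mul_left ha).2 (by omega)
      · right
        rw [hω]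
        have h1 := philead_lt hg (a * p - s.1)
        have h2 := philead_num (x := ∑ k, if g k = f s k then a * p - s.1 else 0) ha hj
          (Nat.sub_le _ _) h1
        exact h2
    · right
      rw [philead_weight, sum_eq_zero fun k _ => by
        simp only [ω, ω', Function.extend_apply' _ _ _ hs, Pi.zero_apply]]
      exact Nat.mul_pos ha (by omega)
  · refine Finset.disjoint_left.2 fun ⟨s, k, i'⟩ h1 h2 => hij ?_
    rw [Finsupp.mem_support_iff, philead_mon_apply] at h1 h2
    have h3 : b i = s := by_contra fun h => h1 (if_neg fun h' => h h'.1)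
    have h4 : b j = s := by_contra fun h => h2 (if_neg fun h' => h h'.1)
    exact hb (h3.trans h4.symm)

end Vale.Agent.P200.G
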