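import Vale.Agent.P200.G.PlDefs

/-! The universal matrices lie in the graded ring. -/

open MvPolynomial Finset Matrix

namespace Vale.Agent.P200.G

open Vale.Agent.P200.Eq

universe u

variable {M a n : ℕ} [NeZero a] {K E : Type u} [Field K] [DivisionRing E] [Algebra K E] {ζ : K}

private theorem pm_inc (R : Fin M → (ZMod a → Fin n) → K) :
    inc K E (Var M a n) (psi R) = psi fun s f => algebraMap K E (R s f) := by
  simp only [psi, map_sum, inc, AddMonoidAlgebra.mapRingHom_single]

private theorem pm_hom (R : Fin M → (ZMod a → Fin n) → E) : HomA wtB (psi R) (dB M a a) :=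
  CMem.hom_sum _ fun s _ => CMem.hom_sum _ fun f _ => CMem.hom_single (CMem.wt_mon s f) _

private theorem pm_sg (s : Fin M) (R : Fin M → (ZMod a → Fin n) → E) :
    sgB E n s (psi R) = psi fun t f => R t fun k => f (k + if t = s then 1 else 0) := by
  unfold psi
  rw [map_sum]
  refine sum_congr rfl fun t _ => ?_
  rw [map_sum]
  let c : ZMod a := if t = s then 1 else 0
  let e : (ZMod a → Fin n) ≃ (ZMod a → Fin n) := Equiv.arrowCongr (Equiv.addRight c) (Equiv.refl _)
  have he : ∀ f k, e f (k + c) = f k := fun f k => by simp [e]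
  refine Fintype.sum_equiv e _ _ fun f => ?_
  have h1 : (mon t f).mapDomain (piB s) = mon t (e f) := by
    unfold mon
    rw [Finsupp.mapDomain_finsetSum]
    refine Fintype.sum_equiv (Equiv.addRight c) _ _ fun k => ?_
    rw [Finsupp.mapDomain_single, Equiv.coe_addRight, he]
    by_cases h : t = s <;> simp [piB, c, h]
  have h2 : (fun k => e f (k + c)) = f := funext (he f)
  rw [CMem.sgB_single, h1]
  exact congrArg (fun z => AddMonoidAlgebra.single (mon t (e f)) (R t z)) h2.symm

private theorem pm_bet (f : ZMod a → Fin n) (c : ZMod a) : bet (fun k => f (k + c)) = bet f :=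
  Fintype.sum_equiv (Equiv.addRight c) _ _ fun _ => rfl

private theorem pm_cmul (c : K) (R : Fin M → (ZMod a → Fin n) → K) :
    C c * (psi R : MvPolynomial (Var M a n) K) = psi fun s f => c * R s f := by
  unfold psi
  rw [mul_sum]
  refine sum_congr rfl fun s _ => ?_
  rw [mul_sum]
  refine sum_congr rfl fun f _ => ?_
  exact C_mul_monomial

private theorem pm_V (ζ : K) (t : Fin M) (i : Fin 2) (g g' : Gp M a) :
    (inc K E (Var M a 2)).mapMatrix (Vm ζ t i) g g' =
      if g' = g + Pi.single t 1 then
        AddMonoidAlgebra.single (Finsupp.single ((t, g t, i) : Var M a 2) 1)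
          (algebraMap K E (chi ζ (∑ u ∈ Iio t, g u))) else 0 := by
  rw [RingHom.mapMatrix_apply, Matrix.map_apply, Vm, ymat, Matrix.of_apply]
  split_ifs
  · rw [C_mul_X_eq_monomial]
    exact AddMonoidAlgebra.mapRingHom_single _ _ _
  · exact map_zero _

private theorem pm_G (ζ : K) (s : Fin M) (i : ZMod a) (g g' : Gp M a) :
    (inc K E (Var M a 2)).mapMatrix (Gm ζ s i) g g' =
      if g = g' then psi fun t f => algebraMap K E (chi ζ (i * g s) * rsv ζ s i t f) else 0 := by
  rw [RingHom.mapMatrix_apply, Matrix.map_apply, Gm, Matrix.diagonal_apply]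
  split_ifs
  · rw [pm_cmul, pm_inc]
  · exact map_zero _

private theorem pm_indw (f : ZMod a → Fin 2) (m c : ZMod a) :
    (fun k => f (k + c)) = indw m ↔ f = indw (m + c) := by
  constructor
  · intro h
    funext k
    have h1 := congrFun h (k - c)
    rw [sub_add_cancel] at h1
    rw [h1, indw, indw]
    exact if_congr sub_eq_iff_eq_add rfl rfl
  · rintro rfl
    funext k
    rw [indw, indw]
    exact if_congr (add_left_inj c) rfl rfl

theorem up_mem (ζ : K) (R : Fin M → (Fin n →₀ ℕ) → K) :
    Matrix.scalar (Gp M a) (inc K E (Var M a n) (psi (up a R))) ∈ cB E M a n ζ a := by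
  rw [pm_inc]
  refine CMem.scalar_mem ζ (pm_hom _) fun s => ?_
  rw [pm_sg]
  simp only [up, pm_bet]

theorem Vm_mem (hζ : ζ ^ a = 1) (s : Fin M) (ε : Fin 2) :
    (inc K E (Var M a 2)).mapMatrix (Vm ζ s ε) ∈ cB E M a 2 ζ 1 := by
  refine ⟨fun g g' => ?_, fun t g g' => ?_⟩
  · rw [pm_V]
    split_ifs with h
    · refine CMem.hom_single ?_ _
      rw [Finsupp.weight_single, one_smul, h, CMem.wt_step]
    · exact CMem.hom_zero _
  · rw [pm_V, pm_V]
    by_cases h : g' = g + Pi.single s 1
    · rw [if_pos h, if_pos (by rw [h, add_right_comm]), CMem.sgB_single, Finsupp.mapDomain_single,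
        AddMonoidAlgebra.smul_single, AddMonoidAlgebra.smul_single]
      have h1 : piB t ((s, g s, ε) : Var M a 2) = (s, (g + Pi.single t 1 : Gp M a) s, ε) := by
        by_cases hts : s = t
        · subst hts; simp [piB]
        · simp [piB, hts]
      rw [h1, Algebra.smul_def, Algebra.smul_def, ← map_mul, ← map_mul, h]
      unfold etaB
      rw [← CMem.chi_add hζ, ← CMem.chi_add hζ]
      congr 3
      simp only [Pi.add_apply, sum_add_distrib, Finset.sum_pi_single', mem_Iio, mem_Ioi]
      ring
    · rw [if_neg h, if_neg, map_zero, smul_zero, smul_zero]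
      intro h'
      rw [add_right_comm] at h'
      exact h (add_right_cancel h')

theorem Gm_mem (hζ : ζ ^ a = 1) (s : Fin M) (i : ZMod a) :
    (inc K E (Var M a 2)).mapMatrix (Gm ζ s i) ∈ cB E M a 2 ζ a := by
  refine ⟨fun g g' => ?_, fun t g g' => ?_⟩
  · rw [pm_G]
    split_ifs with h
    · rw [h, add_sub_cancel_right]
      exact pm_hom _
    · exact CMem.hom_zero _
  · rw [pm_G, pm_G]
    by_cases h : g = g'
    · subst h
      rw [if_pos rfl, if_pos rfl, pm_sg]
      congr 2
      funext u f
      congr 1
      unfold rsv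
      by_cases hu : u = s
      · subst hu
        rw [if_pos rfl, if_pos rfl, Pi.add_apply, Pi.single_apply, mul_sum, mul_sum]
        generalize (if u = t then 1 else 0 : ZMod a) = c
        refine (Fintype.sum_equiv (Equiv.addRight c) _ _ fun m => ?_).symm
        rw [Equiv.coe_addRight, if_congr (pm_indw f m c) rfl rfl]
        split_ifs
        · rw [← CMem.chi_add hζ, ← CMem.chi_add hζ]
          congr 1
          ring
        · rw [mul_zero, mul_zero]
      · rw [if_neg hu, if_neg hu, mul_zero, mul_zero]
    · rw [if_neg h, if_neg (fun h' => h (add_right_cancel h')), map_zero, smul_zero, smul_zero]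

end Vale.Agent.P200.G
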