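import Vale.Agent.P200.G.PlDiv
import Vale.Agent.P200.G.PlLead
import Vale.Agent.P200.G.PlMem

/-! The rank function and the completely prime ideal. -/

open MvPolynomial Finset Matrix

namespace Vale.Agent.P200.G

open Vale.Agent.P200.Eq

universe u

variable {M a n : ℕ} [NeZero a]

theorem exists_prime' {K E : Type u} [Field K] [DivisionRing E] [Algebra K E] {ζ : K}
    (hζ : ζ ^ a = 1) {r b : ℕ} (hn : 2 ≤ n * (a - 1)) (hr : r + 2 * b < M)
    (lam : Fin r → Fin M → (Fin n →₀ ℕ) → K)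
    (hlam : ∀ (F : Type u) [Field F] [Algebra K F] (c : Fin r → F), c ≠ 0 →
      Few b fun s => Rk1 (fun β => ∑ j, c j * algebraMap K F (lam j s β)) (a - 1))
    (htri : Tri r (Set.range fun j => up a (lam j))) :
    ∃ J : ℕ → Submodule E (Matrix (Gp M a) (Gp M a) (Alg E (Var M a n))),
      (∀ d, J d ≤ cB E M a n ζ d) ∧
      (∀ d e, ∀ x ∈ J d, ∀ y ∈ cB E M a n ζ e, x * y ∈ J (d + e)) ∧
      (∀ d e, ∀ x ∈ cB E M a n ζ d, ∀ y ∈ J e, x * y ∈ J (d + e)) ∧
      (∀ d e, ∀ x ∈ cB E M a n ζ d, ∀ y ∈ cB E M a n ζ e, x * y ∈ J (d + e) →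
        x ∈ J d ∨ y ∈ J e) ∧ 1 ∉ J 0 ∧
      (∀ j, Matrix.scalar (Gp M a) (inc K E (Var M a n) (psi (up a (lam j)))) ∈ J a) ∧
      ∀ (d : ℕ) (c : Matrix (Gp M a) (Gp M a) (Alg E (Var M a n)))
        (R : Fin M → (ZMod a → Fin n) → K),
        (∀ g, ∃ v, v ᵥ* c = Pi.single g (inc K E (Var M a n) (psi R))) →
        Tri (r + 1) (insert R (Set.range fun j => up a (lam j))) → c ∉ J d := by
  classical
  have ha : 0 < a := Nat.pos_of_ne_zero (NeZero.ne a)
  have hdg : ∀ v : Var M a n, dgB M a (wtB v) = 1 := fun v => rfl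
  let G : Gr (Gp M a) (Var M a n) (Gam M a) :=
    ⟨wB, wtB, fin_of_pos wB wtB (dgB M a) fun v => by rw [hdg]; exact one_pos⟩
  let A := Alg E (Var M a n)
  let L : Matrix (Gp M a) (Gp M a) A → (Gp M a → A) →ₗ[A] (Gp M a → A) := Matrix.vecMulLinear
  have hL : ∀ c v, L c v = v ᵥ* c := fun _ _ => rfl
  have hLL : ∀ x y v, L y (L x v) = L (x * y) v := fun x y v => Matrix.vecMul_vecMul v x y
  have hhom : ∀ d, ∀ c ∈ cB E M a n ζ d, Hom G G (L c) (dB M a d) := fun d c hc =>
    hom_vecMul G G rfl c _ hc.1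
  let ph : Fin r → Matrix (Gp M a) (Gp M a) A := fun j =>
    Matrix.scalar (Gp M a) (inc K E (Var M a n) (psi (up a (lam j))))
  have hph : ∀ j, ph j ∈ cB E M a n ζ a := fun j => up_mem ζ _
  have hphc : ∀ j c, ph j * c = c * ph j := fun j c =>
    Matrix.scalar_commute _ (fun x => inc_comm _ x) c
  let U0 : Submodule A (Gp M a → A) := univ.sup fun j => LinearMap.range (L (ph j))
  have hgr : ∀ d, ∀ c ∈ cB E M a n ζ d, G.Graded (LinearMap.range (L c)) := by
    intro d c hc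
    rw [LinearMap.range_eq_map]
    exact (graded_top G).map (hhom d c hc)
  have hU0 : G.Graded U0 := by
    refine Finset.sup_induction (p := fun U => G.Graded U) (graded_bot G)
      (fun _ h _ h' => h.sup h') fun j _ => hgr a _ (hph j)
  have hphU : ∀ j, LinearMap.range (L (ph j)) ≤ U0 := fun j =>
    Finset.le_sup (f := fun j => LinearMap.range (L (ph j))) (mem_univ j)
  have hU0c : ∀ c, U0 ≤ U0.comap (L c) := by
    intro c
    refine Finset.sup_le fun j _ => ?_
    rintro _ ⟨v, rfl⟩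
    refine hphU j ⟨L c v, ?_⟩
    rw [hLL, hLL, hphc]
  have hsing : ∀ (x : A) (g : Gp M a), Pi.single g x ∈
      LinearMap.range (L (Matrix.scalar (Gp M a) x)) := fun x g =>
    ⟨Pi.single g 1, single_vecMul_scalar g _⟩
  have hbound : ∀ k, G.IsK ⊤ U0 k → Ord (piS (dgB M a) k) r ∧
      PowerSeries.coeff r (piS (dgB M a) k) ≤ (a : ℤ) ^ (M + r) := fun k hk =>
    psi_bound G rfl hU0 htri (by rintro _ ⟨j, rfl⟩ g; exact hphU j (hsing _ g)) hk
  obtain ⟨ρ, r1, r2, r3, r4, r5, r6⟩ := exists_rho G (dgB M a) hdg hU0 fun k hk => (hbound k hk).1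
  have hρ0 : ρ U0 = 0 := by
    obtain ⟨k, hk, h⟩ := r1 U0 hU0 le_rfl
    have : G.IsK U0 U0 0 := by simp [Gr.IsK]
    rw [h, hk.unique this, map_zero, map_zero]
  have hρtop : 0 < ρ ⊤ ∧ ρ ⊤ ≤ (a : ℤ) ^ (M + r) := by
    obtain ⟨k, hk, h⟩ := r1 ⊤ (graded_top G) le_top
    refine ⟨lt_of_le_of_ne (r2 ⊤ (graded_top G) le_top) fun h0 => ?_, h ▸ (hbound k hk).2⟩
    refine not_ord_top G (dgB M a) hdg (fun j => L (ph j)) (dB M a a)
      (by simpa [dgB, dB] using ha) (fun j => hhom a _ (hph j)) (fun i j v => ?_) hk ?_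
    · rw [hLL, hLL, hphc]
    · intro i hi
      rcases Nat.lt_succ_iff_lt_or_eq.1 hi with hi | rfl
      · exact (hbound k hk).1 i hi
      · rw [← h, ← h0]
  let W : Matrix (Gp M a) (Gp M a) A → Submodule A (Gp M a → A) := fun c =>
    LinearMap.range (L c) ⊔ U0
  have hW : ∀ d, ∀ c ∈ cB E M a n ζ d, G.Graded (W c) := fun d c hc => (hgr d c hc).sup hU0
  have hWle : ∀ c, U0 ≤ W c := fun c => le_sup_right
  have hdiv : ∀ d, ∀ c ∈ cB E M a n ζ d, ρ (W c) = 0 ∨ ρ (W c) = ρ ⊤ := by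
    intro d c hc
    obtain ⟨k, hk, h⟩ := r1 (W c) (hW d c hc) (hWle c)
    have h1 : (a : ℤ) ^ (M + r) ∣ ρ (W c) := by
      rw [h]
      refine div_block' hn hr lam hlam G rfl rfl (hW d c hc) hU0 (hWle c) (fun j u _ => ?_)
        (fun s => ?_) hk
      · refine hphU j ⟨u, ?_⟩
        funext g
        simp only [hL, ph, Matrix.scalar_apply, Matrix.vecMul_diagonal, Pi.smul_apply, smul_eq_mul]
        rw [inc_comm]
      · obtain ⟨S, hS1, hS2⟩ := exists_sig (E := E) hζ G rfl rfl s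
        have key : ∀ d, ∀ c ∈ cB E M a n ζ d, ((LinearMap.range (L c)).restrictScalars E).map
            S.toLinearMap = (LinearMap.range (L c)).restrictScalars E := by
          intro d c hc
          apply le_antisymm
          · rintro _ ⟨_, ⟨v, rfl⟩, rfl⟩
            exact ⟨S v, (hS2 d c hc v).symm⟩
          · rintro _ ⟨v, rfl⟩
            refine ⟨_, ⟨S.symm v, rfl⟩, ?_⟩
            change S (S.symm v ᵥ* c) = v ᵥ* c
            rw [hS2 d c hc, S.apply_symm_apply]
        let P : Submodule A (Gp M a → A) → Prop := fun U =>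
          (U.restrictScalars E).map S.toLinearMap = U.restrictScalars E
        have hsup : ∀ U, P U → ∀ U', P U' → P (U ⊔ U') := by
          intro U h U' h'
          simp only [P] at h h' ⊢
          rw [Submodule.restrictScalars_sup, Submodule.map_sup, h, h']
        have hP0 : P U0 := Finset.sup_induction (p := P) (by simp [P]) hsup
          fun j _ => key a _ (hph j)
        have hiff : ∀ U, P U → ∀ v, v ∈ U ↔ S v ∈ U := by
          intro U h v
          constructor
          · intro hv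
            have : S v ∈ (U.restrictScalars E).map S.toLinearMap := ⟨v, hv, rfl⟩
            rwa [h] at this
          · intro hv
            have : S v ∈ (U.restrictScalars E).map S.toLinearMap := by rw [h]; exact hv
            obtain ⟨v', hv', h'⟩ := this
            rwa [← S.injective h']
        exact ⟨S, hS1, hiff _ (hsup _ (key d c hc) _ hP0), hiff _ hP0⟩
    have h2 := r2 _ (hW d c hc) (hWle c)
    have h3 := r3 _ ⊤ (hW d c hc) (graded_top G) (hWle c) le_top
    rcases h2.eq_or_lt with h4 | h4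
    · exact Or.inl h4.symm
    · exact Or.inr (le_antisymm h3 (hρtop.2.trans (Int.le_of_dvd h4 h1)))
  have hsmall : ∀ d, ∀ c ∈ cB E M a n ζ d, ∀ U, G.Graded U → W c ≤ U → ρ U ≤ 0 → ρ (W c) = 0 :=
    fun d c hc U hU h h' => le_antisymm ((r3 _ _ (hW d c hc) hU (hWle c) h).trans h')
      (r2 _ (hW d c hc) (hWle c))
  have hWmul : ∀ x y, W (x * y) = (W x).map (L y) ⊔ U0 := by
    intro x y
    have h1 : LinearMap.range (L (x * y)) = (LinearMap.range (L x)).map (L y) := by
      rw [← LinearMap.range_comp]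
      congr 1
      exact LinearMap.ext fun v => (hLL x y v).symm
    simp only [W]
    rw [h1, Submodule.map_sup, sup_assoc, sup_eq_right.2 (Submodule.map_le_iff_le_comap.2 (hU0c y))]
  let J : ℕ → Submodule E (Matrix (Gp M a) (Gp M a) A) := fun d =>
    { carrier := {c | c ∈ cB E M a n ζ d ∧ ρ (W c) = 0}
      add_mem' := by
        rintro x y ⟨hx, hx'⟩ ⟨hy, hy'⟩
        refine ⟨add_mem hx hy, hsmall d _ (add_mem hx hy) (W x ⊔ W y)
          ((hW d x hx).sup (hW d y hy)) (sup_le ?_ ((hWle x).trans le_sup_left)) ?_⟩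
        · rintro _ ⟨v, rfl⟩
          rw [hL, Matrix.vecMul_add]
          exact Submodule.add_mem_sup (Submodule.mem_sup_left ⟨v, rfl⟩)
            (Submodule.mem_sup_left ⟨v, rfl⟩)
        · have := r4 _ _ (hW d x hx) (hW d y hy) (hWle x) (hWle y)
          omega
      zero_mem' := by
        refine ⟨zero_mem _, hsmall d _ (zero_mem _) U0 hU0 (sup_le ?_ le_rfl) hρ0.le⟩
        rintro _ ⟨v, rfl⟩
        rw [hL, Matrix.vecMul_zero]
        exact zero_mem _
      smul_mem' := by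
        rintro e x ⟨hx, hx'⟩
        refine ⟨Submodule.smul_mem _ e hx, hsmall d _ (Submodule.smul_mem _ e hx) (W x) (hW d x hx)
          (sup_le ?_ (hWle x)) hx'.le⟩
        rintro _ ⟨v, rfl⟩
        refine Submodule.mem_sup_left ⟨fun g => v g * AddMonoidAlgebra.single 0 e, ?_⟩
        funext g
        simp only [hL, Matrix.vecMul, dotProduct, Matrix.smul_apply, mul_assoc]
        refine Finset.sum_congr rfl fun g' _ => ?_
        congr 1
        ext m
        simp [A, AddMonoidAlgebra.coeff_single_zero_mul] }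
  refine ⟨J, fun d c hc => hc.1, ?_, ?_, ?_, ?_, fun j => ?_, ?_⟩
  · rintro d e x ⟨hx, hx'⟩ y hy
    refine ⟨cB_mul ζ hx hy, hsmall _ _ (cB_mul ζ hx hy) _ (hW _ _ (cB_mul ζ hx hy)) le_rfl ?_⟩
    have h1 := r5 (W x) (L y) _ (hW d x hx) (hWle x) (hhom e y hy) (hU0c y)
    have h2 := r2 _ ((hW d x hx).inf (hU0.comap (hhom e y hy))) (le_inf (hWle x) (hU0c y))
    rw [hWmul]
    omega
  · rintro d e x hx y ⟨hy, hy'⟩
    refine ⟨cB_mul ζ hx hy, hsmall _ _ (cB_mul ζ hx hy) (W y) (hW e y hy)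
      (sup_le ?_ (hWle y)) hy'.le⟩
    rintro _ ⟨v, rfl⟩
    exact Submodule.mem_sup_left ⟨L x v, hLL x y v⟩
  · rintro d e x hx y hy ⟨-, hxy⟩
    rcases hdiv d x hx with h | h
    · exact Or.inl ⟨hx, h⟩
    rcases hdiv e y hy with h' | h'
    · exact Or.inr ⟨hy, h'⟩
    exfalso
    have h1 := r5 (W x) (L y) _ (hW d x hx) (hWle x) (hhom e y hy) (hU0c y)
    have h2 := r5 ⊤ (L y) _ (graded_top G) le_top (hhom e y hy) (hU0c y)
    have h3 := r3 _ _ ((hW d x hx).inf (hU0.comap (hhom e y hy)))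
      ((graded_top G).inf (hU0.comap (hhom e y hy))) (le_inf (hWle x) (hU0c y))
      (inf_le_inf_right _ le_top)
    rw [← LinearMap.range_eq_map] at h2
    rw [← hWmul] at h1
    have h4 : ρ (LinearMap.range (L y) ⊔ U0) = ρ ⊤ := h'
    omega
  · rintro ⟨-, h⟩
    have : W 1 = ⊤ := by
      refine top_unique fun v _ => Submodule.mem_sup_left ⟨v, ?_⟩
      rw [hL, Matrix.vecMul_one]
    rw [this] at h
    omega
  · exact ⟨hph j, hsmall a _ (hph j) U0 hU0 (sup_le (hphU j) le_rfl) hρ0.le⟩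
  · rintro d c R hv hT ⟨hc, h⟩
    obtain ⟨𝒞, hk, -⟩ := exists_cells G (graded_top G) (hW d _ hc) le_top
    have h1 := (psi_bound G rfl (hW d _ hc) hT ?_ hk).1
    · have := r6 _ _ (hW d _ hc) (hWle _) hk h1
      omega
    · rintro R' (rfl | ⟨j, rfl⟩) g
      · obtain ⟨v, hv⟩ := hv g
        exact Submodule.mem_sup_left ⟨v, hv⟩
      · exact hWle _ (hphU j (hsing _ g))

end Vale.Agent.P200.G
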