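import Vale.Agent.P200.G.PlDefs

/-! The transcendence degree count with block dependent functionals. -/

open MvPolynomial Finset Matrix

namespace Vale.Agent.P200.G

open Vale.Agent.P200.Eq

universe u

open Classical in
theorem pltr_blocks {K F : Type u} [Field K] [Field F] [Algebra K F] {n : ℕ} {T : Type} [Fintype T]
    {S : Type} (l : S → T → Fin n → F) (R : S → (Fin n →₀ ℕ) → F)
    (h0 : ∀ s i, fn (R s) (X i * ∏ t, ∑ p, C (l s t p) * X p) = 0)
    (B : Finset F) (hR : ∀ s β, R s β ∈ trCl K (B : Set F)) (A : Finset S) :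
    TrExt K B (⋃ s ∈ A, ⋃ t, Set.range (l s t)) (A.card * (n * Fintype.card T))
      (2 * (A.filter fun s => ¬ Rk1 (R s) (Fintype.card T)).card) := by
  induction A using Finset.induction_on with
  | empty => exact ⟨B, fun y hy => trCl_sub hy, by simp, by simp⟩
  | insert s A hs ih =>
    rw [set_biUnion_insert, card_insert_of_notMem hs, Nat.succ_mul, Set.union_comm, filter_insert]
    split_ifs with hk
    · refine ih.trans (a' := 0) fun B' h1 _ => ?_
      simpa using (tr_block (l s) univ (R s) B' (fun β => trCl_mono h1 (hR s β)) (h0 s)).1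
    · rw [card_insert_of_notMem fun h => hs (mem_filter.1 h).1, Nat.mul_succ]
      refine ih.trans fun B' h1 _ => ?_
      simpa using (tr_block (l s) univ (R s) B' (fun β => trCl_mono h1 (hR s β)) (h0 s)).2.2 hk

theorem exists_mem_span' {K : Type u} [Field K] {W : Type} {n r M b : ℕ} {T : Type} [Fintype T]
    (lam : Fin r → Fin M → (Fin n →₀ ℕ) → K)
    (hlam : ∀ (F : Type u) [Field F] [Algebra K F] (c : Fin r → F), c ≠ 0 →
      Few b fun s => Rk1 (fun β => ∑ j, c j * algebraMap K F (lam j s β)) (Fintype.card T))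
    (x : Fin M → T → Fin n → W) (χ : Fin r → W) (σ : Finset W)
    (hσ : ∀ v ∈ σ, (∃ s t i, v = x s t i) ∨ ∃ j, v = χ j)
    (hcard : r + M * (n * Fintype.card T) + 2 * b < σ.card + 2 * M) (j₀ : Fin r) :
    ∃ (g : MvPolynomial W K) (m : ℕ), g ≠ 0 ∧ g ∈ supported K (σ : Set W) ∧
      X (χ j₀) ^ m * g ∈ Ideal.span (Set.range fun p : Fin M × Fin n =>
        fn (fun β => ∑ j, (X (χ j) : MvPolynomial W K) * C (lam j p.1 β))
          (X p.2 * ∏ t, ∑ i, C (X (x p.1 t i)) * X i)) := by
  classical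
  by_contra hcon
  let N : Submonoid (MvPolynomial W K) :=
    { carrier := {f | ∃ (g : MvPolynomial W K) (m : ℕ), g ≠ 0 ∧ g ∈ supported K (σ : Set W) ∧
        X (χ j₀) ^ m * g = f}
      one_mem' := ⟨1, 0, one_ne_zero, one_mem _, by simp⟩
      mul_mem' := by
        rintro _ _ ⟨g, m, h1, h2, rfl⟩ ⟨g', m', h1', h2', rfl⟩
        exact ⟨g * g', m + m', mul_ne_zero h1 h1', mul_mem h2 h2', by ring⟩ }
  obtain ⟨P, hP, hIP, hd⟩ := Ideal.exists_le_prime_disjoint _ N (Set.disjoint_left.2 (by
    rintro _ hf ⟨g, m, h1, h2, rfl⟩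
    exact hcon ⟨g, m, h1, h2, hf⟩))
  let F := FractionRing (MvPolynomial W K ⧸ P)
  let φ : MvPolynomial W K →ₐ[K] F :=
    (IsScalarTower.toAlgHom K (MvPolynomial W K ⧸ P) F).comp (Ideal.Quotient.mkₐ K P)
  have hφ : ∀ f, φ f = 0 ↔ f ∈ P := fun f =>
    (FaithfulSMul.algebraMap_eq_zero_iff (R := MvPolynomial W K ⧸ P) (A := F)).trans
      Ideal.Quotient.eq_zero_iff_mem
  have hM : ∀ f ∈ N, φ f ≠ 0 := fun f hf e => Set.disjoint_left.1 hd ((hφ f).1 e) hf
  have hind : AlgebraicIndependent K fun v : (σ : Set W) => φ (X v.1) := by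
    rw [algebraicIndependent_iff]
    intro p hp
    by_contra hne
    refine hM (rename Subtype.val p) ⟨rename Subtype.val p, 0,
      fun e => hne (rename_injective _ Subtype.val_injective (e.trans (map_zero _).symm)), ?_,
      by simp⟩ ?_
    · rw [supported_eq_range_rename]
      exact ⟨p, rfl⟩
    · rw [← hp]
      exact DFunLike.congr_fun (algHom_ext (f := φ.comp (rename Subtype.val))
        (g := aeval fun v : (σ : Set W) => φ (X v.1)) fun v => by simp) p
  have hc : (fun j => φ (X (χ j))) ≠ 0 := fun e =>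
    hM (X (χ j₀)) ⟨1, 1, one_ne_zero, one_mem _, by simp⟩ (congrFun e j₀)
  have hfew := hlam F _ hc
  obtain ⟨B, h1, h2, h3⟩ := pltr_blocks (K := K) (fun s t i => φ (X (x s t i)))
    (fun s β => ∑ j, φ (X (χ j)) * algebraMap K F (lam j s β))
    (fun s i => by
      have e := (hφ _).2 (hIP (Ideal.subset_span ⟨(s, i), rfl⟩))
      have e' := (map_fn (φ : MvPolynomial W K →+* F) _ _).symm.trans e
      simpa [map_prod, map_sum] using e')
    (univ.image fun j => φ (X (χ j))) (fun s β => Subalgebra.sum_mem _ fun j _ =>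
      mul_mem (trCl_sub (by simp)) (Subalgebra.algebraMap_mem _ _)) univ
  have h7 := hfew (univ.filter fun s => Rk1
    (fun β => ∑ j, φ (X (χ j)) * algebraMap K F (lam j s β)) (Fintype.card T))
    fun s hs => (mem_filter.1 hs).2
  have h8 := card_filter_add_card_filter_not (s := (univ : Finset (Fin M))) fun s => Rk1
    (fun β => ∑ j, φ (X (χ j)) * algebraMap K F (lam j s β)) (Fintype.card T)
  have h4 : (Set.range fun v : (σ : Set W) => φ (X v.1)) ⊆
      (AlgebraicIndependent.matroid K F).closure B := by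
    rw [← trCl_coe]
    rintro _ ⟨v, rfl⟩
    rcases hσ v.1 v.2 with ⟨s, t, i, e⟩ | ⟨j, e⟩
    · exact h2 _ (by simp only [e, Set.mem_iUnion]; exact ⟨s, mem_univ s, t, i, rfl⟩)
    · exact h1 _ (by simp [e])
  have h5 := ((AlgebraicIndependent.matroid_indep_iff.2
    hind.to_subtype_range).encard_le_eRk_of_subset h4).trans
      (((AlgebraicIndependent.matroid K F).eRk_closure_eq _).trans_le (Matroid.eRk_le_encard _ _))
  rw [← Set.image_univ, hind.injective.encard_image, Set.encard_univ, Set.encard_coe_eq_coe_finsetCard,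
    ENat.card_eq_coe_fintype_card, Nat.cast_le] at h5
  have h6 := card_image_le (s := (univ : Finset (Fin r))) (f := fun j => φ (X (χ j)))
  simp only [card_univ, Fintype.card_fin, coe_sort_coe, Fintype.card_coe] at h3 h5 h6 h8
  omega

end Vale.Agent.P200.G
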