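import Vale.Agent.P200.G.PlInf
import Vale.Agent.P200.G.Loc
import Vale.Agent.P200.G.QB

/-! The plain step: a combination of forms without common zero is a sum of cyclic binary blocks. -/

open MvPolynomial

namespace Vale.Agent.P200.G

open Vale.Agent.P200.Eq

universe u

theorem plain_dom {F E : Type u} [Field F] [DivisionRing E] [Algebra F E] [FiniteDimensional F E] :
    DomFin (Polynomial E) := by
  classical
  obtain ⟨T, hT⟩ := Module.finite_def.1 (inferInstance : Module.Finite F E)
  let Y := (Polynomial.mapRingHom (algebraMap F E)).range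
  refine ⟨one_ne_zero, fun x y h => mul_eq_zero.1 h, Y, T.image Polynomial.C, ?_, fun r => ?_⟩
  · rintro _ ⟨p, rfl⟩ _ ⟨q, rfl⟩
    rw [← map_mul, ← map_mul, mul_comm]
  have h : r ∈ Submodule.span Y (T.image Polynomial.C : Finset (Polynomial E)) := by
    induction r using Polynomial.induction_on' with
    | add p q hp hq => exact add_mem hp hq
    | monomial n e =>
      have he : e ∈ Submodule.span F (T : Set E) := hT ▸ Submodule.mem_top
      induction he using Submodule.span_induction with
      | mem t ht =>
        have h1 : Polynomial.monomial n t =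
            (⟨Polynomial.X ^ n, Polynomial.X ^ n, by simp⟩ : Y) • Polynomial.C t := by
          change _ = Polynomial.X ^ n * Polynomial.C t
          rw [Polynomial.X_pow_mul_C, Polynomial.C_mul_X_pow_eq_monomial]
        rw [h1]
        exact Submodule.smul_mem _ _ (Submodule.subset_span
          (Finset.mem_coe.2 (Finset.mem_image_of_mem _ ht)))
      | zero => simp
      | add x y _ _ hx hy =>
        rw [map_add]
        exact add_mem hx hy
      | smul c x _ hx =>
        have h1 : Polynomial.monomial n (c • x) =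
            (⟨Polynomial.C (algebraMap F E c), Polynomial.C c, by simp⟩ : Y) •
              Polynomial.monomial n x := by
          change _ = Polynomial.C (algebraMap F E c) * Polynomial.monomial n x
          rw [Polynomial.C_mul_monomial, Algebra.smul_def]
        rw [h1]
        exact Submodule.smul_mem _ _ hx
  obtain ⟨f, -, hf⟩ := Submodule.mem_span_finset.1 h
  exact ⟨fun x => f x, fun x => (f x).2, hf.symm⟩

theorem plain_li {F K : Type u} [Field F] [Field K] (φ : F →+* K) {σ ι : Type}
    (w : ι → MvPolynomial σ F) (hli : LinearIndependent F w) :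
    LinearIndependent K fun i => map φ (w i) := by
  let _ := φ.toAlgebra
  have h := (Module.Flat.linearIndependent_one_tmul (S := K) hli).map'
    (algebraTensorAlgEquiv F K).toLinearMap (LinearMap.ker_eq_bot.2 (algebraTensorAlgEquiv F K).injective)
  have e : (fun i => map φ (w i)) =
      (algebraTensorAlgEquiv F K).toLinearMap ∘ fun i => (1 : K) ⊗ₜ[F] w i := by
    funext i
    simp [RingHom.algebraMap_toAlgebra]
  rw [e]
  exact h

theorem plain {F E : Type u} [Field F] [DivisionRing E] [Algebra F E] [FiniteDimensional F E]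
    {N p a : ℕ} (ha : 2 ≤ a) (hfac : (a.factorial : F) ≠ 0) {ζ : F} (hζ : IsPrimitiveRoot ζ a)
    (w : Fin p → MvPolynomial (Fin N) F) (hw : ∀ i, (w i).IsHomogeneous a)
    (hli : LinearIndependent F w)
    (hb : ∀ (Ω : Type u) [Field Ω] [Algebra F Ω] (χ : Fin N → Ω),
      (∀ i, aeval χ (w i) = 0) → ∀ x, χ x = 0) :
    ∃ (F₁ D : Type u) (_ : Field F₁) (_ : DivisionRing D) (_ : Algebra F₁ D)
      (_ : FiniteDimensional F₁ D) (φF : F →+* F₁) (φ : E →+* D) (M : ℕ)
      (B : Blk F₁ D (φF ζ) a M) (l : Fin M → Fin 2 → MvPolynomial (Fin N) F₁) (τ : Fin p → F₁),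
      (∀ c, φ (algebraMap F E c) = algebraMap F₁ D (φF c)) ∧
      (∀ r x, Commute (B.γ r) (φ x)) ∧ (∀ r x, Commute (B.v r) (φ x)) ∧
      (∀ r ε, (l r ε).IsHomogeneous 1) ∧ (∀ i, τ i ≠ 0) ∧
      ∑ r, aeval (l r) (B.g r) = ∑ i, C (τ i) * map φF (w i) := by
  obtain ⟨K, D, i1, i2, i3, i4, φF, φ, h1, h2, h3⟩ := exists_loc (F := F) (plain_dom (F := F) (E := E))
  have hinf : Infinite K := by
    choose c hc using fun n : ℕ => h3 (Polynomial.X ^ n) fun r => Polynomial.commute_X_pow r n
    refine Infinite.of_injective c fun m n h => ?_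
    have h4 : (Polynomial.X ^ m : Polynomial E) = Polynomial.X ^ n := h1 (by rw [hc, hc, h])
    simpa using congrArg Polynomial.natDegree h4
  obtain ⟨F₁, D₁, j1, j2, j3, j4, ψF, ψ, M, B, l, τ, g1, g2, g3, g4, g5, g6⟩ :=
    plain_inf (F := K) (E := D) ha (by rw [← map_natCast φF]; exact (map_ne_zero φF).2 hfac)
      (hζ.map_of_injective φF.injective) (fun i => map φF (w i)) (fun i => (hw i).map φF)
      (plain_li φF w hli) fun Ω _ _ χ h => by
        let _ := ((algebraMap K Ω).comp φF).toAlgebra
        refine hb Ω χ fun i => ?_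
        have h5 := h i
        rw [aeval_def, eval₂_map] at h5
        exact h5
  refine ⟨F₁, D₁, j1, j2, j3, j4, ψF.comp φF, ψ.comp (φ.comp Polynomial.C), M, B, l, τ,
    fun c => ?_, fun r x => g2 r _, fun r x => g3 r _, g4, g5, ?_⟩
  · rw [RingHom.comp_apply, RingHom.comp_apply, RingHom.comp_apply, ← g1, ← h2,
      Polynomial.algebraMap_apply]
  · rw [g6]
    simp only [map_map]

end Vale.Agent.P200.G
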