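import Vale.Agent.P200.G.Aut

/-! Cocycle property and Galois equivariance. -/

open Finset Polynomial Matrix

namespace Vale.Agent.P200.G

open Vale.Agent.P200.Eq

universe u

variable {A : ℕ} [NeZero A] {F L : Type u} [Field F] [Field L] [Algebra F L] {Z : Cyc F L A}

variable (R : Raw Z)

theorem Raw.ρ_zero : R.ρ 0 = 1 := by
  have h := R.ρ_add 0 0 (by simp) (by simp)
  rw [add_zero] at h
  exact mul_eq_left.1 h.symm

omit [NeZero A] in
private theorem raw1_dvd (z : ℤ) : (A : ℤ) ∣ ∑ _j : Fin A, (A : ℤ) * z :=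
  Finset.dvd_sum fun _ _ => dvd_mul_right _ _

theorem Raw.ρ_const (z : ℤ) : R.ρ (fun _ => A * z) = 1 := by
  have step : ∀ z : ℤ, R.ρ (fun _ => A * (z + 1)) = R.ρ (fun _ => A * z) := fun z => by
    have h := R.ρ_add (fun _ => A * z) (fun _ => A) (raw1_dvd z)
      (Finset.dvd_sum fun _ _ => dvd_rfl)
    rw [R.ρ_A, mul_one] at h
    rw [← h]
    congr 1
    funext j
    simp only [Pi.add_apply]
    ring
  induction z using Int.induction_on with
  | zero =>
    rw [← R.ρ_zero]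
    congr 1
  | succ z ih => rw [step, ih]
  | pred z ih =>
    rw [← step, ← ih]
    congr 1
    funext j
    ring

private theorem raw1_add_const {e : Fin A → ℤ} (he : (A : ℤ) ∣ ∑ j, e j) (z : ℤ) :
    R.ρ (fun j => e j + A * z) = R.ρ e := by
  have h := R.ρ_add e (fun _ => A * z) he (raw1_dvd z)
  rw [R.ρ_const, mul_one] at h
  exact h

private theorem raw1_nf (ψ : Kh A L →+* Kh A L) : NF ((Phig A L).map ψ) := nf_Phig.map ψ

theorem Raw.B_add {d d' : Fin A → ℕ} {n n' : ℕ} (hd : ∑ j, d j = A * n)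
    (hd' : ∑ j, d' j = A * n') :
    R.B (d + d') = R.B d * (R.B d').map (Polynomial.map (R.ρ fun j => d j)) := by
  have h1 := (R.rel d' n' hd').map (R.ρ fun j => d j : Kh A L →+* Kh A L)
  have e : (fun j => (R.ρ fun j => d j : Kh A L →+* Kh A L) (Z.ph j)) = Z.ph := by
    funext j
    exact (R.ρ fun j => d j).commutes _
  rw [e] at h1
  have h2 := (R.rel d n hd).comp Z.ph_inj h1
  have hs : ∑ j, (d + d') j = A * (n + n') := by
    simp only [Pi.add_apply, sum_add_distrib, hd, hd', mul_add]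
  exact ((R.rel (d + d') (n + n') hs).unique Z.ph_inj h2 nf_Phig.det_ne
    (raw1_nf (R.ρ fun j => (d + d') j : Kh A L →+* Kh A L))
    ((raw1_nf (R.ρ fun j => d' j : Kh A L →+* Kh A L)).map _) hs).1

private theorem raw1_sum_sh {M : Type*} [AddCommMonoid M] (d : Fin A → M) :
    ∑ j, sh d j = ∑ j, d j :=
  Equiv.sum_comp (Equiv.subRight (1 : Fin A)) d

private theorem raw1_sh {d : Fin A → ℕ} {n : ℕ} (hd : ∑ j, d j = A * n) :
    R.B (sh d) = (Matrix.of fun c c' =>
      ((R.B d).map (Polynomial.map (R.s : Kh A L →+* Kh A L))) (c - 1) (c' - 1)) ∧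
    (Phig A L).map (R.ρ fun j => (sh d j : ℕ)) =
      (((Phig A L).map (R.ρ fun j => d j)).map (R.s : Kh A L →+* Kh A L)).rl := by
  have h1 := ((R.rel d n hd).map (R.s : Kh A L →+* Kh A L)).rl
  have e1 : sh (fun j => (R.s : Kh A L →+* Kh A L) (Z.ph j)) = Z.ph := by
    funext j
    change R.s (algebraMap L (Kh A L) (Z.pt (j - 1))) = algebraMap L (Kh A L) (Z.pt j)
    rw [R.s_L, ← Z.sg_one, Z.sg_pt, sub_add_cancel]
  have e2 : ((Phig A L).map (R.s : Kh A L →+* Kh A L)).rl = Phig A L := by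
    funext j
    ext i c
    change R.s (Phig A L (j - 1) i (c - 1)) = _
    rw [R.s_Φ, sub_add_cancel, sub_add_cancel]
  rw [e1, e2] at h1
  have hs : ∑ j, sh d j = A * n := by rw [raw1_sum_sh, hd]
  exact (R.rel (sh d) n hs).unique Z.ph_inj h1 nf_Phig.det_ne
    (raw1_nf (R.ρ fun j => (sh d j : ℕ) : Kh A L →+* Kh A L))
    ((raw1_nf (R.ρ fun j => d j : Kh A L →+* Kh A L)).map _).rl hs

theorem Raw.B_sh {d : Fin A → ℕ} {n : ℕ} (hd : ∑ j, d j = A * n) (c c' : Fin A) :
    R.B (sh d) (c + 1) (c' + 1) = (R.B d c c').map (R.s : Kh A L →+* Kh A L) := by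
  rw [(raw1_sh R hd).1]
  simp only [Matrix.of_apply, add_sub_cancel_right, Matrix.map_apply]

private theorem raw1_s_nat {d : Fin A → ℕ} {n : ℕ} (hd : ∑ j, d j = A * n) (f : Kh A L) :
    R.s (R.ρ (fun j => d j) f) = R.ρ (fun j => (sh d j : ℕ)) (R.s f) := by
  have h := kh_ext (A := A) (L := L)
    (ψ := (R.s : Kh A L →+* Kh A L).comp (R.ρ fun j => d j : Kh A L →+* Kh A L))
    (ψ' := (R.ρ fun j => (sh d j : ℕ) : Kh A L →+* Kh A L).comp (R.s : Kh A L →+* Kh A L))
    (fun x => by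
      change R.s (R.ρ _ _) = R.ρ _ (R.s _)
      rw [AlgEquiv.commutes, R.s_L, AlgEquiv.commutes])
    (by
      funext j
      ext i c
      have h2 := congrFun (congrFun (congrFun (raw1_sh R hd).2 (j + 1)) i) (c + 1)
      change R.ρ _ (Phig A L (j + 1) i (c + 1)) =
        R.s (R.ρ _ (Phig A L (j + 1 - 1) i (c + 1 - 1))) at h2
      rw [add_sub_cancel_right, add_sub_cancel_right] at h2
      change R.s (R.ρ _ (Phig A L j i c)) = R.ρ _ (R.s (Phig A L j i c))
      rw [R.s_Φ, h2])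
  exact DFunLike.congr_fun h f

theorem Raw.s_ρ {e : Fin A → ℤ} (he : (A : ℤ) ∣ ∑ j, e j) (f : Kh A L) :
    R.s (R.ρ e f) = R.ρ (sh e) (R.s f) := by
  set N : ℤ := ∑ j, |e j| with hN
  have hA : (1 : ℤ) ≤ A := by exact_mod_cast Nat.pos_of_ne_zero (NeZero.ne A)
  have hN0 : 0 ≤ N := Finset.sum_nonneg fun j _ => abs_nonneg _
  have h0 : ∀ j, 0 ≤ e j + A * N := fun j => by
    have h1 : |e j| ≤ N := Finset.single_le_sum (f := fun j => |e j|)
      (fun j _ => abs_nonneg _) (mem_univ j)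
    have h2 := neg_abs_le (e j)
    nlinarith
  set d : Fin A → ℕ := fun j => (e j + A * N).toNat with hd
  have hde : ∀ j, (d j : ℤ) = e j + A * N := fun j => Int.toNat_of_nonneg (h0 j)
  have hdv : A ∣ ∑ j, d j := by
    rw [← Int.natCast_dvd_natCast]
    push_cast
    simp only [hde, sum_add_distrib]
    exact dvd_add he (raw1_dvd N)
  obtain ⟨n, hn⟩ := hdv
  have h := raw1_s_nat R hn f
  have e1 : (fun j => (d j : ℤ)) = fun j => e j + A * N := funext hde
  have e2 : (fun j => ((sh d j : ℕ) : ℤ)) = fun j => sh e j + A * N := funext fun j => hde (j - 1)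
  rw [e1, e2, raw1_add_const R he, raw1_add_const R (by rwa [raw1_sum_sh])] at h
  exact h

private theorem raw1_pow_L (m : ℕ) (x : L) :
    (R.s ^ m) (algebraMap L (Kh A L) x) = algebraMap L (Kh A L) ((Z.σ ^ m) x) := by
  induction m with
  | zero => rfl
  | succ m ih => rw [pow_succ', pow_succ', AlgEquiv.mul_apply, AlgEquiv.mul_apply, ih, R.s_L]

private theorem raw1_pow_Φ (m : ℕ) (j i c : Fin A) :
    (R.s ^ m) (Phig A L j i c) = Phig A L (j + m • 1) i (c + m • 1) := by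
  induction m with
  | zero => simp
  | succ m ih => rw [pow_succ', AlgEquiv.mul_apply, ih, R.s_Φ, succ_nsmul, add_assoc, add_assoc]

theorem Raw.s_pow : R.s ^ A = 1 := by
  have h := kh_ext (A := A) (L := L) (ψ := ((R.s ^ A : Kh A L ≃ₐ[F] Kh A L) : Kh A L →+* Kh A L))
    (ψ' := RingHom.id _)
    (fun x => by
      change (R.s ^ A) _ = algebraMap L (Kh A L) x
      rw [raw1_pow_L, Z.σ_pow_A, AlgEquiv.one_apply])
    (by
      funext j
      ext i c
      change (R.s ^ A) (Phig A L j i c) = Phig A L j i c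
      have h0 : A • (1 : Fin A) = 0 := by
        rw [← natCast_zsmul]
        exact A_zsmul_one
      rw [raw1_pow_Φ, h0, add_zero, add_zero])
  ext f
  exact DFunLike.congr_fun h f

private theorem raw1_pow_ρ (m : ℕ) {e : Fin A → ℤ} (he : (A : ℤ) ∣ ∑ j, e j) (f : Kh A L) :
    (R.s ^ m) (R.ρ e f) = R.ρ (fun j => e (j - m • 1)) ((R.s ^ m) f) := by
  induction m with
  | zero => simp
  | succ m ih =>
    have he' : (A : ℤ) ∣ ∑ j, e (j - m • 1) := by
      rwa [Equiv.sum_comp (Equiv.subRight (m • (1 : Fin A))) e |>.symm] at he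
    rw [pow_succ', AlgEquiv.mul_apply, AlgEquiv.mul_apply, ih, R.s_ρ he']
    congr 2
    funext j
    simp only [sh, succ_nsmul, sub_sub, add_comm]

theorem Raw.exists_α : ∃ α : Gw A →* (Kh A L ≃ₐ[F] Kh A L),
    ∀ g f, α g f = R.ρ g.e ((R.s ^ g.h.val) f) := by
  refine ⟨MonoidHom.mk' (fun g => (R.ρ g.e).restrictScalars F * R.s ^ g.h.val) fun g g' => ?_,
    fun g f => rfl⟩
  ext f
  change R.ρ (g * g').e ((R.s ^ (g.h + g'.h).val) f) =
    R.ρ g.e ((R.s ^ g.h.val) (R.ρ g'.e ((R.s ^ g'.h.val) f)))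
  have h1 : g.h.val • (1 : Fin A) = g.h := by
    rw [← natCast_zsmul]
    exact val_zsmul_one _
  have he' : (A : ℤ) ∣ ∑ j, g'.e (j - g.h) := by
    have := dvd_sum_e g'
    rwa [Equiv.sum_comp (Equiv.subRight g.h) g'.e |>.symm] at this
  rw [pow_val_add R.s_pow, AlgEquiv.mul_apply, raw1_pow_ρ R _ (dvd_sum_e g'), h1,
    ← AlgEquiv.mul_apply (R.ρ g.e), ← R.ρ_add _ _ (dvd_sum_e g) he']
  obtain ⟨z, hz⟩ : ∃ z : ℤ, (g.k.val : ℤ) + g'.k.val = (g.k + g'.k).val + A * z := by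
    refine ⟨((g.k.val + g'.k.val) / A : ℕ), ?_⟩
    rw [Fin.val_add]
    exact_mod_cast (Nat.mod_add_div _ _).symm
  rw [← raw1_add_const R (dvd_sum_e (g * g')) z]
  congr 2
  funext j
  simp only [Gw.e, pd, Gw.mul_n, Gw.mul_k, Pi.add_apply, sub_right_comm j 1 g.h]
  linarith

end Vale.Agent.P200.G
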