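import Vale.Agent.P200.G.Raw1

/-! Torus weights. -/

open Finset Polynomial Matrix

namespace Vale.Agent.P200.G

open Vale.Agent.P200.Eq

universe u

variable {A : ℕ} [NeZero A] {F L : Type u} [Field F] [Field L] [Algebra F L] {Z : Cyc F L A}

theorem mem_Wt_iff {x y : Ix A} {f : Kh A L} : f ∈ Wt L x y ↔
    ∀ (ϑ : Ix A → Lˣ) (θ : Kh A L ≃ₐ[L] Kh A L), IsTor ϑ θ →
      (ϑ x : L) • θ f = (ϑ y : L) • f := Iff.rfl

theorem IsTor.apply {ϑ : Ix A → Lˣ} {θ : Kh A L ≃ₐ[L] Kh A L} (h : IsTor ϑ θ) (j i c : Fin A) :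
    θ (Phig A L j i c) = algebraMap L (Kh A L) ((ϑ (j, i))⁻¹ : Lˣ) * Phig A L j i c *
      algebraMap L (Kh A L) (ϑ (c, 0)) :=
  congrFun (congrFun (congrFun h j) i) c

omit [NeZero A] in
theorem unit_mul_inv_map (u : Lˣ) :
    algebraMap L (Kh A L) u * algebraMap L (Kh A L) (u⁻¹ : Lˣ) = 1 := by
  rw [← map_mul, Units.mul_inv, map_one]

theorem Wt_one (x : Ix A) : (1 : Kh A L) ∈ Wt L x x := by
  rw [mem_Wt_iff]
  intro ϑ θ _
  rw [map_one]

theorem Wt_mul {x y z : Ix A} {f f' : Kh A L} (h : f ∈ Wt L x y) (h' : f' ∈ Wt L y z) :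
    f * f' ∈ Wt L x z := by
  rw [mem_Wt_iff] at h h' ⊢
  intro ϑ θ ht
  rw [map_mul, ← smul_mul_assoc, h ϑ θ ht, smul_mul_assoc, ← mul_smul_comm, h' ϑ θ ht,
    mul_smul_comm]

theorem Wt_inv {x y : Ix A} {f : Kh A L} (h : f ∈ Wt L x y) : f⁻¹ ∈ Wt L y x := by
  rw [mem_Wt_iff] at h ⊢
  intro ϑ θ ht
  by_cases hf : f = 0
  · subst hf
    simp
  have hθ : θ f ≠ 0 := by simpa using hf
  have h1 := h ϑ θ ht
  rw [Algebra.smul_def, Algebra.smul_def] at h1 ⊢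
  rw [map_inv₀]
  field_simp
  linear_combination -h1

theorem Phig_mem_Wt (j i c : Fin A) : Phig A L j i c ∈ Wt L (j, i) (c, 0) := by
  rw [mem_Wt_iff]
  intro ϑ θ ht
  rw [ht.apply, Algebra.smul_def, Algebra.smul_def, ← mul_assoc, ← mul_assoc, unit_mul_inv_map,
    one_mul, mul_comm]

theorem Wt_ne (hA : 3 ≤ A) (x y : Ix A) : ∃ f ∈ Wt L x y, f ≠ 0 := by
  let r : Ix A → Ix A → Prop := fun x y => ∃ f ∈ Wt L x y, f ≠ 0
  have hs : ∀ {x y}, r x y → r y x := fun ⟨f, hf, h0⟩ => ⟨f⁻¹, Wt_inv hf, inv_ne_zero h0⟩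
  have ht : ∀ {x y z}, r x y → r y z → r x z := fun ⟨f, hf, h0⟩ ⟨g, hg, h1⟩ =>
    ⟨f * g, Wt_mul hf hg, mul_ne_zero h0 h1⟩
  have h1 : ∀ j i, r (j, i) (j + i, 0) := fun j i =>
    ⟨_, Phig_mem_Wt j i (j + i), (nf_Phig j).2.2 i⟩
  let o : Fin A := ⟨1, by omega⟩
  let t : Fin A := ⟨2, by omega⟩
  have ho : o = 1 := by
    apply Fin.ext
    rw [Fin.val_one', Nat.mod_eq_of_lt (by omega)]
  have hto : t = 1 + 1 := by
    apply Fin.ext
    rw [← ho, Fin.val_add]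
    exact (Nat.mod_eq_of_lt (by omega)).symm
  have h2 : ∀ j, r (j, o) (j + t, 0) := fun j => by
    refine ⟨_, Phig_mem_Wt j o (j + t), ?_⟩
    have hv : 0 < o.val ∧ o ≤ t := ⟨Nat.one_pos, by rw [Fin.le_def]; exact Nat.le_succ 1⟩
    have := Phig_apply (L := L) (⟨(j, o, t), hv⟩ : Vr A)
    have hne : o ≠ t := fun h => by
      have := congrArg Fin.val h
      simp [o, t] at this
    dsimp only at this
    rw [this, if_neg hne, zero_add, Xg]
    exact (map_ne_zero_iff _ (IsFractionRing.injective _ _)).2 (MvPolynomial.X_ne_zero _)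
  have h3 : ∀ c : Fin A, r (c, 0) (c + 1, 0) := fun c => by
    have a1 := h1 (c - 1) o
    have a2 := h2 (c - 1)
    rw [ho, sub_add_cancel] at a1
    rw [ho, hto, ← add_assoc, sub_add_cancel] at a2
    exact ht (hs a1) a2
  have h4 : ∀ m : ℕ, r (0, 0) (m • (1 : Fin A), 0) := fun m => by
    induction m with
    | zero => exact ⟨1, by rw [zero_nsmul]; exact Wt_one _, one_ne_zero⟩
    | succ m ih =>
      rw [succ_nsmul]
      exact ht ih (h3 _)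
  have h5 : ∀ c : Fin A, r (0, 0) (c, 0) := fun c => by
    have := h4 c.val
    rwa [← natCast_zsmul, val_zsmul_one] at this
  have h6 : ∀ x : Ix A, r (0, 0) x := fun x => ht (h5 _) (hs (h1 x.1 x.2))
  exact ht (hs (h6 x)) (h6 y)

variable (R : Raw Z)

theorem Raw.tor_nat {d : Fin A → ℕ} {n : ℕ} (hd : ∑ j, d j = A * n) {ϑ : Ix A → Lˣ}
    {θ : Kh A L ≃ₐ[L] Kh A L} (h : IsTor ϑ θ) :
    (R.B d).map (Polynomial.map (θ : Kh A L →+* Kh A L)) =
      (Matrix.of fun c c' => C (algebraMap L (Kh A L) ((ϑ (c, 0))⁻¹ : Lˣ)) * R.B d c c' *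
        C (algebraMap L (Kh A L) (ϑ (ixs (fun j => d j) (c', 0))))) ∧
    ((Phig A L).map (R.ρ fun j => d j)).map (θ : Kh A L →+* Kh A L) =
      tor (fun x => algebraMap L (Kh A L) (ϑ (ixs (fun j => d j) x)))
        (fun x => algebraMap L (Kh A L) ((ϑ (ixs (fun j => d j) x))⁻¹ : Lˣ))
        ((Phig A L).map (R.ρ fun j => d j)) := by
  have h0 := R.rel d n hd
  have h1 := h0.map (θ : Kh A L →+* Kh A L)
  have h2 := h0.tor (fun x => algebraMap L (Kh A L) (ϑ x))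
    (fun x => algebraMap L (Kh A L) ((ϑ x)⁻¹ : Lˣ)) (fun x => unit_mul_inv_map _)
  have hp : (fun j => (θ : Kh A L →+* Kh A L) (Z.ph j)) = Z.ph := funext fun j => θ.commutes _
  have hΦ : (Phig A L).map (θ : Kh A L →+* Kh A L) = tor (fun x => algebraMap L (Kh A L) (ϑ x))
      (fun x => algebraMap L (Kh A L) ((ϑ x)⁻¹ : Lˣ)) (Phig A L) := h
  rw [hp, hΦ] at h1
  have hN : NF ((Phig A L).map (R.ρ fun j => d j)) :=
    nf_Phig.map ((R.ρ fun j => d j) : Kh A L →+* Kh A L)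
  exact h1.unique Z.ph_inj h2
    (fun j => (nf_Phig.tor _ _ fun x => unit_mul_inv_map _).det_ne j) (hN.map _)
    (hN.tor _ _ fun x => unit_mul_inv_map _) hd

theorem Raw.exists_nat {e : Fin A → ℤ} (he : (A : ℤ) ∣ ∑ j, e j) :
    ∃ (d : Fin A → ℕ) (n : ℕ), ∑ j, d j = A * n ∧ (R.ρ fun j => d j) = R.ρ e ∧
      ∀ x, ixs (fun j => (d j : ℤ)) x = ixs e x := by
  set N : ℕ := ∑ j, (e j).natAbs with hN
  have hA : 1 ≤ A := Nat.pos_of_ne_zero (NeZero.ne A)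
  have hle : ∀ j, 0 ≤ e j + A * N := fun j => by
    have h1 : (e j).natAbs ≤ N :=
      Finset.single_le_sum (f := fun j => (e j).natAbs) (fun _ _ => Nat.zero_le _) (mem_univ j)
    have h2 : N ≤ A * N := Nat.le_mul_of_pos_left _ hA
    have h3 : ((A * N : ℕ) : ℤ) = A * N := Nat.cast_mul _ _
    omega
  have hd : (fun j => ((e j + A * N).toNat : ℤ)) = e + fun _ => (A : ℤ) * N :=
    funext fun j => Int.toNat_of_nonneg (hle j)
  have hc : (A : ℤ) ∣ ∑ _j : Fin A, (A : ℤ) * N := Finset.dvd_sum fun _ _ => dvd_mul_right _ _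
  have hdv : A ∣ ∑ j, (e j + A * N).toNat := by
    rw [← Int.natCast_dvd_natCast, Nat.cast_sum]
    have : ∑ j, ((e j + A * N).toNat : ℤ) = ∑ j, e j + ∑ _j : Fin A, (A : ℤ) * N := by
      rw [← Finset.sum_add_distrib]
      exact Finset.sum_congr rfl fun j _ => Int.toNat_of_nonneg (hle j)
    rw [this]
    exact dvd_add he hc
  obtain ⟨n, hn⟩ := hdv
  refine ⟨fun j => (e j + A * N).toNat, n, hn, ?_, fun x => ?_⟩
  · rw [hd, R.ρ_add _ _ he hc, R.ρ_const, mul_one]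
  · have : (fun _ : Fin A => (A : ℤ) * N) = (A : ℤ) • fun _ : Fin A => (N : ℤ) := rfl
    rw [hd, ixs_add, this, ixs_A_smul]

theorem Raw.tor_ρ {e : Fin A → ℤ} (he : (A : ℤ) ∣ ∑ j, e j) {ϑ : Ix A → Lˣ}
    {θ θ' : Kh A L ≃ₐ[L] Kh A L} (h : IsTor ϑ θ) (h' : IsTor (fun x => ϑ (ixs e x)) θ')
    (f : Kh A L) : θ (R.ρ e f) = R.ρ e (θ' f) := by
  obtain ⟨d, n, hd, hρ, hx⟩ := R.exists_nat he
  have h1 := (R.tor_nat hd h).2
  simp only [hρ, hx] at h1
  have key : (θ : Kh A L →+* Kh A L).comp (R.ρ e : Kh A L →+* Kh A L) =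
      (R.ρ e : Kh A L →+* Kh A L).comp (θ' : Kh A L →+* Kh A L) := by
    refine kh_ext (fun x => ?_) ?_
    · change θ (R.ρ e (algebraMap L _ x)) = R.ρ e (θ' (algebraMap L _ x))
      rw [AlgEquiv.commutes, AlgEquiv.commutes, AlgEquiv.commutes, AlgEquiv.commutes]
    · funext j
      ext i c
      have h2 := congrFun (congrFun (congrFun h1 j) i) c
      change θ (R.ρ e (Phig A L j i c)) = R.ρ e (θ' (Phig A L j i c))
      rw [h'.apply, map_mul, map_mul, AlgEquiv.commutes, AlgEquiv.commutes]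
      exact h2
  exact DFunLike.congr_fun key f

theorem Raw.Wt_ρ {e : Fin A → ℤ} (he : (A : ℤ) ∣ ∑ j, e j) {x y : Ix A} {f : Kh A L}
    (h : f ∈ Wt L x y) : R.ρ e f ∈ Wt L (ixs e x) (ixs e y) := by
  rw [mem_Wt_iff] at h ⊢
  intro ϑ θ ht
  obtain ⟨θ', ht'⟩ := exists_tor (fun x => ϑ (ixs e x))
  have h1 := congrArg (R.ρ e) (h _ _ ht')
  rw [map_smul, map_smul] at h1
  rw [R.tor_ρ he ht ht']
  exact h1

theorem Raw.tor_s {ϑ ϑ' : Ix A → Lˣ} {θ θ' : Kh A L ≃ₐ[L] Kh A L} (h : IsTor ϑ θ)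
    (h' : IsTor ϑ' θ') (hϑ : ∀ j i, (ϑ' (j + 1, i) : L) = Z.σ (ϑ (j, i))) (f : Kh A L) :
    R.s (θ f) = θ' (R.s f) := by
  have hinv : ∀ j i, ((ϑ' (j + 1, i))⁻¹ : Lˣ) = Z.σ ((ϑ (j, i))⁻¹ : Lˣ) := fun j i => by
    rw [Units.val_inv_eq_inv_val, Units.val_inv_eq_inv_val, hϑ, map_inv₀]
  have key : (R.s : Kh A L →+* Kh A L).comp (θ : Kh A L →+* Kh A L) =
      (θ' : Kh A L →+* Kh A L).comp (R.s : Kh A L →+* Kh A L) := by
    refine kh_ext (fun x => ?_) ?_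
    · change R.s (θ (algebraMap L _ x)) = θ' (R.s (algebraMap L _ x))
      rw [AlgEquiv.commutes, R.s_L, AlgEquiv.commutes]
    · funext j
      ext i c
      change R.s (θ (Phig A L j i c)) = θ' (R.s (Phig A L j i c))
      rw [h.apply, map_mul, map_mul, R.s_L, R.s_L, R.s_Φ, h'.apply, hinv, hϑ]
  exact DFunLike.congr_fun key f

theorem Raw.Wt_s {x y : Ix A} {f : Kh A L} (h : f ∈ Wt L x y) :
    R.s f ∈ Wt L (x.1 + 1, x.2) (y.1 + 1, y.2) := by
  rw [mem_Wt_iff] at h ⊢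
  intro ϑ' θ' ht'
  let ϑ : Ix A → Lˣ := fun x => Units.map (Z.σ.symm : L →* L) (ϑ' (x.1 + 1, x.2))
  have hϑ : ∀ j i, (ϑ' (j + 1, i) : L) = Z.σ (ϑ (j, i)) := fun j i =>
    (Z.σ.apply_symm_apply _).symm
  obtain ⟨θ, ht⟩ := exists_tor ϑ
  have h1 := congrArg R.s (h ϑ θ ht)
  rw [Algebra.smul_def, Algebra.smul_def, map_mul, map_mul, R.s_L, R.s_L,
    R.tor_s ht ht' hϑ] at h1
  rw [Algebra.smul_def, Algebra.smul_def, hϑ, hϑ]
  exact h1

theorem Raw.B_Wt {d : Fin A → ℕ} {n : ℕ} (hd : ∑ j, d j = A * n) (c c' : Fin A) (e : ℕ) :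
    (R.B d c c').coeff e ∈ Wt L (c, 0) (ixs (fun j => d j) (c', 0)) := by
  rw [mem_Wt_iff]
  intro ϑ θ ht
  have h1 := congrArg (fun p => Polynomial.coeff p e)
    (congrFun (congrFun (R.tor_nat hd ht).1 c) c')
  simp only [Matrix.map_apply, Matrix.of_apply, Polynomial.coeff_map, Polynomial.coeff_mul_C,
    Polynomial.coeff_C_mul] at h1
  have h2 : θ ((R.B d c c').coeff e) = _ := h1
  rw [h2, Algebra.smul_def, Algebra.smul_def, ← mul_assoc, ← mul_assoc, unit_mul_inv_map,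
    one_mul, mul_comm]

theorem Raw.single_aux (j : Fin A) : R.B (Pi.single j A) =
    (Matrix.diagonal fun c => C (cc Z.ph j c) * (X - C (Z.ph j))) ∧
    (Phig A L).map (R.ρ (Pi.single j (A : ℤ))) =
      tor (fun x => cc Z.ph j x.1) (fun x => (cc Z.ph j x.1)⁻¹) (Phig A L) := by
  have hd : ∑ j', (Pi.single j A : Fin A → ℕ) j' = A * 1 := by
    rw [Finset.sum_pi_single', if_pos (mem_univ j), mul_one]
  have hc : (fun j' => (((Pi.single j A : Fin A → ℕ) j' : ℕ) : ℤ)) = Pi.single j (A : ℤ) := by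
    funext j'
    by_cases h : j' = j
    · subst h
      simp
    · simp [h]
  have h0 := R.rel _ 1 hd
  rw [hc] at h0
  have hN : NF ((Phig A L).map (R.ρ (Pi.single j (A : ℤ)))) :=
    nf_Phig.map (R.ρ (Pi.single j (A : ℤ)) : Kh A L →+* Kh A L)
  have hu : ∀ x : Ix A, cc Z.ph j x.1 * (cc Z.ph j x.1)⁻¹ = 1 := fun x =>
    mul_inv_cancel₀ (cc_ne_zero Z.ph_inj j x.1)
  have hN' := NF.tor (nf_Phig (A := A) (L := L)) (fun x => cc Z.ph j x.1)
    (fun x => (cc Z.ph j x.1)⁻¹) hu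
  have h1 := rel_single Z.ph_inj (Phig A L) j
  exact Rel.unique Z.ph_inj h0 h1 nf_Phig.det_ne hN hN' hd

theorem Cyc.cc_ph (Z : Cyc F L A) (j c : Fin A) :
    algebraMap L (Kh A L) (cc Z.pt j c) = cc Z.ph j c := map_cc _ j c

theorem Raw.B_single (j : Fin A) : R.B (Pi.single j A) =
    Matrix.diagonal fun c => C (algebraMap L (Kh A L) (cc Z.pt j c)) * (X - C (Z.ph j)) := by
  simp only [Z.cc_ph]
  exact (R.single_aux j).1

theorem Raw.ρ_single (j : Fin A) {x y : Ix A} {f : Kh A L} (h : f ∈ Wt L x y) :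
    cc Z.pt j x.1 • R.ρ (Pi.single j (A : ℤ)) f = cc Z.pt j y.1 • f := by
  refine h (fun x => Units.mk0 (cc Z.pt j x.1) (cc_ne_zero Z.pt_inj _ _)) _ ?_
  rw [IsTor, (R.single_aux j).2]
  simp only [Units.val_inv_eq_inv_val, Units.val_mk0, map_inv₀, Z.cc_ph]

theorem Raw.ρ_A_smul (e : Fin A → ℤ) {x : Ix A} {f : Kh A L} (h : f ∈ Wt L x x) :
    R.ρ ((A : ℤ) • e) f = f := by
  have hdv : ∀ e : Fin A → ℤ, (A : ℤ) ∣ ∑ j, ((A : ℤ) • e) j := fun e =>
    Finset.dvd_sum fun _ _ => dvd_mul_right _ _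
  let S : AddSubgroup (Fin A → ℤ) :=
    { carrier := {e | R.ρ ((A : ℤ) • e) f = f}
      add_mem' := fun {a b} ha hb => by
        change R.ρ ((A : ℤ) • (a + b)) f = f
        rw [smul_add, R.ρ_add _ _ (hdv a) (hdv b), AlgEquiv.mul_apply, hb, ha]
      zero_mem' := by
        change R.ρ ((A : ℤ) • (0 : Fin A → ℤ)) f = f
        rw [smul_zero, R.ρ_zero, AlgEquiv.one_apply]
      neg_mem' := fun {a} ha => by
        change R.ρ ((A : ℤ) • (-a)) f = f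
        have ha' : R.ρ ((A : ℤ) • a) f = f := ha
        have h1 := R.ρ_add _ _ (hdv (-a)) (hdv a)
        rw [← smul_add, neg_add_cancel, smul_zero, R.ρ_zero] at h1
        have h2 := DFunLike.congr_fun h1 f
        rw [AlgEquiv.one_apply, AlgEquiv.mul_apply, ha'] at h2
        exact h2.symm }
  have h1 : ∀ j, (Pi.single j 1 : Fin A → ℤ) ∈ S := fun j => by
    change R.ρ ((A : ℤ) • (Pi.single j 1 : Fin A → ℤ)) f = f
    rw [← Pi.single_smul, smul_eq_mul, mul_one]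
    exact smul_right_injective _ (cc_ne_zero Z.pt_inj j x.1) (R.ρ_single j h)
  have h2 : e = ∑ j, e j • (Pi.single j 1 : Fin A → ℤ) := pi_eq_sum_univ' e
  have h3 : e ∈ S := by
    rw [h2]
    exact S.sum_mem fun j _ => S.zsmul_mem (h1 j) _
  exact h3

end Vale.Agent.P200.G
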