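import Vale.Agent.P200.G.Wd

/-! The elementary shift matrix and the Iwahori condition. -/

open Finset Polynomial Matrix

namespace Vale.Agent.P200.G

open Vale.Agent.P200.Eq

universe u

variable {A : ℕ} [NeZero A] {k : Type*} [Field k] {a : Fin A → k}

/-- the nonzero entry of row `i` of the elementary shift -/
noncomputable def piv (a : Fin A → k) (j i : Fin A) : k[X] :=
  if i = 0 then X - C (a j) else C (a j - a (j + i))

theorem pim_apply (j i i' : Fin A) : pim a j i i' = if i' + 1 = i then piv a j i else 0 := rfl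

theorem pim_mul_apply (j : Fin A) (M : Matrix (Fin A) (Fin A) k[X]) (i c : Fin A) :
    (pim a j * M) i c = piv a j i * M (i - 1) c := by
  rw [Matrix.mul_apply, Finset.sum_eq_single (i - 1)]
  · rw [pim_apply, if_pos (sub_add_cancel i 1)]
  · intro b _ hb
    rw [pim_apply, if_neg fun h => hb (eq_sub_of_add_eq h), zero_mul]
  · intro h
    exact absurd (mem_univ _) h

theorem mul_pim_apply (j : Fin A) (M : Matrix (Fin A) (Fin A) k[X]) (i c : Fin A) :
    (M * pim a j) i c = M i (c + 1) * piv a j (c + 1) := by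
  rw [Matrix.mul_apply, Finset.sum_eq_single (c + 1)]
  · rw [pim_apply, if_pos rfl]
  · intro b _ hb
    rw [pim_apply, if_neg fun h => hb h.symm, mul_zero]
  · intro h
    exact absurd (mem_univ _) h

theorem pim_pow_apply (j : Fin A) (d : ℕ) (i c : Fin A) :
    (pim a j ^ d) i c = if c + d • (1 : Fin A) = i then
      ∏ t ∈ range d, piv a j (i - t • (1 : Fin A)) else 0 := by
  induction d generalizing c with
  | zero => simp [Matrix.one_apply, eq_comm]
  | succ d ih =>
    have e : c + (d + 1) • (1 : Fin A) = c + 1 + d • (1 : Fin A) := by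
      rw [succ_nsmul]
      abel
    rw [pow_succ, mul_pim_apply, ih, e, prod_range_succ]
    split_ifs with h
    · rw [← h, add_sub_cancel_right]
    · rw [zero_mul]

theorem pim_pow_mulVec (j : Fin A) (d : ℕ) (m : Fin A → k[X]) (i : Fin A) :
    ((pim a j ^ d) *ᵥ m) i =
      (∏ t ∈ range d, piv a j (i - t • (1 : Fin A))) * m (i - d • (1 : Fin A)) := by
  rw [Matrix.mulVec, dotProduct, Finset.sum_eq_single (i - d • (1 : Fin A))]
  · rw [pim_pow_apply, if_pos (sub_add_cancel _ _)]
  · intro b _ hb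
    rw [pim_pow_apply, if_neg fun h => hb (eq_sub_of_add_eq h), zero_mul]
  · intro h
    exact absurd (mem_univ _) h

theorem val_nsmul_one (t : Fin A) : t.val • (1 : Fin A) = t := by
  rw [← natCast_zsmul, val_zsmul_one]

theorem A_nsmul_one : A • (1 : Fin A) = 0 := by
  rw [← natCast_zsmul, A_zsmul_one]

theorem prod_piv (j : Fin A) : ∏ i, piv a j i = C (cc a j j) * (X - C (a j)) := by
  rw [← Finset.mul_prod_erase univ _ (mem_univ (0 : Fin A)), cc, if_pos rfl, map_prod, mul_comm]
  congr 1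
  exact prod_congr rfl fun i hi => if_neg (ne_of_mem_erase hi)

theorem piv_ne (ha : Function.Injective a) (j : Fin A) {i : Fin A} (hi : i ≠ 0) :
    a j - a (j + i) ≠ 0 := fun h => hi (by simpa using ha (sub_eq_zero.1 h))

theorem isUnit_piv (ha : Function.Injective a) (j : Fin A) {i : Fin A} (hi : i ≠ 0) :
    IsUnit (piv a j i) := by
  rw [piv, if_neg hi]
  exact isUnit_C.2 (Ne.isUnit (piv_ne ha j hi))

theorem piv_ne_zero (ha : Function.Injective a) (j i : Fin A) : piv a j i ≠ 0 := by
  by_cases hi : i = 0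
  · rw [piv, if_pos hi]
    exact X_sub_C_ne_zero _
  · exact (isUnit_piv ha j hi).ne_zero

theorem det_pim (ha : Function.Injective a) (j : Fin A) :
    ∃ u : k, u ≠ 0 ∧ (pim a j).det = C u * (X - C (a j)) := by
  have h : pim a j = (Matrix.diagonal fun i => piv a j (i + 1)).submatrix
      (Equiv.subRight (1 : Fin A)) id := by
    ext1 i i'
    rw [pim_apply, submatrix_apply, diagonal_apply, Equiv.subRight_apply, id, sub_add_cancel]
    exact if_congr (by rw [sub_eq_iff_eq_add, eq_comm]) rfl rfl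
  refine ⟨((Equiv.Perm.sign (Equiv.subRight (1 : Fin A)) : ℤ) : k) * cc a j j,
    mul_ne_zero ?_ (cc_ne_zero ha j j), ?_⟩
  · rcases Int.units_eq_one_or (Equiv.Perm.sign (Equiv.subRight (1 : Fin A))) with h | h <;>
      simp [h]
  · have e : ∏ i, piv a j (i + 1) = ∏ i, piv a j i :=
      Equiv.prod_comp (Equiv.addRight (1 : Fin A)) (piv a j)
    rw [h, det_permute, det_diagonal, e, prod_piv, map_mul, map_intCast, mul_assoc]

theorem pim_pow_A (j : Fin A) :
    pim a j ^ A = Matrix.scalar (Fin A) (C (cc a j j) * (X - C (a j))) := by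
  ext1 i c
  rw [pim_pow_apply, A_nsmul_one, add_zero, scalar_apply, diagonal_apply, Finset.prod_range,
    ← prod_piv]
  refine if_congr eq_comm ?_ rfl
  simp only [val_nsmul_one]
  exact (Equiv.subLeft i).prod_comp (piv a j)

omit [NeZero A] in
theorem Iw.one (x : k) : Iw x (1 : Matrix (Fin A) (Fin A) k[X]) :=
  ⟨fun i => by simp, fun i i' h => by rw [Matrix.one_apply_ne h.ne, eval_zero]⟩

omit [NeZero A] in
theorem Iw.mul {x : k} {Y Y' : Matrix (Fin A) (Fin A) k[X]} (h : Iw x Y) (h' : Iw x Y') :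
    Iw x (Y * Y') := by
  constructor
  · intro i
    rw [Matrix.mul_apply, eval_finsetSum, Finset.sum_eq_single i]
    · rw [eval_mul, h.1, h'.1, one_mul]
    · intro l _ hl
      rw [eval_mul]
      rcases lt_or_gt_of_ne hl with h1 | h1
      · rw [h'.2 l i h1, mul_zero]
      · rw [h.2 i l h1, zero_mul]
    · intro hh
      exact absurd (mem_univ _) hh
  · intro i i' hi
    rw [Matrix.mul_apply, eval_finsetSum]
    refine sum_eq_zero fun l _ => ?_
    rw [eval_mul]
    rcases lt_or_ge i l with h1 | h1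
    · rw [h.2 i l h1, zero_mul]
    · rw [h'.2 l i' (h1.trans_lt hi), mul_zero]

omit [NeZero A] in
theorem Iw.det_eval {x : k} {Y : Matrix (Fin A) (Fin A) k[X]} (h : Iw x Y) :
    Y.det.eval x = 1 := by
  rw [← coe_evalRingHom, RingHom.map_det, det_of_isLowerTriangular]
  · exact prod_eq_one fun i _ => h.1 i
  · intro i i' hi
    exact h.2 i i' hi

theorem val_add_one_of_ne {c : Fin A} (h : c + 1 ≠ 0) : (c + 1).val = c.val + 1 := by
  obtain ⟨B, rfl⟩ : ∃ B, A = B + 1 := Nat.exists_eq_succ_of_ne_zero (NeZero.ne A)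
  rw [Fin.val_add_one, if_neg]
  rintro rfl
  exact h (Fin.last_add_one B)

theorem val_add_one_of_lt {r c : Fin A} (h : r < c) : (r + 1).val = r.val + 1 := by
  obtain ⟨B, rfl⟩ : ∃ B, A = B + 1 := Nat.exists_eq_succ_of_ne_zero (NeZero.ne A)
  exact Fin.val_add_one_of_lt (h.trans_le (Fin.le_last c))

theorem Iw.conj (ha : Function.Injective a) {j : Fin A} {Y : Matrix (Fin A) (Fin A) k[X]}
    (h : Iw (a j) Y) : ∃ Y', Iw (a j) Y' ∧ Y * pim a j = pim a j * Y' := by
  have hev : ∀ i c : Fin A, i < c ∨ c = 0 → (Y i c * piv a j c).eval (a j) = 0 := by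
    rintro i c (hc | rfl)
    · rw [eval_mul, h.2 i c hc, zero_mul]
    · simp [piv]
  have hex : ∀ r c : Fin A, ∃ q, Y (r + 1) (c + 1) * piv a j (c + 1) = piv a j (r + 1) * q := by
    intro r c
    by_cases hr : r + 1 = 0
    · rw [hr, piv.eq_1 a j 0, if_pos rfl]
      exact dvd_iff_isRoot.2 (hev 0 (c + 1) (Fin.zero_le (c + 1)).eq_or_lt'.symm)
    · exact (isUnit_piv ha j hr).dvd
  choose q hq using hex
  refine ⟨Matrix.of q, ⟨fun r => ?_, fun r c hrc => ?_⟩, ?_⟩
  · have h1 := hq r r
    rw [mul_comm] at h1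
    rw [of_apply, ← mul_left_cancel₀ (piv_ne_zero ha j _) h1, h.1]
  · have hr := val_add_one_of_lt hrc
    have hr0 : r + 1 ≠ 0 := fun h0 => by
      rw [h0, Fin.val_zero] at hr
      omega
    have h1 := hev (r + 1) (c + 1) (by
      by_cases hc : c + 1 = 0
      · exact Or.inr hc
      · left
        rw [Fin.lt_def, hr, val_add_one_of_ne hc]
        exact Nat.succ_lt_succ hrc)
    rw [hq, eval_mul, piv, if_neg hr0, eval_C] at h1
    exact (mul_eq_zero.1 h1).resolve_left (piv_ne ha j hr0)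
  · ext1 i c
    rw [mul_pim_apply, pim_mul_apply, of_apply]
    have := hq (i - 1) c
    rwa [sub_add_cancel] at this

theorem Iw.conj_pow (ha : Function.Injective a) {j : Fin A} {Y : Matrix (Fin A) (Fin A) k[X]}
    (h : Iw (a j) Y) (d : ℕ) : ∃ Y', Iw (a j) Y' ∧ Y * pim a j ^ d = pim a j ^ d * Y' := by
  induction d with
  | zero => exact ⟨Y, h, by simp⟩
  | succ d ih =>
    obtain ⟨Y₁, h1, e1⟩ := ih
    obtain ⟨Y₂, h2, e2⟩ := h1.conj ha
    exact ⟨Y₂, h2, by rw [pow_succ, ← mul_assoc, e1, mul_assoc, e2, mul_assoc]⟩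

theorem range_pim_pow (ha : Function.Injective a) (j : Fin A) {d : ℕ} (hd : d ≤ A)
    (x : Fin A → k[X]) :
    (∃ m, x = (pim a j ^ d) *ᵥ m) ↔ ∀ i : Fin A, i.val < d → (x i).eval (a j) = 0 := by
  have hu : ∀ (i : Fin A) (t : ℕ), t < d → t ≠ i.val →
      IsUnit (piv a j (i - t • (1 : Fin A))) := by
    intro i t ht hti
    refine isUnit_piv ha j fun h0 => hti ?_
    have h1 := val_nsmul_one (⟨t, ht.trans_le hd⟩ : Fin A)
    rw [sub_eq_zero.1 h0]
    exact (congrArg Fin.val h1).symm
  have h0 : ∀ i : Fin A, piv a j (i - i.val • (1 : Fin A)) = X - C (a j) := fun i => by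
    rw [val_nsmul_one, sub_self, piv, if_pos rfl]
  constructor
  · rintro ⟨m, rfl⟩ i hi
    rw [pim_pow_mulVec, eval_mul, eval_prod, prod_eq_zero (mem_range.2 hi), zero_mul]
    simp [h0]
  · intro h
    have hex : ∀ i : Fin A, ∃ q, x i = (∏ t ∈ range d, piv a j (i - t • (1 : Fin A))) * q := by
      intro i
      change (∏ t ∈ range d, piv a j (i - t • (1 : Fin A))) ∣ x i
      by_cases hi : i.val < d
      · rw [← Finset.mul_prod_erase _ _ (mem_range.2 hi), h0, IsUnit.mul_right_dvd]
        · exact dvd_iff_isRoot.2 (h i hi)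
        · exact IsUnit.prod_iff.2 fun t ht =>
            hu i t (mem_range.1 (mem_of_mem_erase ht)) (ne_of_mem_erase ht)
      · refine IsUnit.dvd (IsUnit.prod_iff.2 fun t ht => hu i t (mem_range.1 ht) ?_)
        rintro rfl
        exact hi (mem_range.1 ht)
    choose q hq using hex
    refine ⟨fun r => q (r + d • (1 : Fin A)), funext fun i => ?_⟩
    rw [pim_pow_mulVec, sub_add_cancel, ← hq]

end Vale.Agent.P200.G
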