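import Vale.Agent.P200.G.RelA
import Vale.Agent.P200.G.LU

/-! Composition, determinant, range and uniqueness of shifts. -/

open Finset Polynomial Matrix

namespace Vale.Agent.P200.G

open Vale.Agent.P200.Eq

universe u

variable {A : ℕ} [NeZero A] {k : Type*} [Field k] {a : Fin A → k}

variable {Φ Φ' Φ'' : Fl A k} {d d' : Fin A → ℕ} {n n' : ℕ} {B B' : Matrix (Fin A) (Fin A) k[X]}

theorem RelB_pim_ne (ha : Function.Injective a) (j : Fin A) (e : ℕ) : (pim a j ^ e).det ≠ 0 := by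
  obtain ⟨u, hu, h⟩ := det_pim ha j
  rw [det_pow, h]
  exact pow_ne_zero _ (mul_ne_zero (C_ne_zero.2 hu) (X_sub_C_ne_zero _))

omit [NeZero A] in
theorem RelB_detC (M : Matrix (Fin A) (Fin A) k) : (M.map C).det = C M.det :=
  (RingHom.map_det (C : k →+* k[X]) M).symm

omit [NeZero A] in
theorem RelB_cancel {P : Matrix (Fin A) (Fin A) k[X]} (hP : P.det ≠ 0) {x y : Fin A → k[X]}
    (h : P *ᵥ x = P *ᵥ y) : x = y := by
  have h1 : P *ᵥ (x - y) = 0 := by rw [mulVec_sub, h, sub_self]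
  exact sub_eq_zero.1 (eq_zero_of_mulVec_eq_zero hP h1)

omit [NeZero A] in
theorem RelB_cancel' {P M N : Matrix (Fin A) (Fin A) k[X]} (hP : P.det ≠ 0)
    (h : P * M = P * N) : M = N := by
  ext1 i c
  have h1 : P *ᵥ (fun r => M r c) = P *ᵥ (fun r => N r c) := by
    funext r
    exact congrFun (congrFun h r) c
  exact congrFun (RelB_cancel hP h1) i

omit [NeZero A] in
theorem RelB_top (hB : ∀ c c', (B c c').natDegree ≤ n) :
    B.det.natDegree ≤ A * n ∧ B.det.coeff (A * n) = (B.map fun p => p.coeff n).det := by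
  constructor
  · rw [det_apply]
    refine natDegree_sum_le_of_forall_le _ _ fun σ _ => (natDegree_smul_le _ _).trans ?_
    refine (natDegree_prod_le _ _).trans ((Finset.sum_le_sum fun i _ => hB _ _).trans ?_)
    simp
  · rw [det_apply, det_apply, finsetSum_coeff]
    refine Finset.sum_congr rfl fun σ _ => ?_
    have := coeff_prod_of_natDegree_le (s := univ) (fun i => B (σ i) i) n fun i _ => hB _ _
    rw [Finset.card_univ, Fintype.card_fin] at this
    rw [coeff_smul, this]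
    rfl

omit [NeZero A] in
theorem RelB_prod_dvd (ha : Function.Injective a) {p : k[X]} (h : ∀ j, (X - C (a j)) ^ d j ∣ p) :
    ∏ j, (X - C (a j)) ^ d j ∣ p :=
  Finset.prod_dvd_of_coprime
    (fun i _ j _ hij => (pairwise_coprime_X_sub_C ha hij).pow) fun j _ => h j

omit [NeZero A] in
theorem RelB_key (hB : ∀ c c', (B c c').natDegree ≤ n) (hT : (B.map fun p => p.coeff n).det ≠ 0)
    {u : Fin A → k[X]} (hu : ∀ c, ((B *ᵥ u) c).natDegree ≤ n) (c : Fin A) :
    (u c).natDegree = 0 := by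
  obtain ⟨c0, -, h0⟩ := Finset.exists_max_image univ (fun c => (u c).natDegree) ⟨c, mem_univ c⟩
  by_contra hc
  have hN : 0 < (u c0).natDegree := (Nat.pos_of_ne_zero hc).trans_le (h0 c (mem_univ c))
  have h1 : (B.map fun p => p.coeff n) *ᵥ (fun r => (u r).coeff (u c0).natDegree) = 0 := by
    funext r
    have h2 : ((B *ᵥ u) r).coeff (n + (u c0).natDegree) = 0 :=
      coeff_eq_zero_of_natDegree_lt ((hu r).trans_lt (by omega))
    simp only [mulVec, dotProduct, finsetSum_coeff] at h2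
    simp only [mulVec, dotProduct, map_apply, Pi.zero_apply]
    rw [← h2]
    exact Finset.sum_congr rfl fun s _ =>
      (coeff_mul_add_eq_of_natDegree_le (hB r s) (h0 s (mem_univ s))).symm
  have h3 := congrFun (eq_zero_of_mulVec_eq_zero hT h1) c0
  simp only [Pi.zero_apply, coeff_natDegree, leadingCoeff_eq_zero] at h3
  rw [h3] at hN
  simp at hN

theorem NF.det_ne (h : NF Φ) (j : Fin A) : (Φ j).det ≠ 0 := by
  obtain ⟨-, h2, h3⟩ := h j
  intro h0
  have h4 := det_permute' (Equiv.addLeft j) (Φ j)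
  rw [h0, mul_zero, det_of_isUpperTriangular (M := (Φ j).submatrix id (Equiv.addLeft j))
    fun i i' hi => h2 i i' hi] at h4
  exact (Finset.prod_ne_zero_iff.2 fun i _ => h3 i) h4

theorem Rel.comp (ha : Function.Injective a) (h : Rel a Φ d n B Φ') (h' : Rel a Φ' d' n' B' Φ'') :
    Rel a Φ (d + d') (n + n') (B * B') Φ'' := by
  refine ⟨fun c c' => ?_, fun j => ?_⟩
  · rw [Matrix.mul_apply]
    exact natDegree_sum_le_of_forall_le _ _ fun r _ =>
      natDegree_mul_le.trans (add_le_add (h.1 _ _) (h'.1 _ _))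
  · obtain ⟨Y, hY, e⟩ := h.2 j
    obtain ⟨Y', hY', e'⟩ := h'.2 j
    obtain ⟨Z, hZ, e''⟩ := hY.conj_pow ha (d' j)
    refine ⟨Z * Y', hZ.mul hY', ?_⟩
    rw [← Matrix.mul_assoc, e, Matrix.mul_assoc, e', Pi.add_apply, pow_add]
    simp only [Matrix.mul_assoc]
    rw [← Matrix.mul_assoc Y, e'', Matrix.mul_assoc]

theorem Rel.mem (ha : Function.Injective a) (h : Rel a Φ d n B Φ') {m : Fin A → k[X]}
    (hm : Mem a Φ' d' m) : Mem a Φ (d + d') (B *ᵥ m) := by
  intro j
  obtain ⟨Y, hY, e⟩ := h.2 j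
  obtain ⟨m', e'⟩ := hm j
  obtain ⟨Z, -, e''⟩ := hY.conj_pow ha (d' j)
  refine ⟨Z *ᵥ m', ?_⟩
  rw [mulVec_mulVec, e, ← mulVec_mulVec, e', mulVec_mulVec, mulVec_mulVec, Pi.add_apply, pow_add,
    Matrix.mul_assoc, e'', Matrix.mul_assoc]

theorem Rel.det (ha : Function.Injective a) (h : Rel a Φ d n B Φ') (hΦ : ∀ j, (Φ j).det ≠ 0)
    (hΦ' : ∀ j, (Φ' j).det ≠ 0) (hd : ∑ j, d j = A * n) :
    ∃ u : k, u ≠ 0 ∧ B.det = C u * ∏ j, (X - C (a j)) ^ d j ∧
      (B.map fun p => p.coeff n).det = u := by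
  have h1 : ∀ j, B.det ≠ 0 ∧ (X - C (a j)) ^ d j ∣ B.det := fun j => by
    obtain ⟨Y, hY, e⟩ := h.2 j
    have e2 := congrArg Matrix.det e
    rw [det_mul, det_mul, det_mul, RelB_detC, RelB_detC] at e2
    constructor
    · intro h0
      rw [h0, mul_zero] at e2
      refine mul_ne_zero (mul_ne_zero (RelB_pim_ne ha j _) fun hz => ?_)
        (C_ne_zero.2 (hΦ' j)) e2.symm
      have := hY.det_eval
      rw [hz, eval_zero] at this
      exact zero_ne_one this
    · obtain ⟨u, -, hu⟩ := det_pim ha j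
      rw [det_pow, hu, mul_pow] at e2
      refine (IsUnit.dvd_mul_left (isUnit_C.2 (hΦ j).isUnit)).1 ?_
      rw [e2]
      exact ((Dvd.intro_left _ rfl).mul_right _).mul_right _
  obtain ⟨q, hq⟩ := RelB_prod_dvd ha fun j => (h1 j).2
  have hm : (∏ j, (X - C (a j)) ^ d j).Monic :=
    monic_prod_of_monic _ _ fun j _ => (monic_X_sub_C _).pow _
  have hdeg : (∏ j, (X - C (a j)) ^ d j).natDegree = A * n := by
    rw [natDegree_prod_of_monic _ _ fun j _ => (monic_X_sub_C _).pow _, ← hd]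
    exact Finset.sum_congr rfl fun j _ => by rw [natDegree_pow, natDegree_X_sub_C, mul_one]
  have hq0 : q ≠ 0 := fun h0 => (h1 0).1 (by rw [hq, h0, mul_zero])
  obtain ⟨t1, t2⟩ := RelB_top h.1
  have hqd : q.natDegree = 0 := by
    rw [hq, natDegree_mul hm.ne_zero hq0, hdeg] at t1
    omega
  rw [natDegree_eq_zero] at hqd
  obtain ⟨u, rfl⟩ := hqd
  refine ⟨u, C_ne_zero.1 hq0, by rw [hq, mul_comm], ?_⟩
  rw [← t2, hq, coeff_mul_C, ← hdeg, coeff_natDegree, hm.leadingCoeff, one_mul]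

theorem Rel.range (ha : Function.Injective a) (h : Rel a Φ d n B Φ') (hΦ : ∀ j, (Φ j).det ≠ 0)
    (hΦ' : ∀ j, (Φ' j).det ≠ 0) (hd : ∑ j, d j = A * n) {m : Fin A → k[X]} (hm : Mem a Φ d m) :
    ∃ u, m = B *ᵥ u := by
  obtain ⟨u, hu, hB, -⟩ := h.det ha hΦ hΦ' hd
  have hB0 : B.det ≠ 0 := by
    rw [hB]
    exact mul_ne_zero (C_ne_zero.2 hu)
      (monic_prod_of_monic _ _ fun j _ => (monic_X_sub_C _).pow _).ne_zero
  have e0 : B *ᵥ (adjugate B *ᵥ m) = B.det • m := by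
    rw [mulVec_mulVec, mul_adjugate, smul_mulVec, one_mulVec]
  have h1 : ∀ c, B.det ∣ (adjugate B *ᵥ m) c := fun c => by
    rw [hB, IsUnit.mul_left_dvd (isUnit_C.2 hu.isUnit)]
    refine RelB_prod_dvd ha fun j => ?_
    obtain ⟨Y, hY, e⟩ := h.2 j
    obtain ⟨m', e'⟩ := hm j
    have e1 : (Y * (Φ' j).map C) *ᵥ (adjugate B *ᵥ m) = B.det • m' := by
      refine RelB_cancel (RelB_pim_ne ha j (d j)) ?_
      rw [mulVec_mulVec, ← Matrix.mul_assoc, ← e, ← mulVec_mulVec, e0, mulVec_smul, mulVec_smul, e']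
    have e2 : (Y * (Φ' j).map C).det • (adjugate B *ᵥ m) =
        B.det • (adjugate (Y * (Φ' j).map C) *ᵥ m') := by
      rw [← mulVec_smul _ _ m', ← e1, mulVec_mulVec _ (adjugate (Y * (Φ' j).map C)), adjugate_mul,
        smul_mulVec, one_mulVec]
    have e3 := congrFun e2 c
    simp only [Pi.smul_apply, smul_eq_mul] at e3
    have h2 : (X - C (a j)) ^ d j ∣ B.det := by
      rw [hB]
      exact (Finset.dvd_prod_of_mem _ (mem_univ j)).mul_left _
    have h3 : IsCoprime (X - C (a j)) (Y * (Φ' j).map C).det := by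
      rw [(irreducible_X_sub_C (a j)).coprime_iff_not_dvd, dvd_iff_isRoot, IsRoot, det_mul,
        RelB_detC, eval_mul, hY.det_eval, eval_C, one_mul]
      exact hΦ' j
    refine h3.pow_left.dvd_of_dvd_mul_left ?_
    rw [e3]
    exact h2.mul_right _
  choose w hw using h1
  refine ⟨w, ?_⟩
  have e4 : adjugate B *ᵥ m = B.det • w := funext hw
  rw [e4, mulVec_smul] at e0
  exact (smul_right_injective _ hB0 e0).symm

theorem Rel.unique (ha : Function.Injective a) (h : Rel a Φ d n B Φ') (h' : Rel a Φ d n B' Φ'')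
    (hΦ : ∀ j, (Φ j).det ≠ 0) (hN : NF Φ') (hN' : NF Φ'') (hd : ∑ j, d j = A * n) :
    B = B' ∧ Φ' = Φ'' := by
  obtain ⟨u, hu, -, hT⟩ := h.det ha hΦ hN.det_ne hd
  have h1 : ∀ c, ∃ w, (fun r => B' r c) = B *ᵥ w := fun c =>
    h.range ha hΦ hN.det_ne hd fun j => by
      obtain ⟨Y, -, e⟩ := h'.2 j
      refine ⟨fun r => (Y * (Φ'' j).map C) r c, ?_⟩
      funext r
      rw [Matrix.mul_assoc] at e
      exact congrFun (congrFun e r) c
  choose w hw using h1
  have h2 : ∀ c r, ∃ x, C x = w c r := fun c r =>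
    natDegree_eq_zero.1 (RelB_key h.1 (hT ▸ hu) (fun s => by rw [← hw]; exact h'.1 _ _) r)
  choose x hx using h2
  have e0 : B' = B * (Matrix.of fun r c => x c r).map C := by
    ext1 r c
    rw [congrFun (hw c) r]
    simp only [mulVec, dotProduct, Matrix.mul_apply, map_apply, of_apply, hx]
  have h3 : ∀ j, ∃ Y Y' : Matrix (Fin A) (Fin A) k, (∀ i, Y i i = 1) ∧
      (∀ i i', i < i' → Y i i' = 0) ∧ (∀ i, Y' i i = 1) ∧ (∀ i i', i < i' → Y' i i' = 0) ∧
      Y * (Φ' j * Matrix.of fun r c => x c r) = Y' * Φ'' j := fun j => by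
    obtain ⟨Y, hY, e⟩ := h.2 j
    obtain ⟨Y', hY', e'⟩ := h'.2 j
    rw [e0, ← Matrix.mul_assoc, e] at e'
    simp only [Matrix.mul_assoc] at e'
    have e2 := congrArg (fun M => M.map (evalRingHom (a j))) (RelB_cancel' (RelB_pim_ne ha j _) e')
    have e3 : ∀ M : Matrix (Fin A) (Fin A) k, (M.map C).map (evalRingHom (a j)) = M := fun M => by
      ext r c
      simp
    simp only [Matrix.map_mul, e3] at e2
    exact ⟨_, _, hY.1, hY.2, hY'.1, hY'.2, e2⟩
  have row : ∀ {Y : Matrix (Fin A) (Fin A) k}, (∀ i, Y i i = 1) → (∀ i i', i < i' → Y i i' = 0) →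
      ∀ (M : Matrix (Fin A) (Fin A) k) c, (Y * M) 0 c = M 0 c := fun {Y} y1 y2 M c => by
    rw [Matrix.mul_apply, Finset.sum_eq_single 0, y1, one_mul]
    · intro i _ hi
      rw [y2 0 i ((Fin.pos_iff_ne_zero' i).2 hi), zero_mul]
    · simp
  have e1 : (Matrix.of fun r c => x c r) = (1 : Matrix (Fin A) (Fin A) k) := by
    ext j c
    obtain ⟨Y, Y', y1, y2, y3, y4, e⟩ := h3 j
    have e2 := congrFun (congrFun e 0) c
    rw [row y1 y2, row y3 y4, (hN' j).1, Matrix.mul_apply] at e2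
    simp only [(hN j).1, ite_mul, one_mul, zero_mul, Finset.sum_ite_eq', mem_univ, if_true] at e2
    rw [e2, one_apply]
    simp only [eq_comm]
  refine ⟨by rw [e0, e1, Matrix.map_one _ C_0 C_1, Matrix.mul_one], funext fun j => ?_⟩
  obtain ⟨Y, Y', y1, y2, y3, y4, e⟩ := h3 j
  rw [e1, Matrix.mul_one] at e
  have e2 : Y * (Φ' j).submatrix id (Equiv.addLeft j) =
      Y' * (Φ'' j).submatrix id (Equiv.addLeft j) := by
    ext i c
    exact congrFun (congrFun e i) (j + c)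
  have e3 := lu_unique e2 y1 y2 y3 y4 (hN j).2.1 (hN j).2.2 (hN' j).2.1
  ext i c
  have := congrFun (congrFun e3 i) (c - j)
  simpa using this

theorem Rel.good (ha : Function.Injective a) (h : Rel a Φ d n B Φ') (hG : GoodFl a Φ)
    (hΦ' : ∀ j, (Φ' j).det ≠ 0) (hd : ∑ j, d j = A * n) : GoodFl a Φ' := by
  refine ⟨hΦ', fun d' n' hd' m hm hdeg => ?_⟩
  obtain ⟨u, hu, hB, -⟩ := h.det ha hG.1 hΦ' hd
  have hB0 : B.det ≠ 0 := by
    rw [hB]
    exact mul_ne_zero (C_ne_zero.2 hu)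
      (monic_prod_of_monic _ _ fun j _ => (monic_X_sub_C _).pow _).ne_zero
  refine eq_zero_of_mulVec_eq_zero hB0 (hG.2 (d + d') (n + n') ?_ _ (h.mem ha hm) fun c => ?_)
  · simp only [Pi.add_apply, Finset.sum_add_distrib, hd, hd', mul_add]
  · simp only [mulVec, dotProduct]
    refine (degree_sum_le _ _).trans_lt ((Finset.sup_lt_iff (WithBot.bot_lt_coe _)).2 fun r _ => ?_)
    by_cases h0 : B c r = 0
    · rw [h0, zero_mul, degree_zero]
      exact WithBot.bot_lt_coe _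
    · rw [degree_mul]
      refine lt_of_lt_of_eq (WithBot.add_lt_add_of_le_of_lt (degree_ne_bot.2 h0)
        (degree_le_of_natDegree_le (h.1 c r)) (hdeg r)) ?_
      norm_cast

end Vale.Agent.P200.G
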