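import Vale.Agent.P200.G.Step
import Vale.Agent.P200.Eq.PrepW

/-! The stages of the construction. -/

open MvPolynomial

namespace Vale.Agent.P200.G

open Vale.Agent.P200.Eq

universe u

variable {k : Type u} [Field k] {n c : ℕ} (hc : c ≤ n) (a : Fin c → ℕ)
  (f : Fin c → MvPolynomial (Fin n) k)

theorem start [Infinite k] (hpos : ∀ i, 0 < a i) (hdeg : ∀ i, (f i).IsHomogeneous (a i))
    (hreg : Reg f) : ∃ (s : St.{u} n) (φ : k →+* s.F) (y : Fin n → MvPolynomial s.O s.F),
      Inv hc a f s φ y c := by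
  classical
  obtain ⟨w, l, -, -, ⟨d₀, hd₀⟩, hfw, hl, hwl⟩ := exists_w hc a (Finset.univ.sup a + 1)
    (Nat.succ_pos _) (fun i => (Finset.le_sup (f := a) (Finset.mem_univ i)).trans (Nat.le_succ _))
    hpos f hdeg hreg
  obtain ⟨ψ, hψ⟩ := exists_aeval (K := k) (A := Alg k (Fin n))
    (fun p : Fin n => lin (Pi.single p (1 : k) : Fin n → k))
    fun p q => commute_lin fun _ _ => Commute.all _ _
  let s : St.{u} n :=
    { F := k
      D := k
      O := Fin n
      ω := fun p => Pi.single p 1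
      ev := ψ
      ev_X := hψ
      xs := id
      ω_xs := fun _ => rfl }
  refine ⟨s, RingHom.id k, l, hl, ?_, fun i hi => absurd i.2 (not_lt.2 hi)⟩
  intro Ω _ _ χ _ hf hy p
  let : Algebra k Ω := ‹Algebra s.F Ω›
  have hf' : ∀ i : Fin c, aeval (R := k) (σ := Fin n) χ (f i) = 0 := fun i => by
    have h := hf i i.2
    have e : (rename s.xs (MvPolynomial.map (RingHom.id k) (f i)) : MvPolynomial (Fin n) k) =
        f i := by
      rw [map_id]
      exact rename_id_apply _
    exact (congrArg (aeval (R := k) (σ := Fin n) χ) e).symm.trans h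
  have hw : ∀ j, aeval (R := k) (σ := Fin n) χ (w j) = 0 := fun j => by
    rcases lt_or_ge (j : ℕ) c with hj | hj
    · obtain ⟨g, hg⟩ := hfw ⟨j, hj⟩
      have e : Fin.castLE hc ⟨j, hj⟩ = j := rfl
      rw [e] at hg
      rw [hg, map_mul, hf', zero_mul]
    · have h : aeval (R := k) (σ := Fin n) χ (l j) = 0 := hy j hj
      rw [hwl j hj, map_pow, h, zero_pow (Nat.succ_ne_zero _)]
  have h1 : Ideal.span (Set.range w) ≤ RingHom.ker (aeval (R := k) (σ := Fin n) χ) :=
    Ideal.span_le.2 (by rintro _ ⟨j, rfl⟩; exact hw j)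
  have h2 := h1 (hd₀ (Finsupp.single p (d₀ + 1)) (by rw [Finsupp.degree_single]; omega))
  rw [RingHom.mem_ker, ← X_pow_eq_monomial, map_pow, aeval_X] at h2
  exact pow_eq_zero_iff (Nat.succ_ne_zero _) |>.1 h2

/-- the generators available at stage `m` -/
def gens (s : St.{u} n) (φ : k →+* s.F) (y : Fin n → MvPolynomial s.O s.F) (m : ℕ) :
    Set (MvPolynomial s.O s.F) :=
  {g | (∃ i : Fin c, (i : ℕ) < m ∧ g = rename s.xs (MvPolynomial.map φ (f i))) ∨
    (∃ j : Fin n, m + 1 ≤ (j : ℕ) ∧ g = y j) ∨ (g.IsHomogeneous 2 ∧ s.ev g = 0)}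

theorem push_f {s s' : St.{u} n} (μ : Mor s s') (φ : k →+* s.F) (g : MvPolynomial (Fin n) k) :
    μ.push (rename s.xs (MvPolynomial.map φ g)) =
      rename s'.xs (MvPolynomial.map (μ.φF.comp φ) g) := by
  rw [μ.push_rename_xs, map_map]

theorem inv_step {m : ℕ} (hm : m < c) {s s' : St.{u} n} (φ : k →+* s.F)
    (y : Fin n → MvPolynomial s.O s.F) (h : Inv hc a f s φ y (m + 1)) (hpos : 0 < a ⟨m, hm⟩)
    (μ : Mor s s') (z R : MvPolynomial s'.O s'.F) (hz : z.IsHomogeneous 1)
    (hR : R ∈ Ideal.map μ.push (Ideal.span (gens f s φ y m))) (τ : s'.F) (hτ : τ ≠ 0)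
    (hg : s'.Good (z ^ a ⟨m, hm⟩ -
      (R + C τ * μ.push (rename s.xs (MvPolynomial.map φ (f ⟨m, hm⟩)))))) :
    Inv hc a f s' (μ.φF.comp φ)
      (Function.update (fun j => μ.push (y j)) (Fin.castLE hc ⟨m, hm⟩) z) m := by
  classical
  obtain ⟨hy, hpt, hpow⟩ := h
  set j₀ : Fin n := Fin.castLE hc ⟨m, hm⟩ with hj₀
  have hj₀m : (j₀ : ℕ) = m := rfl
  set y' : Fin n → MvPolynomial s'.O s'.F := Function.update (fun j => μ.push (y j)) j₀ z with hy'
  have hy0 : y' j₀ = z := Function.update_self _ _ _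
  have hy1 : ∀ j : Fin n, m + 1 ≤ (j : ℕ) → y' j = μ.push (y j) := fun j hj =>
    Function.update_of_ne (fun e => by rw [e, hj₀m] at hj; omega) _ _
  refine ⟨fun j => ?_, ?_, fun i hi => ?_⟩
  · rcases eq_or_ne j j₀ with rfl | hj
    · rw [hy0]
      exact hz
    · rw [hy', Function.update_of_ne hj]
      exact μ.push_hom (hy j)
  · intro Ω _ _ χ hχ hf hyy
    let : Algebra s.F Ω := ((algebraMap s'.F Ω).comp μ.φF).toAlgebra
    have hp : ∀ P, aeval χ (μ.push P) = aeval (fun p => χ (μ.e p)) P :=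
      μ.aeval_push (fun _ => rfl) χ
    have hχ' : s.Pt Ω fun p => χ (μ.e p) := μ.pt_pull (fun _ => rfl) hχ
    have hf1 : ∀ i : Fin c, (i : ℕ) < m →
        aeval (fun p => χ (μ.e p)) (rename s.xs (MvPolynomial.map φ (f i))) = 0 := fun i hi => by
      rw [← hp, push_f]
      exact hf i hi
    have hy2 : ∀ j : Fin n, m + 1 ≤ (j : ℕ) → aeval (fun p => χ (μ.e p)) (y j) = 0 :=
      fun j hj => by
        rw [← hp, ← hy1 j hj]
        exact hyy j (by omega)
    have hR0 : aeval χ R = 0 := by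
      have h1 : Ideal.map μ.push (Ideal.span (gens f s φ y m)) ≤ RingHom.ker (aeval χ) := by
        rw [Ideal.map_le_iff_le_comap, Ideal.span_le]
        intro g hg
        change aeval χ (μ.push g) = 0
        rw [hp]
        rcases hg with ⟨i, hi, rfl⟩ | ⟨j, hj, rfl⟩ | ⟨h2, h3⟩
        · exact hf1 i hi
        · exact hy2 j hj
        · exact hχ' g h2 h3
      exact h1 hR
    have hz0 : aeval χ z = 0 := by
      rw [← hy0]
      exact hyy j₀ hj₀m.ge
    have hfm : aeval (fun p => χ (μ.e p)) (rename s.xs (MvPolynomial.map φ (f ⟨m, hm⟩))) = 0 := by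
      have h1 := hg.2 Ω χ hχ
      rw [map_sub, map_add, map_mul, map_pow, hz0, hR0, zero_pow hpos.ne', zero_add, zero_sub,
        neg_eq_zero, aeval_C, hp, mul_eq_zero] at h1
      exact h1.resolve_left ((map_ne_zero _).2 hτ)
    refine μ.zero Ω χ hχ (hpt Ω _ hχ' (fun i hi => ?_) hy2)
    rcases Nat.lt_succ_iff_lt_or_eq.1 hi with hi | hi
    · exact hf1 i hi
    · obtain rfl : i = ⟨m, hm⟩ := Fin.ext hi
      exact hfm
  · rcases hi.eq_or_lt with hi | hi
    · obtain rfl : i = ⟨m, hm⟩ := Fin.ext hi.symm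
      set J : Ideal (MvPolynomial s'.O s'.F) := Ideal.span
        (Set.range (fun i' => rename s'.xs (MvPolynomial.map (μ.φF.comp φ) (f i'))) ∪
          y' '' Set.Ioi j₀) with hJ
      have h1 : Ideal.map μ.push (Ideal.span (gens f s φ y m)) ≤ J ⊔ RingHom.ker s'.ev := by
        rw [Ideal.map_le_iff_le_comap, Ideal.span_le]
        intro g hg
        change μ.push g ∈ J ⊔ RingHom.ker s'.ev
        rcases hg with ⟨i, -, rfl⟩ | ⟨j, hj, rfl⟩ | ⟨-, h3⟩
        · exact Ideal.mem_sup_left (Ideal.subset_span (Or.inl ⟨i, (push_f μ φ _).symm⟩))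
        · exact Ideal.mem_sup_left (Ideal.subset_span (Or.inr ⟨j, hj, hy1 j hj⟩))
        · refine Ideal.mem_sup_right ?_
          rw [RingHom.mem_ker, μ.ev_push, h3, map_zero]
      obtain ⟨P, hP, Q, hQ, hPQ⟩ := Submodule.mem_sup.1 (h1 hR)
      refine ⟨P + C τ * μ.push (rename s.xs (MvPolynomial.map φ (f ⟨m, hm⟩))),
        J.add_mem hP (J.mul_mem_left _
          (Ideal.subset_span (Or.inl ⟨⟨m, hm⟩, (push_f μ φ _).symm⟩))), ?_⟩
      have h2 := hg.1
      rw [RingHom.mem_ker] at hQ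
      have e : y' j₀ ^ a ⟨m, hm⟩ -
          (P + C τ * μ.push (rename s.xs (MvPolynomial.map φ (f ⟨m, hm⟩)))) =
          (z ^ a ⟨m, hm⟩ -
            (R + C τ * μ.push (rename s.xs (MvPolynomial.map φ (f ⟨m, hm⟩))))) + Q := by
        rw [hy0, ← hPQ]
        ring
      rw [e, map_add, h2, hQ, add_zero]
    · obtain ⟨P, hP, hP0⟩ := hpow i hi
      refine ⟨μ.push P, ?_, ?_⟩
      · have h1 : Ideal.span (Set.range (fun i' => rename s.xs (MvPolynomial.map φ (f i'))) ∪
            y '' Set.Ioi (Fin.castLE hc i)) ≤ Ideal.comap μ.push (Ideal.span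
            (Set.range (fun i' => rename s'.xs (MvPolynomial.map (μ.φF.comp φ) (f i'))) ∪
              y' '' Set.Ioi (Fin.castLE hc i))) := by
          rw [Ideal.span_le]
          rintro g (⟨i', rfl⟩ | ⟨j, hj, rfl⟩)
          · exact Ideal.subset_span (Or.inl ⟨i', (push_f μ φ _).symm⟩)
          · refine Ideal.subset_span (Or.inr ⟨j, hj, hy1 j ?_⟩)
            have h2 : (i : ℕ) < (j : ℕ) := hj
            omega
        exact h1 hP
      · rw [hy1 (Fin.castLE hc i) hi, ← map_pow, ← map_sub, μ.ev_push, hP0, map_zero]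

theorem stage [IsAlgClosed k] (ha : ∀ i, 2 ≤ a i) (hmono : Monotone a)
    (hfac : ∀ i, ((a i).factorial : k) ≠ 0) (hdeg : ∀ i, (f i).IsHomogeneous (a i)) {m : ℕ}
    (hm : m < c) (s : St.{u} n) (φ : k →+* s.F) (y : Fin n → MvPolynomial s.O s.F)
    (h : Inv hc a f s φ y (m + 1)) :
    ∃ (s' : St.{u} n) (φ' : k →+* s'.F) (y' : Fin n → MvPolynomial s'.O s'.F),
      Inv hc a f s' φ' y' m := by
  classical
  set A := a ⟨m, hm⟩ with hA
  have hA2 : 2 ≤ A := ha _
  set fm : MvPolynomial s.O s.F := rename s.xs (MvPolynomial.map φ (f ⟨m, hm⟩)) with hfm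
  have hfh : ∀ i, (rename s.xs (MvPolynomial.map φ (f i)) :
      MvPolynomial s.O s.F).IsHomogeneous (a i) := fun i =>
    ((hdeg i).map φ).rename_isHomogeneous
  let W : Submodule s.F (MvPolynomial s.O s.F) :=
    homogeneousSubmodule s.O s.F A ⊓ (Ideal.span (gens f s φ y m)).restrictScalars s.F
  by_cases hW : fm ∈ W
  · refine ⟨s, _, _, inv_step hc a f hm φ y h (by omega) (Mor.refl s) 0 (-fm)
      (isHomogeneous_zero _ _ _) ?_ 1 one_ne_zero ?_⟩
    · have h1 := Ideal.mem_map_of_mem (Mor.refl s).push (neg_mem hW.2)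
      rwa [Mor.push_refl] at h1
    · rw [Mor.push_refl, ← hA, ← hfm, zero_pow (by omega), C_1, one_mul, neg_add_cancel, sub_zero]
      exact s.gd.zero_mem
  have : FiniteDimensional s.F (homogeneousSubmodule s.O s.F A) :=
    Module.Finite.iff_fg.2 (homogeneousSubmodule_fg _ _ _)
  have : FiniteDimensional s.F W := Submodule.finiteDimensional_of_le inf_le_left
  let b := Module.finBasis s.F W
  have hb : LinearIndependent s.F fun i => (b i : MvPolynomial s.O s.F) :=
    b.linearIndependent.map' W.subtype W.ker_subtype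
  have hsp : Submodule.span s.F (Set.range fun i => (b i : MvPolynomial s.O s.F)) = W := by
    have h1 := congrArg (Submodule.map W.subtype) b.span_eq
    rw [Submodule.map_span, Submodule.map_top, Submodule.range_subtype, ← Set.range_comp] at h1
    exact h1
  have hfacA : ((A.factorial : ℕ) : s.F) ≠ 0 := by
    rw [← map_natCast φ]
    exact (map_ne_zero φ).2 (hfac _)
  have hA0 : (A : k) ≠ 0 := fun h0 => hfac ⟨m, hm⟩ (by
    obtain ⟨t, ht⟩ := Nat.dvd_factorial (by omega : 0 < A) le_rfl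
    rw [← hA, ht, Nat.cast_mul, h0, zero_mul])
  have : NeZero (A : k) := ⟨hA0⟩
  obtain ⟨ζ, hζ⟩ := HasEnoughRootsOfUnity.exists_primitiveRoot k A
  let w : Fin (Module.finrank s.F W + 1) → MvPolynomial s.O s.F :=
    Fin.snoc (fun i => (b i : MvPolynomial s.O s.F)) fm
  have hw0 : ∀ i, w (Fin.castSucc i) = b i := fun i => Fin.snoc_castSucc _ _ _
  have hw1 : w (Fin.last _) = fm := Fin.snoc_last _ _
  obtain ⟨s', μ, z, τ, hz, hτ, hg⟩ := step s hA2 hfacA (hζ.map_of_injective φ.injective) w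
    (fun i => by
      induction i using Fin.lastCases with
      | last => rw [hw1]; exact hfh _
      | cast i => rw [hw0]; exact (b i).2.1)
    (linearIndependent_finSnoc.2 ⟨hb, by rw [hsp]; exact hW⟩)
    (fun Ω _ _ χ hχ => by
      by_contra hne
      push Not at hne
      obtain ⟨p, hp⟩ := hne
      have hWk : ∀ g ∈ W, aeval χ g = 0 := fun g hg => by
        rw [← hsp] at hg
        have h1 : Submodule.span s.F (Set.range fun i => (b i : MvPolynomial s.O s.F)) ≤
            LinearMap.ker (aeval χ : MvPolynomial s.O s.F →ₐ[s.F] Ω).toLinearMap :=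
          Submodule.span_le.2 (by
            rintro _ ⟨i, rfl⟩
            have h2 := hχ (Fin.castSucc i)
            rw [hw0] at h2
            exact h2)
        exact h1 hg
      have hS : ∀ g ∈ gens f s φ y m, ∀ d, d ≤ A → g.IsHomogeneous d → aeval χ g = 0 :=
        fun g hg d hd hgd => by
          have h1 := hgd.mul (isHomogeneous_X_pow (R := s.F) p (A - d))
          rw [Nat.add_sub_cancel' hd] at h1
          have h2 := hWk (g * X p ^ (A - d))
            ⟨h1, Ideal.mul_mem_right _ _ (Ideal.subset_span hg)⟩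
          rw [map_mul, map_pow, aeval_X, mul_eq_zero] at h2
          exact h2.resolve_right (pow_ne_zero _ hp)
      refine hp (h.2.1 Ω χ (fun Q hQ h0 => hS Q (Or.inr (Or.inr ⟨hQ, h0⟩)) 2 hA2 hQ)
        (fun i hi => ?_) (fun j hj => hS _ (Or.inr (Or.inl ⟨j, hj, rfl⟩)) 1 (by omega) (h.1 j)) p)
      rcases Nat.lt_succ_iff_lt_or_eq.1 hi with hi | hi
      · exact hS _ (Or.inl ⟨i, hi, rfl⟩) (a i) (hmono (show i ≤ ⟨m, hm⟩ from hi.le)) (hfh i)
      · obtain rfl : i = ⟨m, hm⟩ := Fin.ext hi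
        have h2 := hχ (Fin.last _)
        rw [hw1] at h2
        exact h2)
  refine ⟨s', _, _, inv_step hc a f hm φ y h (by omega) μ z
    (∑ i, C (τ (Fin.castSucc i)) * μ.push (b i)) hz
    (Ideal.sum_mem _ fun i _ => Ideal.mul_mem_left _ _ (Ideal.mem_map_of_mem _ (b i).2.2))
    (τ (Fin.last _)) (hτ _) ?_⟩
  rw [Fin.sum_univ_castSucc, hw1] at hg
  simp only [hw0] at hg
  exact hg

end Vale.Agent.P200.G
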