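import Vale.Agent.P200.G.Merge
import Vale.Agent.P200.G.Plain

/-! One step. -/

open MvPolynomial

namespace Vale.Agent.P200.G

open Vale.Agent.P200.Eq

universe u

theorem step {n a p : ℕ} (s : St.{u} n) (ha : 2 ≤ a) (hfac : (a.factorial : s.F) ≠ 0) {ζ : s.F}
    (hζ : IsPrimitiveRoot ζ a) (w : Fin p → MvPolynomial s.O s.F)
    (hw : ∀ i, (w i).IsHomogeneous a) (hli : LinearIndependent s.F w)
    (hb : ∀ (Ω : Type u) [Field Ω] [Algebra s.F Ω] (χ : s.O → Ω),
      (∀ i, aeval χ (w i) = 0) → ∀ x, χ x = 0) :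
    ∃ (s' : St.{u} n) (μ : Mor s s') (y : MvPolynomial s'.O s'.F) (τ : Fin p → s'.F),
      y.IsHomogeneous 1 ∧ (∀ i, τ i ≠ 0) ∧
      s'.Good (y ^ a - ∑ i, C (τ i) * μ.push (w i)) := by
  classical
  let e : s.O ≃ Fin (Fintype.card s.O) := Fintype.equivFin s.O
  have hli' : LinearIndependent s.F fun i => rename e (w i) :=
    hli.map' (rename e : MvPolynomial s.O s.F →ₐ[s.F] _).toLinearMap
      (LinearMap.ker_eq_bot.2 (rename_injective _ e.injective))
  obtain ⟨F₁, D, _, _, _, _, φF, φ, M, B, l, τ, halg, hγ, hv, hl, hτ, hsum⟩ :=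
    plain (E := s.D) ha hfac hζ (fun i => rename e (w i))
      (fun i => (hw i).rename_isHomogeneous) hli' fun Ω _ _ χ hχ x => by
        have h := hb Ω (χ ∘ e) (fun i => by rw [← aeval_rename]; exact hχ i) (e.symm x)
        simpa using h
  obtain ⟨E₁, _, _, _, ι, hι⟩ := exists_cent (F := F₁) (Set.range B.γ ∪ Set.range B.v)
  obtain ⟨ψ, hψ⟩ := exists_cores (ι : E₁ →+* D) φ fun x => (hι (φ x)).2 (by
    rintro z (⟨r, rfl⟩ | ⟨r, rfl⟩)
    · exact (hγ r x).symm
    · exact (hv r x).symm)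
  have halg' : ∀ c, ψ (algebraMap s.F s.D c) = algebraMap F₁ E₁ (φF c) := fun c =>
    (ι : E₁ →+* D).injective (by
      rw [hψ, halg]
      exact (ι.commutes _).symm)
  obtain ⟨s', μ, y, hy, hg⟩ := merge ha M (s.bc F₁ ψ) (hζ.map_of_injective φF.injective) ι B
    (fun r x => ((hι _).1 ⟨x, rfl⟩ _ (Or.inl ⟨r, rfl⟩)).symm)
    (fun r x => ((hι _).1 ⟨x, rfl⟩ _ (Or.inr ⟨r, rfl⟩)).symm)
    (fun r ε => rename e.symm (l r ε)) fun r ε => (hl r ε).rename_isHomogeneous
  refine ⟨s', (s.toBc ψ φF halg').trans μ, y, fun i => μ.φF (τ i), hy,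
    fun i => (map_ne_zero μ.φF).2 (hτ i), ?_⟩
  have h1 : (∑ r, aeval (fun ε => rename e.symm (l r ε)) (B.g r) : MvPolynomial s.O F₁) =
      ∑ i, C (τ i) * map φF (w i) := by
    have h2 := congrArg (rename e.symm) hsum
    rw [map_sum, map_sum] at h2
    refine Eq.trans (Finset.sum_congr rfl fun r _ => ?_) (h2.trans
      (Finset.sum_congr rfl fun i _ => ?_))
    · rw [← AlgHom.comp_apply, comp_aeval]
    · rw [map_mul, rename_C, map_rename, rename_rename]
      simp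
  have h3 : μ.push (∑ r, aeval (fun ε => rename e.symm (l r ε)) (B.g r)) =
      ∑ i, C (μ.φF (τ i)) * ((s.toBc ψ φF halg').trans μ).push (w i) := by
    refine (congrArg μ.push h1).trans ?_
    rw [map_sum]
    refine Finset.sum_congr rfl fun i _ => ?_
    rw [map_mul, Mor.push_trans]
    refine congrArg₂ (· * ·) (μ.push_C _) (congrArg μ.push ?_)
    exact (rename_id_apply _).symm
  rw [← h3]
  exact hg

end Vale.Agent.P200.G
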