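import Vale.Agent.P200.G.PDefs
import Vale.Agent.P200.G.Wd

/-! Graded pieces of the crossed product. -/

open Finset TensorProduct

namespace Vale.Agent.P200.G

open Vale.Agent.P200.Eq

universe u

variable {A : ℕ} [NeZero A] {F L : Type u} [Field F] [Field L] [Algebra F L]

section te

variable {k : Type u} [Field k] [Algebra F k] {E : Type u} [DivisionRing E] [Algebra F E]
  {N N' N'' : Submodule F k}

theorem tmul_mem_TE {f : k} (hf : f ∈ N) (e : E) : f ⊗ₜ e ∈ TE E N :=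
  Submodule.subset_span ⟨f, hf, e, rfl⟩

theorem mem_TE_iff {ι : Type*} (b : Module.Basis ι F E) (x : k ⊗[F] E) :
    x ∈ TE E N ↔ ∀ i, (b.baseChange k).repr x i ∈ N := by
  classical
  refine ⟨fun hx => ?_, fun h => ?_⟩
  · induction hx using Submodule.span_induction with
    | mem x hx =>
      obtain ⟨f, hf, e, rfl⟩ := hx
      intro i
      rw [Module.Basis.baseChange_repr_tmul]
      exact N.smul_mem _ hf
    | zero => intro i; simp
    | add x y _ _ hx hy =>
      intro i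
      rw [map_add, Finsupp.add_apply]
      exact N.add_mem (hx i) (hy i)
    | smul a x _ hx =>
      intro i
      rw [← algebraMap_smul k a x, map_smul, Finsupp.smul_apply, algebraMap_smul]
      exact N.smul_mem _ (hx i)
  · rw [← (b.baseChange k).linearCombination_repr x, Finsupp.linearCombination_apply, Finsupp.sum]
    refine Submodule.sum_mem _ fun i _ => ?_
    rw [Module.Basis.baseChange_apply, smul_tmul', smul_eq_mul, mul_one]
    exact tmul_mem_TE (h i) _

theorem eq_sum_repr {ι : Type*} [Fintype ι] (b : Module.Basis ι F E) (x : k ⊗[F] E) :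
    x = ∑ i, (b.baseChange k).repr x i ⊗ₜ b i := by
  conv_lhs => rw [← (b.baseChange k).sum_repr x]
  refine sum_congr rfl fun i _ => ?_
  rw [Module.Basis.baseChange_apply, smul_tmul', smul_eq_mul, mul_one]

theorem TE_mono (h : N ≤ N') : TE E N ≤ TE E N' := by
  refine Submodule.span_mono ?_
  rintro _ ⟨f, hf, e, rfl⟩
  exact ⟨f, h hf, e, rfl⟩

theorem TE_bot : TE E (⊥ : Submodule F k) = ⊥ := by
  refine Submodule.span_eq_bot.2 ?_
  rintro _ ⟨f, hf, e, rfl⟩
  rw [(Submodule.mem_bot F).1 hf, zero_tmul]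

theorem TE_top : TE E (⊤ : Submodule F k) = ⊤ := by
  refine top_unique fun x _ => ?_
  induction x using TensorProduct.induction_on with
  | zero => exact zero_mem _
  | add x y hx hy => exact add_mem (hx trivial) (hy trivial)
  | tmul f e => exact tmul_mem_TE Submodule.mem_top e

theorem TE_mul (h : ∀ f ∈ N, ∀ f' ∈ N', f * f' ∈ N'') {x y : k ⊗[F] E} (hx : x ∈ TE E N)
    (hy : y ∈ TE E N') : x * y ∈ TE E N'' := by
  induction hx using Submodule.span_induction with
  | mem x hx =>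
    obtain ⟨f, hf, e, rfl⟩ := hx
    induction hy using Submodule.span_induction with
    | mem y hy =>
      obtain ⟨f', hf', e', rfl⟩ := hy
      rw [Algebra.TensorProduct.tmul_mul_tmul]
      exact tmul_mem_TE (h f hf f' hf') _
    | zero => rw [mul_zero]; exact zero_mem _
    | add y y' _ _ h1 h2 => rw [mul_add]; exact add_mem h1 h2
    | smul a y _ h1 => rw [mul_smul_comm]; exact Submodule.smul_mem _ _ h1
  | zero => rw [zero_mul]; exact zero_mem _
  | add x x' _ _ h1 h2 => rw [add_mul]; exact add_mem h1 h2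
  | smul a x _ h1 => rw [smul_mul_assoc]; exact Submodule.smul_mem _ _ h1

end te

variable {Z : Cyc F L A} (P : Pk Z) (E : Type u) [DivisionRing E] [Algebra F E] (s : F)

theorem Pk.mem_Sub {N : Gw A → Submodule F P.k} {x : P.X E s} :
    x ∈ P.Sub E s N ↔ ∀ g, x.co g ∈ TE E (N g) := Iff.rfl

theorem Pk.repr_α {ι : Type*} (b : Module.Basis ι F E) (g : Gw A) (x : P.k ⊗[F] E) (i : ι) :
    (b.baseChange P.k).repr ((P.cd E s).α g x) i = P.α g ((b.baseChange P.k).repr x i) := by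
  induction x using TensorProduct.induction_on with
  | zero => simp
  | add x y hx hy => simp only [map_add, Finsupp.add_apply, hx, hy]
  | tmul f e =>
    rw [Pk.cd_α_tmul, Module.Basis.baseChange_repr_tmul, Module.Basis.baseChange_repr_tmul,
      map_smul]

theorem Pk.TE_act {N N' : Submodule F P.k} (g : Gw A) (h : ∀ f ∈ N, P.α g f ∈ N')
    {x : P.k ⊗[F] E} (hx : x ∈ TE E N) : (P.cd E s).α g x ∈ TE E N' := by
  induction hx using Submodule.span_induction with
  | mem x hx =>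
    obtain ⟨f, hf, e, rfl⟩ := hx
    rw [Pk.cd_α_tmul]
    exact tmul_mem_TE (h f hf) _
  | zero => rw [map_zero]; exact zero_mem _
  | add x x' _ _ h1 h2 => rw [map_add]; exact add_mem h1 h2
  | smul a x _ h1 => rw [map_smul]; exact Submodule.smul_mem _ _ h1

theorem Pk.Sub_mono {N N' : Gw A → Submodule F P.k} (h : ∀ g, N g ≤ N' g) :
    P.Sub E s N ≤ P.Sub E s N' := by
  intro x hx g
  exact TE_mono (h g) (hx g)

theorem Pk.sgl_mem_Sub {N : Gw A → Submodule F P.k} {g : Gw A} {r : P.k ⊗[F] E}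
    (h : r ∈ TE E (N g)) : CP.sgl (P.cd E s) g r ∈ P.Sub E s N := by
  classical
  intro g'
  rw [CP.co_sgl, Finsupp.single_apply]
  split_ifs with hg
  · rwa [← hg]
  · exact zero_mem _

theorem Pk.Sub_mul {N N' N'' : Gw A → Submodule F P.k}
    (h : ∀ g g', ∀ f ∈ N g, ∀ f' ∈ N' g', f * P.α g f' ∈ N'' (g * g')) {x y : P.X E s}
    (hx : x ∈ P.Sub E s N) (hy : y ∈ P.Sub E s N') : x * y ∈ P.Sub E s N'' := by
  rw [CP.mul_eq_sum]
  refine Submodule.sum_mem _ fun g _ => Submodule.sum_mem _ fun g' _ =>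
    P.sgl_mem_Sub E s (Submodule.smul_mem _ _ ?_)
  refine TE_mul (N' := (N' g').map (P.α g).toLinearMap) ?_ (hx g)
    (P.TE_act E s g (fun f hf => Submodule.mem_map_of_mem hf) (hy g'))
  rintro f hf _ ⟨f', hf', rfl⟩
  exact h g g' f hf f' hf'

theorem Pk.Sub_induction {N : Gw A → Submodule F P.k} {p : P.X E s → Prop} (zero : p 0)
    (add : ∀ x y, x ∈ P.Sub E s N → y ∈ P.Sub E s N → p x → p y → p (x + y))
    (sgl : ∀ g, ∀ f ∈ N g, ∀ e : E, p (CP.sgl (P.cd E s) g (f ⊗ₜ e))) {x : P.X E s}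
    (hx : x ∈ P.Sub E s N) : p x := by
  have key : ∀ g, ∀ r ∈ TE E (N g), p (CP.sgl (P.cd E s) g r) := by
    intro g r hr
    have hc : ∀ (a : F), p (CP.sgl (P.cd E s) g (a • r)) := by
      induction hr using Submodule.span_induction with
      | mem x hx =>
        obtain ⟨f, hf, e, rfl⟩ := hx
        intro a
        rw [smul_tmul']
        exact sgl g _ ((N g).smul_mem a hf) e
      | zero => intro a; rw [smul_zero, CP.sgl_zero]; exact zero
      | add x y hx hy h1 h2 =>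
        intro a
        rw [smul_add, CP.sgl_add]
        exact add _ _ (P.sgl_mem_Sub E s (Submodule.smul_mem _ _ hx))
          (P.sgl_mem_Sub E s (Submodule.smul_mem _ _ hy)) (h1 a) (h2 a)
      | smul c x _ h1 => intro a; rw [smul_smul]; exact h1 _
    simpa using hc 1
  rw [← CP.sum_sgl x]
  exact (Finset.sum_induction _ (fun y => y ∈ P.Sub E s N ∧ p y)
    (fun a b ha hb => ⟨add_mem ha.1 hb.1, add a b ha.1 hb.1 ha.2 hb.2⟩) ⟨zero_mem _, zero⟩
    fun g _ => ⟨P.sgl_mem_Sub E s (hx g), key g _ (hx g)⟩).2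

theorem Pk.N_mul (g g' : Gw A) : ∀ f ∈ P.N g, ∀ f' ∈ P.N g', f * P.α g f' ∈ P.N (g * g') := by
  intro f hf f' hf'
  have h := P.W_mul _ _ _ f hf _ (P.W_act g _ _ f' hf')
  rw [← mul_smul] at h
  exact h

theorem Pk.N0_mul (g g' : Gw A) :
    ∀ f ∈ P.N0 g, ∀ f' ∈ P.N0 g', f * P.α g f' ∈ P.N0 (g * g') := by
  intro f hf f' hf'
  unfold Pk.N0 at *
  by_cases h1 : g.n = 0
  swap
  · rw [if_neg h1, Submodule.mem_bot] at hf
    rw [hf, zero_mul]
    exact zero_mem _
  by_cases h2 : g'.n = 0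
  swap
  · rw [if_neg h2, Submodule.mem_bot] at hf'
    rw [hf', map_zero, mul_zero]
    exact zero_mem _
  rw [if_pos h1] at hf
  rw [if_pos h2] at hf'
  rw [if_pos (funext fun j => by simp [h1, h2])]
  exact P.N_mul g g' f hf f' hf'

theorem Pk.Np_mul (m m' : ℕ) (g g' : Gw A) :
    ∀ f ∈ P.Np m g, ∀ f' ∈ P.Np m' g', f * P.α g f' ∈ P.Np (m + m') (g * g') := by
  intro f hf f' hf'
  unfold Pk.Np at *
  by_cases h1 : 0 ≤ g.n ∧ (m : ℤ) ≤ ∑ j, g.n j
  swap
  · rw [if_neg h1, Submodule.mem_bot] at hf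
    rw [hf, zero_mul]
    exact zero_mem _
  by_cases h2 : 0 ≤ g'.n ∧ (m' : ℤ) ≤ ∑ j, g'.n j
  swap
  · rw [if_neg h2, Submodule.mem_bot] at hf'
    rw [hf', map_zero, mul_zero]
    exact zero_mem _
  rw [if_pos h1] at hf
  rw [if_pos h2] at hf'
  have e : ∑ j, (g * g').n j = ∑ j, g.n j + ∑ j, g'.n j := by
    simp only [Gw.mul_n, sum_add_distrib]
    rw [(Equiv.subRight g.h).sum_comp g'.n |>.symm]
    rfl
  rw [if_pos ⟨fun j => add_nonneg (h1.1 j) (h2.1 _), by
    rw [e]; push_cast; exact add_le_add h1.2 h2.2⟩]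
  exact P.N_mul g g' f hf f' hf'

theorem Pk.Nc_mul (m m' : ℕ) (g g' : Gw A) :
    ∀ f ∈ P.Nc m g, ∀ f' ∈ P.Nc m' g', f * P.α g f' ∈ P.Nc (m + m') (g * g') := by
  intro f hf f' hf'
  unfold Pk.Nc at *
  by_cases h1 : g.n = 0 ∧ g.k + g.h = 0
  swap
  · rw [if_neg h1, Submodule.mem_bot] at hf
    rw [hf, zero_mul]
    exact zero_mem _
  by_cases h2 : g'.n = 0 ∧ g'.k + g'.h = 0
  swap
  · rw [if_neg h2, Submodule.mem_bot] at hf'
    rw [hf', map_zero, mul_zero]
    exact zero_mem _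
  rw [if_pos h1] at hf
  rw [if_pos h2] at hf'
  rw [if_pos ⟨funext fun j => by simp [h1.1, h2.1], by
    rw [Gw.mul_k, Gw.mul_h, add_add_add_comm, h1.2, h2.2, add_zero]⟩]
  exact P.T.fil_mul m m' f hf _ (P.α_fil g h1.1 m' f' hf')

theorem Pk.one_mem_Sub {N : Gw A → Submodule F P.k} (h : (1 : P.k) ∈ N 1) :
    (1 : P.X E s) ∈ P.Sub E s N := by
  exact P.sgl_mem_Sub E s (tmul_mem_TE h 1)

theorem Pk.one_mem_N : (1 : P.k) ∈ P.N 1 := by
  have h := P.W_one (ixo A)
  unfold Pk.N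
  rw [one_smul]
  exact h

/-- a multiplicative family of subspaces gives a subalgebra -/
noncomputable def Pk.alg (N : Gw A → Submodule F P.k) (h1 : (1 : P.k) ∈ N 1)
    (h : ∀ g g', ∀ f ∈ N g, ∀ f' ∈ N g', f * P.α g f' ∈ N (g * g')) : Subalgebra F (P.X E s) :=
  (P.Sub E s N).toSubalgebra (P.one_mem_Sub E s h1) fun _ _ hx hy => P.Sub_mul E s h hx hy

/-- the weight subring -/
noncomputable def Pk.DD : Subalgebra F (P.X E s) := P.alg E s P.N P.one_mem_N P.N_mul

theorem Pk.mem_DD {x : P.X E s} : x ∈ P.DD E s ↔ x ∈ P.Sub E s P.N := Iff.rfl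

end Vale.Agent.P200.G
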